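import Vale.Agent.P137.HierA

open MeasureTheory Metric Set Filter Topology
open scoped ENNReal NNReal RealInnerProductSpace

noncomputable section

namespace Vale.Agent.P137

set_option linter.unusedSectionVars false

variable {E : Type*} [NormedAddCommGroup E] [InnerProductSpace ℝ E] [FiniteDimensional ℝ E]
  [MeasurableSpace E] [BorelSpace E]

variable {f : E → ℝ} {L ϱ : ℝ} {N : ℕ} {F : ℕ → E → ℝ} {v : ℕ → E → E}

namespace BudG

theorem ball_sub {K : Set E} {a b r : ℝ} (h : a + r ≤ b) {y : E} (hy : y ∈ thickening a K) :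
    ball y r ⊆ thickening b K := by
  intro z hz
  obtain ⟨k, hk, hyk⟩ := mem_thickening_iff.1 hy
  refine mem_thickening_iff.2 ⟨k, hk, ?_⟩
  have := dist_triangle z y k
  rw [mem_ball] at hz
  linarith

theorem geo (i : ℕ) : ∑ j ∈ Finset.range i, (2 / 3 : ℝ) ^ (i - j) ≤ 2 := by
  induction i with
  | zero => simp
  | succ i ih =>
    have : ∑ j ∈ Finset.range i, (2 / 3 : ℝ) ^ (i + 1 - j) =
        (∑ j ∈ Finset.range i, (2 / 3 : ℝ) ^ (i - j)) * (2 / 3) := by
      rw [Finset.sum_mul]
      refine Finset.sum_congr rfl fun j hj => ?_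
      rw [show i + 1 - j = i - j + 1 by have := Finset.mem_range.1 hj; omega, pow_succ]
    rw [Finset.sum_range_succ, this, show i + 1 - i = 1 by omega]
    linarith

theorem mono {q : E → ℝ} (hq : Continuous q) (h0 : ∀ y, 0 ≤ q y) {K : Set E}
    (hK : Bornology.IsBounded K) {a b : ℝ} (h : a ≤ b) :
    ∫ y in thickening a K, q y ≤ ∫ y in thickening b K, q y :=
  setIntegral_mono_set (HierA.intOn hq hK.thickening) (Eventually.of_forall h0)
    (thickening_mono h K).eventuallyLE

theorem rad_le (h : Hier f L ϱ N F v) (i : ℕ) : ϱ / 4096 ^ i ≤ ϱ :=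
  div_le_self h.pos.le (one_le_pow₀ (by norm_num))

end BudG

open BudG

/-- The losses telescope. -/
theorem Hier.sum_Df (h : Hier f L ϱ N F v) {K : Set E} (hK : Bornology.IsBounded K) (t : ℝ) :
    ∑ i ∈ Finset.range N, ∫ x in thickening t K, Df v ϱ i x ≤
      ∫ x in thickening (t + 2 * ϱ) K, ‖fderiv ℝ f x‖ := by
  have hϱ := h.pos
  have key : ∀ n, n ≤ N → ∑ i ∈ Finset.range n, ∫ x in thickening t K, Df v ϱ i x ≤
      ∫ x in thickening (t + 2 * ϱ - 2 * (ϱ / 4096 ^ n)) K, ‖v n x‖ := by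
    intro n
    induction n with
    | zero => intro _; simpa using integral_nonneg fun x => norm_nonneg _
    | succ n ih =>
      intro hn
      have hr : 0 < ϱ / 4096 ^ n := by positivity
      have hV := Vb_pos (E := E) hr
      have hs : ϱ / 4096 ^ (n + 1) = ϱ / 4096 ^ n / 4096 := by rw [pow_succ, div_div]
      have h1 := int_int_le (h.cont (n + 1)).norm (fun y => norm_nonneg _)
        (A := thickening (t + 2 * ϱ - 2 * (ϱ / 4096 ^ n)) K)
        (A' := thickening (t + 2 * ϱ - 2 * (ϱ / 4096 ^ (n + 1))) K)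
        isOpen_thickening.measurableSet isOpen_thickening.measurableSet hK.thickening hr
        fun y hy => ball_sub (by rw [hs]; linarith) hy
      have h2 : ∀ y, ∫ z in ball y (ϱ / 4096 ^ n), ‖v (n + 1) z‖ =
          Vb E (ϱ / 4096 ^ n) * (Df v ϱ n y + ‖v n y‖) := by
        intro y
        rw [Df, HierA.avg_eq, smul_eq_mul, sub_add_cancel, mul_inv_cancel_left₀ hV.ne']
      simp only [h2] at h1
      rw [integral_const_mul, integral_add (HierA.intOn (h.cont_Df n) hK.thickening)
        (HierA.intOn (h.cont n).norm hK.thickening)] at h1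
      have h3 := le_of_mul_le_mul_left h1 hV
      have h4 := mono (h.cont_Df n) (h.Df_nonneg (by omega : n < N)) hK
        (a := t) (b := t + 2 * ϱ - 2 * (ϱ / 4096 ^ n)) (by linarith [rad_le h n])
      rw [Finset.sum_range_succ]
      linarith [ih (by omega)]
  have h1 : ∀ x, ‖fderiv ℝ f x‖ = ‖v N x‖ := by
    intro x
    rw [← h.top N le_rfl, (h.gr N x).fderiv, innerSL_apply_norm]
  simp only [h1]
  refine (key N le_rfl).trans (mono (h.cont N).norm (fun y => norm_nonneg _) hK ?_)
  have : 0 < ϱ / 4096 ^ N := by positivity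
  linarith

/-- The local budgets are summable. -/
theorem Hier.sum_Tb (h : Hier f L ϱ N F v) {K : Set E} (hK : Bornology.IsBounded K) (t : ℝ)
    {J : ℕ} (hJ : J ≤ N) :
    ∑ j ∈ Finset.range J, (∫ p in thickening t K, Tb v L ϱ N j p) / Vb E (ϱ / 4096 ^ j) ≤
      3 * (∫ x in thickening (t + 3 * ϱ) K, ‖fderiv ℝ f x‖) +
        3 * L * (2 / 3) ^ (N - J) * (volume : Measure E).real (thickening t K) := by
  have hϱ := h.pos
  have hL : 0 ≤ L := (norm_nonneg _).trans (h.bdd 0 0)
  set D : ℕ → ℝ := fun i => ∫ x in thickening (t + ϱ) K, Df v ϱ i x with hD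
  set W := (volume : Measure E).real (thickening t K) with hW
  have hW0 : 0 ≤ W := measureReal_nonneg
  have hD0 : ∀ i, i < N → 0 ≤ D i := fun i hi => integral_nonneg (h.Df_nonneg hi)
  have hb : Bornology.IsBounded (thickening t K) := hK.thickening
  have h1 : ∀ j ∈ Finset.range J, (∫ p in thickening t K, Tb v L ϱ N j p) / Vb E (ϱ / 4096 ^ j) ≤
      D j + ∑ i ∈ Finset.Ioo j N, (2 / 3 : ℝ) ^ (i - j) * D i + (2 / 3 : ℝ) ^ (N - j) * (L * W) := by
    intro j hj
    have hjN : j < N := (Finset.mem_range.1 hj).trans_le hJ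
    have hr : 0 < ϱ / 4096 ^ j := by positivity
    have hV := Vb_pos (E := E) hr
    have i1 : IntegrableOn (fun p => Vb E (ϱ / 4096 ^ j) * Df v ϱ j p) (thickening t K) :=
      HierA.intOn (continuous_const.mul (h.cont_Df j)) hb
    have i2 : ∀ i ∈ Finset.Ioo j N, IntegrableOn (fun p => (2 / 3 : ℝ) ^ (i - j) *
        ∫ y in ball p (ϱ / 4096 ^ j), Df v ϱ i y) (thickening t K) := fun i _ =>
      HierA.intOn (continuous_const.mul (continuous_int_ball (h.cont_Df i) _)) hb
    have i3 : IntegrableOn (fun p => ∑ i ∈ Finset.Ioo j N, (2 / 3 : ℝ) ^ (i - j) *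
        ∫ y in ball p (ϱ / 4096 ^ j), Df v ϱ i y) (thickening t K) := integrable_finset_sum _ i2
    have i4 : IntegrableOn (fun p => Vb E (ϱ / 4096 ^ j) * Df v ϱ j p +
        ∑ i ∈ Finset.Ioo j N, (2 / 3 : ℝ) ^ (i - j) *
        ∫ y in ball p (ϱ / 4096 ^ j), Df v ϱ i y) (thickening t K) := i1.add i3
    unfold Tb
    rw [integral_add i4 (HierA.intOn continuous_const hb), integral_add i1 i3,
      integral_finset_sum _ i2, integral_const_mul, setIntegral_const, div_le_iff₀ hV, add_mul,
      add_mul, Finset.sum_mul, smul_eq_mul, ← hW]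
    refine add_le_add (add_le_add ?_ (Finset.sum_le_sum fun i hi => ?_)) (le_of_eq (by ring))
    · rw [mul_comm]
      exact mul_le_mul_of_nonneg_right (mono (h.cont_Df j) (h.Df_nonneg hjN) hK (by linarith))
        hV.le
    · rw [integral_const_mul, mul_assoc, mul_comm (D i)]
      exact mul_le_mul_of_nonneg_left (int_int_le (h.cont_Df i)
        (h.Df_nonneg (Finset.mem_Ioo.1 hi).2) isOpen_thickening.measurableSet
        isOpen_thickening.measurableSet hK.thickening hr
        fun y hy => ball_sub (by linarith [rad_le h j]) hy) (by positivity)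
  refine (Finset.sum_le_sum h1).trans ?_
  have h2 := h.sum_Df hK (t + ϱ)
  rw [show t + ϱ + 2 * ϱ = t + 3 * ϱ by ring] at h2
  have h3 : ∑ j ∈ Finset.range J, D j ≤ ∑ j ∈ Finset.range N, D j :=
    Finset.sum_le_sum_of_subset_of_nonneg (Finset.range_subset_range.2 hJ)
      fun i hi _ => hD0 i (Finset.mem_range.1 hi)
  have h4 : ∑ j ∈ Finset.range J, ∑ i ∈ Finset.Ioo j N, (2 / 3 : ℝ) ^ (i - j) * D i ≤
      2 * ∑ j ∈ Finset.range N, D j := by
    calc _ ≤ ∑ j ∈ Finset.range N, ∑ i ∈ Finset.Ioo j N, (2 / 3 : ℝ) ^ (i - j) * D i :=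
          Finset.sum_le_sum_of_subset_of_nonneg (Finset.range_subset_range.2 hJ) fun j _ _ =>
            Finset.sum_nonneg fun i hi => mul_nonneg (by positivity)
              (hD0 i (Finset.mem_Ioo.1 hi).2)
      _ = ∑ i ∈ Finset.range N, ∑ j ∈ Finset.range i, (2 / 3 : ℝ) ^ (i - j) * D i :=
          Finset.sum_comm' fun j i => by
            simp only [Finset.mem_range, Finset.mem_Ioo]; omega
      _ ≤ _ := by
          rw [Finset.mul_sum]
          refine Finset.sum_le_sum fun i hi => ?_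
          rw [← Finset.sum_mul]
          exact mul_le_mul_of_nonneg_right (geo i) (hD0 i (Finset.mem_range.1 hi))
  have h5 : ∑ j ∈ Finset.range J, (2 / 3 : ℝ) ^ (N - j) * (L * W) ≤
      2 * ((2 / 3 : ℝ) ^ (N - J) * (L * W)) := by
    have : ∑ j ∈ Finset.range J, (2 / 3 : ℝ) ^ (N - j) * (L * W) =
        (∑ j ∈ Finset.range J, (2 / 3 : ℝ) ^ (J - j)) * ((2 / 3 : ℝ) ^ (N - J) * (L * W)) := by
      rw [Finset.sum_mul]
      refine Finset.sum_congr rfl fun j hj => ?_
      rw [show N - j = J - j + (N - J) by have := Finset.mem_range.1 hj; omega, pow_add]; ring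
    rw [this]
    exact mul_le_mul_of_nonneg_right (geo J) (by positivity)
  have h6 : 0 ≤ (2 / 3 : ℝ) ^ (N - J) * (L * W) := by positivity
  rw [Finset.sum_add_distrib, Finset.sum_add_distrib]
  linarith

end Vale.Agent.P137
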