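import Vale.Agent.P137.PC

open MeasureTheory Metric Set Filter Topology
open scoped ENNReal NNReal RealInnerProductSpace

noncomputable section

namespace Vale.Agent.P137

variable {E : Type*} [NormedAddCommGroup E] [InnerProductSpace ℝ E] [FiniteDimensional ℝ E]
  [MeasurableSpace E] [BorelSpace E]

/-- Localized translation modulus. -/
def Vf (f : E → ℝ) (K : Set E) (a : ℝ) (h : E) : ℝ≥0∞ :=
  ∫⁻ y in thickening a K, ‖f (y + h) - f y‖ₑ

theorem measurable_Vf {f : E → ℝ} (hf : Continuous f) (K : Set E) (a : ℝ) :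
    Measurable (Vf f K a) := by
  have : Measurable fun p : E × E => ‖f (p.2 + p.1) - f p.2‖ₑ :=
    (by fun_prop : Continuous fun p : E × E => ‖f (p.2 + p.1) - f p.2‖ₑ).measurable
  exact this.lintegral_prod_right'

theorem shift_eq {F : E → ℝ≥0∞} (hF : Measurable F) {S : Set E} (hS : MeasurableSet S) (h : E) :
    ∫⁻ y in S, F y = ∫⁻ y in {y | y + h ∈ S}, F (y + h) := by
  conv_lhs => rw [← map_add_right_eq_self volume h]
  rw [setLIntegral_map hS hF (measurable_add_const h)]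
  rfl

omit [InnerProductSpace ℝ E] [FiniteDimensional ℝ E] [MeasurableSpace E] [BorelSpace E] in
theorem mem_thick_of_dist {K : Set E} {a b : ℝ} {x y : E} (hx : x ∈ thickening a K)
    (hxy : dist y x ≤ b - a) : y ∈ thickening b K := by
  rw [mem_thickening_iff] at hx ⊢
  obtain ⟨z, hz, hd⟩ := hx
  exact ⟨z, hz, by linarith [dist_triangle y x z]⟩

theorem nm_enorm (a b c : ℝ) :
    2 * ENNReal.ofReal (nm a b c) + ‖c - a‖ₑ = ‖b - a‖ₑ + ‖c - b‖ₑ := by
  have h0 : 0 ≤ nm a b c := by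
    unfold nm
    have := abs_sub_le a b c
    linarith
  rw [← ofReal_norm_eq_enorm, ← ofReal_norm_eq_enorm, ← ofReal_norm_eq_enorm,
    ← ENNReal.ofReal_ofNat, ← ENNReal.ofReal_mul (by norm_num),
    ← ENNReal.ofReal_add (by positivity) (norm_nonneg _),
    ← ENNReal.ofReal_add (norm_nonneg _) (norm_nonneg _)]
  congr 1
  simp only [Real.norm_eq_abs, nm]
  rw [abs_sub_comm c a, abs_sub_comm b a, abs_sub_comm c b]
  ring

theorem measurable_nmf {f : E → ℝ} (hf : Continuous f) :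
    Measurable fun p : E × E => nmf f p.1 p.2 := by
  refine ENNReal.measurable_ofReal.comp (Continuous.measurable ?_)
  unfold nm
  fun_prop

theorem budget_step {f : E → ℝ} (hf : Continuous f) (K : Set E) {R ρ : ℝ} {h : E}
    (hh : ‖h‖ ≤ 7 * ρ) :
    2 * (∫⁻ y in thickening (R - 21 * ρ) K, nmf f y h) + Vf f K (R - 28 * ρ) ((2 : ℝ) • h) ≤
      2 * Vf f K (R - 14 * ρ) h := by
  have hS : MeasurableSet (thickening (R - 21 * ρ) K) := isOpen_thickening.measurableSet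
  have m1 : Measurable fun y => ‖f (y + h) - f (y - h)‖ₑ :=
    (by fun_prop : Continuous fun y => ‖f (y + h) - f (y - h)‖ₑ).measurable
  have m2 : Measurable fun y => ‖f y - f (y - h)‖ₑ :=
    (by fun_prop : Continuous fun y => ‖f y - f (y - h)‖ₑ).measurable
  have m3 : Measurable fun y => nmf f y h := by
    refine ENNReal.measurable_ofReal.comp (Continuous.measurable ?_)
    unfold nm
    fun_prop
  have a1 : Vf f K (R - 28 * ρ) ((2 : ℝ) • h) ≤
      ∫⁻ y in thickening (R - 21 * ρ) K, ‖f (y + h) - f (y - h)‖ₑ := by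
    rw [shift_eq m1 hS h, Vf]
    simp only [add_sub_cancel_right, two_smul, add_assoc]
    refine lintegral_mono_set fun y hy => mem_thick_of_dist hy ?_
    rw [dist_eq_norm, add_sub_cancel_left]
    linarith
  have a2 : ∫⁻ y in thickening (R - 21 * ρ) K, ‖f y - f (y - h)‖ₑ ≤ Vf f K (R - 14 * ρ) h := by
    rw [shift_eq m2 hS h, Vf]
    simp only [add_sub_cancel_right]
    refine lintegral_mono_set fun y hy => mem_thick_of_dist hy ?_
    rw [dist_comm, dist_eq_norm, add_sub_cancel_left]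
    linarith
  have a3 : ∫⁻ y in thickening (R - 21 * ρ) K, ‖f (y + h) - f y‖ₑ ≤ Vf f K (R - 14 * ρ) h :=
    lintegral_mono_set (thickening_mono (by linarith [norm_nonneg h]) K)
  calc 2 * (∫⁻ y in thickening (R - 21 * ρ) K, nmf f y h) + Vf f K (R - 28 * ρ) ((2 : ℝ) • h)
      ≤ 2 * (∫⁻ y in thickening (R - 21 * ρ) K, nmf f y h) +
          ∫⁻ y in thickening (R - 21 * ρ) K, ‖f (y + h) - f (y - h)‖ₑ := by gcongr
    _ = ∫⁻ y in thickening (R - 21 * ρ) K, (2 * nmf f y h + ‖f (y + h) - f (y - h)‖ₑ) := by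
        rw [lintegral_add_right _ m1, lintegral_const_mul _ m3]
    _ = ∫⁻ y in thickening (R - 21 * ρ) K, (‖f y - f (y - h)‖ₑ + ‖f (y + h) - f y‖ₑ) :=
        lintegral_congr fun y => nm_enorm _ _ _
    _ = (∫⁻ y in thickening (R - 21 * ρ) K, ‖f y - f (y - h)‖ₑ) +
          ∫⁻ y in thickening (R - 21 * ρ) K, ‖f (y + h) - f y‖ₑ := lintegral_add_left m2 _
    _ ≤ _ := by rw [two_mul]; gcongr

theorem scale_two {F : E → ℝ≥0∞} (hF : Measurable F) (s : ℝ) :
    ∫⁻ h in ball (0 : E) s, F ((2 : ℝ) • h) =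
      ENNReal.ofReal ((2 : ℝ) ^ Module.finrank ℝ E)⁻¹ * ∫⁻ h in ball (0 : E) (2 * s), F h := by
  have h1 := setLIntegral_map (μ := volume) (measurableSet_ball (x := (0 : E)) (ε := 2 * s)) hF
    (measurable_const_smul (2 : ℝ))
  rw [Measure.map_addHaar_smul volume (two_ne_zero), Measure.restrict_smul, lintegral_smul_measure,
    abs_of_pos (by positivity), smul_eq_mul] at h1
  rw [h1]
  congr 2
  ext h
  simp only [mem_ball_zero_iff, mem_preimage, norm_smul, Real.norm_ofNat]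
  constructor <;> intro h <;> linarith

/-- The telescoping quantity. -/
def aq (f : E → ℝ) (K : Set E) (R ρ : ℝ) : ℝ≥0∞ :=
  ENNReal.ofReal (1 / ρ ^ (Module.finrank ℝ E + 1)) *
    ∫⁻ h in ball (0 : E) (7 * ρ), Vf f K (R - 14 * ρ) h

theorem budget_tele {f : E → ℝ} (hf : Continuous f) (K : Set E) {R ρ : ℝ} (hρ : 0 < ρ) :
    ENNReal.ofReal (1 / ρ ^ (Module.finrank ℝ E + 1)) *
        (∫⁻ y in thickening (R - 21 * ρ) K, ∫⁻ h in ball (0 : E) (7 * ρ), nmf f y h) +
      aq f K R (2 * ρ) ≤ aq f K R ρ := by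
  have hsw : ∫⁻ y in thickening (R - 21 * ρ) K, ∫⁻ h in ball (0 : E) (7 * ρ), nmf f y h =
      ∫⁻ h in ball (0 : E) (7 * ρ), ∫⁻ y in thickening (R - 21 * ρ) K, nmf f y h :=
    lintegral_lintegral_swap (measurable_nmf hf).aemeasurable
  have m1 : Measurable fun h : E => Vf f K (R - 28 * ρ) ((2 : ℝ) • h) :=
    (measurable_Vf hf K _).comp (measurable_const_smul (2 : ℝ))
  have key : 2 * (∫⁻ h in ball (0 : E) (7 * ρ), ∫⁻ y in thickening (R - 21 * ρ) K, nmf f y h) +
      ∫⁻ h in ball (0 : E) (7 * ρ), Vf f K (R - 28 * ρ) ((2 : ℝ) • h) ≤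
      2 * ∫⁻ h in ball (0 : E) (7 * ρ), Vf f K (R - 14 * ρ) h := by
    rw [← lintegral_const_mul' _ _ (by simp), ← lintegral_const_mul' _ _ (by simp),
      ← lintegral_add_right _ m1]
    exact setLIntegral_mono' measurableSet_ball fun h hh =>
      budget_step hf K (mem_ball_zero_iff.1 hh).le
  rw [scale_two (measurable_Vf hf K _)] at key
  have e1 : aq f K R (2 * ρ) * 2 = ENNReal.ofReal (1 / ρ ^ (Module.finrank ℝ E + 1)) *
      (ENNReal.ofReal ((2 : ℝ) ^ Module.finrank ℝ E)⁻¹ *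
        ∫⁻ h in ball (0 : E) (2 * (7 * ρ)), Vf f K (R - 28 * ρ) h) := by
    have e2 : ENNReal.ofReal (1 / (2 * ρ) ^ (Module.finrank ℝ E + 1)) * 2 =
        ENNReal.ofReal (1 / ρ ^ (Module.finrank ℝ E + 1)) *
          ENNReal.ofReal ((2 : ℝ) ^ Module.finrank ℝ E)⁻¹ := by
      rw [← ENNReal.ofReal_mul (by positivity), ← ENNReal.ofReal_ofNat,
        ← ENNReal.ofReal_mul (by positivity)]
      congr 1
      rw [mul_pow, pow_succ (2 : ℝ)]
      field_simp
    rw [aq, show 7 * (2 * ρ) = 2 * (7 * ρ) by ring, show R - 14 * (2 * ρ) = R - 28 * ρ by ring,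
      mul_right_comm, e2, mul_assoc]
  rw [hsw, ← ENNReal.mul_le_mul_iff_left (c := 2) (by simp) (by simp), add_mul, e1, aq]
  calc _ = ENNReal.ofReal (1 / ρ ^ (Module.finrank ℝ E + 1)) *
        (2 * (∫⁻ h in ball (0 : E) (7 * ρ), ∫⁻ y in thickening (R - 21 * ρ) K, nmf f y h) +
        ENNReal.ofReal ((2 : ℝ) ^ Module.finrank ℝ E)⁻¹ *
        ∫⁻ h in ball (0 : E) (2 * (7 * ρ)), Vf f K (R - 28 * ρ) h) := by ring
    _ ≤ ENNReal.ofReal (1 / ρ ^ (Module.finrank ℝ E + 1)) *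
        (2 * ∫⁻ h in ball (0 : E) (7 * ρ), Vf f K (R - 14 * ρ) h) := by gcongr
    _ = _ := by ring

theorem aq_le {f : E → ℝ} (hf : ContDiff ℝ 1 f) (K : Set E) {R ρ : ℝ} (hρ : 0 < ρ) :
    aq f K R ρ ≤ ENNReal.ofReal (7 ^ (Module.finrank ℝ E + 1)) * volume (ball (0 : E) 1) *
      ∫⁻ y in thickening R K, ‖fderiv ℝ f y‖ₑ := by
  have h1 : ∫⁻ h in ball (0 : E) (7 * ρ), Vf f K (R - 14 * ρ) h ≤
      ∫⁻ _ in ball (0 : E) (7 * ρ), ENNReal.ofReal (7 * ρ) *
        ∫⁻ y in thickening R K, ‖fderiv ℝ f y‖ₑ := by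
    refine setLIntegral_mono' measurableSet_ball fun h hh => ?_
    rw [mem_ball_zero_iff] at hh
    refine (trans_le hf isOpen_thickening.measurableSet
      (isOpen_thickening (δ := R) (E := K)).measurableSet h ?_).trans ?_
    · intro y hy σ hσ
      refine mem_thick_of_dist hy ?_
      rw [dist_eq_norm, add_sub_cancel_left, norm_smul, Real.norm_eq_abs, abs_of_nonneg hσ.1]
      nlinarith [hσ.1, hσ.2, norm_nonneg h]
    · gcongr
      rw [← ofReal_norm_eq_enorm]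
      exact ENNReal.ofReal_le_ofReal hh.le
  rw [setLIntegral_const, Measure.addHaar_ball_of_pos volume 0 (by positivity)] at h1
  calc aq f K R ρ ≤ ENNReal.ofReal (1 / ρ ^ (Module.finrank ℝ E + 1)) *
        ((ENNReal.ofReal (7 * ρ) * ∫⁻ y in thickening R K, ‖fderiv ℝ f y‖ₑ) *
          (ENNReal.ofReal ((7 * ρ) ^ Module.finrank ℝ E) * volume (ball (0 : E) 1))) := by
        rw [aq]; gcongr
    _ = (ENNReal.ofReal (1 / ρ ^ (Module.finrank ℝ E + 1)) * ENNReal.ofReal (7 * ρ) *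
          ENNReal.ofReal ((7 * ρ) ^ Module.finrank ℝ E)) * volume (ball (0 : E) 1) *
          ∫⁻ y in thickening R K, ‖fderiv ℝ f y‖ₑ := by ring
    _ = _ := by
        rw [← ENNReal.ofReal_mul (by positivity), ← ENNReal.ofReal_mul (by positivity)]
        congr 3
        rw [mul_pow, pow_succ, pow_succ]
        field_simp

theorem budget_le : ∃ C : ℝ≥0, ∀ (f : E → ℝ), ContDiff ℝ 1 f → ∀ (K : Set E) (δ : ℝ), 0 < δ →
    ∑' n : ℕ, ENNReal.ofReal (1 / (δ / 2 ^ n) ^ (Module.finrank ℝ E + 1)) *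
        ∫⁻ y in thickening (10 * δ) K, ∫⁻ h in ball (0 : E) (7 * (δ / 2 ^ n)), nmf f y h ≤
      C * ∫⁻ y in thickening (40 * δ) K, ‖fderiv ℝ f y‖ₑ := by
  refine ⟨(ENNReal.ofReal (7 ^ (Module.finrank ℝ E + 1)) * volume (ball (0 : E) 1)).toNNReal,
    fun f hf K δ hδ => ?_⟩
  rw [ENNReal.coe_toNNReal (ENNReal.mul_ne_top ENNReal.ofReal_ne_top measure_ball_lt_top.ne)]
  have hstep : ∀ n : ℕ, ENNReal.ofReal (1 / (δ / 2 ^ n) ^ (Module.finrank ℝ E + 1)) *
        (∫⁻ y in thickening (10 * δ) K, ∫⁻ h in ball (0 : E) (7 * (δ / 2 ^ n)), nmf f y h) +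
      aq f K (40 * δ) (2 * (δ / 2 ^ n)) ≤ aq f K (40 * δ) (δ / 2 ^ n) := by
    intro n
    refine le_trans ?_ (budget_tele hf.continuous K (by positivity))
    have : δ / 2 ^ n ≤ δ := div_le_self hδ.le (one_le_pow₀ (by norm_num))
    have hsub : thickening (10 * δ) K ⊆ thickening (40 * δ - 21 * (δ / 2 ^ n)) K :=
      thickening_mono (by linarith) K
    have := lintegral_mono_set (μ := volume)
      (f := fun y => ∫⁻ h in ball (0 : E) (7 * (δ / 2 ^ n)), nmf f y h) hsub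
    gcongr
  refine ENNReal.tsum_le_of_sum_range_le fun N => ?_
  have hsum : ∀ N : ℕ, ∑ n ∈ Finset.range N,
      ENNReal.ofReal (1 / (δ / 2 ^ n) ^ (Module.finrank ℝ E + 1)) *
        (∫⁻ y in thickening (10 * δ) K, ∫⁻ h in ball (0 : E) (7 * (δ / 2 ^ n)), nmf f y h) ≤
      aq f K (40 * δ) (2 * (δ / 2 ^ N)) := by
    intro N
    induction N with
    | zero => simp
    | succ N ih =>
      rw [Finset.sum_range_succ, show 2 * (δ / 2 ^ (N + 1)) = δ / 2 ^ N by rw [pow_succ]; field_simp]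
      refine le_trans ?_ (hstep N)
      rw [add_comm]
      gcongr
  exact (hsum N).trans (aq_le hf K (by positivity))

end Vale.Agent.P137
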