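import Vale.Agent.P137.Defs

open MeasureTheory Metric Set Filter Topology
open scoped ENNReal NNReal RealInnerProductSpace

noncomputable section

namespace Vale.Agent.P137

variable {E : Type*} [NormedAddCommGroup E] [InnerProductSpace ℝ E] [FiniteDimensional ℝ E]
  [MeasurableSpace E] [BorelSpace E]

theorem measurable_uMax (f : E → ℝ) : Measurable (uMax f) := by
  refine LowerSemicontinuous.measurable (lowerSemicontinuous_iff_isOpen_preimage.2 fun t => ?_)
  rw [isOpen_iff_mem_nhds]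
  intro x hx
  simp only [mem_preimage, mem_Ioi, uMax, lt_iSup_iff] at hx
  obtain ⟨z, r, hxr, hlt⟩ := hx
  filter_upwards [isOpen_ball.mem_nhds hxr] with y hy
  simp only [mem_preimage, mem_Ioi, uMax, lt_iSup_iff]
  exact ⟨z, r, hy, hlt⟩

/-- local oscillation at the dyadic scale `j` -/
def locT (f : E → ℝ) (j : ℕ) (x : E) : ℝ≥0∞ :=
  (∫⁻ h in ball (0 : E) (4 * ((1 / 2) ^ j / 2)), ‖f (x + h) - f x‖ₑ) /
    volume (ball (0 : E) ((1 / 2) ^ j / 2))

theorem uMax_le_loc (f : E → ℝ) (x : E) :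
    uMax f x ≤ (∫⁻ y, ‖f y‖ₑ) / volume (ball (0 : E) 1) + (‖f x‖ₑ + ∑' j, locT f j x) := by
  refine iSup_le fun z => iSup_le fun r => iSup_le fun hx => ?_
  have hr : 0 < r := pos_of_mem_ball hx
  have hv : volume (ball z r) = volume (ball (0 : E) r) := Measure.addHaar_ball_center _ z r
  rcases le_total 1 r with h1 | h1
  · refine le_trans ?_ le_self_add
    refine ENNReal.div_le_div (setLIntegral_le_lintegral _ _) ?_
    rw [hv]; exact measure_mono (ball_subset_ball h1)
  · refine le_trans ?_ le_add_self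
    obtain ⟨j, hj1, hj2⟩ := exists_nat_pow_near_of_lt_one hr h1 (by norm_num : (0 : ℝ) < 1 / 2)
      (by norm_num)
    have hsub : ball z r ⊆ ball x (4 * ((1 / 2) ^ j / 2)) := by
      intro y hy
      have h2 := mem_ball.1 hy
      have h3 := mem_ball.1 hx
      have h4 := dist_triangle_right y x z
      rw [mem_ball]; linarith
    have h5 : ∫⁻ y in ball z r, ‖f y‖ₑ ≤ ‖f x‖ₑ * volume (ball z r) +
        ∫⁻ h in ball (0 : E) (4 * ((1 / 2) ^ j / 2)), ‖f (x + h) - f x‖ₑ := by
      calc ∫⁻ y in ball z r, ‖f y‖ₑ ≤ ∫⁻ y in ball z r, (‖f x‖ₑ + ‖f y - f x‖ₑ) := by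
            refine lintegral_mono fun y => ?_
            have := enorm_add_le (f x) (f y - f x)
            rwa [add_sub_cancel] at this
        _ = ‖f x‖ₑ * volume (ball z r) + ∫⁻ y in ball z r, ‖f y - f x‖ₑ := by
            rw [lintegral_add_left measurable_const, setLIntegral_const]
        _ ≤ _ := by
            refine add_le_add le_rfl ((lintegral_mono_set hsub).trans (le_of_eq ?_))
            rw [← lintegral_indicator measurableSet_ball, ← lintegral_indicator measurableSet_ball,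
              ← lintegral_add_left_eq_self _ x]
            refine lintegral_congr fun h => ?_
            by_cases hh : h ∈ ball (0 : E) (4 * ((1 / 2) ^ j / 2))
            · rw [indicator_of_mem hh, indicator_of_mem (by simpa using hh)]
            · rw [indicator_of_notMem hh, indicator_of_notMem (by simpa using hh)]
    have h0 : volume (ball z r) ≠ 0 := (measure_ball_pos _ z hr).ne'
    have ht : volume (ball z r) ≠ ⊤ := measure_ball_lt_top.ne
    refine (ENNReal.div_le_div_right h5 _).trans ?_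
    rw [ENNReal.add_div, ENNReal.mul_div_cancel_right h0 ht]
    refine add_le_add le_rfl (le_trans ?_ (ENNReal.le_tsum j))
    refine ENNReal.div_le_div_left ?_ _
    rw [hv]
    refine measure_mono (ball_subset_ball ?_)
    rw [pow_succ] at hj1
    linarith

theorem aemeasurable_diff {f : E → ℝ} (hf : Integrable f) (s : Set E) :
    AEMeasurable (fun p : E × E => ‖f (p.1 + p.2) - f p.1‖ₑ)
      ((volume : Measure E).prod (volume.restrict s)) := by
  have h1 : AEMeasurable (fun p : E × E => f (p.1 + p.2)) ((volume : Measure E).prod volume) :=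
    hf.1.aemeasurable.comp_quasiMeasurePreserving (quasiMeasurePreserving_add volume volume)
  have h2 : AEMeasurable (fun p : E × E => f p.1) ((volume : Measure E).prod volume) :=
    hf.1.aemeasurable.comp_quasiMeasurePreserving Measure.quasiMeasurePreserving_fst
  exact ((h1.sub h2).enorm).mono_ac
    (Measure.AbsolutelyContinuous.rfl.prod Measure.restrict_le_self.absolutelyContinuous)

theorem aemeasurable_locT {f : E → ℝ} (hf : Integrable f) (j : ℕ) : AEMeasurable (locT f j) :=
  (aemeasurable_diff hf _).lintegral_prod_right'.div_const _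

theorem lintegral_locT {f : E → ℝ} (hf : Integrable f) {A : ℝ≥0∞}
    (ht : ∀ h : E, ∫⁻ y, ‖f (y + h) - f y‖ₑ ≤ ‖h‖ₑ * A) (j : ℕ) :
    ∫⁻ x, locT f j x ≤
      2 * A * ENNReal.ofReal (4 ^ Module.finrank ℝ E) * (2⁻¹ : ℝ≥0∞) ^ j := by
  have hρ : (0 : ℝ) < (1 / 2) ^ j / 2 := by positivity
  have h0 : volume (ball (0 : E) ((1 / 2) ^ j / 2)) ≠ 0 := (measure_ball_pos _ _ hρ).ne'
  have h1 : volume (ball (0 : E) ((1 / 2) ^ j / 2)) ≠ ⊤ := measure_ball_lt_top.ne
  simp only [locT, div_eq_mul_inv (G := ℝ≥0∞)]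
  rw [lintegral_mul_const' _ _ (ENNReal.inv_ne_top.2 h0),
    lintegral_lintegral_swap (aemeasurable_diff hf _), ← div_eq_mul_inv,
    ENNReal.div_le_iff h0 h1]
  have h2 : ENNReal.ofReal (4 * ((1 / 2) ^ j / 2)) = 2 * (2⁻¹ : ℝ≥0∞) ^ j := by
    rw [show (4 : ℝ) * ((1 / 2) ^ j / 2) = 2 * (2⁻¹) ^ j by rw [one_div]; ring,
      ENNReal.ofReal_mul (by norm_num), ENNReal.ofReal_pow (by norm_num),
      ENNReal.ofReal_inv_of_pos (by norm_num)]
    simp
  calc ∫⁻ h in ball (0 : E) (4 * ((1 / 2) ^ j / 2)), ∫⁻ x, ‖f (x + h) - f x‖ₑ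
      ≤ ∫⁻ _ in ball (0 : E) (4 * ((1 / 2) ^ j / 2)), 2 * (2⁻¹ : ℝ≥0∞) ^ j * A := by
        refine setLIntegral_mono' measurableSet_ball fun h hh => (ht h).trans ?_
        refine mul_le_mul_left ?_ A
        rw [← h2, ← ofReal_norm_eq_enorm]
        exact ENNReal.ofReal_le_ofReal (mem_ball_zero_iff.1 hh).le
    _ = _ := by
        rw [setLIntegral_const, Measure.addHaar_ball_mul_of_pos _ _ (by norm_num : (0 : ℝ) < 4)]
        ring

/-- Local integrability of the maximal function from a translation estimate. -/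
theorem uMax_loc {f : E → ℝ} (hf : Integrable f) {A : ℝ≥0∞} (hA : A ≠ ⊤)
    (ht : ∀ h : E, ∫⁻ y, ‖f (y + h) - f y‖ₑ ≤ ‖h‖ₑ * A) (R : ℝ) :
    ∫⁻ x in ball (0 : E) R, uMax f x < ⊤ := by
  have hI : ∫⁻ y, ‖f y‖ₑ < ⊤ := hf.2
  refine (lintegral_mono (uMax_le_loc f)).trans_lt ?_
  rw [lintegral_add_left measurable_const, setLIntegral_const]
  refine ENNReal.add_lt_top.2 ⟨ENNReal.mul_lt_top
    (ENNReal.div_lt_top hI.ne (measure_ball_pos _ _ one_pos).ne') measure_ball_lt_top, ?_⟩
  refine (setLIntegral_le_lintegral _ _).trans_lt ?_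
  rw [lintegral_add_left' hf.1.enorm, lintegral_tsum (aemeasurable_locT hf)]
  refine ENNReal.add_lt_top.2 ⟨hI, (ENNReal.tsum_le_tsum (lintegral_locT hf ht)).trans_lt ?_⟩
  rw [ENNReal.tsum_mul_left, ENNReal.tsum_geometric_two]
  exact ENNReal.mul_lt_top (ENNReal.mul_lt_top (ENNReal.mul_lt_top (by simp) hA.lt_top)
    ENNReal.ofReal_lt_top) (by simp)

end Vale.Agent.P137
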