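import Vale.Agent.P137.PC

open MeasureTheory Metric Set Filter Topology
open scoped ENNReal NNReal RealInnerProductSpace Pointwise

noncomputable section

namespace Vale.Agent.P137

variable {E : Type*} [NormedAddCommGroup E] [InnerProductSpace ℝ E] [FiniteDimensional ℝ E]
  [MeasurableSpace E] [BorelSpace E]

namespace OptAux

theorem vpos (z : E) {r : ℝ} (hr : 0 < r) : 0 < volume.real (ball z r) :=
  ENNReal.toReal_pos (measure_ball_pos _ _ hr).ne' measure_ball_lt_top.ne

theorem av_eq (f : E → ℝ) (z : E) (r : ℝ) :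
    av f z r = (∫ y in ball z r, f y) / volume.real (ball z r) := by
  rw [av, setAverage_eq, smul_eq_mul, div_eq_inv_mul]

theorem int_shift (f : E → ℝ) (z v : E) (r : ℝ) :
    ∫ y in ball (z + v) r, f y = ∫ y in ball z r, f (y + v) := by
  rw [← (measurePreserving_add_right volume v).setIntegral_preimage_emb
    (measurableEmbedding_addRight v)]
  congr 2
  ext y; simp [mem_ball, dist_add_right]

theorem vol_shift (z : E) (r : ℝ) : volume.real (ball z r) = volume.real (ball (0 : E) r) := by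
  simp only [Measure.real, Measure.addHaar_ball_center]

/-- average in rescaled form -/
def A (f : E → ℝ) (q : E × ℝ) : ℝ :=
  (∫ w in ball (0 : E) 1, f (q.1 + q.2 • w)) / volume.real (ball (0 : E) 1)

theorem av_eq_A (f : E → ℝ) (z : E) {r : ℝ} (hr : 0 < r) : av f z r = A f (z, r) := by
  have h1 := Measure.setIntegral_comp_smul_of_pos volume (fun y => f (z + y)) (ball (0 : E) 1) hr
  have h2 : r • ball (0 : E) 1 = ball 0 r := by
    rw [_root_.smul_ball hr.ne', smul_zero, Real.norm_of_nonneg hr.le, mul_one]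
  have h3 := int_shift f 0 z r
  have h4 : volume.real (ball z r) = r ^ Module.finrank ℝ E * volume.real (ball (0 : E) 1) := by
    rw [Measure.real, Measure.addHaar_ball_of_pos _ _ hr, ENNReal.toReal_mul,
      ENNReal.toReal_ofReal (by positivity)]; rfl
  rw [zero_add] at h3
  rw [av_eq, A, h1, h2, h3, h4, smul_eq_mul]
  simp only [add_comm z]
  have := vpos (0 : E) one_pos
  field_simp

theorem A_zero (f : E → ℝ) (z : E) : A f (z, 0) = f z := by
  have := vpos (0 : E) one_pos
  simp only [A, zero_smul, add_zero, setIntegral_const, smul_eq_mul]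
  field_simp

theorem A_lip {f : E → ℝ} {L : ℝ≥0} (hL : LipschitzWith L f) (p q : E × ℝ) :
    |A f p - A f q| ≤ L * (‖p.1 - q.1‖ + |p.2 - q.2|) := by
  have hv := vpos (0 : E) one_pos
  have hi : ∀ q : E × ℝ, IntegrableOn (fun w => f (q.1 + q.2 • w)) (ball (0 : E) 1) := fun q =>
    ((hL.continuous.comp (by fun_prop)).continuousOn.integrableOn_compact
      (isCompact_closedBall (0 : E) 1)).mono_set ball_subset_closedBall
  rw [A, A, ← sub_div, ← integral_sub (hi p) (hi q), abs_div, abs_of_pos hv, div_le_iff₀ hv,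
    ← Real.norm_eq_abs]
  refine norm_setIntegral_le_of_norm_le_const measure_ball_lt_top fun w hw => ?_
  have h1 : ‖w‖ ≤ 1 := (mem_ball_zero_iff.1 hw).le
  refine (hL.norm_sub_le _ _).trans (mul_le_mul_of_nonneg_left ?_ L.2)
  rw [show p.1 + p.2 • w - (q.1 + q.2 • w) = (p.1 - q.1) + (p.2 - q.2) • w by
    rw [sub_smul]; abel]
  refine (norm_add_le _ _).trans (add_le_add le_rfl ?_)
  rw [norm_smul, Real.norm_eq_abs]
  exact mul_le_of_le_one_right (abs_nonneg _) h1

theorem A_cont {f : E → ℝ} (hf : Nice f) : Continuous (A f) := by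
  obtain ⟨L, hL⟩ := hf.lip
  refine (LipschitzWith.of_dist_le_mul (K := 2 * L) fun p q => ?_).continuous
  rw [Real.dist_eq]
  refine (A_lip hL p q).trans ?_
  have h1 : ‖p.1 - q.1‖ ≤ dist p q := by rw [← dist_eq_norm]; exact le_max_left _ _
  have h2 : |p.2 - q.2| ≤ dist p q := by rw [← Real.dist_eq]; exact le_max_right _ _
  push_cast
  nlinarith [L.2]

theorem av_nonneg {f : E → ℝ} (hf : Nice f) (z : E) (r : ℝ) : 0 ≤ av f z r := by
  rw [av_eq]; exact div_nonneg (integral_nonneg hf.nonneg) ENNReal.toReal_nonneg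

theorem q_eq {f : E → ℝ} (hf : Nice f) (z : E) {r : ℝ} (hr : 0 < r) :
    (∫⁻ y in ball z r, ‖f y‖ₑ) / volume (ball z r) = ENNReal.ofReal (av f z r) := by
  rw [av_eq, ENNReal.ofReal_div_of_pos (vpos z hr), ofReal_measureReal measure_ball_lt_top.ne,
    ofReal_integral_eq_lintegral_ofReal hf.integrable.integrableOn
      (Eventually.of_forall hf.nonneg)]
  congr 1
  exact lintegral_congr fun y => Real.enorm_eq_ofReal (hf.nonneg y)

theorem uMax_le {f : E → ℝ} (hf : Nice f) {x : E} {t : ℝ}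
    (h : ∀ z r, x ∈ ball z r → av f z r ≤ t) : uMax f x ≤ ENNReal.ofReal t :=
  iSup_le fun z => iSup_le fun r => iSup_le fun hx => by
    rw [q_eq hf z (pos_of_mem_ball hx)]
    exact ENNReal.ofReal_le_ofReal (h z r hx)

theorem U_le {f : E → ℝ} (hf : Nice f) {x : E} {t : ℝ}
    (h : ∀ z r, x ∈ ball z r → av f z r ≤ t) : U f x ≤ t :=
  ENNReal.toReal_le_of_le_ofReal ((av_nonneg hf x 1).trans (h x 1 (mem_ball_self one_pos)))
    (uMax_le hf h)

theorem uMax_ne {f : E → ℝ} (hf : Nice f) (x : E) : uMax f x ≠ ⊤ := by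
  obtain ⟨M, hM⟩ := hf.bdd
  refine ne_top_of_le_ne_top ENNReal.ofReal_ne_top (uMax_le hf (t := M) fun z r hx => ?_)
  have hv := vpos z (pos_of_mem_ball hx)
  rw [av_eq, div_le_iff₀ hv, mul_comm, ← smul_eq_mul, ← setIntegral_const]
  exact setIntegral_mono hf.integrable.integrableOn
    (integrableOn_const measure_ball_lt_top.ne) hM

end OptAux

open OptAux

theorem av_le_U {f : E → ℝ} (hf : Nice f) {z y : E} {r : ℝ} (hy : y ∈ ball z r) :
    av f z r ≤ U f y := by
  rw [U, ← ENNReal.ofReal_le_iff_le_toReal (uMax_ne hf y), ← q_eq hf z (pos_of_mem_ball hy)]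
  exact le_iSup_of_le z (le_iSup_of_le r (le_iSup_of_le hy le_rfl))

theorem U_lipschitz {f : E → ℝ} (hf : Nice f) : ∃ L : ℝ≥0, LipschitzWith L (U f) := by
  obtain ⟨L, hL⟩ := hf.lip
  refine ⟨L, LipschitzWith.of_le_add_mul L fun x y => U_le hf fun z r hx => ?_⟩
  have hr := pos_of_mem_ball hx
  have h1 : y ∈ ball (z + (y - x)) r := by
    rw [mem_ball, dist_eq_norm] at hx ⊢
    rwa [show y - (z + (y - x)) = x - z by abel]
  have h2 := av_le_U hf h1
  have h3 := A_lip hL (z, r) (z + (y - x), r)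
  rw [av_eq_A f _ hr] at h2 ⊢
  simp only [sub_self, abs_zero, add_zero, sub_add_cancel_left, norm_neg] at h3
  rw [dist_comm, dist_eq_norm]
  linarith [le_abs_self (A f (z, r) - A f (z + (y - x), r))]

theorem OptAux.A_le_U {f : E → ℝ} (hf : Nice f) {x z : E} {r : ℝ} (hx : dist x z ≤ r) :
    A f (z, r) ≤ U f x := by
  have h1 : Tendsto (fun s => A f (z, s)) (𝓝[>] r) (𝓝 (A f (z, r))) :=
    (((A_cont hf).comp (Continuous.prodMk_right z)).tendsto r).mono_left nhdsWithin_le_nhds
  refine le_of_tendsto h1 ?_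
  filter_upwards [self_mem_nhdsWithin] with s hs
  have h2 : x ∈ ball z s := hx.trans_lt hs
  rw [← av_eq_A f z (pos_of_mem_ball h2)]
  exact av_le_U hf h2

theorem le_U {f : E → ℝ} (hf : Nice f) (x : E) : f x ≤ U f x := by
  rw [← A_zero f x]
  exact A_le_U hf (by simp)

/-- Existence of an optimal ball. -/
theorem exists_opt [Nontrivial E] {f : E → ℝ} (hf : Nice f) {x : E} (hx : f x < U f x) :
    ∃ z r, 0 < r ∧ dist x z ≤ r ∧ U f x = av f z r := by
  have h0 : 0 < U f x := (hf.nonneg x).trans_lt hx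
  have hv := vpos (0 : E) one_pos
  have hI : 0 ≤ ∫ y, f y := integral_nonneg hf.nonneg
  set R := 1 + 2 * (∫ y, f y) / (U f x * volume.real (ball (0 : E) 1)) with hR
  have hR1 : 1 ≤ R := le_add_of_nonneg_right (by positivity)
  have big : ∀ z r, R ≤ r → av f z r ≤ U f x / 2 := by
    intro z r hr
    have hr0 : 0 < r := by linarith
    have h4 : volume.real (ball z r) = r ^ Module.finrank ℝ E * volume.real (ball (0 : E) 1) := by
      rw [Measure.real, Measure.addHaar_ball_of_pos _ _ hr0, ENNReal.toReal_mul,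
        ENNReal.toReal_ofReal (by positivity)]; rfl
    have h5 : r ≤ r ^ Module.finrank ℝ E :=
      le_self_pow₀ (by linarith) Module.finrank_pos.ne'
    have h6 : 2 * (∫ y, f y) ≤ r * (U f x * volume.real (ball (0 : E) 1)) := by
      rw [← div_le_iff₀ (by positivity)]; linarith
    rw [av_eq, div_le_iff₀ (vpos z hr0), h4]
    refine (setIntegral_le_integral hf.integrable (Eventually.of_forall hf.nonneg)).trans ?_
    nlinarith [mul_le_mul_of_nonneg_right h5 (mul_pos h0 hv).le]
  let K : Set (E × ℝ) := (closedBall x R ×ˢ Icc 0 R) ∩ {q | dist x q.1 ≤ q.2}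
  have hK : IsCompact K := ((isCompact_closedBall x R).prod isCompact_Icc).inter_right
    (isClosed_le (by fun_prop) (by fun_prop))
  obtain ⟨q, hq, hm⟩ := hK.exists_isMaxOn ⟨(x, 0), ⟨mem_closedBall_self (by linarith),
    le_rfl, by linarith⟩, by simp⟩ (A_cont hf).continuousOn
  have h1 : U f x ≤ max (A f q) (U f x / 2) := U_le hf fun z r hz => by
    rcases le_total R r with h | h
    · exact (big z r h).trans (le_max_right _ _)
    · have hr := pos_of_mem_ball hz
      rw [av_eq_A f z hr]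
      refine le_trans (hm (⟨⟨?_, hr.le, h⟩, (le_of_lt hz : dist x z ≤ r)⟩ : (z, r) ∈ K)) (le_max_left _ _)
      rw [mem_closedBall, dist_comm]
      exact (le_of_lt hz).trans h
  have h2 : U f x = A f q := le_antisymm ((le_max_iff.1 h1).resolve_right (by linarith))
    (A_le_U hf hq.2)
  obtain ⟨z, r⟩ := q
  rcases hq.1.2.1.eq_or_lt with h | h
  · obtain rfl : 0 = r := h
    obtain rfl : x = z := dist_le_zero.1 hq.2
    rw [A_zero] at h2
    exact absurd h2 hx.ne'
  · exact ⟨z, r, h, hq.2, by rw [av_eq_A f z h, h2]⟩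

theorem OptAux.fderiv_le {u : E → ℝ} {x : E} {M : ℝ} (hM : 0 ≤ M)
    (h : ∀ v, u x - M * ‖v‖ ≤ u (x + v)) : ‖fderiv ℝ u x‖ ≤ M := by
  by_cases hd : DifferentiableAt ℝ u x
  swap
  · rw [fderiv_zero_of_not_differentiableAt hd, norm_zero]; exact hM
  have key : ∀ v, -(M * ‖v‖) ≤ fderiv ℝ u x v := by
    intro v
    have h1 := (hd.hasFDerivAt.hasLineDerivAt v).tendsto_slope_zero_right
    refine ge_of_tendsto h1 ?_
    filter_upwards [self_mem_nhdsWithin] with t ht
    have ht0 : 0 < t := ht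
    have h2 := h (t • v)
    rw [norm_smul, Real.norm_of_nonneg ht0.le] at h2
    rw [smul_eq_mul, ← div_eq_inv_mul, le_div_iff₀ ht0]
    linarith
  refine ContinuousLinearMap.opNorm_le_bound _ hM fun v => abs_le.2 ⟨key v, ?_⟩
  have := key (-v)
  rw [map_neg, norm_neg] at this
  linarith

/-- Gradient bound at a point with an optimal ball of radius `r`. -/
theorem fderiv_U_le {f : E → ℝ} (hf : Nice f) {x z : E} {r : ℝ} (hr : 0 < r) (hx : dist x z ≤ r)
    (hopt : U f x = av f z r) :
    ‖fderiv ℝ (U f) x‖ₑ ≤ (∫⁻ y, ‖fderiv ℝ f y‖ₑ) / volume (ball (0 : E) r) := by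
  have hv := vpos (0 : E) hr
  set G := (∫⁻ y, ‖fderiv ℝ f y‖ₑ).toReal with hG
  have hG0 : 0 ≤ G := ENNReal.toReal_nonneg
  have h1 : ‖fderiv ℝ (U f) x‖ ≤ G / volume.real (ball (0 : E) r) := by
    refine fderiv_le (by positivity) fun v => ?_
    have h2 : av f (z + v) r ≤ U f (x + v) := by
      rw [av_eq_A f _ hr]; exact A_le_U hf (by simpa using hx)
    refine le_trans ?_ h2
    have hi : IntegrableOn (fun y => f (y + v)) (ball z r) :=
      (hf.integrable.comp_add_right v).integrableOn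
    have h3 : ‖∫ y in ball z r, (f (y + v) - f y)‖ ≤ ‖v‖ * G := by
      refine (norm_integral_le_lintegral_norm _).trans ?_
      rw [hG, ← toReal_enorm v, ← ENNReal.toReal_mul]
      refine ENNReal.toReal_mono (ENNReal.mul_ne_top enorm_ne_top hf.grad.ne) ?_
      simp only [ofReal_norm_eq_enorm]
      simpa using trans_le hf.smooth (S := ball z r) (T := univ) measurableSet_ball
        MeasurableSet.univ v fun _ _ _ _ => mem_univ _
    rw [integral_sub hi hf.integrable.integrableOn, Real.norm_eq_abs] at h3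
    rw [hopt, av_eq, av_eq, int_shift, vol_shift z, vol_shift (z + v), div_mul_eq_mul_div,
      ← sub_div]
    gcongr
    linarith [neg_abs_le ((∫ y in ball z r, f (y + v)) - ∫ y in ball z r, f y)]
  rw [← ofReal_norm_eq_enorm]
  refine (ENNReal.ofReal_le_ofReal h1).trans (le_of_eq ?_)
  rw [ENNReal.ofReal_div_of_pos hv, ofReal_measureReal measure_ball_lt_top.ne, hG,
    ENNReal.ofReal_toReal hf.grad.ne]

theorem fderiv_U_eq_zero {f : E → ℝ} (hf : Nice f) {x z : E} {r : ℝ} (hx : dist x z < r)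
    (hopt : U f x = av f z r) : fderiv ℝ (U f) x = 0 := by
  refine IsLocalMin.fderiv_eq_zero ?_
  filter_upwards [isOpen_ball.mem_nhds (show x ∈ ball z r from hx)] with y hy
  rw [hopt]; exact av_le_U hf hy

theorem fderiv_U_of_eq {f : E → ℝ} (hf : Nice f) {x : E} (hx : U f x = f x)
    (hd : DifferentiableAt ℝ (U f) x) : fderiv ℝ (U f) x = fderiv ℝ f x := by
  have h1 : IsLocalMin (fun y => U f y - f y) x :=
    Eventually.of_forall fun y => by simp only [hx, sub_self, sub_nonneg]; exact le_U hf y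
  have h2 := h1.fderiv_eq_zero
  rw [fderiv_fun_sub hd (hf.smooth.differentiable one_ne_zero x)] at h2
  exact sub_eq_zero.1 h2

end Vale.Agent.P137
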