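import Vale.Agent.P137.Moll
import Vale.Agent.P137.Loc
import Vale.Agent.P137.Opt

open MeasureTheory Metric Set Filter Topology
open scoped ENNReal NNReal RealInnerProductSpace

noncomputable section

namespace Vale.Agent.P137

theorem conv_scheffe {α : Type*} [MeasurableSpace α] {μ : Measure α} {m : α → ℝ≥0∞}
    {g : ℕ → α → ℝ≥0∞} (hm : Measurable m) (hg : ∀ n, Measurable (g n)) (hfin : ∫⁻ x, m x ∂μ ≠ ⊤)
    (hlow : ∀ x c, c < m x → ∀ᶠ n in atTop, c < g n x) {c : ℕ → ℝ≥0∞}
    (hc : ∀ n, ∫⁻ x, g n x ∂μ ≤ c n) (hlim : Tendsto c atTop (𝓝 (∫⁻ x, m x ∂μ))) :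
    Tendsto (fun n => ∫⁻ x, ‖(g n x).toReal - (m x).toReal‖ₑ ∂μ) atTop (𝓝 0) := by
  have hae := ae_lt_top hm hfin
  have h1 : Tendsto (fun n => ∫⁻ x, m x - g n x ∂μ) atTop (𝓝 0) := by
    have := tendsto_lintegral_of_dominated_convergence (μ := μ) (F := fun n x => m x - g n x)
      (f := fun _ => 0) m (fun n => hm.sub (hg n)) (fun n => ae_of_all _ fun x => tsub_le_self)
      hfin (hae.mono fun x hx => ENNReal.tendsto_nhds_zero.2 fun ε hε => by
        by_cases h0 : m x = 0
        · simp [h0]
        · exact (hlow x _ (ENNReal.sub_lt_self hx.ne h0 hε.ne')).mono fun n hn => by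
            rw [tsub_le_iff_left]
            exact tsub_le_iff_right.1 hn.le)
    simpa using this
  have h2 : ∀ n, ∫⁻ x, g n x - m x ∂μ ≤ c n + ∫⁻ x, m x - g n x ∂μ - ∫⁻ x, m x ∂μ := fun n => by
    refine ENNReal.le_sub_of_add_le_right hfin ?_
    rw [← lintegral_add_right _ hm]
    calc _ = ∫⁻ x, g n x + (m x - g n x) ∂μ := lintegral_congr fun x => by
          rw [tsub_add_eq_max, add_tsub_eq_max]
      _ ≤ _ := by rw [lintegral_add_left (hg n)]; gcongr; exact hc n
  have h3 : Tendsto (fun n => c n + ∫⁻ x, m x - g n x ∂μ - ∫⁻ x, m x ∂μ + ∫⁻ x, m x - g n x ∂μ)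
      atTop (𝓝 0) := by
    simpa using (ENNReal.Tendsto.sub (hlim.add h1) tendsto_const_nhds (Or.inr hfin)).add h1
  refine tendsto_of_tendsto_of_tendsto_of_le_of_le tendsto_const_nhds h3 (fun _ => zero_le)
    fun n => ?_
  refine le_trans ?_ (add_le_add_left (h2 n) _)
  rw [← lintegral_add_left (f := fun x => g n x - m x) ((hg n).sub hm)]
  refine lintegral_mono_ae (hae.mono fun x hx => ?_)
  by_cases hn : g n x = ⊤
  · simp [hn, hx.ne]
  · rcases le_total (g n x) (m x) with h | h
    · rw [enorm_sub_rev, ← ENNReal.toReal_sub_of_le h hx.ne, Real.enorm_eq_ofReal (by simp)]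
      exact ENNReal.ofReal_toReal_le.trans le_add_self
    · rw [← ENNReal.toReal_sub_of_le h hn, Real.enorm_eq_ofReal (by simp)]
      exact ENNReal.ofReal_toReal_le.trans le_self_add

variable {E : Type*} [NormedAddCommGroup E] [InnerProductSpace ℝ E] [FiniteDimensional ℝ E]
  [MeasurableSpace E] [BorelSpace E]

theorem conv_le {f : E → ℝ} {x z : E} {r : ℝ} (hx : x ∈ ball z r) :
    (∫⁻ y in ball z r, ‖f y‖ₑ) / volume (ball z r) ≤ uMax f x :=
  le_iSup_of_le z (le_iSup₂_of_le r hx le_rfl)

theorem conv_low {f : E → ℝ} {G : E → E} (hf : Integrable f) (hG : Integrable G)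
    (hw : IsWeakGrad f G) (x : E) (c : ℝ≥0∞) (hc : c < uMax f x) :
    ∀ᶠ n in atTop, c < uMax (apx n f) x := by
  simp only [uMax, lt_iSup_iff] at hc
  obtain ⟨z, r, hx, hc⟩ := hc
  have h0 : volume (ball z r) ≠ 0 := (measure_ball_pos _ _ (pos_of_mem_ball hx)).ne'
  have h1 : volume (ball z r) ≠ ⊤ := measure_ball_lt_top.ne
  rw [ENNReal.lt_div_iff_mul_lt (Or.inl h0) (Or.inl h1)] at hc
  have h2 : ∫⁻ y in ball z r, ‖f y‖ₑ ≤ liminf (fun n => ∫⁻ y in ball z r, ‖apx n f y‖ₑ) atTop := by
    refine le_trans (lintegral_mono_ae (ae_restrict_of_ae ((apx_tendsto hf).mono fun y hy => ?_)))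
      (lintegral_liminf_le fun n => (apx_nice hf hG hw n).smooth.continuous.measurable.enorm)
    rw [hy.enorm.liminf_eq, Real.enorm_abs]
  refine (eventually_lt_of_lt_liminf (hc.trans_le h2)).mono fun n hn => lt_of_lt_of_le ?_ (conv_le hx)
  rwa [ENNReal.lt_div_iff_mul_lt (Or.inl h0) (Or.inl h1)]

theorem conv_swap (n : ℕ) {g : E → ℝ≥0∞} (hg : AEMeasurable g) (S : Set E) :
    ∫⁻ x in S, ∫⁻ y, ENNReal.ofReal ((bump (E := E) n).normed volume y) * g (x - y) =
      ∫⁻ y, ENNReal.ofReal ((bump (E := E) n).normed volume y) * ∫⁻ x in S, g (x - y) := by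
  rw [lintegral_lintegral_swap]
  · exact lintegral_congr fun y => lintegral_const_mul' _ _ ENNReal.ofReal_ne_top
  · refine AEMeasurable.mul ((bump n).continuous_normed.measurable.comp
      measurable_snd).ennreal_ofReal.aemeasurable ?_
    exact (hg.comp_quasiMeasurePreserving (quasiMeasurePreserving_sub volume volume)).mono_measure
      (Measure.prod_mono Measure.restrict_le_self le_rfl)

theorem conv_shift (g : E → ℝ≥0∞) (z y : E) (r : ℝ) :
    ∫⁻ x in ball z r, g (x - y) = ∫⁻ x in ball (z - y) r, g x := by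
  rw [← lintegral_indicator measurableSet_ball, ← lintegral_indicator measurableSet_ball,
    ← lintegral_sub_right_eq_self ((ball (z - y) r).indicator g) y]
  refine lintegral_congr fun x => ?_
  simp only [indicator, mem_ball, dist_sub_right]

theorem conv_up {f : E → ℝ} (hf : Integrable f) (n : ℕ) (x : E) : uMax (apx n f) x ≤
    ∫⁻ y, ENNReal.ofReal ((bump (E := E) n).normed volume y) * uMax f (x - y) := by
  refine iSup_le fun z => iSup₂_le fun r hx => ?_
  have h0 : volume (ball z r) ≠ 0 := (measure_ball_pos _ _ (pos_of_mem_ball hx)).ne'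
  have h1 : volume (ball z r) ≠ ⊤ := measure_ball_lt_top.ne
  refine ENNReal.div_le_of_le_mul ((lintegral_mono fun w => apx_le hf n w).trans ?_)
  rw [conv_swap n hf.1.enorm, ← lintegral_mul_const' _ _ h1]
  refine lintegral_mono fun y => ?_
  rw [conv_shift (fun x => ‖f x‖ₑ), mul_assoc]
  have h2 := conv_le (f := f) (x := x - y) (z := z - y) (r := r) (by simpa [dist_sub_right] using hx)
  rw [Measure.addHaar_ball_center, ← Measure.addHaar_ball_center volume z,
    ENNReal.div_le_iff h0 h1] at h2
  gcongr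

theorem conv_int {f : E → ℝ} (hf : Integrable f) (n : ℕ) (R : ℝ) :
    ∫⁻ x in ball (0 : E) R, uMax (apx n f) x ≤
      ∫⁻ x in ball (0 : E) (R + 1 / ((n : ℝ) + 1)), uMax f x := by
  refine (lintegral_mono fun x => conv_up hf n x).trans ?_
  rw [conv_swap n (measurable_uMax f).aemeasurable]
  calc _ ≤ ∫⁻ y, ENNReal.ofReal ((bump (E := E) n).normed volume y) *
        ∫⁻ x in ball (0 : E) (R + 1 / ((n : ℝ) + 1)), uMax f x := by
        refine lintegral_mono fun y => ?_
        by_cases hy : (bump (E := E) n).normed volume y = 0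
        · simp [hy]
        · have h1 : y ∈ ball (0 : E) (1 / ((n : ℝ) + 1)) :=
            (bump (E := E) n).support_normed_eq (μ := volume) ▸ Function.mem_support.2 hy
          rw [conv_shift]
          gcongr
          refine ball_subset_ball' ?_
          rw [mem_ball_zero_iff] at h1
          rw [zero_sub, dist_zero_right, norm_neg]
          linarith
    _ = _ := by
        rw [lintegral_mul_const _ (bump n).continuous_normed.measurable.ennreal_ofReal,
          ← ofReal_integral_eq_lintegral_ofReal (bump n).integrable_normed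
            (ae_of_all _ (bump n).nonneg_normed), (bump n).integral_normed]
        simp

theorem U_apx_tendsto {f : E → ℝ} {G : E → E} (hf : Integrable f) (hG : Integrable G)
    (hw : IsWeakGrad f G) (R : ℝ) :
    Tendsto (fun n => ∫⁻ x in ball (0 : E) R, ‖U (apx n f) x - U f x‖ₑ) atTop (𝓝 0) := by
  rcases le_or_gt R 0 with hR | hR
  · simp [ball_eq_empty.2 hR]
  have hloc := uMax_loc hf hG.2.ne (trans_weak hf hG hw)
  refine conv_scheffe (measurable_uMax f) (fun n => measurable_uMax _) (hloc R).ne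
    (conv_low hf hG hw) (fun n => conv_int hf n R) ?_
  simp only [← lintegral_indicator measurableSet_ball]
  refine tendsto_lintegral_of_dominated_convergence ((ball (0 : E) (R + 1)).indicator (uMax f))
    (fun n => (measurable_uMax f).indicator measurableSet_ball)
    (fun n => ae_of_all _ fun x => indicator_le_indicator_of_subset (ball_subset_ball ?_)
      (fun _ => zero_le) x) (by rw [lintegral_indicator measurableSet_ball]; exact (hloc _).ne) ?_
  · have : 1 / ((n : ℝ) + 1) ≤ 1 := div_le_one_of_le₀ (by simp) (by positivity)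
    linarith
  · refine (measure_eq_zero_iff_ae_notMem.1
      (Measure.addHaar_sphere_of_ne_zero volume (0 : E) hR.ne')).mono fun x hx => ?_
    refine tendsto_const_nhds.congr' ?_
    rcases lt_or_gt_of_ne (mt mem_sphere.2 hx) with h | h
    · refine Eventually.of_forall fun n => ?_
      have : 0 < 1 / ((n : ℝ) + 1) := by positivity
      simp only [indicator, mem_ball, h, show dist x 0 < R + 1 / ((n : ℝ) + 1) by linarith]
    · refine ((tendsto_one_div_add_atTop_nhds_zero_nat (𝕜 := ℝ)).eventually_lt_const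
        (sub_pos.2 h)).mono fun n hn => ?_
      simp only [indicator, mem_ball, h.not_gt,
        show ¬ dist x 0 < R + 1 / ((n : ℝ) + 1) by linarith]

end Vale.Agent.P137
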