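import Vale.Agent.P137.COpt
import Vale.Agent.P137.Conv

open MeasureTheory Metric Set Filter Topology
open scoped ENNReal NNReal RealInnerProductSpace

noncomputable section

namespace Vale.Agent.P137

set_option linter.unusedSectionVars false

variable {E : Type*} [NormedAddCommGroup E] [InnerProductSpace ℝ E] [FiniteDimensional ℝ E]
  [MeasurableSpace E] [BorelSpace E]

theorem CConv.le {f : E → ℝ} (x : E) {r : ℝ} (hr : 0 < r) :
    (∫⁻ y in ball x r, ‖f y‖ₑ) / volume (ball x r) ≤ cMax f x :=
  le_iSup₂_of_le (f := fun (r : ℝ) (_ : 0 < r) =>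
    (∫⁻ y in ball x r, ‖f y‖ₑ) / volume (ball x r)) r hr le_rfl

theorem measurable_cMax (f : E → ℝ) : Measurable (cMax f) := by
  refine LowerSemicontinuous.measurable (lowerSemicontinuous_iff_isOpen_preimage.2 fun t => ?_)
  rw [isOpen_iff_mem_nhds]
  intro x hx
  simp only [mem_preimage, mem_Ioi, cMax, lt_iSup_iff] at hx
  obtain ⟨r, hr, hlt⟩ := hx
  have h0 : volume (ball x r) ≠ 0 := (measure_ball_pos _ _ hr).ne'
  have h1 : volume (ball x r) ≠ ⊤ := measure_ball_lt_top.ne
  rw [ENNReal.lt_div_iff_mul_lt (Or.inl h0) (Or.inl h1)] at hlt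
  have hU : ball x r = ⋃ n : ℕ, ball x (r - 1 / ((n : ℝ) + 1)) := by
    ext y
    simp only [mem_iUnion, mem_ball]
    constructor
    · intro hy
      obtain ⟨n, hn⟩ := exists_nat_one_div_lt (sub_pos.2 hy)
      exact ⟨n, by linarith⟩
    · rintro ⟨n, hn⟩
      have : (0 : ℝ) < 1 / ((n : ℝ) + 1) := by positivity
      linarith
  have hmono : Monotone fun n : ℕ => ball x (r - 1 / ((n : ℝ) + 1)) := fun m n hmn =>
    ball_subset_ball (by linarith [Nat.one_div_le_one_div (α := ℝ) hmn])
  have hs := setLIntegral_iUnion_of_directed (μ := volume) (fun y => ‖f y‖ₑ) hmono.directed_le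
  rw [← hU] at hs
  rw [hs, lt_iSup_iff] at hlt
  obtain ⟨n, hn⟩ := hlt
  filter_upwards [ball_mem_nhds x (show (0 : ℝ) < 1 / ((n : ℝ) + 1) by positivity)] with y hy
  refine lt_of_lt_of_le ?_ (CConv.le y hr)
  rw [Measure.addHaar_ball_center, ← Measure.addHaar_ball_center volume x,
    ENNReal.lt_div_iff_mul_lt (Or.inl h0) (Or.inl h1)]
  refine hn.trans_le (lintegral_mono_set (ball_subset_ball' ?_))
  rw [mem_ball, dist_comm] at hy
  linarith

theorem cMax_le_uMax (f : E → ℝ) (x : E) : cMax f x ≤ uMax f x :=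
  iSup₂_le fun _ hr => conv_le (mem_ball_self hr)

theorem CConv.low {f : E → ℝ} {G : E → E} (hf : Integrable f) (hG : Integrable G)
    (hw : IsWeakGrad f G) (x : E) (c : ℝ≥0∞) (hc : c < cMax f x) :
    ∀ᶠ n in atTop, c < cMax (apx n f) x := by
  simp only [cMax, lt_iSup_iff] at hc
  obtain ⟨r, hr, hc⟩ := hc
  have h0 : volume (ball x r) ≠ 0 := (measure_ball_pos _ _ hr).ne'
  have h1 : volume (ball x r) ≠ ⊤ := measure_ball_lt_top.ne
  rw [ENNReal.lt_div_iff_mul_lt (Or.inl h0) (Or.inl h1)] at hc
  have h2 : ∫⁻ y in ball x r, ‖f y‖ₑ ≤ liminf (fun n => ∫⁻ y in ball x r, ‖apx n f y‖ₑ) atTop := by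
    refine le_trans (lintegral_mono_ae (ae_restrict_of_ae ((apx_tendsto hf).mono fun y hy => ?_)))
      (lintegral_liminf_le fun n => (apx_nice hf hG hw n).smooth.continuous.measurable.enorm)
    rw [hy.enorm.liminf_eq, Real.enorm_abs]
  refine (eventually_lt_of_lt_liminf (hc.trans_le h2)).mono fun n hn =>
    lt_of_lt_of_le ?_ (CConv.le x hr)
  rwa [ENNReal.lt_div_iff_mul_lt (Or.inl h0) (Or.inl h1)]

theorem CConv.up {f : E → ℝ} (hf : Integrable f) (n : ℕ) (x : E) : cMax (apx n f) x ≤
    ∫⁻ y, ENNReal.ofReal ((bump (E := E) n).normed volume y) * cMax f (x - y) := by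
  refine iSup₂_le fun r hr => ?_
  have h0 : volume (ball x r) ≠ 0 := (measure_ball_pos _ _ hr).ne'
  have h1 : volume (ball x r) ≠ ⊤ := measure_ball_lt_top.ne
  refine ENNReal.div_le_of_le_mul ((lintegral_mono fun w => apx_le hf n w).trans ?_)
  rw [conv_swap n hf.1.enorm, ← lintegral_mul_const' _ _ h1]
  refine lintegral_mono fun y => ?_
  rw [conv_shift (fun x => ‖f x‖ₑ), mul_assoc]
  have h2 := CConv.le (f := f) (x - y) hr
  rw [Measure.addHaar_ball_center, ← Measure.addHaar_ball_center volume x,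
    ENNReal.div_le_iff h0 h1] at h2
  gcongr

theorem CConv.int {f : E → ℝ} (hf : Integrable f) (n : ℕ) (R : ℝ) :
    ∫⁻ x in ball (0 : E) R, cMax (apx n f) x ≤
      ∫⁻ x in ball (0 : E) (R + 1 / ((n : ℝ) + 1)), cMax f x := by
  refine (lintegral_mono fun x => CConv.up hf n x).trans ?_
  rw [conv_swap n (measurable_cMax f).aemeasurable]
  calc _ ≤ ∫⁻ y, ENNReal.ofReal ((bump (E := E) n).normed volume y) *
        ∫⁻ x in ball (0 : E) (R + 1 / ((n : ℝ) + 1)), cMax f x := by
        refine lintegral_mono fun y => ?_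
        by_cases hy : (bump (E := E) n).normed volume y = 0
        · simp [hy]
        · have h1 : y ∈ ball (0 : E) (1 / ((n : ℝ) + 1)) :=
            (bump (E := E) n).support_normed_eq (μ := volume) ▸ Function.mem_support.2 hy
          rw [conv_shift]
          gcongr
          refine ball_subset_ball' ?_
          rw [mem_ball_zero_iff] at h1
          rw [zero_sub, dist_zero_right, norm_neg]
          linarith
    _ = _ := by
        rw [lintegral_mul_const _ (bump n).continuous_normed.measurable.ennreal_ofReal,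
          ← ofReal_integral_eq_lintegral_ofReal (bump n).integrable_normed
            (ae_of_all _ (bump n).nonneg_normed), (bump n).integral_normed]
        simp

theorem MC_apx_tendsto {f : E → ℝ} {G : E → E} (hf : Integrable f) (hG : Integrable G)
    (hw : IsWeakGrad f G) (R : ℝ) :
    Tendsto (fun n => ∫⁻ x in ball (0 : E) R, ‖MC (apx n f) x - MC f x‖ₑ) atTop (𝓝 0) := by
  rcases le_or_gt R 0 with hR | hR
  · simp [ball_eq_empty.2 hR]
  have hloc : ∀ R : ℝ, ∫⁻ x in ball (0 : E) R, cMax f x < ⊤ := fun R =>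
    (lintegral_mono (cMax_le_uMax f)).trans_lt (uMax_loc hf hG.2.ne (trans_weak hf hG hw) R)
  refine conv_scheffe (measurable_cMax f) (fun n => measurable_cMax _) (hloc R).ne
    (CConv.low hf hG hw) (fun n => CConv.int hf n R) ?_
  simp only [← lintegral_indicator measurableSet_ball]
  refine tendsto_lintegral_of_dominated_convergence ((ball (0 : E) (R + 1)).indicator (cMax f))
    (fun n => (measurable_cMax f).indicator measurableSet_ball)
    (fun n => ae_of_all _ fun x => indicator_le_indicator_of_subset (ball_subset_ball ?_)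
      (fun _ => zero_le) x) (by rw [lintegral_indicator measurableSet_ball]; exact (hloc _).ne) ?_
  · have : 1 / ((n : ℝ) + 1) ≤ 1 := div_le_one_of_le₀ (by simp) (by positivity)
    linarith
  · refine (measure_eq_zero_iff_ae_notMem.1
      (Measure.addHaar_sphere_of_ne_zero volume (0 : E) hR.ne')).mono fun x hx => ?_
    refine tendsto_const_nhds.congr' ?_
    rcases lt_or_gt_of_ne (mt mem_sphere.2 hx) with h | h
    · refine Eventually.of_forall fun n => ?_
      have : 0 < 1 / ((n : ℝ) + 1) := by positivity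
      simp only [indicator, mem_ball, h, show dist x 0 < R + 1 / ((n : ℝ) + 1) by linarith]
    · refine ((tendsto_one_div_add_atTop_nhds_zero_nat (𝕜 := ℝ)).eventually_lt_const
        (sub_pos.2 h)).mono fun n hn => ?_
      simp only [indicator, mem_ball, h.not_gt,
        show ¬ dist x 0 < R + 1 / ((n : ℝ) + 1) by linarith]

end Vale.Agent.P137
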