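import Vale.Agent.P137.Opt

/-!
# P137, centered operator: definitions

Only `cMax` enters the final statement; everything else is internal to the proof.
-/

open MeasureTheory Metric Set Filter Topology
open scoped ENNReal NNReal RealInnerProductSpace

noncomputable section

namespace Vale.Agent.P137

variable {E : Type*} [NormedAddCommGroup E] [InnerProductSpace ℝ E] [FiniteDimensional ℝ E]
  [MeasurableSpace E] [BorelSpace E]

/-- The centered Hardy-Littlewood maximal function, with values in `[0, ∞]`. -/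
def cMax (f : E → ℝ) (x : E) : ℝ≥0∞ :=
  ⨆ (r : ℝ) (_ : 0 < r), (∫⁻ y in ball x r, ‖f y‖ₑ) / volume (ball x r)

/-- Real-valued version of `cMax`. -/
def MC (f : E → ℝ) (x : E) : ℝ := (cMax f x).toReal

/-- Real volume of a ball. -/
def Vb (E : Type*) [NormedAddCommGroup E] [InnerProductSpace ℝ E] [FiniteDimensional ℝ E]
  [MeasurableSpace E] [BorelSpace E] (r : ℝ) : ℝ := (volume : Measure E).real (ball 0 r)

theorem Vb_center (x : E) (r : ℝ) : (volume : Measure E).real (ball x r) = Vb E r :=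
  Measure.addHaar_real_ball_center _ _ _

theorem Vb_nonneg (r : ℝ) : 0 ≤ Vb E r := measureReal_nonneg

theorem Vb_pos {r : ℝ} (h : 0 < r) : 0 < Vb E r :=
  ENNReal.toReal_pos (measure_ball_pos _ _ h).ne' measure_ball_lt_top.ne

theorem Vb_mul {c : ℝ} (hc : 0 < c) (r : ℝ) :
    Vb E (c * r) = c ^ Module.finrank ℝ E * Vb E r := by
  simp only [Vb, measureReal_def]
  rw [Measure.addHaar_ball_mul_of_pos _ _ hc, ENNReal.toReal_mul,
    ENNReal.toReal_ofReal (by positivity)]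

theorem Vb_mono {r r' : ℝ} (h : r ≤ r') : Vb E r ≤ Vb E r' :=
  measureReal_mono (ball_subset_ball h) measure_ball_lt_top.ne

theorem ofReal_Vb (x : E) (r : ℝ) : ENNReal.ofReal (Vb E r) = volume (ball x r) := by
  rw [← Vb_center x r, ofReal_measureReal measure_ball_lt_top.ne]

theorem av_eq_div (f : E → ℝ) (x : E) (r : ℝ) : av f x r = (∫ y in ball x r, f y) / Vb E r := by
  rw [OptAux.av_eq, Vb_center]

/-- `f` is almost increasing, with error `Λ`, along displacements of size about `s` in a cone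
around `σ`. -/
structure Vio (f Λ : E → ℝ) (σ : E) (s : ℝ) : Prop where
  meas : Measurable Λ
  nonneg : ∀ y, 0 ≤ Λ y
  bdd : ∃ C : ℝ, ∀ y, Λ y ≤ C
  unit : ‖σ‖ = 1
  pos : 0 < s
  le : ∀ y h : E, ‖h‖ / 10 ≤ ⟪h, σ⟫ → s ≤ ‖h‖ → ‖h‖ ≤ 2 ^ 44 * s →
    f y ≤ f (y + h) + Λ y + Λ (y + h)

/-- Local size of the error. -/
def bt (Λ : E → ℝ) (p : E) (ρ : ℝ) : ℝ := ∫ y in ball p (10 * ρ), Λ y

/-- Increment of `f` in the direction `σ` at scale `s`, corrected to be nonnegative. -/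
def Gm (f Λ : E → ℝ) (σ : E) (s : ℝ) (y : E) : ℝ :=
  f (y + (4 * s) • σ) - f (y - (4 * s) • σ) + Λ (y + (4 * s) • σ) + Λ (y - (4 * s) • σ)

/-- The oscillation measure at scale `s`. -/
def mass (f Λ : E → ℝ) (σ : E) (s : ℝ) : Measure E :=
  volume.withDensity fun y => ENNReal.ofReal (Gm f Λ σ s y + Λ y)

/-- A closed spherical shell. -/
def shell (x : E) (r t : ℝ) : Set E := {y | |dist y x - r| ≤ t}

/-- A peak of height `H` and width about `τ` of the averages along the line through `x` in the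
direction `e`. -/
structure Peak (f : E → ℝ) (x e : E) (r τ H : ℝ) : Prop where
  left : ∃ a ∈ Icc (τ / 2048) τ, ∀ r' ∈ Icc (r - 4 * τ) (r + 4 * τ),
    av f (x - a • e) r' + H ≤ av f x r
  right : ∃ b ∈ Icc (τ / 2048) τ, ∀ r' ∈ Icc (r - 4 * τ) (r + 4 * τ),
    av f (x + b • e) r' + H ≤ av f x r

/-- Points after which `u` stays above its value until `f` exceeds it. -/
def A1 (f u : E → ℝ) (e : E) (T : ℝ) : Set E :=
  {x | ∃ t ∈ Ioc (0 : ℝ) T, u x < f (x + t • e) ∧ ∀ s ∈ Icc (0 : ℝ) t, u x ≤ u (x + s • e)}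

/-- Points with an optimal radius of size about `ρ`. -/
def Xs (f u : E → ℝ) (ρ : ℝ) : Set E :=
  {x | DifferentiableAt ℝ u x ∧ f x < u x ∧ ∃ r ∈ Icc ρ (2 * ρ), u x = av f x r}

/-- The fine scales attached to the scale `ρ`. -/
def sc (ρ : ℝ) (m : ℕ) : ℝ := ρ / (2 ^ 41 * 4096 ^ m)

/-- Total local error. -/
def tot (Λ : ℕ → E → ℝ) (p : E) (ρ : ℝ) : ℝ≥0∞ :=
  ∑' m : ℕ, ENNReal.ofReal (bt (Λ m) p ρ / (2 ^ m * sc ρ m))

/-- Iterated ball averages of `f` and of its gradient. -/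
structure Hier (f : E → ℝ) (L ϱ : ℝ) (N : ℕ) (F : ℕ → E → ℝ) (v : ℕ → E → E) : Prop where
  pos : 0 < ϱ
  lip : ∀ x y, |f x - f y| ≤ L * ‖x - y‖
  top : ∀ i, N ≤ i → F i = f
  cont : ∀ i, Continuous (v i)
  bdd : ∀ i x, ‖v i x‖ ≤ L
  gr : ∀ i x, HasFDerivAt (F i) (innerSL ℝ (v i x)) x
  ff : ∀ i, i < N → ∀ x, F i x = ⨍ y in ball x (ϱ / 4096 ^ i), F (i + 1) y
  vv : ∀ i, i < N → ∀ x, v i x = ⨍ y in ball x (ϱ / 4096 ^ i), v (i + 1) y

/-- Loss of gradient mass in one averaging step. -/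
def Df (v : ℕ → E → E) (ϱ : ℝ) (i : ℕ) (x : E) : ℝ :=
  (⨍ y in ball x (ϱ / 4096 ^ i), ‖v (i + 1) y‖) - ‖v i x‖

/-- The local budget. -/
def Tb (v : ℕ → E → E) (L ϱ : ℝ) (N j : ℕ) (p : E) : ℝ :=
  Vb E (ϱ / 4096 ^ j) * Df v ϱ j p +
    ∑ i ∈ Finset.Ioo j N, (2 / 3 : ℝ) ^ (i - j) * (∫ y in ball p (ϱ / 4096 ^ j), Df v ϱ i y) +
    (2 / 3 : ℝ) ^ (N - j) * L * Vb E (ϱ / 4096 ^ j)

omit [MeasurableSpace E] [BorelSpace E] in
theorem exists_net (E : Type*) [NormedAddCommGroup E] [InnerProductSpace ℝ E]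
    [FiniteDimensional ℝ E] {c : ℝ} (hc : 0 < c) : ∃ S : Finset E, (∀ e ∈ S, ‖e‖ = 1) ∧
      ∀ y : E, ‖y‖ = 1 → ∃ e ∈ S, ‖e - y‖ ≤ c := by
  obtain ⟨t, ht, hf, hcov⟩ := finite_cover_balls_of_compact (isCompact_sphere (0 : E) 1) hc
  refine ⟨hf.toFinset, fun e he => by simpa using ht (by simpa using he), fun y hy => ?_⟩
  obtain ⟨e, he, hy'⟩ := mem_iUnion₂.1 (hcov (show y ∈ sphere (0 : E) 1 by simpa using hy))
  exact ⟨e, by simpa using he, by rw [← dist_eq_norm, dist_comm]; exact (mem_ball.1 hy').le⟩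

end Vale.Agent.P137
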