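import Vale.Agent.P137.Defs

open MeasureTheory Metric Set Filter Topology
open scoped ENNReal NNReal RealInnerProductSpace

noncomputable section

namespace Vale.Agent.P137

variable {E : Type*} [NormedAddCommGroup E] [InnerProductSpace ℝ E] [FiniteDimensional ℝ E]
  [MeasurableSpace E] [BorelSpace E]

omit [FiniteDimensional ℝ E] [MeasurableSpace E] [BorelSpace E] in
theorem seg_le {f : E → ℝ} (hf : ContDiff ℝ 1 f) (y h : E) {s t : ℝ} (hst : s ≤ t) :
    ‖f (y + t • h) - f (y + s • h)‖ₑ ≤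
      ∫⁻ σ in Ioo s t, ‖h‖ₑ * ‖fderiv ℝ f (y + σ • h)‖ₑ := by
  have hd : ∀ σ : ℝ, HasDerivAt (fun σ : ℝ => f (y + σ • h)) (fderiv ℝ f (y + σ • h) h) σ := by
    intro σ
    have h1 : HasDerivAt (fun σ : ℝ => y + σ • h) h σ := by
      simpa using ((hasDerivAt_id σ).smul_const h).const_add y
    exact ((hf.differentiable one_ne_zero (y + σ • h)).hasFDerivAt).comp_hasDerivAt σ h1
  have hc : Continuous fun σ : ℝ => fderiv ℝ f (y + σ • h) h := by
    have := hf.continuous_fderiv one_ne_zero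
    fun_prop
  have h1 := intervalIntegral.integral_eq_sub_of_hasDerivAt (a := s) (b := t)
    (fun σ _ => hd σ) (hc.intervalIntegrable s t)
  rw [← h1, intervalIntegral.integral_of_le hst, integral_Ioc_eq_integral_Ioo]
  refine (enorm_integral_le_lintegral_enorm _).trans (lintegral_mono fun σ => ?_)
  rw [mul_comm]
  exact ContinuousLinearMap.le_opENorm _ _

theorem seg_swap {g : E → ℝ≥0∞} (hg : Measurable g) (h : E) :
    ∫⁻ y, ∫⁻ σ in Icc (0 : ℝ) 1, g (y + σ • h) = ∫⁻ y, g y := by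
  rw [lintegral_lintegral_swap (by fun_prop)]
  have : ∀ σ : ℝ, ∫⁻ y, g (y + σ • h) = ∫⁻ y, g y := fun σ => lintegral_add_right_eq_self g _
  simp [this]

theorem measurable_gr (f : E → ℝ) : Measurable fun y => ‖fderiv ℝ f y‖ₑ :=
  (measurable_fderiv ℝ f).enorm

/-- Translation estimate for `C¹` functions. -/
theorem trans_le {f : E → ℝ} (hf : ContDiff ℝ 1 f) {S T : Set E} (hS : MeasurableSet S)
    (hT : MeasurableSet T) (h : E) (hST : ∀ y ∈ S, ∀ σ ∈ Icc (0 : ℝ) 1, y + σ • h ∈ T) :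
    ∫⁻ y in S, ‖f (y + h) - f y‖ₑ ≤ ‖h‖ₑ * ∫⁻ y in T, ‖fderiv ℝ f y‖ₑ := by
  set g : E → ℝ≥0∞ := T.indicator fun y => ‖fderiv ℝ f y‖ₑ with hg
  have hgm : Measurable g := (measurable_gr f).indicator hT
  calc ∫⁻ y in S, ‖f (y + h) - f y‖ₑ
      ≤ ∫⁻ y in S, ‖h‖ₑ * ∫⁻ σ in Icc (0 : ℝ) 1, g (y + σ • h) := by
        refine setLIntegral_mono' hS fun y hy => ?_
        have h1 := seg_le hf y h (zero_le_one (α := ℝ))
        simp only [one_smul, zero_smul, add_zero] at h1
        refine h1.trans ?_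
        rw [← lintegral_const_mul' _ _ enorm_ne_top]
        refine (lintegral_mono_set Ioo_subset_Icc_self).trans ?_
        refine setLIntegral_mono' measurableSet_Icc fun σ hσ => ?_
        rw [hg, indicator_of_mem (hST y hy σ hσ)]
    _ ≤ ∫⁻ y, ‖h‖ₑ * ∫⁻ σ in Icc (0 : ℝ) 1, g (y + σ • h) := setLIntegral_le_lintegral _ _
    _ = ‖h‖ₑ * ∫⁻ y in T, ‖fderiv ℝ f y‖ₑ := by
        rw [lintegral_const_mul' _ _ enorm_ne_top, seg_swap hgm, hg, lintegral_indicator hT]

theorem cross_one {φ : ℝ → ℝ} (hφ : Continuous φ) {a b : ℝ} (hab : a < b) (h0 : φ 0 ≤ a)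
    (h1 : b ≤ φ 1) : ∃ s t, 0 ≤ s ∧ s ≤ t ∧ t ≤ 1 ∧ φ s ≤ a ∧ b ≤ φ t ∧
      ∀ σ ∈ Ioo s t, a < φ σ ∧ φ σ < b := by
  have hA : IsCompact (Icc (0 : ℝ) 1 ∩ {σ | φ σ ≤ a}) :=
    isCompact_Icc.inter_right (isClosed_le hφ continuous_const)
  obtain ⟨s, hs, hs'⟩ := hA.exists_isGreatest ⟨0, ⟨le_rfl, zero_le_one⟩, h0⟩
  have hB : IsCompact (Icc s 1 ∩ {σ | b ≤ φ σ}) :=
    isCompact_Icc.inter_right (isClosed_le continuous_const hφ)
  obtain ⟨t, ht, ht'⟩ := hB.exists_isLeast ⟨1, ⟨hs.1.2, le_rfl⟩, h1⟩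
  refine ⟨s, t, hs.1.1, ht.1.1, ht.1.2, hs.2, ht.2, fun σ hσ => ⟨?_, ?_⟩⟩
  · by_contra hc
    have : σ ≤ s := hs' ⟨⟨hs.1.1.trans hσ.1.le, hσ.2.le.trans ht.1.2⟩, not_lt.1 hc⟩
    exact absurd hσ.1 (not_lt.2 this)
  · by_contra hc
    have : t ≤ σ := ht' ⟨⟨hσ.1.le, hσ.2.le.trans ht.1.2⟩, not_lt.1 hc⟩
    exact absurd hσ.2 (not_lt.2 this)

/-- Poincare inequality for a truncation. -/
theorem pc {f : E → ℝ} (hf : ContDiff ℝ 1 f) (p : E) (s a b : ℝ) :
    ENNReal.ofReal (b - a) * volume ({w | f w ≤ a} ∩ ball p s) *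
        volume ({w | b ≤ f w} ∩ ball p s) ≤
      ENNReal.ofReal (2 * s) * volume (ball (0 : E) (2 * s)) *
        ∫⁻ y in ball p s ∩ {w | a < f w ∧ f w < b}, ‖fderiv ℝ f y‖ₑ := by
  rcases le_or_gt b a with hab | hab
  · rw [ENNReal.ofReal_of_nonpos (by linarith)]; simp
  have hfc := hf.continuous
  set T := ball p s ∩ {w | a < f w ∧ f w < b} with hT
  have hTm : MeasurableSet T := measurableSet_ball.inter
    ((isOpen_lt continuous_const hfc).inter (isOpen_lt hfc continuous_const)).measurableSet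
  set A := {w | f w ≤ a} ∩ ball p s with hA
  set B := {w | b ≤ f w} ∩ ball p s with hB
  have hAm : MeasurableSet A :=
    (isClosed_le hfc continuous_const).measurableSet.inter measurableSet_ball
  have hBm : MeasurableSet B :=
    (isClosed_le continuous_const hfc).measurableSet.inter measurableSet_ball
  set g : E → ℝ≥0∞ := T.indicator fun y => ‖fderiv ℝ f y‖ₑ with hg
  have hgm : Measurable g := (measurable_gr f).indicator hTm
  set F : E → E → ℝ≥0∞ := fun v h =>
    ENNReal.ofReal (2 * s) * ∫⁻ σ in Icc (0 : ℝ) 1, g (v + σ • h) with hF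
  have hFm : Measurable (Function.uncurry F) := by
    refine Measurable.const_mul ?_ _
    exact Measurable.lintegral_prod_right' (f := fun q : (E × E) × ℝ => g (q.1.1 + q.2 • q.1.2))
      (by fun_prop)
  have key : ∀ v ∈ A, ∀ w ∈ B, ENNReal.ofReal (b - a) ≤ F v (w - v) := by
    intro v hv w hw
    have hφ : Continuous fun σ : ℝ => f (v + σ • (w - v)) := by fun_prop
    obtain ⟨s0, t0, h0, h01, h1, ha, hb, hm⟩ := cross_one hφ hab (by simpa using hv.1)
      (by simpa using hw.1)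
    have hn : ‖w - v‖ₑ ≤ ENNReal.ofReal (2 * s) := by
      rw [← ofReal_norm]
      refine ENNReal.ofReal_le_ofReal ?_
      have h2 := mem_ball.1 hv.2
      have h3 := mem_ball.1 hw.2
      rw [← dist_eq_norm]
      linarith [dist_triangle_right w v p]
    calc ENNReal.ofReal (b - a) ≤ ‖f (v + t0 • (w - v)) - f (v + s0 • (w - v))‖ₑ := by
          rw [← ofReal_norm]
          refine ENNReal.ofReal_le_ofReal (le_trans ?_ (le_abs_self _))
          linarith
      _ ≤ ∫⁻ σ in Ioo s0 t0, ‖w - v‖ₑ * ‖fderiv ℝ f (v + σ • (w - v))‖ₑ := seg_le hf _ _ h01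
      _ ≤ ∫⁻ σ in Ioo s0 t0, ENNReal.ofReal (2 * s) * g (v + σ • (w - v)) := by
          refine setLIntegral_mono' measurableSet_Ioo fun σ hσ => ?_
          have hmem : v + σ • (w - v) ∈ T := by
            refine ⟨?_, hm σ hσ⟩
            exact (convex_ball p s).add_smul_sub_mem hv.2 hw.2
              ⟨h0.trans hσ.1.le, hσ.2.le.trans h1⟩
          rw [hg, indicator_of_mem hmem]
          gcongr
      _ ≤ ∫⁻ σ in Icc (0 : ℝ) 1, ENNReal.ofReal (2 * s) * g (v + σ • (w - v)) :=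
          lintegral_mono_set (Ioo_subset_Icc_self.trans (Icc_subset_Icc h0 h1))
      _ = F v (w - v) := by rw [lintegral_const_mul' _ _ ENNReal.ofReal_ne_top]
  have step : ∀ v ∈ A, ENNReal.ofReal (b - a) * volume B ≤ ∫⁻ h in ball (0 : E) (2 * s), F v h := by
    intro v hv
    have hsub : B ⊆ ball v (2 * s) := by
      intro w hw
      have h2 := mem_ball.1 hv.2
      have h3 := mem_ball.1 hw.2
      rw [mem_ball]
      linarith [dist_triangle_right w v p]
    calc ENNReal.ofReal (b - a) * volume B = ∫⁻ _ in B, ENNReal.ofReal (b - a) := by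
          rw [setLIntegral_const]
      _ ≤ ∫⁻ w in B, F v (w - v) := setLIntegral_mono' hBm (key v hv)
      _ ≤ ∫⁻ w in ball v (2 * s), F v (w - v) := lintegral_mono_set hsub
      _ = ∫⁻ h in ball (0 : E) (2 * s), F v h := by
          rw [← lintegral_indicator measurableSet_ball, ← lintegral_indicator measurableSet_ball,
            ← lintegral_add_right_eq_self _ v]
          refine lintegral_congr fun h => ?_
          by_cases hh : h ∈ ball (0 : E) (2 * s)
          · have : h + v ∈ ball v (2 * s) := by simpa [mem_ball, dist_eq_norm] using hh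
            rw [indicator_of_mem hh, indicator_of_mem this, add_sub_cancel_right]
          · have : h + v ∉ ball v (2 * s) := by simpa [mem_ball, dist_eq_norm] using hh
            rw [indicator_of_notMem hh, indicator_of_notMem this]
  calc ENNReal.ofReal (b - a) * volume A * volume B
      = ∫⁻ _ in A, ENNReal.ofReal (b - a) * volume B := by
        rw [setLIntegral_const]; ring
    _ ≤ ∫⁻ v in A, ∫⁻ h in ball (0 : E) (2 * s), F v h := setLIntegral_mono' hAm step
    _ ≤ ∫⁻ v, ∫⁻ h in ball (0 : E) (2 * s), F v h := setLIntegral_le_lintegral _ _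
    _ = ∫⁻ h in ball (0 : E) (2 * s), ∫⁻ v, F v h := lintegral_lintegral_swap hFm.aemeasurable
    _ = ∫⁻ h in ball (0 : E) (2 * s), ENNReal.ofReal (2 * s) * ∫⁻ y in T, ‖fderiv ℝ f y‖ₑ := by
        refine lintegral_congr fun h => ?_
        rw [hF]
        simp only
        rw [lintegral_const_mul' _ _ ENNReal.ofReal_ne_top, seg_swap hgm, hg,
          lintegral_indicator hTm]
    _ = _ := by rw [setLIntegral_const]; ring

end Vale.Agent.P137
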