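import Vale.Agent.P137.WeakLim
import Vale.Agent.P137.PC

open MeasureTheory Metric Set Filter Topology
open scoped ENNReal NNReal RealInnerProductSpace

noncomputable section

namespace Vale.Agent.P137

set_option linter.unusedSectionVars false

variable {E : Type*} [NormedAddCommGroup E] [InnerProductSpace ℝ E] [FiniteDimensional ℝ E]
  [MeasurableSpace E] [BorelSpace E]

theorem vol_ball_top [Nontrivial E] :
    Tendsto (fun n : ℕ => volume (ball (0 : E) n)) atTop (𝓝 ⊤) := by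
  have h := tendsto_measure_iUnion_atTop (μ := (volume : Measure E))
    (s := fun n : ℕ => ball (0 : E) n) (fun a b hab => ball_subset_ball (by exact_mod_cast hab))
  rwa [iUnion_ball_nat, measure_univ_of_isAddLeftInvariant] at h

/-- The hypothesis on an approximating sequence. -/
def MainBd (C : ℝ≥0) (G : E → E) (u : ℕ → E → ℝ) : Prop :=
  ∀ n : ℕ, ∀ K : Set E, MeasurableSet K → ∀ δ : ℝ, 1 / ((n : ℝ) + 1) ≤ δ →
    ∫⁻ x in K, ‖fderiv ℝ (u n) x‖ₑ ≤ C * (∫⁻ y in thickening (41 * δ) K, ‖G y‖ₑ) +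
      volume K * ((∫⁻ y, ‖G y‖ₑ) / volume (ball (0 : E) δ))

theorem MainBd.glob [Nontrivial E] {C : ℝ≥0} {G : E → E} {u : ℕ → E → ℝ} (h : MainBd C G u)
    (hG : Integrable G) (n : ℕ) : ∫⁻ x, ‖fderiv ℝ (u n) x‖ₑ ≤ C * ∫⁻ y, ‖G y‖ₑ := by
  have hA : ∫⁻ y, ‖G y‖ₑ ≠ ⊤ := hG.2.ne
  rw [← setLIntegral_univ, ← iUnion_ball_nat (0 : E), setLIntegral_iUnion_of_directed _
    (Monotone.directed_le fun a b hab => ball_subset_ball (by exact_mod_cast hab))]
  refine iSup_le fun R => ?_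
  have h1 : Tendsto (fun m : ℕ => (C : ℝ≥0∞) * (∫⁻ y, ‖G y‖ₑ) + volume (ball (0 : E) R) *
      ((∫⁻ y, ‖G y‖ₑ) / volume (ball (0 : E) m))) atTop
      (𝓝 ((C : ℝ≥0∞) * (∫⁻ y, ‖G y‖ₑ) + volume (ball (0 : E) R) * ((∫⁻ y, ‖G y‖ₑ) / ⊤))) := by
    refine tendsto_const_nhds.add (ENNReal.Tendsto.const_mul ?_ (Or.inr measure_ball_lt_top.ne))
    exact ENNReal.Tendsto.const_div vol_ball_top (Or.inr hA)
  rw [ENNReal.div_top, mul_zero, add_zero] at h1
  refine ge_of_tendsto h1 ?_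
  filter_upwards [eventually_ge_atTop 1] with m hm
  have hm' : 1 / ((n : ℝ) + 1) ≤ m := by
    have : (1 : ℝ) ≤ m := by exact_mod_cast hm
    refine le_trans ?_ this
    rw [div_le_one (by positivity)]
    linarith [Nat.cast_nonneg (α := ℝ) n]
  refine (h n _ measurableSet_ball m hm').trans ?_
  gcongr
  exact Measure.restrict_le_self

theorem MainBd.ac {C : ℝ≥0} {G : E → E} {u : ℕ → E → ℝ} (h : MainBd C G u)
    (hG : Integrable G) {K : Set E} (hK : IsCompact K) (h0 : volume K = 0) {ε : ℝ≥0∞}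
    (hε : 0 < ε) : ∃ V : Set E, IsOpen V ∧ K ⊆ V ∧
      ∀ᶠ n in atTop, ∫⁻ x in V, ‖fderiv ℝ (u n) x‖ₑ ≤ ε := by
  have hA : ∫⁻ y, ‖G y‖ₑ ≠ ⊤ := hG.2.ne
  set ν : Measure E := volume.withDensity fun y => ‖G y‖ₑ with hν
  have : IsFiniteMeasure ν := isFiniteMeasure_withDensity hA
  have hνK : ν K = 0 := withDensity_absolutelyContinuous _ _ h0
  have hε2 : 0 < ε / 2 := ENNReal.half_pos hε.ne'
  have t1 : Tendsto (fun r => (C : ℝ≥0∞) * ν (cthickening r K)) (𝓝 0) (𝓝 0) := by
    have := ENNReal.Tendsto.const_mul (a := (C : ℝ≥0∞))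
      (tendsto_measure_cthickening_of_isCompact (μ := ν) hK) (Or.inr ENNReal.coe_ne_top)
    rwa [hνK, mul_zero] at this
  obtain ⟨δ, hδ1, hδ⟩ : ∃ δ : ℝ, (C : ℝ≥0∞) * ν (cthickening (42 * δ) K) < ε / 2 ∧ 0 < δ := by
    have t2 : Tendsto (fun δ : ℝ => 42 * δ) (𝓝[>] 0) (𝓝 0) := by
      refine tendsto_nhdsWithin_of_tendsto_nhds ?_
      have : Continuous fun δ : ℝ => 42 * δ := by fun_prop
      simpa using this.tendsto 0
    exact (((t1.comp t2).eventually (gt_mem_nhds hε2)).and self_mem_nhdsWithin).exists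
  have hB : (∫⁻ y, ‖G y‖ₑ) / volume (ball (0 : E) δ) ≠ ⊤ :=
    ENNReal.div_ne_top hA (measure_ball_pos _ _ hδ).ne'
  have t3 : Tendsto (fun r => volume (cthickening r K) *
      ((∫⁻ y, ‖G y‖ₑ) / volume (ball (0 : E) δ))) (𝓝 0) (𝓝 0) := by
    have := ENNReal.Tendsto.mul_const
      (tendsto_measure_cthickening_of_isCompact (μ := (volume : Measure E)) hK) (Or.inr hB)
    rwa [h0, zero_mul] at this
  obtain ⟨η, ⟨hη1, hηδ⟩, hη⟩ : ∃ η : ℝ, (volume (cthickening η K) *
      ((∫⁻ y, ‖G y‖ₑ) / volume (ball (0 : E) δ)) < ε / 2 ∧ η < δ) ∧ 0 < η := by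
    have e1 := (t3.eventually (gt_mem_nhds hε2)).and (gt_mem_nhds hδ)
    exact ((e1.filter_mono (nhdsWithin_le_nhds (s := Ioi (0 : ℝ)))).and
      self_mem_nhdsWithin).exists
  refine ⟨thickening η K, isOpen_thickening, self_subset_thickening hη K, ?_⟩
  have t4 : Tendsto (fun n : ℕ => 1 / ((n : ℝ) + 1)) atTop (𝓝 0) :=
    tendsto_one_div_add_atTop_nhds_zero_nat
  filter_upwards [t4.eventually (ge_mem_nhds hδ)] with n hn
  refine (h n _ isOpen_thickening.measurableSet δ hn).trans ?_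
  rw [← ENNReal.add_halves ε]
  refine add_le_add (le_trans ?_ hδ1.le) (le_trans ?_ hη1.le)
  · gcongr
    rw [hν, withDensity_apply _ isClosed_cthickening.measurableSet]
    refine lintegral_mono_set ((thickening_thickening_subset _ _ _).trans ?_)
    exact (thickening_mono (by linarith) K).trans (thickening_subset_cthickening _ _)
  · gcongr
    exact thickening_subset_cthickening _ _

theorem ibp_lip {u φ : E → ℝ} {L : ℝ≥0} (hu : LipschitzWith L u) (hφ : ContDiff ℝ (⊤ : ℕ∞) φ)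
    (hc : HasCompactSupport φ) (v : E) :
    ∫ x, u x * fderiv ℝ φ x v = -∫ x, φ x * fderiv ℝ u x v := by
  obtain ⟨D, hD⟩ := ContDiff.lipschitzWith_of_hasCompactSupport hc hφ (by simp)
  have h1 := LipschitzWith.integral_lineDeriv_mul_eq (μ := (volume : Measure E)) hu hD hc v
  have h2 : ∫ x, lineDeriv ℝ u x v * φ x = ∫ x, φ x * fderiv ℝ u x v := by
    refine integral_congr_ae ?_
    filter_upwards [hu.ae_differentiableAt (μ := (volume : Measure E))] with x hx
    rw [hx.lineDeriv_eq_fderiv, mul_comm]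
  have h3 : ∫ x, lineDeriv ℝ φ x (-v) * u x = -∫ x, u x * fderiv ℝ φ x v := by
    rw [← integral_neg]
    refine integral_congr_ae (Eventually.of_forall fun x => ?_)
    simp only
    rw [(hφ.differentiable (by simp) x).lineDeriv_eq_fderiv, map_neg]; ring
  rw [← h2, h1, h3, neg_neg]

theorem tendsto_pair {u : ℕ → E → ℝ} {W ψ : E → ℝ} (hu : ∀ n, Continuous (u n))
    (hW : LocallyIntegrable W) (hψ : Continuous ψ) (hc : HasCompactSupport ψ)
    (hconv : ∀ R : ℝ, Tendsto (fun n => ∫⁻ x in ball (0 : E) R, ‖u n x - W x‖ₑ) atTop (𝓝 0)) :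
    Tendsto (fun n => ∫ x, u n x * ψ x) atTop (𝓝 (∫ x, W x * ψ x)) := by
  obtain ⟨R, hR⟩ := hc.isCompact.isBounded.subset_ball (0 : E)
  obtain ⟨M, hM⟩ := hc.exists_bound_of_continuous hψ
  have iW : Integrable fun x => W x * ψ x := by
    simpa [smul_eq_mul] using hW.integrable_smul_right_of_hasCompactSupport hψ hc
  have iu : ∀ n, Integrable fun x => u n x * ψ x := fun n =>
    ((hu n).mul hψ).integrable_of_hasCompactSupport hc.mul_left
  refine tendsto_integral_of_L1 _ iW.aestronglyMeasurable (Eventually.of_forall iu) ?_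
  have h1 := ENNReal.Tendsto.mul_const (b := ENNReal.ofReal M) (hconv R)
    (Or.inr ENNReal.ofReal_ne_top)
  rw [zero_mul] at h1
  refine tendsto_of_tendsto_of_tendsto_of_le_of_le tendsto_const_nhds h1 (fun _ => zero_le)
    fun n => ?_
  simp only
  rw [← lintegral_mul_const' _ _ ENNReal.ofReal_ne_top, ← lintegral_indicator measurableSet_ball]
  refine lintegral_mono fun x => ?_
  by_cases hx : x ∈ ball (0 : E) R
  · rw [indicator_of_mem hx, ← sub_mul, enorm_mul]
    gcongr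
    rw [← ofReal_norm]
    exact ENNReal.ofReal_le_ofReal (hM x)
  · have : ψ x = 0 := image_eq_zero_of_notMem_tsupport fun h => hx (hR h)
    simp [this]

theorem final_abs [Nontrivial E] {C : ℝ≥0} {G : E → E} {u : ℕ → E → ℝ} {W : E → ℝ}
    (h : MainBd C G u) (hG : Integrable G) (hlip : ∀ n, ∃ L : ℝ≥0, LipschitzWith L (u n))
    (hW : LocallyIntegrable W)
    (hconv : ∀ R : ℝ, Tendsto (fun n => ∫⁻ x in ball (0 : E) R, ‖u n x - W x‖ₑ) atTop (𝓝 0)) :
    ∃ G' : E → E, Integrable G' ∧ IsWeakGrad W G' ∧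
      ∫ x, ‖G' x‖ ≤ (3 * Module.finrank ℝ E * C) * ∫ x, ‖G x‖ := by
  have hA : ∫⁻ y, ‖G y‖ₑ ≠ ⊤ := hG.2.ne
  set b := stdOrthonormalBasis ℝ E with hb
  set M : ℝ≥0∞ := C * ∫⁻ y, ‖G y‖ₑ with hM
  have hMt : M ≠ ⊤ := ENNReal.mul_ne_top ENNReal.coe_ne_top hA
  have hb1 : ∀ n x i, |fderiv ℝ (u n) x (b i)| ≤ ‖fderiv ℝ (u n) x‖ := by
    intro n x i
    have := (fderiv ℝ (u n) x).le_opNorm (b i)
    rwa [b.orthonormal.1 i, mul_one] at this
  have gen : ∀ w : ℕ → E → ℝ, (∀ n, Measurable (w n)) → (∀ n x, 0 ≤ w n x) → ∀ k : ℕ, k ≠ 0 →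
      (∀ n x, w n x ≤ k * ‖fderiv ℝ (u n) x‖) →
      ∃ W : E → ℝ, Integrable W ∧ (∀ x, 0 ≤ W x) ∧ ∫⁻ x, ENNReal.ofReal (W x) ≤ k * M ∧
      ∀ φ : E → ℝ, Continuous φ → HasCompactSupport φ →
        Tendsto (fun n => ∫ x, φ x * w n x) (hyperfilter ℕ : Filter ℕ) (𝓝 (∫ x, φ x * W x)) := by
    intro w hm h0 k hk hle
    have hle' : ∀ n (V : Set E), ∫⁻ x in V, ENNReal.ofReal (w n x) ≤
        k * ∫⁻ x in V, ‖fderiv ℝ (u n) x‖ₑ := by
      intro n V
      rw [← lintegral_const_mul' _ _ (ENNReal.natCast_ne_top k)]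
      refine lintegral_mono fun x => ?_
      rw [← ofReal_norm, ← ENNReal.ofReal_natCast, ← ENNReal.ofReal_mul (Nat.cast_nonneg k)]
      exact ENNReal.ofReal_le_ofReal (hle n x)
    refine weak_limit w hm h0 (ENNReal.mul_ne_top (ENNReal.natCast_ne_top k) hMt) (fun n => ?_)
      fun K hK hK0 ε hε => ?_
    · have := hle' n univ
      simp only [Measure.restrict_univ] at this
      refine this.trans ?_
      gcongr
      exact h.glob hG n
    · obtain ⟨V, hV, hKV, hev⟩ := h.ac hG hK hK0 (ε := ε / k)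
        (ENNReal.div_pos hε.ne' (ENNReal.natCast_ne_top k))
      refine ⟨V, hV, hKV, hev.mono fun n hn => (hle' n V).trans ?_⟩
      calc (k : ℝ≥0∞) * ∫⁻ x in V, ‖fderiv ℝ (u n) x‖ₑ ≤ k * (ε / k) := by gcongr
        _ ≤ ε := ENNReal.mul_div_le
  obtain ⟨W0, i0, p0, m0, t0⟩ := gen (fun n x => ‖fderiv ℝ (u n) x‖)
    (fun n => (measurable_fderiv ℝ (u n)).norm) (fun n x => norm_nonneg _) 1 one_ne_zero
    (fun n x => by simp)
  have hi : ∀ i, ∃ W : E → ℝ, Integrable W ∧ (∀ x, 0 ≤ W x) ∧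
      ∫⁻ x, ENNReal.ofReal (W x) ≤ (2 : ℕ) * M ∧
      ∀ φ : E → ℝ, Continuous φ → HasCompactSupport φ →
        Tendsto (fun n => ∫ x, φ x * (‖fderiv ℝ (u n) x‖ + fderiv ℝ (u n) x (b i)))
          (hyperfilter ℕ : Filter ℕ) (𝓝 (∫ x, φ x * W x)) := fun i =>
    gen (fun n x => ‖fderiv ℝ (u n) x‖ + fderiv ℝ (u n) x (b i))
      (fun n => (measurable_fderiv ℝ (u n)).norm.add (measurable_fderiv_apply_const ℝ (u n) (b i)))
      (fun n x => by linarith [neg_abs_le (fderiv ℝ (u n) x (b i)), hb1 n x i]) 2 two_ne_zero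
      (fun n x => by push_cast; linarith [le_abs_self (fderiv ℝ (u n) x (b i)), hb1 n x i])
  choose Wi ii pi mi ti using hi
  have iG' : Integrable fun x => ∑ i, (Wi i x - W0 x) • b i :=
    integrable_finsetSum _ fun i _ => ((ii i).sub i0).smul_const (b i)
  refine ⟨fun x => ∑ i, (Wi i x - W0 x) • b i, iG', fun φ hφ hc v => ?_, ?_⟩
  · have hφc := hφ.continuous
    obtain ⟨B, hB⟩ := hc.exists_bound_of_continuous hφc
    have l1 : Tendsto (fun n => ∫ x, u n x * fderiv ℝ φ x v) (hyperfilter ℕ : Filter ℕ)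
        (𝓝 (∫ x, W x * fderiv ℝ φ x v)) := by
      refine (tendsto_pair (fun n => (hlip n).choose_spec.continuous) hW ?_ ?_ hconv).mono_left
        Nat.hyperfilter_le_atTop
      · have := hφ.continuous_fderiv (by simp)
        fun_prop
      · exact hc.fderiv_apply ℝ v
    have l2 : Tendsto (fun n => -∑ i, ⟪b i, v⟫ *
        ((∫ x, φ x * (‖fderiv ℝ (u n) x‖ + fderiv ℝ (u n) x (b i))) -
          ∫ x, φ x * ‖fderiv ℝ (u n) x‖)) (hyperfilter ℕ : Filter ℕ)
        (𝓝 (-∑ i, ⟪b i, v⟫ * ((∫ x, φ x * Wi i x) - ∫ x, φ x * W0 x))) :=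
      (tendsto_finsetSum _ fun i _ => ((ti i φ hφc hc).sub (t0 φ hφc hc)).const_mul _).neg
    have e1 : ∀ n, ∫ x, u n x * fderiv ℝ φ x v = -∑ i, ⟪b i, v⟫ *
        ((∫ x, φ x * (‖fderiv ℝ (u n) x‖ + fderiv ℝ (u n) x (b i))) -
          ∫ x, φ x * ‖fderiv ℝ (u n) x‖) := by
      intro n
      have iN : Integrable fun x => ‖fderiv ℝ (u n) x‖ := by
        refine ⟨(measurable_fderiv ℝ (u n)).norm.aestronglyMeasurable, ?_⟩
        simp only [HasFiniteIntegral, enorm_norm]
        exact (h.glob hG n).trans_lt hMt.lt_top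
      have iB : ∀ i, Integrable fun x => fderiv ℝ (u n) x (b i) := fun i =>
        iN.mono' (measurable_fderiv_apply_const ℝ (u n) (b i)).aestronglyMeasurable
          (Eventually.of_forall fun x => hb1 n x i)
      have bm : ∀ g : E → ℝ, Integrable g → Integrable fun x => φ x * g x := fun g hg =>
        hg.bdd_mul hφc.aestronglyMeasurable (Eventually.of_forall hB)
      rw [ibp_lip (hlip n).choose_spec hφ hc v]
      congr 1
      have e2 : ∀ i, ((∫ x, φ x * (‖fderiv ℝ (u n) x‖ + fderiv ℝ (u n) x (b i))) -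
          ∫ x, φ x * ‖fderiv ℝ (u n) x‖) = ∫ x, φ x * fderiv ℝ (u n) x (b i) := by
        intro i
        rw [← integral_sub (bm (fun x => ‖fderiv ℝ (u n) x‖ + fderiv ℝ (u n) x (b i))
          (iN.add (iB i))) (bm _ iN)]
        exact integral_congr_ae (Eventually.of_forall fun x => by simp only; ring)
      simp_rw [e2, ← integral_const_mul]
      rw [← integral_finsetSum _ fun i _ => (bm _ (iB i)).const_mul _]
      refine integral_congr_ae (Eventually.of_forall fun x => ?_)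
      simp only
      conv_lhs => rw [← b.sum_repr' v, map_sum, Finset.mul_sum]
      refine Finset.sum_congr rfl fun i _ => ?_
      rw [map_smul, smul_eq_mul]; ring
    have e3 : ∫ x, ⟪∑ i, (Wi i x - W0 x) • b i, v⟫ * φ x =
        ∑ i, ⟪b i, v⟫ * ((∫ x, φ x * Wi i x) - ∫ x, φ x * W0 x) := by
      have bm : ∀ g : E → ℝ, Integrable g → Integrable fun x => φ x * g x := fun g hg =>
        hg.bdd_mul hφc.aestronglyMeasurable (Eventually.of_forall hB)
      have e2 : ∀ i, ((∫ x, φ x * Wi i x) - ∫ x, φ x * W0 x) =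
          ∫ x, φ x * (Wi i x - W0 x) := by
        intro i
        rw [← integral_sub (bm _ (ii i)) (bm _ i0)]
        exact integral_congr_ae (Eventually.of_forall fun x => by simp only; ring)
      simp_rw [e2, ← integral_const_mul]
      rw [← integral_finsetSum _ fun i _ =>
        (bm (fun x => Wi i x - W0 x) ((ii i).sub i0)).const_mul _]
      refine integral_congr_ae (Eventually.of_forall fun x => ?_)
      simp only
      rw [sum_inner, Finset.sum_mul]
      refine Finset.sum_congr rfl fun i _ => ?_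
      rw [real_inner_smul_left]; ring
    rw [e3]
    exact tendsto_nhds_unique l1 (by simpa only [e1] using l2)
  · have hMr : M.toReal = C * ∫ x, ‖G x‖ := by
      rw [hM, ENNReal.toReal_mul, integral_norm_eq_lintegral_enorm hG.1]; simp
    have q : ∀ (g : E → ℝ) (k : ℕ), Integrable g → (∀ x, 0 ≤ g x) →
        ∫⁻ x, ENNReal.ofReal (g x) ≤ k * M → ∫ x, g x ≤ k * M.toReal := by
      intro g k hg h0 hle
      rw [integral_eq_lintegral_of_nonneg_ae (Eventually.of_forall h0) hg.1]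
      refine (ENNReal.toReal_mono (ENNReal.mul_ne_top (ENNReal.natCast_ne_top k) hMt) hle).trans ?_
      rw [ENNReal.toReal_mul]; simp
    calc ∫ x, ‖∑ i, (Wi i x - W0 x) • b i‖ ≤ ∫ x, ∑ i, (Wi i x + W0 x) := by
          refine integral_mono iG'.norm (integrable_finsetSum _ fun i _ => (ii i).add i0)
            fun x => ?_
          refine (norm_sum_le _ _).trans (Finset.sum_le_sum fun i _ => ?_)
          rw [norm_smul, b.orthonormal.1 i, mul_one, Real.norm_eq_abs, abs_le]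
          constructor <;> linarith [pi i x, p0 x]
      _ = ∑ i, ((∫ x, Wi i x) + ∫ x, W0 x) := by
          rw [integral_finsetSum (f := fun i x => Wi i x + W0 x) _ fun i _ => (ii i).add i0]
          exact Finset.sum_congr rfl fun i _ => integral_add (ii i) i0
      _ ≤ ∑ _i : Fin (Module.finrank ℝ E), 3 * M.toReal := by
          refine Finset.sum_le_sum fun i _ => ?_
          have a1 := q _ 2 (ii i) (pi i) (mi i)
          have a2 := q _ 1 i0 p0 m0
          push_cast at a1 a2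
          linarith
      _ = _ := by
          rw [Finset.sum_const, Finset.card_univ, Fintype.card_fin, hMr, nsmul_eq_mul]; ring

end Vale.Agent.P137
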