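import Vale.Agent.P137.CMain
import Vale.Agent.P137.CConv
import Vale.Agent.P137.FinalA

open MeasureTheory Metric Set Filter Topology
open scoped ENNReal NNReal RealInnerProductSpace

noncomputable section

namespace Vale.Agent.P137

set_option linter.unusedSectionVars false

variable {E : Type*} [NormedAddCommGroup E] [InnerProductSpace ℝ E] [FiniteDimensional ℝ E]
  [MeasurableSpace E] [BorelSpace E]

theorem final_centered [Nontrivial E] : ∃ C : ℝ, ∀ (f : E → ℝ) (G : E → E), Integrable f →
    Integrable G → IsWeakGrad f G →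
      (∀ᵐ x, cMax f x < ⊤) ∧ LocallyIntegrable (MC f) ∧
        ∃ G' : E → E, Integrable G' ∧ IsWeakGrad (MC f) G' ∧
          ∫ x, ‖G' x‖ ≤ C * ∫ x, ‖G x‖ := by
  obtain ⟨C, hC⟩ := main_centered (E := E)
  refine ⟨3 * Module.finrank ℝ E * C * 5 ^ Module.finrank ℝ E, fun f G hf hG hw => ?_⟩
  have hA : ∫⁻ y, ‖G y‖ₑ ≠ ⊤ := hG.2.ne
  have hloc : ∀ R : ℝ, ∫⁻ x in ball (0 : E) R, cMax f x < ⊤ := fun R =>
    (lintegral_mono (cMax_le_uMax f)).trans_lt (uMax_loc hf hA (trans_weak hf hG hw) R)
  have hm := measurable_cMax f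
  have hli : LocallyIntegrable (MC f) := by
    intro x
    refine ⟨ball 0 (‖x‖ + 1), isOpen_ball.mem_nhds (by simp), ?_⟩
    exact integrable_toReal_of_lintegral_ne_top hm.aemeasurable (hloc _).ne
  set c : ℝ := 5 ^ Module.finrank ℝ E with hc
  have hc1 : 1 ≤ c := one_le_pow₀ (by norm_num)
  have e1 : ∀ S : Set E, ∫⁻ y in S, ‖c • G y‖ₑ = ENNReal.ofReal c * ∫⁻ y in S, ‖G y‖ₑ := fun S => by
    rw [← lintegral_const_mul' _ _ ENNReal.ofReal_ne_top]
    exact lintegral_congr fun y => by rw [enorm_smul, Real.enorm_eq_ofReal (by linarith)]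
  have hb : MainBd C (fun y => c • G y) fun n => MC (apx n f) := by
    intro n K hK δ hδ
    have hδ0 : 0 < δ := lt_of_lt_of_le (by positivity) hδ
    have hU : K = ⋃ m : ℕ, K ∩ ball 0 m := by rw [← inter_iUnion, iUnion_ball_nat, inter_univ]
    conv_lhs => rw [hU]
    rw [setLIntegral_iUnion_of_directed _ (Monotone.directed_le fun a b hab =>
      inter_subset_inter_right _ (ball_subset_ball (by exact_mod_cast hab)))]
    refine iSup_le fun m => (hC _ (apx_nice hf hG hw n) _ (hK.inter measurableSet_ball)
      (isBounded_ball.subset inter_subset_right) (δ / 5) (by positivity)).trans ?_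
    refine add_le_add (mul_le_mul_right ?_ _) (mul_le_mul' (measure_mono inter_subset_left) ?_)
    · refine (apx_grad_le hf hG hw n isOpen_thickening.measurableSet).trans ?_
      rw [e1]
      refine le_trans (lintegral_mono_set ((thickening_thickening_subset _ _ _).trans ?_))
        (le_mul_of_one_le_left zero_le (ENNReal.one_le_ofReal.2 hc1))
      exact (thickening_mono (by linarith) _).trans (thickening_subset_of_subset _ inter_subset_left)
    · have h1 := apx_grad_le hf hG hw n MeasurableSet.univ
      rw [Measure.restrict_univ] at h1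
      have h2 := e1 univ
      rw [Measure.restrict_univ] at h2
      have h3 : volume (ball (0 : E) δ) = ENNReal.ofReal c * volume (ball (0 : E) (δ / 5)) := by
        rw [hc, ← Measure.addHaar_ball_mul_of_pos _ (0 : E) (by norm_num : (0 : ℝ) < 5)]
        congr 2; ring
      rw [h2, h3, ENNReal.mul_div_mul_left _ _ (by simp; linarith) ENNReal.ofReal_ne_top]
      exact ENNReal.div_le_div_right (h1.trans (setLIntegral_le_lintegral _ _)) _
  obtain ⟨G', i1, i2, i3⟩ := final_abs hb (hG.smul c)
    (fun n => MC_lipschitz (apx_nice hf hG hw n)) hli (MC_apx_tendsto hf hG hw)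
  refine ⟨?_, hli, G', i1, i2, i3.trans_eq ?_⟩
  · rw [← Measure.restrict_univ (μ := (volume : Measure E)), ← iUnion_ball_nat (0 : E),
      ae_restrict_iUnion_iff]
    exact fun n => ae_lt_top hm (hloc _).ne
  · simp only [norm_smul, integral_const_mul, Real.norm_of_nonneg (zero_le_one.trans hc1)]
    ring

end Vale.Agent.P137
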