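import Vale.Agent.P137.Line

open MeasureTheory Metric Set Filter Topology
open scoped ENNReal NNReal RealInnerProductSpace

noncomputable section

namespace Vale.Agent.P137

set_option linter.unusedSectionVars false

variable {E : Type*} [NormedAddCommGroup E] [InnerProductSpace ℝ E] [FiniteDimensional ℝ E]
  [MeasurableSpace E] [BorelSpace E]

/-- One-dimensional form: crossings of `g` followed by a crossing of `φ`. -/
theorem theta_line {φ g g' : ℝ → ℝ} (hφ : ContDiff ℝ 1 φ) {Y O : Set ℝ} (hY : MeasurableSet Y)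
    (hO : IsOpen O)
    (h : ∀ x ∈ Y, HasDerivAt g (g' x) x ∧ 0 < g' x ∧ φ x < g x ∧ ∃ t, 0 < t ∧ Icc x (x + t) ⊆ O ∧
      g x < φ (x + t) ∧ ∀ s ∈ Icc 0 t, g x ≤ g (x + s)) :
    ∫⁻ x in Y, ENNReal.ofReal |g' x| ≤ ∫⁻ x in O, ‖deriv φ x‖ₑ := by
  rcases eq_or_ne (∫⁻ x in O, ‖deriv φ x‖ₑ) ⊤ with htop | htop
  · rw [htop]; exact le_top
  have hc : Continuous (deriv φ) := hφ.continuous_deriv le_rfl
  have hdiff : Differentiable ℝ φ := hφ.differentiable (by norm_num)
  have hm : Continuous fun x => max (deriv φ x) 0 := hc.max continuous_const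
  set ψ : ℝ → ℝ := O.indicator fun x => max (deriv φ x) 0 with hψ
  have hψ0 : ∀ x, 0 ≤ ψ x := fun x => indicator_nonneg (fun y _ => le_max_right _ _) x
  have hψm : Measurable ψ := hm.measurable.indicator hO.measurableSet
  have hle : ∫⁻ x, ENNReal.ofReal (ψ x) ≤ ∫⁻ x in O, ‖deriv φ x‖ₑ := by
    rw [← lintegral_indicator hO.measurableSet]
    refine lintegral_mono fun x => ?_
    by_cases hx : x ∈ O
    · simp only [hψ, indicator_of_mem hx]
      rw [← ofReal_norm]
      exact ENNReal.ofReal_le_ofReal (max_le (le_abs_self _) (norm_nonneg _))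
    · simp [hψ, hx]
  have hint : Integrable ψ := ⟨hψm.aestronglyMeasurable,
    (hasFiniteIntegral_iff_ofReal (Eventually.of_forall hψ0)).2 (hle.trans_lt htop.lt_top)⟩
  set P : ℝ → ℝ := fun x => ∫ s in Iic x, ψ s with hP
  have hPs : ∀ a b, P b - P a = ∫ s in a..b, ψ s := fun a b =>
    intervalIntegral.integral_Iic_sub_Iic hint.integrableOn hint.integrableOn
  have hP0 : ∀ x, 0 ≤ P x := fun x => integral_nonneg fun s => hψ0 s
  have hP1 : ∀ x, P x ≤ ∫ s, ψ s := fun x =>
    setIntegral_le_integral hint (Eventually.of_forall hψ0)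
  have hPm : ∀ a b, a ≤ b → P a ≤ P b := fun a b hab => by
    have := intervalIntegral.integral_nonneg (μ := volume) hab fun s _ => hψ0 s
    linarith [hPs a b]
  have hPφ : ∀ a b, a ≤ b → Icc a b ⊆ O → φ b - φ a ≤ P b - P a := fun a b hab hs => by
    rw [hPs, ← intervalIntegral.integral_deriv_eq_sub (fun x _ => hdiff x)
      (hc.intervalIntegrable _ _)]
    refine intervalIntegral.integral_mono_on hab (hc.intervalIntegrable _ _)
      hint.intervalIntegrable fun s hs' => ?_
    simp only [hψ, indicator_of_mem (hs hs')]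
    exact le_max_left _ _
  have hPd : ∀ x ∈ O, HasDerivAt P (max (deriv φ x) 0) x := fun x hx => by
    have hev : ψ =ᶠ[𝓝 x] fun x => max (deriv φ x) 0 := by
      filter_upwards [hO.mem_nhds hx] with y hy
      simp only [hψ, indicator_of_mem hy]
    have h1 := intervalIntegral.integral_hasDerivAt_right (a := 0) (b := x)
      hint.intervalIntegrable hψm.stronglyMeasurable.stronglyMeasurableAtFilter
      (hm.continuousAt.congr hev.symm)
    have h2 : P = fun y => P 0 + ∫ s in (0 : ℝ)..y, ψ s := by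
      funext y; rw [← hPs]; ring
    have h3 : ψ x = max (deriv φ x) 0 := hev.self_of_nhds
    rw [h2, ← h3]
    exact h1.const_add _
  have hYO : ∀ x ∈ Y, x ∈ O := fun x hx => by
    obtain ⟨-, -, -, t, ht, hs, -⟩ := h x hx
    exact hs ⟨le_rfl, by linarith⟩
  have key : ∀ x ∈ Y, ∀ x' ∈ Y, x < x' → P x + g x - φ x ≠ P x' + g x' - φ x' := by
    intro x hx x' hx' hlt heq
    obtain ⟨-, -, -, t, ht, hs, h1, h2⟩ := h x hx
    obtain ⟨hd', hp', hl', -⟩ := h x' hx'
    rcases le_or_gt x' (x + t) with hc' | hc'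
    · have a1 := hPφ x x' hlt.le ((Icc_subset_Icc_right hc').trans hs)
      have := Line.left_min hd' hlt fun y hy => by
        have := h2 (y - x) ⟨by linarith [hy.1], by linarith [hy.2]⟩
        rw [add_sub_cancel] at this
        linarith
      linarith
    · have a1 := hPφ x (x + t) (by linarith) hs
      have a2 := hPm (x + t) x' hc'.le
      linarith
  have harea := Line.area (g := fun x => P x + g x - φ x)
    (g' := fun x => max (deriv φ x) 0 + g' x - deriv φ x) hY
    (fun x hx => ((hPd x (hYO x hx)).add (h x hx).1).sub (hdiff x).hasDerivAt)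
    fun x hx x' hx' heq => by
      rcases lt_trichotomy x x' with h | h | h
      · exact absurd heq (key x hx x' hx' h)
      · exact h
      · exact absurd heq.symm (key x' hx' x hx h)
  have hsub : (fun x => P x + g x - φ x) '' Y ⊆ Icc 0 (∫ s, ψ s) := by
    rintro _ ⟨x, hx, rfl⟩
    obtain ⟨-, -, hl, t, ht, hs, h1, -⟩ := h x hx
    have a1 := hPφ x (x + t) (by linarith) hs
    exact ⟨by linarith [hP0 x], by linarith [hP1 (x + t)]⟩
  calc ∫⁻ x in Y, ENNReal.ofReal |g' x|
      ≤ ∫⁻ x in Y, ENNReal.ofReal |max (deriv φ x) 0 + g' x - deriv φ x| := by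
        refine setLIntegral_mono' hY fun x hx => ENNReal.ofReal_le_ofReal ?_
        rw [abs_of_pos (h x hx).2.1]
        refine le_trans ?_ (le_abs_self _)
        linarith [le_max_left (deriv φ x) 0]
    _ ≤ volume (Icc 0 (∫ s, ψ s)) := harea.le.trans (measure_mono hsub)
    _ = ∫⁻ x, ENNReal.ofReal (ψ x) := by
        rw [Real.volume_Icc, sub_zero,
          ofReal_integral_eq_lintegral_ofReal hint (Eventually.of_forall hψ0)]
    _ ≤ _ := hle

theorem Theta.hasDeriv_line {u : E → ℝ} {ξ e : E} {t : ℝ}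
    (h : DifferentiableAt ℝ u (ξ + t • e)) :
    HasDerivAt (fun t : ℝ => u (ξ + t • e)) (fderiv ℝ u (ξ + t • e) e) t := by
  have h1 : HasDerivAt (fun t : ℝ => ξ + t • e) e t := by
    simpa using ((hasDerivAt_id t).smul_const e).const_add ξ
  exact h.hasFDerivAt.comp_hasDerivAt t h1

theorem a1_le {f u : E → ℝ} (hf : ContDiff ℝ 1 f) (hu : Continuous u) {e : E} (he : ‖e‖ = 1)
    {K : Set E} (hK : MeasurableSet K) {T : ℝ} (hT : 0 < T) :
    ∫⁻ x in K ∩ A1 f u e T ∩ {x | DifferentiableAt ℝ u x ∧ f x < u x ∧ 0 < fderiv ℝ u x e},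
        ENNReal.ofReal |fderiv ℝ u x e| ≤
      ∫⁻ y in thickening (2 * T) K, ‖fderiv ℝ f y‖ₑ := by
  set W := K ∩ A1 f u e T ∩ {x | DifferentiableAt ℝ u x ∧ f x < u x ∧ 0 < fderiv ℝ u x e} with hW
  have hD : Measurable fun x => fderiv ℝ u x e := measurable_fderiv_apply_const ℝ u e
  have hWm : MeasurableSet W :=
    (hK.inter (measurableSet_A1 hf.continuous hu e T)).inter
      ((measurableSet_of_differentiableAt ℝ u).inter
        ((isOpen_lt hf.continuous hu).measurableSet.inter (measurableSet_lt measurable_const hD)))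
  have hTm : MeasurableSet (thickening (2 * T) K) := isOpen_thickening.measurableSet
  have s1 := slab_formula ((hD.abs.ennreal_ofReal).indicator hWm) he 0 one_pos
  have s2 := slab_formula ((measurable_fderiv ℝ f).enorm.indicator hTm) he 0 one_pos
  rw [ENNReal.ofReal_one, one_mul, lintegral_indicator hWm] at s1
  rw [ENNReal.ofReal_one, one_mul, lintegral_indicator hTm] at s2
  rw [s1, s2]
  refine lintegral_mono fun ξ => ?_
  have hl : Continuous fun t : ℝ => ξ + t • e := by fun_prop
  set Y : Set ℝ := (fun t : ℝ => ξ + t • e) ⁻¹' W with hY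
  set O : Set ℝ := (fun t : ℝ => ξ + t • e) ⁻¹' thickening (2 * T) K with hO
  have hYm : MeasurableSet Y := hl.measurable hWm
  have hOo : IsOpen O := isOpen_thickening.preimage hl
  have e0 : ∫⁻ t : ℝ, W.indicator (fun x => ENNReal.ofReal |fderiv ℝ u x e|) (ξ + t • e) =
      ∫⁻ t in Y, ENNReal.ofReal |fderiv ℝ u (ξ + t • e) e| := by
    rw [← lintegral_indicator hYm]
    rfl
  have e1 : ∫⁻ t : ℝ, (thickening (2 * T) K).indicator (fun x => ‖fderiv ℝ f x‖ₑ) (ξ + t • e) =
      ∫⁻ t in O, ‖fderiv ℝ f (ξ + t • e)‖ₑ := by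
    rw [← lintegral_indicator hOo.measurableSet]
    rfl
  have hφ : ContDiff ℝ 1 fun t : ℝ => f (ξ + t • e) := hf.comp (by fun_prop)
  have e2 : ∀ x s : ℝ, ξ + (x + s) • e = ξ + x • e + s • e := fun x s => by
    rw [add_smul, add_assoc]
  have k := theta_line (g := fun t : ℝ => u (ξ + t • e))
    (g' := fun t => fderiv ℝ u (ξ + t • e) e) hφ hYm hOo fun x hx => by
      obtain ⟨⟨hxK, t, ht, h1, h2⟩, hd, hl', hp⟩ := hx
      refine ⟨Theta.hasDeriv_line hd, hp, hl', t, ht.1, fun y hy => ?_, by rwa [e2],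
        fun s hs => by rw [e2]; exact h2 s hs⟩
      refine mem_thickening_iff.2 ⟨_, hxK, ?_⟩
      rw [dist_add_left, dist_eq_norm, ← sub_smul, norm_smul, he, mul_one, Real.norm_eq_abs,
        abs_of_nonneg (by linarith [hy.1])]
      linarith [hy.2, ht.2]
  beta_reduce
  rw [e0, e1]
  refine k.trans (lintegral_mono fun t => ?_)
  beta_reduce
  rw [(Theta.hasDeriv_line (hf.differentiable (by norm_num) _)).deriv, ← ofReal_norm, ← ofReal_norm]
  refine ENNReal.ofReal_le_ofReal ?_
  simpa [he] using (fderiv ℝ f (ξ + t • e)).le_opNorm e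

end Vale.Agent.P137
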