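import Vale.Agent.P137.CScale
import Vale.Agent.P137.Theta

open MeasureTheory Metric Set Filter Topology
open scoped ENNReal NNReal RealInnerProductSpace

noncomputable section

namespace Vale.Agent.P137

set_option linter.unusedSectionVars false

variable {E : Type*} [NormedAddCommGroup E] [InnerProductSpace ℝ E] [FiniteDimensional ℝ E]
  [MeasurableSpace E] [BorelSpace E]

theorem CMain.scale {δ r : ℝ} (hr : 0 < r) (h : r < δ) : ∃ (q : Fin 12) (j : ℕ),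
    r ∈ Icc (δ / 2 ^ ((q : ℕ) + 1) / 4096 ^ j) (2 * (δ / 2 ^ ((q : ℕ) + 1) / 4096 ^ j)) := by
  obtain ⟨n, h1, h2⟩ := exists_nat_pow_near (x := δ / r) (y := 2)
    ((one_le_div hr).2 h.le) one_lt_two
  refine ⟨⟨n % 12, Nat.mod_lt _ (by norm_num)⟩, n / 12, ?_⟩
  have e : δ / 2 ^ (n % 12 + 1) / 4096 ^ (n / 12) = δ / 2 ^ (n + 1) := by
    rw [div_div, show (4096 : ℝ) = 2 ^ 12 by norm_num, ← pow_mul, ← pow_add]
    congr 2
    omega
  simp only [e]
  rw [div_lt_iff₀ hr] at h2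
  rw [le_div_iff₀ hr] at h1
  constructor
  · rw [div_le_iff₀ (by positivity)]; linarith
  · rw [pow_succ, ← mul_div_assoc, le_div_iff₀ (by positivity)]; nlinarith

theorem main_centered [Nontrivial E] : ∃ C : ℝ≥0, ∀ (f : E → ℝ), Nice f →
    ∀ (K : Set E), MeasurableSet K → Bornology.IsBounded K → ∀ δ : ℝ, 0 < δ →
      ∫⁻ x in K, ‖fderiv ℝ (MC f) x‖ₑ ≤ C * (∫⁻ y in thickening (200 * δ) K, ‖fderiv ℝ f y‖ₑ) +
        volume K * ((∫⁻ y, ‖fderiv ℝ f y‖ₑ) / volume (ball (0 : E) δ)) := by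
  obtain ⟨S, hS1, hS⟩ := exists_net E (show (0 : ℝ) < 1 / 24 by norm_num)
  obtain ⟨C, hC⟩ := scale_le S hS1 hS
  refine ⟨1 + S.card * 12 + 12 * C, fun f hf K hK hKb δ hδ => ?_⟩
  obtain ⟨L, hL⟩ := MC_lipschitz hf
  have hu := hL.continuous
  have hg : Measurable fun y => ‖fderiv ℝ f y‖ₑ := (measurable_fderiv ℝ f).enorm
  set G := (∫⁻ y, ‖fderiv ℝ f y‖ₑ) / volume (ball (0 : E) δ) with hG
  set I := ∫⁻ y in thickening (200 * δ) K, ‖fderiv ℝ f y‖ₑ with hI
  set K₁ := {x ∈ K | ‖fderiv ℝ (MC f) x‖ₑ ≤ ‖fderiv ℝ f x‖ₑ + G} with hK₁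
  set K₂ : S → Set E := fun e => (K ∩ A1 f (MC f) e (5 * δ) ∩ {x | DifferentiableAt ℝ (MC f) x ∧
    f x < MC f x ∧ 0 < fderiv ℝ (MC f) x e}) ∩
      {x | ‖fderiv ℝ (MC f) x‖ ≤ 12 * fderiv ℝ (MC f) x e} with hK₂
  set K₃ : Fin 12 → ℕ → Set E := fun q j =>
    (K ∩ Xs f (MC f) (δ / 2 ^ ((q : ℕ) + 1) / 4096 ^ j)) \ Z1 f (MC f) S (5 * δ) with hK₃
  have hcov : K ≤ᵐ[volume] ((K₁ ∪ ⋃ e, K₂ e) ∪ ⋃ q, ⋃ j, K₃ q j : Set E) := by
    filter_upwards [hL.ae_differentiableAt] with x hd hx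
    rcases (le_MC hf x).eq_or_lt with h | h
    · exact Or.inl (Or.inl ⟨hx, by rw [fderiv_MC_of_eq hf h.symm hd]; exact le_self_add⟩)
    by_cases h0 : fderiv ℝ (MC f) x = 0
    · exact Or.inl (Or.inl ⟨hx, by
        rw [← ofReal_norm, h0, norm_zero, ENNReal.ofReal_zero]; exact zero_le⟩)
    obtain ⟨r, hr, hopt⟩ := exists_optC hf h
    rcases le_or_gt δ r with h2 | h2
    · refine Or.inl (Or.inl ⟨hx, (fderiv_MC_le hf hr hopt).trans (le_add_left ?_)⟩)
      exact ENNReal.div_le_div_left (measure_mono (ball_subset_ball h2)) _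
    by_cases hZ : x ∈ Z1 f (MC f) S (5 * δ)
    · obtain ⟨e, he, hA, hle⟩ := hZ
      have := norm_pos_iff.2 h0
      exact Or.inl (Or.inr (mem_iUnion.2 ⟨⟨e, he⟩, ⟨⟨hx, hA⟩, hd, h, by
        show 0 < fderiv ℝ (MC f) x e
        linarith⟩, hle⟩))
    · obtain ⟨q, j, hq⟩ := CMain.scale hr h2
      exact Or.inr (mem_iUnion.2 ⟨q, mem_iUnion.2 ⟨j, ⟨hx, hd, h, r, hq, hopt⟩, hZ⟩⟩)
  have h1 : ∫⁻ x in K₁, ‖fderiv ℝ (MC f) x‖ₑ ≤ I + volume K * G := by
    calc _ ≤ ∫⁻ x in K₁, (‖fderiv ℝ f x‖ₑ + G) :=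
          setLIntegral_mono (hg.add_const _) fun x hx => hx.2
      _ ≤ ∫⁻ x in K, (‖fderiv ℝ f x‖ₑ + G) := lintegral_mono_set fun x hx => hx.1
      _ = (∫⁻ x in K, ‖fderiv ℝ f x‖ₑ) + volume K * G := by
          rw [lintegral_add_left hg, setLIntegral_const, mul_comm]
      _ ≤ _ := by
          gcongr
          exact lintegral_mono_set (self_subset_thickening (by positivity) K)
  have h2 : ∀ e, ∫⁻ x in K₂ e, ‖fderiv ℝ (MC f) x‖ₑ ≤ 12 * I := fun e => by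
    have hD : Measurable fun x => fderiv ℝ (MC f) x e := measurable_fderiv_apply_const ℝ _ _
    calc _ ≤ ∫⁻ x in K₂ e, 12 * ENNReal.ofReal |fderiv ℝ (MC f) x e| := by
          refine setLIntegral_mono ((hD.abs.ennreal_ofReal).const_mul 12) fun x hx => ?_
          rw [← ofReal_norm, abs_of_pos hx.1.2.2.2]
          refine (ENNReal.ofReal_le_ofReal hx.2).trans (le_of_eq ?_)
          rw [ENNReal.ofReal_mul (by norm_num)]
          simp
      _ ≤ 12 * I := by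
          rw [lintegral_const_mul' _ _ (by norm_num)]
          gcongr
          refine (lintegral_mono_set inter_subset_left).trans
            ((a1_le hf.smooth hu (hS1 e e.2) hK (by positivity)).trans (lintegral_mono_set ?_))
          exact thickening_mono (by linarith) K
  have h3 : ∀ q, ∑' j, ∫⁻ x in K₃ q j, ‖fderiv ℝ (MC f) x‖ₑ ≤ C * I := fun q => by
    have hle : δ / 2 ^ ((q : ℕ) + 1) ≤ δ := div_le_self hδ.le (one_le_pow₀ one_le_two)
    refine (hC f (MC f) hf hu (fun x r hr => av_le_MC hf x hr) K hK hKb _ (5 * δ)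
      (by positivity) (by linarith)).trans ?_
    gcongr
    exact lintegral_mono_set (thickening_mono (by linarith) K)
  calc ∫⁻ x in K, ‖fderiv ℝ (MC f) x‖ₑ
      ≤ ∫⁻ x in (K₁ ∪ ⋃ e, K₂ e) ∪ ⋃ q, ⋃ j, K₃ q j, ‖fderiv ℝ (MC f) x‖ₑ :=
        lintegral_mono_set' hcov
    _ ≤ ((I + volume K * G) + ∑' _e : S, 12 * I) + ∑' _q : Fin 12, C * I := by
        refine (lintegral_union_le _ _ _).trans (add_le_add ((lintegral_union_le _ _ _).trans
          (add_le_add h1 ((lintegral_iUnion_le _ _).trans (ENNReal.tsum_le_tsum h2)))) ?_)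
        exact (lintegral_iUnion_le _ _).trans
          (ENNReal.tsum_le_tsum fun q => (lintegral_iUnion_le _ _).trans (h3 q))
    _ = _ := by
        simp only [tsum_fintype, Finset.sum_const, Finset.card_univ, Fintype.card_coe,
          Fintype.card_fin, nsmul_eq_mul]
        push_cast
        ring

end Vale.Agent.P137
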