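import Vale.Agent.P137.CDefs

open MeasureTheory Metric Set Filter Topology
open scoped ENNReal NNReal RealInnerProductSpace

noncomputable section

namespace Vale.Agent.P137

set_option linter.unusedSectionVars false

variable {E : Type*} [NormedAddCommGroup E] [InnerProductSpace ℝ E] [FiniteDimensional ℝ E]
  [MeasurableSpace E] [BorelSpace E]

namespace COpt

open OptAux

theorem cMax_le {f : E → ℝ} (hf : Nice f) {x : E} {t : ℝ}
    (h : ∀ r, 0 < r → av f x r ≤ t) : cMax f x ≤ ENNReal.ofReal t :=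
  iSup_le fun r => iSup_le fun hr => by
    rw [q_eq hf x hr]
    exact ENNReal.ofReal_le_ofReal (h r hr)

theorem MC_le {f : E → ℝ} (hf : Nice f) {x : E} {t : ℝ}
    (h : ∀ r, 0 < r → av f x r ≤ t) : MC f x ≤ t :=
  ENNReal.toReal_le_of_le_ofReal ((av_nonneg hf x 1).trans (h 1 one_pos)) (cMax_le hf h)

theorem cMax_ne {f : E → ℝ} (hf : Nice f) (x : E) : cMax f x ≠ ⊤ :=
  ne_top_of_le_ne_top ENNReal.ofReal_ne_top (cMax_le hf (t := U f x) fun _ hr =>
    av_le_U hf (mem_ball_self hr))

theorem int_shift' {F : Type*} [NormedAddCommGroup F] [NormedSpace ℝ F] (q : E → F) (x : E)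
    (r : ℝ) : ∫ y in ball x r, q y = ∫ y in ball (0 : E) r, q (x + y) := by
  rw [← (measurePreserving_add_left volume x).setIntegral_preimage_emb
    (measurableEmbedding_addLeft x)]
  congr 2
  ext y; simp [mem_ball, dist_eq_norm]

end COpt

open COpt OptAux

theorem av_le_MC {f : E → ℝ} (hf : Nice f) (x : E) {r : ℝ} (hr : 0 < r) : av f x r ≤ MC f x := by
  rw [MC, ← ENNReal.ofReal_le_iff_le_toReal (cMax_ne hf x), ← q_eq hf x hr]
  exact le_iSup_of_le r (le_iSup_of_le hr le_rfl)

theorem MC_lipschitz {f : E → ℝ} (hf : Nice f) : ∃ L : ℝ≥0, LipschitzWith L (MC f) := by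
  obtain ⟨L, hL⟩ := hf.lip
  refine ⟨L, LipschitzWith.of_le_add_mul L fun x y => MC_le hf fun r hr => ?_⟩
  have h2 := av_le_MC hf y hr
  have h3 := A_lip hL (x, r) (y, r)
  rw [av_eq_A f _ hr] at h2 ⊢
  simp only [sub_self, abs_zero, add_zero] at h3
  rw [dist_eq_norm]
  linarith [le_abs_self (A f (x, r) - A f (y, r))]

theorem le_MC {f : E → ℝ} (hf : Nice f) (x : E) : f x ≤ MC f x := by
  rw [← A_zero f x]
  have h1 : Tendsto (fun s => A f (x, s)) (𝓝[>] 0) (𝓝 (A f (x, 0))) :=
    (((A_cont hf).comp (Continuous.prodMk_right x)).tendsto 0).mono_left nhdsWithin_le_nhds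
  refine le_of_tendsto h1 ?_
  filter_upwards [self_mem_nhdsWithin] with s hs
  rw [← av_eq_A f x hs]
  exact av_le_MC hf x hs

theorem exists_optC [Nontrivial E] {f : E → ℝ} (hf : Nice f) {x : E} (hx : f x < MC f x) :
    ∃ r, 0 < r ∧ MC f x = av f x r := by
  have h0 : 0 < MC f x := (hf.nonneg x).trans_lt hx
  have hv := vpos (0 : E) one_pos
  have hI : 0 ≤ ∫ y, f y := integral_nonneg hf.nonneg
  set R := 1 + 2 * (∫ y, f y) / (MC f x * volume.real (ball (0 : E) 1)) with hR
  have hR1 : 1 ≤ R := le_add_of_nonneg_right (by positivity)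
  have big : ∀ r, R ≤ r → av f x r ≤ MC f x / 2 := by
    intro r hr
    have hr0 : 0 < r := by linarith
    have h4 : volume.real (ball x r) = r ^ Module.finrank ℝ E * volume.real (ball (0 : E) 1) := by
      rw [Measure.real, Measure.addHaar_ball_of_pos _ _ hr0, ENNReal.toReal_mul,
        ENNReal.toReal_ofReal (by positivity)]; rfl
    have h5 : r ≤ r ^ Module.finrank ℝ E :=
      le_self_pow₀ (by linarith) Module.finrank_pos.ne'
    have h6 : 2 * (∫ y, f y) ≤ r * (MC f x * volume.real (ball (0 : E) 1)) := by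
      rw [← div_le_iff₀ (by positivity)]; linarith
    rw [av_eq, div_le_iff₀ (vpos x hr0), h4]
    refine (setIntegral_le_integral hf.integrable (Eventually.of_forall hf.nonneg)).trans ?_
    nlinarith [mul_le_mul_of_nonneg_right h5 (mul_pos h0 hv).le]
  obtain ⟨r, hr, hm⟩ := (isCompact_Icc (a := (0 : ℝ)) (b := R)).exists_isMaxOn
    ⟨0, le_rfl, by linarith⟩ ((A_cont hf).comp (Continuous.prodMk_right x)).continuousOn
  have h1 : MC f x ≤ max (A f (x, r)) (MC f x / 2) := MC_le hf fun s hs => by
    rcases le_total R s with h | h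
    · exact (big s h).trans (le_max_right _ _)
    · rw [av_eq_A f x hs]
      exact le_trans (hm (⟨hs.le, h⟩ : s ∈ Icc 0 R)) (le_max_left _ _)
  have h2 : MC f x ≤ A f (x, r) := (le_max_iff.1 h1).resolve_right (by linarith)
  rcases hr.1.eq_or_lt with h | h
  · rw [← h, A_zero] at h2
    exact absurd h2 (not_le.2 hx)
  · rw [← av_eq_A f x h] at h2
    exact ⟨r, h, le_antisymm h2 (av_le_MC hf x h)⟩

theorem fderiv_MC_le {f : E → ℝ} (hf : Nice f) {x : E} {r : ℝ} (hr : 0 < r)
    (hopt : MC f x = av f x r) :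
    ‖fderiv ℝ (MC f) x‖ₑ ≤ (∫⁻ y, ‖fderiv ℝ f y‖ₑ) / volume (ball (0 : E) r) := by
  have hv := vpos (0 : E) hr
  set G := (∫⁻ y, ‖fderiv ℝ f y‖ₑ).toReal with hG
  have hG0 : 0 ≤ G := ENNReal.toReal_nonneg
  have h1 : ‖fderiv ℝ (MC f) x‖ ≤ G / volume.real (ball (0 : E) r) := by
    refine fderiv_le (by positivity) fun v => ?_
    refine le_trans ?_ (av_le_MC hf (x + v) hr)
    have hi : IntegrableOn (fun y => f (y + v)) (ball x r) :=
      (hf.integrable.comp_add_right v).integrableOn
    have h3 : ‖∫ y in ball x r, (f (y + v) - f y)‖ ≤ ‖v‖ * G := by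
      refine (norm_integral_le_lintegral_norm _).trans ?_
      rw [hG, ← toReal_enorm v, ← ENNReal.toReal_mul]
      refine ENNReal.toReal_mono (ENNReal.mul_ne_top enorm_ne_top hf.grad.ne) ?_
      simp only [ofReal_norm]
      simpa using trans_le hf.smooth (S := ball x r) (T := univ) measurableSet_ball
        MeasurableSet.univ v fun _ _ _ _ => mem_univ _
    rw [integral_sub hi hf.integrable.integrableOn, Real.norm_eq_abs] at h3
    rw [hopt, av_eq, av_eq, int_shift, vol_shift x, vol_shift (x + v), div_mul_eq_mul_div,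
      ← sub_div]
    gcongr
    linarith [neg_abs_le ((∫ y in ball x r, f (y + v)) - ∫ y in ball x r, f y)]
  rw [← ofReal_norm]
  refine (ENNReal.ofReal_le_ofReal h1).trans (le_of_eq ?_)
  rw [ENNReal.ofReal_div_of_pos hv, ofReal_measureReal measure_ball_lt_top.ne, hG,
    ENNReal.ofReal_toReal hf.grad.ne]

theorem fderiv_MC_of_eq {f : E → ℝ} (hf : Nice f) {x : E} (hx : MC f x = f x)
    (hd : DifferentiableAt ℝ (MC f) x) : fderiv ℝ (MC f) x = fderiv ℝ f x := by
  have h1 : IsLocalMin (fun y => MC f y - f y) x :=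
    Eventually.of_forall fun y => by simp only [hx, sub_self, sub_nonneg]; exact le_MC hf y
  have h2 := h1.fderiv_eq_zero
  rw [fderiv_fun_sub hd (hf.smooth.differentiable one_ne_zero x)] at h2
  exact sub_eq_zero.1 h2

/-- Differentiation of ball averages. -/
theorem hasFDerivAt_avg {f : E → ℝ} {v : E → E} (hv : Continuous v) {L : ℝ} (hL : ∀ x, ‖v x‖ ≤ L)
    (h : ∀ x, HasFDerivAt f (innerSL ℝ (v x)) x) (r : ℝ) (x : E) :
    HasFDerivAt (fun x => ⨍ y in ball x r, f y) (innerSL ℝ (⨍ y in ball x r, v y)) x := by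
  have hc : Continuous f := continuous_iff_continuousAt.2 fun x => (h x).continuousAt
  have hint : ∀ {F : Type _} [NormedAddCommGroup F] {q : E → F}, Continuous q →
      IntegrableOn q (ball (0 : E) r) := fun hq =>
    (hq.continuousOn.integrableOn_compact (isCompact_closedBall 0 r)).mono_set
      ball_subset_closedBall
  have hiv : IntegrableOn (fun z => v (x + z)) (ball (0 : E) r) :=
    ((by fun_prop : Continuous fun z => v (x + z)).continuousOn.integrableOn_compact
      (isCompact_closedBall 0 r)).mono_set ball_subset_closedBall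
  have h1 := hasFDerivAt_integral_of_dominated_of_fderiv_le (𝕜 := ℝ)
    (μ := (volume : Measure E).restrict (ball 0 r)) (F := fun x z => f (x + z))
    (F' := fun x z => innerSL ℝ (v (x + z))) (x₀ := x) (s := univ) (bound := fun _ => L) univ_mem
    (Eventually.of_forall fun y => (by fun_prop : Continuous fun z => f (y + z)).aestronglyMeasurable)
    (hint (by fun_prop))
    (by fun_prop : Continuous fun z => innerSL ℝ (v (x + z))).aestronglyMeasurable
    (Eventually.of_forall fun z y _ => by rw [innerSL_apply_norm]; exact hL _)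
    (integrableOn_const measure_ball_lt_top.ne)
    (Eventually.of_forall fun z y _ => by
      have := (h (y + z)).comp y ((hasFDerivAt_id y).add_const z)
      rw [ContinuousLinearMap.comp_id] at this
      exact this)
  have h2 : ∫ z in ball (0 : E) r, innerSL ℝ (v (x + z)) =
      innerSL ℝ (∫ z in ball (0 : E) r, v (x + z)) := by
    ext w
    rw [ContinuousLinearMap.integral_apply ((by fun_prop : Continuous fun z =>
      innerSL ℝ (v (x + z))).continuousOn.integrableOn_compact
        (isCompact_closedBall 0 r) |>.mono_set ball_subset_closedBall)]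
    simp only [innerSL_apply_apply]
    rw [real_inner_comm, ← integral_inner hiv]
    simp only [real_inner_comm]
  rw [h2] at h1
  have h3 := h1.const_smul (Vb E r)⁻¹
  simp only [setAverage_eq, Vb_center]
  rw [int_shift' v x r, map_smul]
  refine h3.congr_of_eventuallyEq (Eventually.of_forall fun y => ?_)
  simp only [int_shift' f y r, Pi.smul_apply]

theorem differentiable_av {f : E → ℝ} (hf : Nice f) (r : ℝ) :
    Differentiable ℝ fun x => av f x r := by
  obtain ⟨L, hL⟩ := hf.lip
  have hc : Continuous (fderiv ℝ f) := hf.smooth.continuous_fderiv one_ne_zero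
  refine fun x => (hasFDerivAt_avg (f := f) (v := fun x => (InnerProductSpace.toDual ℝ E).symm
    (fderiv ℝ f x)) (by fun_prop) (L := L) (fun x => ?_) (fun x => ?_) r x).differentiableAt
  · rw [LinearIsometryEquiv.norm_map]; exact norm_fderiv_le_of_lipschitz ℝ hL
  · have h1 : innerSL ℝ ((InnerProductSpace.toDual ℝ E).symm (fderiv ℝ f x)) = fderiv ℝ f x := by
      ext w; simp
    rw [h1]
    exact (hf.smooth.differentiable one_ne_zero x).hasFDerivAt

theorem measurableSet_Xs {f u : E → ℝ} (hf : Nice f) (hu : Continuous u) {ρ : ℝ} (hρ : 0 < ρ) :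
    MeasurableSet (Xs f u ρ) := by
  have h1 : IsClosed {q : E × Icc ρ (2 * ρ) | u q.1 = A f (q.1, q.2)} :=
    isClosed_eq (by fun_prop) ((A_cont hf).comp (by fun_prop))
  have h2 := isClosedMap_fst_of_compactSpace _ h1
  have h3 : {x | ∃ r ∈ Icc ρ (2 * ρ), u x = av f x r} =
      Prod.fst '' {q : E × Icc ρ (2 * ρ) | u q.1 = A f (q.1, q.2)} := by
    ext x
    constructor
    · rintro ⟨r, hr, h⟩
      exact ⟨(x, ⟨r, hr⟩), by rwa [av_eq_A f x (hρ.trans_le hr.1)] at h, rfl⟩
    · rintro ⟨⟨y, r, hr⟩, h, rfl⟩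
      exact ⟨r, hr, by rw [av_eq_A f y (hρ.trans_le hr.1)]; exact h⟩
  rw [← h3] at h2
  exact (measurableSet_of_differentiableAt ℝ u).inter
    ((isOpen_lt hf.smooth.continuous hu).measurableSet.inter h2.measurableSet)

end Vale.Agent.P137
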