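import Vale.Agent.P137.CDefs

open MeasureTheory Metric Set Filter Topology
open scoped ENNReal NNReal RealInnerProductSpace

noncomputable section

namespace Vale.Agent.P137

set_option linter.unusedSectionVars false

variable {E : Type*} [NormedAddCommGroup E] [InnerProductSpace ℝ E] [FiniteDimensional ℝ E]
  [MeasurableSpace E] [BorelSpace E]

variable {f Λ : E → ℝ} {σ e p x : E} {s ρ : ℝ}

namespace Path

theorem intOn_cont {q : E → ℝ} (hq : Continuous q) {A : Set E} (hA : Bornology.IsBounded A) :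
    IntegrableOn q A := by
  obtain ⟨R, hR⟩ := hA.subset_closedBall 0
  exact (hq.continuousOn.integrableOn_compact (isCompact_closedBall 0 R)).mono_set hR

theorem intOn_L (hV : Vio f Λ σ s) {φ : E → E} (hφ : Continuous φ) {A : Set E}
    (hA : Bornology.IsBounded A) : IntegrableOn (fun y => Λ (φ y)) A := by
  obtain ⟨C, hC⟩ := hV.bdd
  refine Measure.integrableOn_of_bounded (M := C) hA.measure_lt_top.ne
    (hV.meas.comp hφ.measurable).aestronglyMeasurable (Eventually.of_forall fun y => ?_)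
  rw [Real.norm_of_nonneg (hV.nonneg _)]; exact hC _

theorem intOn_L' (hV : Vio f Λ σ s) {A : Set E} (hA : Bornology.IsBounded A) :
    IntegrableOn Λ A := intOn_L hV continuous_id hA

theorem intOn_G (hf : Nice f) (hV : Vio f Λ σ s) {φ : E → E} (hφ : Continuous φ) {A : Set E}
    (hA : Bornology.IsBounded A) : IntegrableOn (fun y => Gm f Λ σ s (φ y)) A := by
  have hc := hf.smooth.continuous
  unfold Gm
  exact (((intOn_cont (by fun_prop) hA).sub (intOn_cont (by fun_prop) hA)).add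
    (intOn_L hV (by fun_prop) hA)).add (intOn_L hV (by fun_prop) hA)

theorem intOn_G' (hf : Nice f) (hV : Vio f Λ σ s) {A : Set E}
    (hA : Bornology.IsBounded A) : IntegrableOn (Gm f Λ σ s) A := intOn_G hf hV continuous_id hA

theorem int_le_bt (hV : Vio f Λ σ s) {A : Set E} (hA : A ⊆ ball p (10 * ρ)) :
    ∫ y in A, Λ y ≤ bt Λ p ρ :=
  setIntegral_mono_set (intOn_L' hV isBounded_ball) (Eventually.of_forall hV.nonneg)
    hA.eventuallyLE

theorem ball_sub {z : E} {r : ℝ} (hz : dist z p ≤ 7 * ρ) (hr : r ≤ 3 * ρ) :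
    ball z r ⊆ ball p (10 * ρ) := ball_subset_ball' (by linarith)

theorem av_le_bt (hV : Vio f Λ σ s) (hρ : 0 < ρ) {z : E} {r : ℝ} (hz : dist z p ≤ 7 * ρ)
    (hr : r ∈ Icc (ρ / 2) (3 * ρ)) : av Λ z r ≤ bt Λ p ρ / Vb E (ρ / 2) := by
  rw [OptAux.av_eq, Vb_center]
  exact div_le_div₀ (integral_nonneg hV.nonneg) (int_le_bt hV (ball_sub hz hr.2))
    (Vb_pos (by positivity)) (Vb_mono hr.1)

theorem dist_add (he : ‖e‖ = 1) {t : ℝ} (ht : 0 ≤ t) : dist (x + t • e) p ≤ dist x p + t := by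
  have h := dist_triangle (x + t • e) x p
  rw [dist_eq_norm (x + t • e) x, add_sub_cancel_left, norm_smul, he, mul_one,
    Real.norm_of_nonneg ht] at h
  linarith

theorem step (hf : Nice f) (hV : Vio f Λ σ s) (he : ‖e‖ = 1) (hes : 3 / 4 ≤ ⟪e, σ⟫)
    (hρ : 0 < ρ) {T r₁ r₂ : ℝ} (hT : 2 * s ≤ T) (hT' : T ≤ 4 * s) (h1 : r₁ ∈ Icc (ρ / 2) (3 * ρ))
    (h2 : r₂ ∈ Icc (ρ / 2) (3 * ρ)) (h12 : |r₂ - r₁| ≤ T / 2) (hx : dist x p + T ≤ 7 * ρ) :
    av f x r₁ ≤ av f (x + T • e) r₂ + 2 * (bt Λ p ρ / Vb E (ρ / 2)) := by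
  have hs := hV.pos
  have hc := hf.smooth.continuous
  have hr1 : 0 < r₁ := lt_of_lt_of_le (by positivity) h1.1
  have hr2 : 0 < r₂ := lt_of_lt_of_le (by positivity) h2.1
  have a1 := av_le_bt hV hρ (z := x) (p := p) (by linarith) h1
  have a2 := av_le_bt hV hρ (z := x + T • e) (p := p)
    ((dist_add he (by linarith)).trans hx) h2
  rw [OptAux.av_eq_A _ _ hr1] at a1 ⊢
  rw [OptAux.av_eq_A _ _ hr2] at a2 ⊢
  have hv := OptAux.vpos (0 : E) one_pos
  have key : OptAux.A f (x, r₁) ≤ OptAux.A f (x + T • e, r₂) + OptAux.A Λ (x, r₁) +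
      OptAux.A Λ (x + T • e, r₂) := by
    simp only [OptAux.A]
    have i1 : IntegrableOn (fun w => f (x + T • e + r₂ • w)) (ball (0 : E) 1) :=
      intOn_cont (by fun_prop) isBounded_ball
    have i2 : IntegrableOn (fun w => Λ (x + r₁ • w)) (ball (0 : E) 1) :=
      intOn_L hV (by fun_prop) isBounded_ball
    have i3 : IntegrableOn (fun w => Λ (x + T • e + r₂ • w)) (ball (0 : E) 1) :=
      intOn_L hV (by fun_prop) isBounded_ball
    rw [← add_div, ← add_div, ← integral_add' i1 i2, ← integral_add' (i1.add i2) i3]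
    refine div_le_div_of_nonneg_right ?_ hv.le
    refine setIntegral_mono_on (intOn_cont (by fun_prop) isBounded_ball) ((i1.add i2).add i3)
      measurableSet_ball fun z hz => ?_
    have hz1 : ‖z‖ ≤ 1 := (mem_ball_zero_iff.1 hz).le
    have hw : ‖(r₂ - r₁) • z‖ ≤ T / 2 := by
      rw [norm_smul, Real.norm_eq_abs]
      exact (mul_le_of_le_one_right (abs_nonneg _) hz1).trans h12
    have hTe : ‖T • e‖ = T := by rw [norm_smul, he, mul_one, Real.norm_of_nonneg (by linarith)]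
    have hn1 : ‖T • e + (r₂ - r₁) • z‖ ≤ T + T / 2 :=
      (norm_add_le _ _).trans (by rw [hTe]; linarith)
    have hn2 : T - T / 2 ≤ ‖T • e + (r₂ - r₁) • z‖ := by
      have := norm_sub_le (T • e + (r₂ - r₁) • z) ((r₂ - r₁) • z)
      rw [add_sub_cancel_right, hTe] at this
      linarith
    have hin : T / 4 ≤ ⟪T • e + (r₂ - r₁) • z, σ⟫ := by
      rw [inner_add_left, real_inner_smul_left]
      have h3 := abs_real_inner_le_norm ((r₂ - r₁) • z) σ
      rw [hV.unit, mul_one] at h3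
      nlinarith [(abs_le.1 h3).1]
    have h3 := hV.le (x + r₁ • z) (T • e + (r₂ - r₁) • z) (by linarith) (by linarith)
      (by nlinarith)
    rwa [show x + r₁ • z + (T • e + (r₂ - r₁) • z) = x + T • e + r₂ • z by
      rw [sub_smul]; abel] at h3
  linarith

theorem half (hV : Vio f Λ σ s) (y : E) {h : E} (hh : ‖h‖ ≤ 3 * s) :
    f (y - (4 * s) • σ) ≤ f (y + h) + Λ (y - (4 * s) • σ) + Λ (y + h) ∧
      f (y + h) ≤ f (y + (4 * s) • σ) + Λ (y + h) + Λ (y + (4 * s) • σ) := by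
  have hs := hV.pos
  have key : ∀ k : E, ‖k‖ ≤ 3 * s → ∀ z : E,
      f z ≤ f (z + ((4 * s) • σ + k)) + Λ z + Λ (z + ((4 * s) • σ + k)) := by
    intro k hk z
    have h4 : ‖(4 * s) • σ‖ = 4 * s := by
      rw [norm_smul, hV.unit, mul_one, Real.norm_of_nonneg (by positivity)]
    have hn1 : ‖(4 * s) • σ + k‖ ≤ 4 * s + 3 * s := (norm_add_le _ _).trans (by rw [h4]; linarith)
    have hn2 : 4 * s - 3 * s ≤ ‖(4 * s) • σ + k‖ := by
      have := norm_sub_le ((4 * s) • σ + k) k
      rw [add_sub_cancel_right, h4] at this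
      linarith
    have hin : s ≤ ⟪(4 * s) • σ + k, σ⟫ := by
      rw [inner_add_left, real_inner_smul_left, real_inner_self_eq_norm_sq, hV.unit]
      have h3 := abs_real_inner_le_norm k σ
      rw [hV.unit, mul_one] at h3
      nlinarith [(abs_le.1 h3).1]
    exact hV.le z _ (by linarith) (by linarith) (by nlinarith)
  have h1 := key h hh (y - (4 * s) • σ)
  have h2 := key (-h) (by rwa [norm_neg]) (y + h)
  rw [show y - (4 * s) • σ + ((4 * s) • σ + h) = y + h by abel] at h1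
  rw [show y + h + ((4 * s) • σ + -h) = y + (4 * s) • σ by abel] at h2
  exact ⟨h1, h2⟩

theorem nsteps {T w : ℝ} (hw : 0 < w) (hT : w ≤ T) :
    ∃ n : ℕ, 0 < n ∧ w ≤ T / n ∧ T / n ≤ 2 * w ∧ (n : ℝ) * w ≤ T ∧ T ≤ 2 * w * n := by
  have h1 : 1 ≤ T / w := by rwa [le_div_iff₀ hw, one_mul]
  have h2 : 1 ≤ ⌊T / w⌋₊ := Nat.le_floor (by exact_mod_cast h1)
  have h3 : (⌊T / w⌋₊ : ℝ) ≤ T / w := Nat.floor_le (by linarith)
  have h4 : T / w < ⌊T / w⌋₊ + 1 := Nat.lt_floor_add_one _
  have h5 : (1 : ℝ) ≤ ⌊T / w⌋₊ := by exact_mod_cast h2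
  rw [le_div_iff₀ hw] at h3
  rw [div_lt_iff₀ hw] at h4
  refine ⟨⌊T / w⌋₊, h2, ?_, ?_, h3, by nlinarith⟩
  · rw [le_div_iff₀ (by linarith)]; linarith
  · rw [div_le_iff₀ (by linarith)]; nlinarith

end Path

open Path

theorem bt_nonneg (hV : Vio f Λ σ s) (p : E) (ρ : ℝ) : 0 ≤ bt Λ p ρ :=
  integral_nonneg hV.nonneg

/-- Averages almost increase along paths of balls moving in the direction `e`. -/
theorem path_le (hf : Nice f) (hV : Vio f Λ σ s) (he : ‖e‖ = 1) (hes : 3 / 4 ≤ ⟪e, σ⟫)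
    (hρ : 0 < ρ) {T r₁ r₂ : ℝ} (hT : 2 * s ≤ T) (h1 : r₁ ∈ Icc (ρ / 2) (3 * ρ))
    (h2 : r₂ ∈ Icc (ρ / 2) (3 * ρ)) (h12 : |r₂ - r₁| ≤ T / 2) (hx : dist x p + T ≤ 7 * ρ) :
    av f x r₁ ≤ av f (x + T • e) r₂ + T / s * bt Λ p ρ / Vb E (ρ / 2) := by
  have hs := hV.pos
  obtain ⟨n, hn, hl1, hl2, hnT, -⟩ := nsteps (w := 2 * s) (by positivity) hT
  have hn' : (0 : ℝ) < n := by exact_mod_cast hn
  set b := bt Λ p ρ / Vb E (ρ / 2) with hb
  have hb0 : 0 ≤ b := div_nonneg (bt_nonneg hV p ρ) (Vb_nonneg _)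
  have hT0 : 0 < T := by linarith
  have hrad : ∀ θ : ℝ, 0 ≤ θ → θ ≤ 1 → r₁ + θ * (r₂ - r₁) ∈ Icc (ρ / 2) (3 * ρ) := by
    intro θ h0 h1'
    constructor <;> nlinarith [h1.1, h1.2, h2.1, h2.2]
  have key : ∀ i : ℕ, i ≤ n → av f x r₁ ≤
      av f (x + (i * (T / n)) • e) (r₁ + i / n * (r₂ - r₁)) + 2 * i * b := by
    intro i
    induction i with
    | zero => intro _; simp
    | succ i ih =>
      intro hi
      have hi' : (i : ℝ) + 1 ≤ n := by exact_mod_cast hi
      have hi0 : (0 : ℝ) ≤ i := Nat.cast_nonneg i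
      have h3 := step (x := x + (i * (T / n)) • e) (p := p) hf hV he hes hρ hl1 (by linarith)
        (hrad (i / n) (by positivity) (by rw [div_le_one hn']; linarith))
        (hrad ((i + 1) / n) (by positivity) (by rw [div_le_one hn']; linarith))
        (by
          rw [show r₁ + (i + 1) / n * (r₂ - r₁) - (r₁ + i / n * (r₂ - r₁)) = (r₂ - r₁) / n by
            field_simp; ring, abs_div, abs_of_pos hn', div_le_iff₀ hn']
          refine h12.trans (le_of_eq ?_)
          field_simp)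
        (by
          have h4 := dist_add (x := x) (p := p) he (t := i * (T / n)) (by positivity)
          have h5 : (i + 1) * (T / n) ≤ n * (T / n) := by gcongr
          rw [mul_div_cancel₀ _ hn'.ne'] at h5
          linarith)
      rw [add_assoc, ← add_smul, show i * (T / n) + T / n = (i + 1) * (T / n) by ring] at h3
      have h4 := ih (by omega)
      push_cast
      linarith
  have h3 := key n le_rfl
  rw [mul_div_cancel₀ _ hn'.ne', div_self hn'.ne', one_mul, add_sub_cancel] at h3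
  have h4 : 2 * (n : ℝ) ≤ T / s := by rw [le_div_iff₀ hs]; linarith
  rw [mul_div_assoc]
  nlinarith

theorem Gm_nonneg (hV : Vio f Λ σ s) (y : E) : 0 ≤ Gm f Λ σ s y := by
  have hs := hV.pos
  have h8 : ‖(8 * s) • σ‖ = 8 * s := by
    rw [norm_smul, hV.unit, mul_one, Real.norm_of_nonneg (by positivity)]
  have h := hV.le (y - (4 * s) • σ) ((8 * s) • σ) (by
    rw [h8, real_inner_smul_left, real_inner_self_eq_norm_sq, hV.unit]; linarith)
    (by rw [h8]; linarith) (by rw [h8]; nlinarith)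
  rw [show y - (4 * s) • σ + (8 * s) • σ = y + (4 * s) • σ by
    rw [show 8 * s = 4 * s + 4 * s by ring, add_smul]; abel] at h
  unfold Gm
  linarith

theorem sandwich (hV : Vio f Λ σ s) (y : E) {h : E} (hh : ‖h‖ ≤ 3 * s) :
    |f (y + h) - f y| ≤ Gm f Λ σ s y + Λ y + Λ (y + h) := by
  obtain ⟨h1, h2⟩ := half hV y hh
  obtain ⟨h3, h4⟩ := half hV y (h := 0) (by rw [norm_zero]; linarith [hV.pos])
  rw [add_zero] at h3 h4
  unfold Gm
  rw [abs_le]
  constructor <;> linarith

theorem mass_ne_top (hf : Nice f) (hV : Vio f Λ σ s) {A : Set E} (hA : Bornology.IsBounded A) :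
    mass f Λ σ s A ≠ ⊤ := by
  obtain ⟨R, hR⟩ := hA.subset_closedBall 0
  refine ne_top_of_le_ne_top ?_ (measure_mono hR)
  rw [mass, withDensity_apply _ measurableSet_closedBall]
  exact ((intOn_G' hf hV isBounded_closedBall).add
    (intOn_L' hV isBounded_closedBall)).lintegral_lt_top.ne

theorem mass_real (hf : Nice f) (hV : Vio f Λ σ s) {A : Set E} (hm : MeasurableSet A)
    (hA : Bornology.IsBounded A) :
    (mass f Λ σ s).real A = ∫ y in A, (Gm f Λ σ s y + Λ y) := by
  have h0 : ∀ y, 0 ≤ Gm f Λ σ s y + Λ y := fun y => add_nonneg (Gm_nonneg hV y) (hV.nonneg y)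
  have hi : IntegrableOn (fun y => Gm f Λ σ s y + Λ y) A :=
    (intOn_G' hf hV hA).add (intOn_L' hV hA)
  rw [Measure.real, mass, withDensity_apply _ hm, ← ofReal_integral_eq_lintegral_ofReal
    hi (Eventually.of_forall h0), ENNReal.toReal_ofReal (integral_nonneg h0)]

theorem Path.gain (hV : Vio f Λ σ s) (he : ‖e‖ = 1) (hes : 3 / 4 ≤ ⟪e, σ⟫) {l : ℝ}
    (hl : 20 * s ≤ l) (hl' : l ≤ 40 * s) (y : E) :
    Gm f Λ σ s (y + (l / 2) • e) + f y ≤ f (y + l • e) + Λ y + Λ (y + l • e) +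
      2 * Λ (y + ((l / 2) • e + (4 * s) • σ)) + 2 * Λ (y + ((l / 2) • e - (4 * s) • σ)) := by
  have hs := hV.pos
  have h4 : ‖(4 * s) • σ‖ = 4 * s := by
    rw [norm_smul, hV.unit, mul_one, Real.norm_of_nonneg (by positivity)]
  have hle : ‖(l / 2) • e‖ = l / 2 := by
    rw [norm_smul, he, mul_one, Real.norm_of_nonneg (by linarith)]
  have hn1 : ‖(l / 2) • e - (4 * s) • σ‖ ≤ l / 2 + 4 * s :=
    (norm_sub_le _ _).trans (by rw [h4, hle])
  have hn2 : l / 2 - 4 * s ≤ ‖(l / 2) • e - (4 * s) • σ‖ := by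
    have := norm_sub_norm_le ((l / 2) • e) ((4 * s) • σ)
    rwa [h4, hle] at this
  have hin : 3 * l / 8 - 4 * s ≤ ⟪(l / 2) • e - (4 * s) • σ, σ⟫ := by
    rw [inner_sub_left, real_inner_smul_left, real_inner_smul_left, real_inner_self_eq_norm_sq,
      hV.unit]
    nlinarith
  have key := fun z => hV.le z ((l / 2) • e - (4 * s) • σ) (by linarith) (by linarith)
    (by nlinarith)
  have h1 := key y
  have h2 := key (y + ((l / 2) • e + (4 * s) • σ))
  rw [show y + ((l / 2) • e + (4 * s) • σ) + ((l / 2) • e - (4 * s) • σ) = y + l • e by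
    conv_rhs => rw [show l = l / 2 + l / 2 by ring, add_smul]
    abel] at h2
  unfold Gm
  rw [add_assoc y, add_sub_assoc y]
  linarith

/-- If the average does not increase much along a translation, there is little mass inside. -/
theorem control (hf : Nice f) (hV : Vio f Λ σ s) (he : ‖e‖ = 1) (hes : 3 / 4 ≤ ⟪e, σ⟫)
    (hρ : 0 < ρ) {T r Δ : ℝ} (hT : 20 * s ≤ T) (hs : 4 * s ≤ ρ) (hr : r ∈ Icc (ρ / 2) (3 * ρ))
    (hx : dist x p + T ≤ 6 * ρ) {A : Set E} (hA : MeasurableSet A)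
    (hsub : ∀ θ ∈ Icc 0 T, A ⊆ ball (x + θ • e) r) (hΔ0 : 0 ≤ Δ)
    (hΔ : av f (x + T • e) r ≤ av f x r + Δ) :
    (mass f Λ σ s).real A ≤ 40 * s / T * Vb E r * Δ + 7 * bt Λ p ρ := by
  have hs0 := hV.pos
  have hc := hf.smooth.continuous
  obtain ⟨n, hn, hl1, hl2, -, hTn⟩ := nsteps (w := 20 * s) (by positivity) hT
  have hn' : (0 : ℝ) < n := by exact_mod_cast hn
  have hT0 : 0 < T := by linarith
  set l := T / n with hl
  have hl0 : 0 < l := by positivity
  have hnl : n * l = T := mul_div_cancel₀ _ hn'.ne'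
  have hA0 : A ⊆ ball x r := by simpa using hsub 0 ⟨le_rfl, hT0.le⟩
  have hAb : Bornology.IsBounded A := isBounded_ball.subset hA0
  have h4 : ‖(4 * s) • σ‖ = 4 * s := by
    rw [norm_smul, hV.unit, mul_one, Real.norm_of_nonneg (by positivity)]
  have hLb : ∀ (θ : ℝ) (w : E), 0 ≤ θ → θ ≤ T → ‖w‖ ≤ ρ →
      ∫ y in ball (x + θ • e + w) r, Λ y ≤ bt Λ p ρ := by
    intro θ w h0 h1 hw
    refine int_le_bt hV (ball_sub ?_ hr.2)
    have h2 := dist_add (x := x) (p := p) he h0
    have h3 := dist_triangle (x + θ • e + w) (x + θ • e) p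
    rw [dist_eq_norm (x + θ • e + w) (x + θ • e), add_sub_cancel_left] at h3
    linarith
  have hstep : ∀ θ : ℝ, 0 ≤ θ → θ + l ≤ T → (∫ y in A, Gm f Λ σ s y) - 6 * bt Λ p ρ +
      ∫ y in ball (x + θ • e) r, f y ≤ ∫ y in ball (x + (θ + l) • e) r, f y := by
    intro θ h0 h1
    have b1 := hLb θ 0 h0 (by linarith) (by simpa using hρ.le)
    have b2 := hLb (θ + l) 0 (by linarith) h1 (by simpa using hρ.le)
    have b3 := hLb (θ + l / 2) ((4 * s) • σ) (by linarith) (by linarith) (by rwa [h4])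
    have b4 := hLb (θ + l / 2) (-((4 * s) • σ)) (by linarith) (by linarith) (by rwa [norm_neg, h4])
    have b5 : ∫ y in A, Gm f Λ σ s y ≤ ∫ y in ball (x + (θ + l / 2) • e) r, Gm f Λ σ s y :=
      setIntegral_mono_set (intOn_G' hf hV isBounded_ball) (Eventually.of_forall (Gm_nonneg hV))
        (hsub _ ⟨by linarith, by linarith⟩).eventuallyLE
    rw [add_zero] at b1 b2
    rw [add_smul, ← add_assoc, OptAux.int_shift] at b2 b5
    rw [add_smul, ← add_assoc, OptAux.int_shift f (x + θ • e)]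
    rw [add_smul, ← add_assoc, add_assoc, OptAux.int_shift] at b3 b4
    rw [← sub_eq_add_neg] at b4
    set z := x + θ • e
    have i1 : IntegrableOn (fun y => Gm f Λ σ s (y + (l / 2) • e)) (ball z r) :=
      intOn_G hf hV (by fun_prop) isBounded_ball
    have i2 : IntegrableOn f (ball z r) := intOn_cont hc isBounded_ball
    have i3 : IntegrableOn (fun y => f (y + l • e)) (ball z r) :=
      intOn_cont (by fun_prop) isBounded_ball
    have i4 : IntegrableOn Λ (ball z r) := intOn_L' hV isBounded_ball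
    have i5 : IntegrableOn (fun y => Λ (y + l • e)) (ball z r) :=
      intOn_L hV (by fun_prop) isBounded_ball
    have i6 : IntegrableOn (fun y => Λ (y + ((l / 2) • e + (4 * s) • σ))) (ball z r) :=
      intOn_L hV (by fun_prop) isBounded_ball
    have i7 : IntegrableOn (fun y => Λ (y + ((l / 2) • e - (4 * s) • σ))) (ball z r) :=
      intOn_L hV (by fun_prop) isBounded_ball
    have h5 := integral_mono (i1.add i2)
      ((((i3.add i4).add i5).add (i6.const_mul 2)).add (i7.const_mul 2))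
      fun y => Path.gain hV he hes hl1 (by linarith) y
    rw [integral_add' i1 i2, integral_add' (((i3.add i4).add i5).add (i6.const_mul 2))
      (i7.const_mul 2), integral_add' ((i3.add i4).add i5) (i6.const_mul 2),
      integral_add' (i3.add i4) i5, integral_add' i3 i4, integral_const_mul,
      integral_const_mul] at h5
    linarith
  have key : ∀ i : ℕ, i ≤ n → i * ((∫ y in A, Gm f Λ σ s y) - 6 * bt Λ p ρ) +
      ∫ y in ball x r, f y ≤ ∫ y in ball (x + (i * l) • e) r, f y := by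
    intro i
    induction i with
    | zero => intro _; simp
    | succ i ih =>
      intro hi
      have hi' : (i : ℝ) + 1 ≤ n := by exact_mod_cast hi
      have h5 : (i + 1) * l ≤ n * l := by gcongr
      have h6 := hstep (i * l) (by positivity) (by linarith)
      have h7 := ih (by omega)
      push_cast
      rw [show ((i : ℝ) + 1) * l = i * l + l by ring]
      linarith
  have h5 := key n le_rfl
  rw [hnl] at h5
  have hr0 : 0 < r := lt_of_lt_of_le (by positivity) hr.1
  have hV0 : 0 < Vb E r := Vb_pos hr0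
  rw [OptAux.av_eq, OptAux.av_eq, Vb_center, Vb_center, div_add' _ _ _ hV0.ne',
    div_le_div_iff_of_pos_right hV0] at hΔ
  have h6 : n * ((∫ y in A, Gm f Λ σ s y) - 6 * bt Λ p ρ) ≤ Δ * Vb E r := by linarith
  have h7 : (∫ y in A, Gm f Λ σ s y) - 6 * bt Λ p ρ ≤ 40 * s / T * Vb E r * Δ := by
    have h8 : 1 ≤ n * (40 * s / T) := by
      rw [← mul_div_assoc, le_div_iff₀ hT0]; linarith
    have h9 : 0 ≤ Δ * Vb E r := by positivity
    have h10 : Δ * Vb E r ≤ n * (40 * s / T * Vb E r * Δ) := by nlinarith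
    exact le_of_mul_le_mul_left (h6.trans h10) hn'
  have h8 : ∫ y in A, Λ y ≤ bt Λ p ρ :=
    int_le_bt hV (hA0.trans (ball_sub (by linarith) hr.2))
  rw [mass_real hf hV hA hAb, integral_add (intOn_G' hf hV hAb) (intOn_L' hV hAb)]
  linarith

/-- Increments along an affine map are bounded by the mass. -/
theorem int_phi (hf : Nice f) (hV : Vio f Λ σ s) {c : E} {κ : ℝ} (hκ : 1 / 2 ≤ κ) {A A' : Set E}
    (hA : MeasurableSet A) (hA' : MeasurableSet A') (hb : Bornology.IsBounded A')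
    (h : ∀ y ∈ A, ‖c + κ • y - y‖ ≤ 3 * s ∧ y ∈ A' ∧ c + κ • y ∈ A') :
    ∫ y in A, |f (c + κ • y) - f y| ≤
      (1 + 2 ^ Module.finrank ℝ E) * (mass f Λ σ s).real A' := by
  have hc := hf.smooth.continuous
  have hsub : A ⊆ A' := fun y hy => (h y hy).2.1
  have hAb := hb.subset hsub
  have hκ0 : 0 < κ := by linarith
  have i1 : IntegrableOn (fun y => Gm f Λ σ s y + Λ y) A :=
    (intOn_G' hf hV hAb).add (intOn_L' hV hAb)
  have i2 : IntegrableOn (fun y => Λ (c + κ • y)) A := intOn_L hV (by fun_prop) hAb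
  have h1 : ∫ y in A, |f (c + κ • y) - f y| ≤
      (∫ y in A, (Gm f Λ σ s y + Λ y)) + ∫ y in A, Λ (c + κ • y) := by
    rw [← integral_add i1 i2]
    refine setIntegral_mono_on (intOn_cont (by fun_prop) hAb) (i1.add i2) hA fun y hy => ?_
    have := sandwich hV y (h y hy).1
    rwa [add_sub_cancel] at this
  have h2 : ∫ y in A, (Gm f Λ σ s y + Λ y) ≤ (mass f Λ σ s).real A' := by
    rw [← mass_real hf hV hA hAb]
    exact measureReal_mono hsub (mass_ne_top hf hV hb)
  have h3 : ∫ y in A', Λ y ≤ (mass f Λ σ s).real A' := by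
    rw [mass_real hf hV hA' hb]
    exact integral_mono (intOn_L' hV hb) ((intOn_G' hf hV hb).add (intOn_L' hV hb))
      fun y => le_add_of_nonneg_left (Gm_nonneg hV y)
  have i3 : Integrable (A'.indicator Λ) := (integrable_indicator_iff hA').2 (intOn_L' hV hb)
  have i4 : Integrable fun y => A'.indicator Λ (c + κ • y) :=
    (i3.comp_add_left c).comp_smul hκ0.ne'
  have h4 : ∫ y in A, Λ (c + κ • y) ≤ ∫ y, A'.indicator Λ (c + κ • y) := by
    rw [setIntegral_congr_fun hA (g := fun y => A'.indicator Λ (c + κ • y)) fun y hy =>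
      (indicator_of_mem (h y hy).2.2 Λ).symm]
    exact setIntegral_le_integral i4 (Eventually.of_forall fun y =>
      indicator_nonneg (fun z _ => hV.nonneg z) _)
  have h5 := Measure.integral_comp_smul (volume : Measure E) (fun y => A'.indicator Λ (c + y)) κ
  rw [integral_add_left_eq_self (A'.indicator Λ) c, integral_indicator hA', smul_eq_mul,
    abs_of_nonneg (by positivity)] at h5
  have h6 : (κ ^ Module.finrank ℝ E)⁻¹ ≤ 2 ^ Module.finrank ℝ E := by
    rw [← inv_pow]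
    refine pow_le_pow_left₀ (by positivity) ?_ _
    rw [inv_le_comm₀ hκ0 (by norm_num)]; linarith
  have h7 : 0 ≤ ∫ y in A', Λ y := integral_nonneg hV.nonneg
  have h8 : (κ ^ Module.finrank ℝ E)⁻¹ * ∫ y in A', Λ y ≤
      2 ^ Module.finrank ℝ E * (mass f Λ σ s).real A' := mul_le_mul h6 h3 h7 (by positivity)
  rw [h5] at h4
  linarith

end Vale.Agent.P137
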