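import Vale.Agent.P137.HierA
import Vale.Agent.P137.Path

open MeasureTheory Metric Set Filter Topology
open scoped ENNReal NNReal RealInnerProductSpace

noncomputable section

namespace Vale.Agent.P137

set_option linter.unusedSectionVars false

variable {E : Type*} [NormedAddCommGroup E] [InnerProductSpace ℝ E] [FiniteDimensional ℝ E]
  [MeasurableSpace E] [BorelSpace E]

theorem VioL.cone_ineq {σ w h : E} (hσ : ‖σ‖ = 1) (hh : ‖h‖ / 30 ≤ ⟪h, σ⟫) :
    -(1800 * ‖h‖ * (‖w‖ - ⟪σ, w⟫)) ≤ ⟪w, h⟫ := by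
  have hβ : 0 ≤ ‖w‖ - ⟪σ, w⟫ := by
    have := real_inner_le_norm σ w
    rw [hσ, one_mul] at this; linarith
  have ha := norm_nonneg w
  have h1 : ‖w - ‖w‖ • σ‖ ^ 2 = 2 * ‖w‖ * (‖w‖ - ⟪σ, w⟫) := by
    rw [norm_sub_sq_real, real_inner_smul_right, norm_smul, hσ, norm_norm, real_inner_comm]
    ring
  have h2 : ‖w - ‖w‖ • σ‖ ≤ ‖w‖ / 30 + 1800 * (‖w‖ - ⟪σ, w⟫) := by
    rw [← sq_le_sq₀ (norm_nonneg _) (by positivity), h1]
    nlinarith [mul_nonneg ha hβ, sq_nonneg ‖w‖, sq_nonneg (‖w‖ - ⟪σ, w⟫)]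
  have h3 : ⟪w, h⟫ = ⟪w - ‖w‖ • σ, h⟫ + ‖w‖ * ⟪h, σ⟫ := by
    rw [inner_sub_left, real_inner_smul_left, real_inner_comm σ h]; ring
  have h4 := (abs_le.1 (abs_real_inner_le_norm (w - ‖w‖ • σ) h)).1
  have h5 := mul_le_mul_of_nonneg_right h2 (norm_nonneg h)
  have h6 := mul_le_mul_of_nonneg_left hh ha
  nlinarith

/-- Mean value inequality in a cone. -/
theorem cone_step {F : E → ℝ} {v : E → E} (hF : ∀ x, HasFDerivAt F (innerSL ℝ (v x)) x) {σ : E}
    (hσ : ‖σ‖ = 1) {y h : E} (hh : ‖h‖ / 30 ≤ ⟪h, σ⟫) {Q : ℝ}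
    (hQ : ∀ θ ∈ Icc (0 : ℝ) 1, ‖v (y + θ • h)‖ - ⟪σ, v (y + θ • h)⟫ ≤ Q) :
    F y ≤ F (y + h) + 1800 * ‖h‖ * Q := by
  have hd : ∀ θ : ℝ, HasDerivAt (fun θ : ℝ => F (y + θ • h)) ⟪v (y + θ • h), h⟫ θ := by
    intro θ
    have h1 : HasDerivAt (fun θ : ℝ => y + θ • h) h θ := by
      simpa using ((hasDerivAt_id θ).smul_const h).const_add y
    exact (hF (y + θ • h)).comp_hasDerivAt θ h1
  obtain ⟨c, hc, hc'⟩ := exists_hasDerivAt_eq_slope (fun θ : ℝ => F (y + θ • h))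
    (fun θ => ⟪v (y + θ • h), h⟫) zero_lt_one
    (fun θ _ => (hd θ).continuousAt.continuousWithinAt) fun θ _ => hd θ
  simp only [one_smul, zero_smul, add_zero, sub_zero, div_one] at hc'
  have h1 := VioL.cone_ineq (w := v (y + c • h)) hσ hh
  have h2 := mul_le_mul_of_nonneg_left (hQ c ⟨hc.1.le, hc.2.le⟩)
    (by positivity : 0 ≤ 1800 * ‖h‖)
  linarith

namespace VioL

theorem avg_eq (q : E → ℝ) (x : E) (r : ℝ) :
    ⨍ y in ball x r, q y = (∫ y in ball x r, q y) / Vb E r := by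
  rw [← Vb_center x]; exact OptAux.av_eq q x r

theorem avg_le {q : E → ℝ} (hq : Continuous q) {x : E} {r c : ℝ} (hr : 0 < r)
    (h : ∀ y ∈ ball x r, q y ≤ c) : ⨍ y in ball x r, q y ≤ c := by
  rw [avg_eq, div_le_iff₀ (Vb_pos hr), mul_comm, ← Vb_center x, ← smul_eq_mul,
    ← setIntegral_const]
  exact setIntegral_mono_on (Path.intOn_cont hq isBounded_ball)
    (integrableOn_const measure_ball_lt_top.ne) measurableSet_ball h

theorem le_avg {q : E → ℝ} (hq : Continuous q) {x : E} {r c : ℝ} (hr : 0 < r)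
    (h : ∀ y ∈ ball x r, c ≤ q y) : c ≤ ⨍ y in ball x r, q y := by
  rw [avg_eq, le_div_iff₀ (Vb_pos hr), mul_comm, ← Vb_center x, ← smul_eq_mul,
    ← setIntegral_const]
  exact setIntegral_mono_on (integrableOn_const measure_ball_lt_top.ne)
    (Path.intOn_cont hq isBounded_ball) measurableSet_ball h

theorem int_mono {q : E → ℝ} (hq : Continuous q) (h0 : ∀ y, 0 ≤ q y) {A : Set E} {x : E} {r : ℝ}
    (h : A ⊆ ball x r) : ∫ y in A, q y ≤ ∫ y in ball x r, q y :=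
  setIntegral_mono_set (Path.intOn_cont hq isBounded_ball) (Eventually.of_forall h0)
    h.eventuallyLE

/-- the non-directional part -/
def bad (v : ℕ → E → E) (σ : E) (i : ℕ) (y : E) : ℝ := ‖v i y‖ - ⟪σ, v i y⟫

/-- a local bound for the non-directional part -/
def Q (v : ℕ → E → E) (σ : E) (L ϱ : ℝ) (N i : ℕ) (y : E) : ℝ :=
  if i < N then (∫ z in ball y (2 ^ 58 * (ϱ / 4096 ^ i)), bad v σ (i + 1) z) / Vb E (ϱ / 4096 ^ i)
  else 2 * L

variable {f : E → ℝ} {L ϱ : ℝ} {N : ℕ} {F : ℕ → E → ℝ} {v : ℕ → E → E} {σ p : E} {j : ℕ}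

theorem L_nonneg (h : Hier f L ϱ N F v) : 0 ≤ L := (norm_nonneg _).trans (h.bdd 0 0)

theorem rad_pos (h : Hier f L ϱ N F v) (i : ℕ) : 0 < ϱ / 4096 ^ i := by
  have := h.pos; positivity

theorem rad_succ (ϱ : ℝ) (i : ℕ) : ϱ / 4096 ^ (i + 1) = ϱ / 4096 ^ i / 4096 := by
  rw [pow_succ, div_div]

theorem rad_add (ϱ : ℝ) (i k : ℕ) : ϱ / 4096 ^ (i + k) = ϱ / 4096 ^ i / 4096 ^ k := by
  rw [pow_add, div_div]

theorem rad_anti (h : Hier f L ϱ N F v) {i k : ℕ} (hik : i ≤ k) :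
    ϱ / 4096 ^ k ≤ ϱ / 4096 ^ i :=
  div_le_div_of_nonneg_left h.pos.le (by positivity) (pow_le_pow_right₀ (by norm_num) hik)

theorem bad_cont (h : Hier f L ϱ N F v) (i : ℕ) : Continuous (bad v σ i) := by
  have := h.cont i
  unfold bad; fun_prop

theorem bad_nonneg (hσ : ‖σ‖ = 1) (i : ℕ) (y : E) : 0 ≤ bad v σ i y := by
  have := real_inner_le_norm σ (v i y)
  rw [hσ, one_mul] at this
  unfold bad; linarith

theorem bad_le (h : Hier f L ϱ N F v) (hσ : ‖σ‖ = 1) (i : ℕ) (y : E) : bad v σ i y ≤ 2 * L := by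
  have h1 := (abs_le.1 (abs_real_inner_le_norm σ (v i y))).1
  rw [hσ, one_mul] at h1
  have := h.bdd i y
  unfold bad; linarith

theorem int_bad (h : Hier f L ϱ N F v) {i : ℕ} (hi : i < N) (x : E) :
    ∫ y in ball x (ϱ / 4096 ^ i), bad v σ (i + 1) y =
      Vb E (ϱ / 4096 ^ i) * (Df v ϱ i x + bad v σ i x) := by
  have h1 := h.avg_bad hi σ x
  rw [avg_eq, div_eq_iff (Vb_pos (rad_pos h i)).ne'] at h1
  rw [mul_comm]; exact h1

theorem int_bad_le (h : Hier f L ϱ N F v) (hσ : ‖σ‖ = 1) (hp : bad v σ j p = 0) (k : ℕ)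
    (hk : j + 1 + k ≤ N) :
    ∫ y in ball p (ϱ / 4096 ^ j / 2 + 2 * (ϱ / 4096 ^ (j + 1 + k))), bad v σ (j + 1 + k) y ≤
      Vb E (ϱ / 4096 ^ j) * Df v ϱ j p +
        ∑ i ∈ Finset.Ioo j (j + 1 + k), ∫ y in ball p (ϱ / 4096 ^ j), Df v ϱ i y := by
  have hS := rad_pos h j
  induction k with
  | zero =>
    have h1 := int_bad (σ := σ) h (i := j) (by omega) p
    rw [hp, add_zero] at h1
    rw [add_zero, show Finset.Ioo j (j + 1) = ∅ by ext; simp, Finset.sum_empty, add_zero,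
      ← h1]
    refine int_mono (bad_cont h _) (bad_nonneg hσ _) (ball_subset_ball ?_)
    rw [rad_succ]; linarith
  | succ k ih =>
    set i := j + 1 + k with hi
    have hiN : i < N := by omega
    have hr := rad_pos h i
    have h1 := le_int_int (bad_cont (σ := σ) h (i + 1)) (bad_nonneg hσ _) p
      (ϱ / 4096 ^ j / 2 + 2 * (ϱ / 4096 ^ i)) (ϱ / 4096 ^ i)
    simp only [int_bad h hiN] at h1
    rw [integral_const_mul, integral_add (Path.intOn_cont (h.cont_Df i) isBounded_ball)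
      (Path.intOn_cont (bad_cont h i) isBounded_ball)] at h1
    have h2 := le_of_mul_le_mul_left h1 (Vb_pos hr)
    have h3 : ϱ / 4096 ^ i ≤ ϱ / 4096 ^ j / 4096 := by
      rw [← rad_succ]; exact rad_anti h (by omega)
    have h4 : ∫ y in ball p (ϱ / 4096 ^ j / 2 + 2 * (ϱ / 4096 ^ i)), Df v ϱ i y ≤
        ∫ y in ball p (ϱ / 4096 ^ j), Df v ϱ i y :=
      int_mono (h.cont_Df i) (h.Df_nonneg hiN) (ball_subset_ball (by linarith))
    have h5 : ∫ y in ball p (ϱ / 4096 ^ j / 2 + 2 * (ϱ / 4096 ^ (i + 1))), bad v σ (i + 1) y ≤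
        ∫ y in ball p (ϱ / 4096 ^ j / 2 + 2 * (ϱ / 4096 ^ i) - ϱ / 4096 ^ i), bad v σ (i + 1) y :=
      int_mono (bad_cont h _) (bad_nonneg hσ _) (ball_subset_ball (by rw [rad_succ]; linarith))
    have h6 := ih (by omega)
    have h7 : Finset.Ioo j (i + 1) = insert i (Finset.Ioo j i) := by ext; simp; omega
    rw [show j + 1 + (k + 1) = i + 1 by omega, h7, Finset.sum_insert (by simp)]
    linarith

theorem int_bad_le' (h : Hier f L ϱ N F v) (hσ : ‖σ‖ = 1) (hp : bad v σ j p = 0) {i : ℕ}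
    (hji : j < i) (hi : i ≤ N) : ∫ y in ball p (ϱ / 4096 ^ j / 2), bad v σ i y ≤
      (3 / 2) ^ (i - j) * Tb v L ϱ N j p := by
  obtain ⟨k, rfl⟩ : ∃ k, i = j + 1 + k := ⟨i - (j + 1), by omega⟩
  have h1 := int_bad_le h hσ hp k hi
  have hr := rad_pos h (j + 1 + k)
  refine (int_mono (bad_cont h _) (bad_nonneg hσ _) (ball_subset_ball (by linarith))).trans
    (h1.trans ?_)
  have hone : ∀ a : ℕ, (1 : ℝ) ≤ (3 / 2) ^ a := fun a => one_le_pow₀ (by norm_num)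
  have hD : 0 ≤ Vb E (ϱ / 4096 ^ j) * Df v ϱ j p :=
    mul_nonneg (Vb_nonneg _) (h.Df_nonneg (by omega) p)
  have hL : 0 ≤ (2 / 3 : ℝ) ^ (N - j) * L * Vb E (ϱ / 4096 ^ j) := by
    have := L_nonneg h
    have := Vb_nonneg (E := E) (ϱ / 4096 ^ j)
    positivity
  have hI : ∀ i ∈ Finset.Ioo j N, 0 ≤ ∫ y in ball p (ϱ / 4096 ^ j), Df v ϱ i y := fun i hi =>
    integral_nonneg (h.Df_nonneg (Finset.mem_Ioo.1 hi).2)
  have h2 : ∑ i ∈ Finset.Ioo j (j + 1 + k), ∫ y in ball p (ϱ / 4096 ^ j), Df v ϱ i y ≤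
      (3 / 2) ^ (j + 1 + k - j) * ∑ i ∈ Finset.Ioo j N,
        (2 / 3 : ℝ) ^ (i - j) * ∫ y in ball p (ϱ / 4096 ^ j), Df v ϱ i y := by
    rw [Finset.mul_sum]
    refine le_trans (Finset.sum_le_sum fun i hi' => ?_) (Finset.sum_le_sum_of_subset_of_nonneg
      (Finset.Ioo_subset_Ioo_right hi) fun i hi' _ => by have := hI i hi'; positivity)
    have h3 := Finset.mem_Ioo.1 hi'
    rw [← mul_assoc]
    refine le_mul_of_one_le_left (hI i (Finset.mem_Ioo.2 ⟨h3.1, by omega⟩)) ?_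
    rw [show j + 1 + k - j = (j + 1 + k - i) + (i - j) by omega, pow_add, mul_assoc, ← mul_pow]
    norm_num
    exact hone _
  unfold Tb
  rw [mul_add, mul_add]
  have h3 := le_mul_of_one_le_left hD (hone (j + 1 + k - j))
  have h4 : 0 ≤ (3 / 2 : ℝ) ^ (j + 1 + k - j) * ((2 / 3 : ℝ) ^ (N - j) * L * Vb E (ϱ / 4096 ^ j)) := by
    positivity
  linarith

theorem Q_cont (h : Hier f L ϱ N F v) (i : ℕ) : Continuous (Q v σ L ϱ N i) := by
  unfold Q
  split_ifs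
  · exact (continuous_int_ball (bad_cont h _) _).div_const _
  · exact continuous_const

theorem Q_nonneg (h : Hier f L ϱ N F v) (hσ : ‖σ‖ = 1) (i : ℕ) (y : E) :
    0 ≤ Q v σ L ϱ N i y := by
  unfold Q
  split_ifs
  · exact div_nonneg (integral_nonneg (bad_nonneg hσ _)) (Vb_nonneg _)
  · linarith [L_nonneg h]

theorem Q_bdd (h : Hier f L ϱ N F v) (hσ : ‖σ‖ = 1) (i : ℕ) : ∃ C, ∀ y, Q v σ L ϱ N i y ≤ C := by
  by_cases hi : i < N
  · refine ⟨2 * L * Vb E (2 ^ 58 * (ϱ / 4096 ^ i)) / Vb E (ϱ / 4096 ^ i), fun y => ?_⟩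
    rw [Q, if_pos hi]
    have hr : 0 < 2 ^ 58 * (ϱ / 4096 ^ i) := by have := rad_pos h i; positivity
    have h1 := avg_le (bad_cont (σ := σ) h (i + 1)) (x := y) hr fun z _ => bad_le h hσ _ z
    rw [avg_eq, div_le_iff₀ (Vb_pos hr)] at h1
    exact div_le_div_of_nonneg_right h1 (Vb_nonneg _)
  · exact ⟨2 * L, fun y => by rw [Q, if_neg hi]⟩

theorem bad_le_Q (h : Hier f L ϱ N F v) (hσ : ‖σ‖ = 1) (i : ℕ) {q y : E}
    (hq : dist q y + ϱ / 4096 ^ i ≤ 2 ^ 58 * (ϱ / 4096 ^ i)) : bad v σ i q ≤ Q v σ L ϱ N i y := by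
  unfold Q
  split_ifs with hi
  · rw [le_div_iff₀ (Vb_pos (rad_pos h i))]
    refine le_trans ?_ (int_mono (bad_cont h _) (bad_nonneg hσ _)
      (ball_subset_ball' (x := q) (ε₁ := ϱ / 4096 ^ i) (by linarith)))
    rw [int_bad h hi, mul_comm]
    exact mul_le_mul_of_nonneg_left (le_add_of_nonneg_left (h.Df_nonneg hi q)) (Vb_nonneg _)
  · exact bad_le h hσ i q

theorem int_Q (h : Hier f L ϱ N F v) (hσ : ‖σ‖ = 1) (hp : bad v σ j p = 0) (hj : j < N) {i : ℕ}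
    (hji : j + 5 ≤ i) : ∫ y in ball p (10 * (ϱ / 4096 ^ j / 64)), Q v σ L ϱ N i y ≤
      2 * (2 ^ 58) ^ Module.finrank ℝ E * (3 / 2) ^ (i - j) * Tb v L ϱ N j p := by
  have hS := rad_pos h j
  have hr := rad_pos h i
  have hT := h.Tb_nonneg hj p
  by_cases hi : i < N
  · simp only [Q, if_pos hi]
    have h0 : ϱ / 4096 ^ i ≤ ϱ / 4096 ^ j / 4096 ^ 5 := by
      rw [← rad_add]; exact rad_anti h hji
    have h1 := int_int_le (bad_cont (σ := σ) h (i + 1)) (bad_nonneg hσ _)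
      (A := ball p (10 * (ϱ / 4096 ^ j / 64))) (A' := ball p (ϱ / 4096 ^ j / 2))
      measurableSet_ball measurableSet_ball isBounded_ball (r := 2 ^ 58 * (ϱ / 4096 ^ i))
      (by positivity) fun y hy => ball_subset_ball' (by
        rw [mem_ball] at hy; norm_num at h0 ⊢; linarith)
    have h2 := int_bad_le' h hσ hp (i := i + 1) (by omega) hi
    rw [integral_div, div_le_iff₀ (Vb_pos hr)]
    refine h1.trans ?_
    rw [Vb_mul (by positivity), show i + 1 - j = i - j + 1 by omega, pow_succ] at *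
    have h3 := Vb_nonneg (E := E) (ϱ / 4096 ^ i)
    calc _ ≤ (2 ^ 58) ^ Module.finrank ℝ E * Vb E (ϱ / 4096 ^ i) *
          ((3 / 2) ^ (i - j) * 2 * Tb v L ϱ N j p) := by
          refine mul_le_mul_of_nonneg_left (h2.trans ?_) (by positivity)
          gcongr; norm_num
      _ = _ := by ring
  · simp only [Q, if_neg hi]
    rw [setIntegral_const, Vb_center, smul_eq_mul]
    have hL := L_nonneg h
    have h1 : Vb E (10 * (ϱ / 4096 ^ j / 64)) ≤ Vb E (ϱ / 4096 ^ j) := Vb_mono (by linarith)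
    have h2 : (2 / 3 : ℝ) ^ (N - j) * L * Vb E (ϱ / 4096 ^ j) ≤ Tb v L ϱ N j p := by
      unfold Tb
      refine le_add_of_nonneg_left (add_nonneg (mul_nonneg (Vb_nonneg _) (h.Df_nonneg hj p))
        (Finset.sum_nonneg fun i hi => mul_nonneg (by positivity)
          (integral_nonneg (h.Df_nonneg (Finset.mem_Ioo.1 hi).2))))
    have h3 : L * Vb E (ϱ / 4096 ^ j) ≤ (3 / 2) ^ (i - j) * Tb v L ϱ N j p := by
      have h4 : (3 / 2 : ℝ) ^ (N - j) ≤ (3 / 2) ^ (i - j) :=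
        pow_le_pow_right₀ (by norm_num) (by omega)
      calc L * Vb E (ϱ / 4096 ^ j) =
            (3 / 2) ^ (N - j) * ((2 / 3 : ℝ) ^ (N - j) * L * Vb E (ϱ / 4096 ^ j)) := by
            rw [← mul_assoc, ← mul_assoc, ← mul_pow]; norm_num
        _ ≤ _ := mul_le_mul h4 h2 (by have := Vb_nonneg (E := E) (ϱ / 4096 ^ j); positivity)
            (by positivity)
    have h4 : (1 : ℝ) ≤ (2 ^ 58) ^ Module.finrank ℝ E := one_le_pow₀ (by norm_num)
    have h5 : 0 ≤ (3 / 2) ^ (i - j) * Tb v L ϱ N j p := by positivity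
    nlinarith [mul_le_mul_of_nonneg_left h1 hL, mul_le_mul_of_nonneg_left h4 h5]

theorem small_step (h : Hier f L ϱ N F v) (hσ : ‖σ‖ = 1) (i : ℕ) {y w z : E}
    (hw : ‖w‖ < ϱ / 4096 ^ i) (hy : dist y z ≤ 3 * (ϱ / 4096 ^ i)) :
    F (i + 1) y ≤ F (i + 1) (y + ((2 * (ϱ / 4096 ^ i) - 2 * (ϱ / 4096 ^ (i + 1))) • σ + w)) +
      5400 * (ϱ / 4096 ^ i) * Q v σ L ϱ N (i + 1) z := by
  have hr := rad_pos h i
  have hs := rad_succ ϱ i
  set k := (2 * (ϱ / 4096 ^ i) - 2 * (ϱ / 4096 ^ (i + 1))) • σ + w with hk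
  have h1 : ‖k‖ ≤ 3 * (ϱ / 4096 ^ i) := by
    refine (norm_add_le _ _).trans ?_
    rw [norm_smul, hσ, mul_one, Real.norm_of_nonneg (by linarith)]
    linarith
  have h2 : ‖k‖ / 30 ≤ ⟪k, σ⟫ := by
    have h3 := (abs_le.1 (abs_real_inner_le_norm w σ)).1
    rw [hσ, mul_one] at h3
    rw [hk, inner_add_left, real_inner_smul_left, real_inner_self_eq_norm_sq, hσ, ← hk]
    linarith
  have h3 := cone_step (h.gr (i + 1)) hσ (y := y) h2 (Q := Q v σ L ϱ N (i + 1) z) fun θ hθ => by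
    refine bad_le_Q h hσ (i + 1) ?_
    have h4 := dist_triangle (y + θ • k) y z
    rw [dist_eq_norm (y + θ • k) y, add_sub_cancel_left, norm_smul,
      Real.norm_of_nonneg hθ.1] at h4
    have h5 := mul_le_of_le_one_left (norm_nonneg k) hθ.2
    norm_num
    linarith
  have h4 := mul_le_mul_of_nonneg_right h1 (Q_nonneg h hσ (i + 1) z)
  linarith

theorem F_cont (h : Hier f L ϱ N F v) (i : ℕ) : Continuous (F i) :=
  continuous_iff_continuousAt.2 fun x => (h.gr i x).continuousAt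

theorem exists_gamma (h : Hier f L ϱ N F v) (hσ : ‖σ‖ = 1) (hp : bad v σ j p = 0) (hj : j < N)
    (k : ℕ) : ∀ i, j + 5 ≤ i → N ≤ i + k → ∃ Γ : E → ℝ, Continuous Γ ∧ (∀ z, 0 ≤ Γ z) ∧
      (∃ C, ∀ z, Γ z ≤ C) ∧ (∀ z, F i (z - (2 * (ϱ / 4096 ^ i)) • σ) ≤ f z + Γ z) ∧
      (∀ z, f z ≤ F i (z + (2 * (ϱ / 4096 ^ i)) • σ) + Γ z) ∧
      ∫ y in ball p (10 * (ϱ / 4096 ^ j / 64)), Γ y ≤
        8200 * (2 * (2 ^ 58) ^ Module.finrank ℝ E) * (ϱ / 4096 ^ i) * (3 / 2) ^ (i - j) *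
          Tb v L ϱ N j p := by
  have hT := h.Tb_nonneg hj p
  have htop : ∀ i, j + 5 ≤ i → N ≤ i → ∃ Γ : E → ℝ, Continuous Γ ∧ (∀ z, 0 ≤ Γ z) ∧
      (∃ C, ∀ z, Γ z ≤ C) ∧ (∀ z, F i (z - (2 * (ϱ / 4096 ^ i)) • σ) ≤ f z + Γ z) ∧
      (∀ z, f z ≤ F i (z + (2 * (ϱ / 4096 ^ i)) • σ) + Γ z) ∧
      ∫ y in ball p (10 * (ϱ / 4096 ^ j / 64)), Γ y ≤
        8200 * (2 * (2 ^ 58) ^ Module.finrank ℝ E) * (ϱ / 4096 ^ i) * (3 / 2) ^ (i - j) *
          Tb v L ϱ N j p := by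
    intro i hji hi
    have hr := rad_pos h i
    have hL := L_nonneg h
    have hn : ‖(2 * (ϱ / 4096 ^ i)) • σ‖ = 2 * (ϱ / 4096 ^ i) := by
      rw [norm_smul, hσ, mul_one, Real.norm_of_nonneg (by positivity)]
    refine ⟨fun _ => ϱ / 4096 ^ i * (2 * L), continuous_const, fun _ => by positivity,
      ⟨_, fun _ => le_rfl⟩, fun z => ?_, fun z => ?_, ?_⟩
    · have := (abs_le.1 (h.lip (z - (2 * (ϱ / 4096 ^ i)) • σ) z)).2
      rw [sub_sub_cancel_left, norm_neg, hn] at this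
      rw [h.top i hi]; linarith
    · have := (abs_le.1 (h.lip (z + (2 * (ϱ / 4096 ^ i)) • σ) z)).1
      rw [add_sub_cancel_left, hn] at this
      rw [h.top i hi]; linarith
    · have h1 := int_Q h hσ hp hj hji
      simp only [Q, if_neg (not_lt.2 hi)] at h1
      rw [integral_const_mul]
      have h2 := mul_le_mul_of_nonneg_left h1 hr.le
      have h3 : 0 ≤ ϱ / 4096 ^ i * (2 * (2 ^ 58) ^ Module.finrank ℝ E * (3 / 2) ^ (i - j) *
          Tb v L ϱ N j p) := by positivity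
      linarith
  induction k with
  | zero => exact htop
  | succ k ih =>
    intro i hji hi
    by_cases hiN : N ≤ i
    · exact htop i hji hiN
    push Not at hiN
    obtain ⟨Γ, hc, h0, ⟨C, hC⟩, hl, hu, hI⟩ := ih (i + 1) (by omega) (by omega)
    obtain ⟨C', hC'⟩ := Q_bdd h hσ (i + 1)
    have hr := rad_pos h i
    have hs := rad_succ ϱ i
    have hQc := Q_cont (σ := σ) h (i + 1)
    have hn : ‖(2 * (ϱ / 4096 ^ i)) • σ‖ = 2 * (ϱ / 4096 ^ i) := by
      rw [norm_smul, hσ, mul_one, Real.norm_of_nonneg (by positivity)]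
    refine ⟨fun z => Γ z + 5400 * (ϱ / 4096 ^ i) * Q v σ L ϱ N (i + 1) z, by fun_prop,
      fun z => add_nonneg (h0 z) (mul_nonneg (by positivity) (Q_nonneg h hσ _ z)),
      ⟨C + 5400 * (ϱ / 4096 ^ i) * C', fun z => add_le_add (hC z)
        (mul_le_mul_of_nonneg_left (hC' z) (by positivity))⟩, fun z => ?_, fun z => ?_, ?_⟩
    · rw [h.ff i hiN]
      refine avg_le (F_cont h _) hr fun y hy => ?_
      rw [mem_ball] at hy
      have h1 := small_step h hσ i (y := y) (w := z - (2 * (ϱ / 4096 ^ i)) • σ - y) (z := z)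
        (by rwa [← dist_eq_norm, dist_comm]) (by
          have := dist_triangle y (z - (2 * (ϱ / 4096 ^ i)) • σ) z
          rw [dist_eq_norm (z - _) z, sub_sub_cancel_left, norm_neg, hn] at this
          linarith)
      rw [show y + ((2 * (ϱ / 4096 ^ i) - 2 * (ϱ / 4096 ^ (i + 1))) • σ +
        (z - (2 * (ϱ / 4096 ^ i)) • σ - y)) = z - (2 * (ϱ / 4096 ^ (i + 1))) • σ by
          rw [sub_smul]; abel] at h1
      linarith [hl z]
    · rw [h.ff i hiN, ← sub_le_iff_le_add]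
      refine le_avg (F_cont h _) hr fun y hy => ?_
      rw [mem_ball] at hy
      have h1 := small_step h hσ i (y := z + (2 * (ϱ / 4096 ^ (i + 1))) • σ)
        (w := y - (z + (2 * (ϱ / 4096 ^ i)) • σ)) (z := z) (by rwa [← dist_eq_norm]) (by
          rw [dist_eq_norm, add_sub_cancel_left, norm_smul, hσ, mul_one,
            Real.norm_of_nonneg (by linarith)]
          linarith)
      rw [show z + (2 * (ϱ / 4096 ^ (i + 1))) • σ +
        ((2 * (ϱ / 4096 ^ i) - 2 * (ϱ / 4096 ^ (i + 1))) • σ +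
        (y - (z + (2 * (ϱ / 4096 ^ i)) • σ))) = y by rw [sub_smul]; abel] at h1
      linarith [hu z]
    · rw [integral_add (Path.intOn_cont hc isBounded_ball)
        (Path.intOn_cont (by fun_prop) isBounded_ball), integral_const_mul]
      have h1 := mul_le_mul_of_nonneg_left (int_Q h hσ hp hj (i := i + 1) (by omega))
        (by positivity : 0 ≤ 5400 * (ϱ / 4096 ^ i))
      rw [show i + 1 - j = i - j + 1 by omega, pow_succ (3 / 2 : ℝ)] at h1 hI
      rw [hs] at hI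
      have h3 : 0 ≤ ϱ / 4096 ^ i * (2 * (2 ^ 58) ^ Module.finrank ℝ E * (3 / 2) ^ (i - j) *
          Tb v L ϱ N j p) := by positivity
      linarith

end VioL

open VioL in
/-- In every cell `f` is almost increasing in a cone, with error bounded by the budget. -/
theorem vio_local [Nontrivial E] : ∃ C : ℝ, 0 ≤ C ∧ ∀ (f : E → ℝ) (L δ : ℝ) (N : ℕ)
    (F : ℕ → E → ℝ) (v : ℕ → E → E), Hier f L (64 * δ) N F v → ∀ j < N, ∀ p : E,
    ∃ (σ : E) (Λ : ℕ → E → ℝ), ∀ m, Vio f (Λ m) σ (sc (δ / 4096 ^ j) m) ∧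
      bt (Λ m) p (δ / 4096 ^ j) ≤
        C * (3 / 2) ^ m * sc (δ / 4096 ^ j) m * Tb v L (64 * δ) N j p := by
  refine ⟨(8200 + 1800 * 2 ^ 58) * (2 * (2 ^ 58) ^ Module.finrank ℝ E) * (3 / 2) ^ 5,
    by positivity, fun f L δ N F v h j hj p => ?_⟩
  obtain ⟨σ, hσ, hp⟩ : ∃ σ : E, ‖σ‖ = 1 ∧ bad v σ j p = 0 := by
    by_cases h0 : v j p = 0
    · obtain ⟨σ, hσ⟩ := exists_norm_eq E zero_le_one
      exact ⟨σ, hσ, by simp [bad, h0]⟩
    · have h1 : ‖v j p‖ ≠ 0 := norm_ne_zero_iff.2 h0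
      refine ⟨‖v j p‖⁻¹ • v j p, by rw [norm_smul, norm_inv, norm_norm, inv_mul_cancel₀ h1], ?_⟩
      rw [bad, real_inner_smul_left, real_inner_self_eq_norm_sq]
      field_simp
      ring
  have hT := h.Tb_nonneg hj p
  choose Γ hc h0 hb hl hu hI using fun m : ℕ =>
    exists_gamma h hσ hp hj N (j + 5 + m) (by omega) (by omega)
  refine ⟨σ, fun m z => Γ m z + 1800 * (2 ^ 58 * (64 * δ / 4096 ^ (j + 5 + m))) *
    Q v σ L (64 * δ) N (j + 5 + m) z, fun m => ?_⟩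
  have hr := rad_pos h (j + 5 + m)
  have hsc : sc (δ / 4096 ^ j) m = 2 ^ 13 * (64 * δ / 4096 ^ (j + 5 + m)) := by
    rw [sc, pow_add, pow_add]; field_simp; ring
  have hQc := Q_cont (σ := σ) h (j + 5 + m)
  have hQ0 := Q_nonneg h hσ (j + 5 + m)
  have hc' := hc m
  set r := 64 * δ / 4096 ^ (j + 5 + m) with hrdef
  refine ⟨⟨Continuous.measurable (by fun_prop),
    fun z => add_nonneg (h0 m z) (mul_nonneg (by positivity) (hQ0 z)), ?_, hσ,
    by rw [hsc]; positivity, fun y k hk hk1 hk2 => ?_⟩, ?_⟩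
  · obtain ⟨C, hC⟩ := hb m
    obtain ⟨C', hC'⟩ := Q_bdd h hσ (j + 5 + m)
    exact ⟨C + 1800 * (2 ^ 58 * r) * C', fun z => add_le_add (hC z)
      (mul_le_mul_of_nonneg_left (hC' z) (by positivity))⟩
  · rw [hsc] at hk1 hk2
    have hn : ∀ c : ℝ, 0 ≤ c → ‖(c * r) • σ‖ = c * r := fun c hc0 => by
      rw [norm_smul, hσ, mul_one, Real.norm_of_nonneg (by positivity)]
    have h1 : ‖k - (4 * r) • σ‖ ≤ ‖k‖ + 4 * r := (norm_sub_le _ _).trans (by rw [hn 4 (by norm_num)])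
    have h2 : ‖k - (4 * r) • σ‖ / 30 ≤ ⟪k - (4 * r) • σ, σ⟫ := by
      rw [inner_sub_left, real_inner_smul_left, real_inner_self_eq_norm_sq, hσ]
      norm_num at hk1 ⊢
      linarith
    have h3 := cone_step (h.gr (j + 5 + m)) hσ (y := y + (2 * r) • σ) h2
      (Q := Q v σ L (64 * δ) N (j + 5 + m) y) fun θ hθ => by
        refine bad_le_Q h hσ _ ?_
        have h4 := norm_add_le ((2 * r) • σ) (θ • (k - (4 * r) • σ))
        rw [hn 2 (by norm_num), norm_smul θ, Real.norm_of_nonneg hθ.1] at h4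
        have h5 := mul_le_of_le_one_left (norm_nonneg (k - (4 * r) • σ)) hθ.2
        rw [dist_eq_norm, add_assoc, add_sub_cancel_left, ← hrdef]
        norm_num at hk2 ⊢
        linarith
    rw [show y + (2 * r) • σ + (k - (4 * r) • σ) = y + k - (2 * r) • σ by
      rw [show 4 * r = 2 * r + 2 * r by ring, add_smul]; abel] at h3
    have h4 : ‖k - (4 * r) • σ‖ ≤ 2 ^ 58 * r := by
      norm_num at hk2 ⊢
      linarith
    have h5 := mul_le_mul_of_nonneg_right h4 (hQ0 y)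
    have h6 : 0 ≤ 1800 * (2 ^ 58 * r) * Q v σ L (64 * δ) N (j + 5 + m) (y + k) :=
      mul_nonneg (by positivity) (hQ0 _)
    have h7 := hl m (y + k)
    have h8 := hu m y
    linarith
  · have h1 := hI m
    have h2 := mul_le_mul_of_nonneg_left (int_Q h hσ hp hj (i := j + 5 + m) (by omega))
      (by positivity : 0 ≤ 1800 * (2 ^ 58 * r))
    rw [show 64 * δ / 4096 ^ j / 64 = δ / 4096 ^ j by ring, show j + 5 + m - j = 5 + m by omega,
      pow_add (3 / 2 : ℝ)] at h1 h2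
    rw [bt, integral_add (Path.intOn_cont hc' isBounded_ball)
      (Path.intOn_cont (by fun_prop) isBounded_ball), integral_const_mul, hsc]
    have h3 : 0 ≤ (8200 + 1800 * 2 ^ 58) * (2 * (2 ^ 58) ^ Module.finrank ℝ E) * (3 / 2) ^ 5 *
        (3 / 2) ^ m * r * Tb v L (64 * δ) N j p := by positivity
    rw [← hrdef] at h1
    nlinarith

end Vale.Agent.P137
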