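import Vale.Agent.P137.LocalB
import Vale.Agent.P137.BudG
import Vale.Agent.P137.VioL

open MeasureTheory Metric Set Filter Topology
open scoped ENNReal NNReal RealInnerProductSpace

noncomputable section

namespace Vale.Agent.P137

set_option linter.unusedSectionVars false

variable {E : Type*} [NormedAddCommGroup E] [InnerProductSpace ℝ E] [FiniteDimensional ℝ E]
  [MeasurableSpace E] [BorelSpace E]

/-- Points that are paid for by a later crossing of `f`. -/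
def Z1 (f u : E → ℝ) (S : Finset E) (T : ℝ) : Set E :=
  {x | ∃ e ∈ S, x ∈ A1 f u e T ∧ ‖fderiv ℝ u x‖ ≤ 12 * fderiv ℝ u x e}

theorem measurableSet_Z1 {f u : E → ℝ} (hf : Continuous f) (hu : Continuous u) (S : Finset E)
    (T : ℝ) : MeasurableSet (Z1 f u S T) := by
  have : Z1 f u S T = ⋃ e ∈ S, A1 f u e T ∩ {x | ‖fderiv ℝ u x‖ ≤ 12 * fderiv ℝ u x e} := by
    ext x; simp only [Z1, mem_ofPred_eq, mem_iUnion, mem_inter_iff, exists_prop]
  rw [this]
  exact Finset.measurableSet_biUnion S fun e _ => (measurableSet_A1 hf hu e T).inter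
    (measurableSet_le (measurable_fderiv ℝ u).norm
      ((measurable_fderiv_apply_const ℝ u e).const_mul 12))

namespace CScale

theorem dir1 {S : Finset E} (hS : ∀ y : E, ‖y‖ = 1 → ∃ e ∈ S, ‖e - y‖ ≤ 1 / 24) {σ n : E}
    (hσ : ‖σ‖ = 1) (hn : ‖n‖ = 1) (h : 0 ≤ ⟪σ, n⟫) :
    ∃ e ∈ S, 3 / 4 ≤ ⟪e, σ⟫ ∧ 1 / 12 ≤ ⟪e, n⟫ := by
  set w := σ + (1 / 4 : ℝ) • n with hw
  have hσσ : ⟪σ, σ⟫ = 1 := by rw [real_inner_self_eq_norm_sq, hσ]; norm_num
  have hnn : ⟪n, n⟫ = 1 := by rw [real_inner_self_eq_norm_sq, hn]; norm_num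
  have h1 : 1 ≤ ⟪w, σ⟫ := by
    rw [hw, inner_add_left, real_inner_smul_left, hσσ, real_inner_comm]; linarith
  have h2 : 1 / 4 ≤ ⟪w, n⟫ := by
    rw [hw, inner_add_left, real_inner_smul_left, hnn]; linarith
  have h3 : ‖w‖ ≤ 5 / 4 := by
    have := norm_add_le σ ((1 / 4 : ℝ) • n)
    rw [norm_smul, hσ, hn] at this
    norm_num at this
    linarith
  have h4 : 0 < ‖w‖ := by
    have := real_inner_le_norm w σ
    rw [hσ] at this
    linarith
  have h5 : 4 / 5 ≤ ‖w‖⁻¹ := by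
    rw [le_inv_comm₀ (by norm_num) h4]; linarith
  obtain ⟨e, he, hd⟩ := hS (‖w‖⁻¹ • w) (by
    rw [norm_smul, norm_inv, norm_norm, inv_mul_cancel₀ h4.ne'])
  have key : ∀ z : E, ‖z‖ = 1 → ‖w‖⁻¹ * ⟪w, z⟫ - 1 / 24 ≤ ⟪e, z⟫ := fun z hz => by
    have a1 := abs_real_inner_le_norm (e - ‖w‖⁻¹ • w) z
    rw [hz, mul_one, inner_sub_left, real_inner_smul_left] at a1
    have a2 := (abs_le.1 (a1.trans hd)).1
    linarith
  refine ⟨e, he, ?_, ?_⟩
  · have := key σ hσ; nlinarith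
  · have := key n hn; nlinarith

theorem dir {S : Finset E} (hS : ∀ y : E, ‖y‖ = 1 → ∃ e ∈ S, ‖e - y‖ ≤ 1 / 24) {σ : E}
    (hσ : ‖σ‖ = 1) {D : E →L[ℝ] ℝ} (hD : D ≠ 0) :
    ∃ e ∈ S, 3 / 4 ≤ ⟪e, σ⟫ ∧ ‖D‖ ≤ 12 * |D e| := by
  set g : E := (InnerProductSpace.toDual ℝ E).symm D with hg
  have hgn : ‖g‖ = ‖D‖ := LinearIsometryEquiv.norm_map _ _
  have hpos : 0 < ‖D‖ := norm_pos_iff.2 hD
  have hDe : ∀ e, D e = ⟪g, e⟫ := fun e => by rw [hg, InnerProductSpace.toDual_symm_apply]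
  have hn : ‖‖D‖⁻¹ • g‖ = 1 := by
    rw [norm_smul, norm_inv, norm_norm, hgn, inv_mul_cancel₀ hpos.ne']
  have hin : ∀ e, ⟪e, ‖D‖⁻¹ • g⟫ = ‖D‖⁻¹ * D e := fun e => by
    rw [real_inner_smul_right, hDe, real_inner_comm]
  have fin : ∀ e, 1 / 12 ≤ ‖D‖⁻¹ * |D e| → ‖D‖ ≤ 12 * |D e| := fun e h => by
    have := mul_le_mul_of_nonneg_left h hpos.le
    rw [← mul_assoc, mul_inv_cancel₀ hpos.ne'] at this
    linarith
  have hi : 0 ≤ ‖D‖⁻¹ := by positivity
  rcases le_total 0 ⟪σ, ‖D‖⁻¹ • g⟫ with h | h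
  · obtain ⟨e, he, h1, h2⟩ := dir1 hS hσ hn h
    refine ⟨e, he, h1, fin e (h2.trans ?_)⟩
    rw [hin]
    exact mul_le_mul_of_nonneg_left (le_abs_self _) hi
  · obtain ⟨e, he, h1, h2⟩ := dir1 (n := -(‖D‖⁻¹ • g)) hS hσ (by rw [norm_neg, hn])
      (by rw [inner_neg_right]; linarith)
    refine ⟨e, he, h1, fin e (h2.trans ?_)⟩
    rw [inner_neg_right, hin, ← mul_neg]
    exact mul_le_mul_of_nonneg_left (neg_le_abs _) hi

theorem cell (S : Finset E) (hS1 : ∀ e ∈ S, ‖e‖ = 1)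
    (hS : ∀ y : E, ‖y‖ = 1 → ∃ e ∈ S, ‖e - y‖ ≤ 1 / 24) : ∃ C : ℝ≥0,
    ∀ (f u : E → ℝ) (Λ : ℕ → E → ℝ) (σ p : E) (ρ T : ℝ),
    Nice f → Continuous u → (∀ x r, 0 < r → av f x r ≤ u x) → 0 < ρ → 5 * ρ ≤ T →
    (∀ m, Vio f (Λ m) σ (sc ρ m)) →
    ∫⁻ x in ball p (ρ / 2) ∩ (Xs f u ρ \ Z1 f u S T), ‖fderiv ℝ u x‖ₑ ≤ C * tot Λ p ρ := by
  classical
  obtain ⟨C, hC⟩ := local_le (E := E)
  refine ⟨S.card * (12 * C), fun f u Λ σ p ρ T hf hu hav hρ hT hv => ?_⟩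
  set S' := S.filter fun e => 3 / 4 ≤ ⟪e, σ⟫ with hS'
  set W : E → Set E := fun e => ball p (ρ / 2) ∩ Xs f u ρ ∩
        {x | fderiv ℝ u x e < 0 ∨ (0 < fderiv ℝ u x e ∧ x ∉ A1 f u e T)} with hW
  have hD : ∀ e, Measurable fun x => fderiv ℝ u x e := fun e => measurable_fderiv_apply_const ℝ u e
  have hWm : ∀ e, MeasurableSet (W e) := fun e =>
    (measurableSet_ball.inter (measurableSet_Xs hf hu hρ)).inter
      ((measurableSet_lt (hD e) measurable_const).union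
        ((measurableSet_lt measurable_const (hD e)).inter
          (measurableSet_A1 hf.smooth.continuous hu e T).compl))
  have hgm : ∀ e, Measurable ((W e).indicator fun x => 12 * ENNReal.ofReal |fderiv ℝ u x e|) :=
    fun e => (((hD e).abs.ennreal_ofReal).const_mul 12).indicator (hWm e)
  have hRm : MeasurableSet (ball p (ρ / 2) ∩ (Xs f u ρ \ Z1 f u S T)) :=
    measurableSet_ball.inter ((measurableSet_Xs hf hu hρ).diff
      (measurableSet_Z1 hf.smooth.continuous hu S T))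
  have hpt : ∀ x ∈ ball p (ρ / 2) ∩ (Xs f u ρ \ Z1 f u S T), ‖fderiv ℝ u x‖ₑ ≤
      ∑ e ∈ S', (W e).indicator (fun x => 12 * ENNReal.ofReal |fderiv ℝ u x e|) x := by
    intro x hx
    by_cases h0 : fderiv ℝ u x = 0
    · rw [← ofReal_norm, h0, norm_zero, ENNReal.ofReal_zero]; exact zero_le
    obtain ⟨e, he, h1, h2⟩ := dir hS (hv 0).unit h0
    have hpos : 0 < ‖fderiv ℝ u x‖ := norm_pos_iff.2 h0
    have hxW : x ∈ W e := by
      refine ⟨⟨hx.1, hx.2.1⟩, ?_⟩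
      rcases lt_trichotomy (fderiv ℝ u x e) 0 with h | h | h
      · exact Or.inl h
      · rw [h] at h2; simp at h2; exact absurd h2 h0
      · exact Or.inr ⟨h, fun hA => hx.2.2 ⟨e, he, hA, by rwa [abs_of_pos h] at h2⟩⟩
    refine le_trans ?_ (Finset.single_le_sum (f := fun e =>
      (W e).indicator (fun x => 12 * ENNReal.ofReal |fderiv ℝ u x e|) x)
      (fun _ _ => zero_le) (Finset.mem_filter.2 ⟨he, h1⟩))
    rw [indicator_of_mem hxW, ← ofReal_norm]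
    refine (ENNReal.ofReal_le_ofReal h2).trans (le_of_eq ?_)
    rw [ENNReal.ofReal_mul (by norm_num)]
    simp
  refine (setLIntegral_mono' hRm hpt).trans ((setLIntegral_le_lintegral _ _).trans ?_)
  rw [lintegral_finsetSum _ fun e _ => hgm e]
  have h3 : ∀ e ∈ S', ∫⁻ x, (W e).indicator (fun x => 12 * ENNReal.ofReal |fderiv ℝ u x e|) x ≤
      12 * C * tot Λ p ρ := fun e he => by
    rw [lintegral_indicator (hWm e), lintegral_const_mul' _ _ (by norm_num), mul_assoc]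
    gcongr
    exact hC f u Λ σ e p ρ T hf hu hav hρ hT hv (hS1 e (Finset.mem_filter.1 he).1)
      (Finset.mem_filter.1 he).2
  refine (Finset.sum_le_card_nsmul _ _ _ h3).trans ?_
  rw [nsmul_eq_mul]
  push_cast
  rw [mul_assoc (S.card : ℝ≥0∞)]
  refine mul_le_mul_left ?_ _
  exact_mod_cast Finset.card_filter_le _ _

theorem tot_le {Λ : ℕ → E → ℝ} {p : E} {ρ a : ℝ} (hρ : 0 < ρ) (ha : 0 ≤ a)
    (h : ∀ m, bt (Λ m) p ρ ≤ a * (3 / 2) ^ m * sc ρ m) : tot Λ p ρ ≤ ENNReal.ofReal (4 * a) := by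
  have hs : HasSum (fun m : ℕ => a * (3 / 4 : ℝ) ^ m) (4 * a) := by
    have := (hasSum_geometric_of_lt_one (r := (3 / 4 : ℝ)) (by norm_num) (by norm_num)).mul_left a
    rwa [show a * (1 - 3 / 4 : ℝ)⁻¹ = 4 * a by norm_num; ring] at this
  rw [← hs.tsum_eq, ENNReal.ofReal_tsum_of_nonneg (fun m => by positivity) hs.summable]
  refine ENNReal.tsum_le_tsum fun m => ENNReal.ofReal_le_ofReal ?_
  have hsc : 0 < sc ρ m := by unfold sc; positivity
  rw [div_le_iff₀ (by positivity)]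
  refine (h m).trans (le_of_eq ?_)
  have : (3 / 2 : ℝ) ^ m = (3 / 4) ^ m * 2 ^ m := by rw [← mul_pow]; norm_num
  rw [this]; ring

theorem tonelli {g : E → ℝ≥0∞} (hg : Measurable g) {R : Set E} (hR : MeasurableSet R) (r : ℝ) :
    ENNReal.ofReal (Vb E r) * ∫⁻ x in R, g x = ∫⁻ p, ∫⁻ x in ball p r ∩ R, g x := by
  set G : E → E → ℝ≥0∞ := fun p x => {q : E × E | dist q.2 q.1 < r}.indicator
    (fun q => R.indicator g q.2) (p, x) with hG
  have hGm : Measurable (Function.uncurry G) :=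
    ((hg.indicator hR).comp measurable_snd).indicator
      (measurableSet_lt (by fun_prop) measurable_const)
  have e1 : ∀ p, ∫⁻ x in ball p r ∩ R, g x = ∫⁻ x, G p x := fun p => by
    rw [← lintegral_indicator (measurableSet_ball.inter hR)]
    refine lintegral_congr fun x => ?_
    by_cases h1 : dist x p < r <;> by_cases h2 : x ∈ R <;> simp [hG, indicator, h1, h2]
  have e2 : ∀ x, ∫⁻ p, G p x = ENNReal.ofReal (Vb E r) * R.indicator g x := fun x => by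
    rw [mul_comm, ofReal_Vb x, ← lintegral_indicator_const measurableSet_ball]
    refine lintegral_congr fun p => ?_
    by_cases h1 : dist p x < r
    · simp [hG, indicator, h1, dist_comm x p]
    · simp [hG, indicator, h1, dist_comm x p]
  simp_rw [e1]
  rw [lintegral_lintegral_swap hGm.aemeasurable]
  simp_rw [e2]
  rw [lintegral_const_mul' _ _ ENNReal.ofReal_ne_top, lintegral_indicator hR]

theorem one_scale [Nontrivial E] (S : Finset E) (hS1 : ∀ e ∈ S, ‖e‖ = 1)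
    (hS : ∀ y : E, ‖y‖ = 1 → ∃ e ∈ S, ‖e - y‖ ≤ 1 / 24) : ∃ C : ℝ, 0 ≤ C ∧ ∀ (f u : E → ℝ),
    Nice f → Continuous u → (∀ x r, 0 < r → av f x r ≤ u x) →
    ∀ K : Set E, MeasurableSet K → Bornology.IsBounded K → ∀ δ T : ℝ, 0 < δ → 5 * δ ≤ T →
    ∀ (L : ℝ) (N : ℕ) (F : ℕ → E → ℝ) (v : ℕ → E → E), Hier f L (64 * δ) N F v → ∀ j < N,
    ∫⁻ x in (K ∩ Xs f u (δ / 4096 ^ j)) \ Z1 f u S T, ‖fderiv ℝ u x‖ₑ ≤ ENNReal.ofReal
      (C * ((∫ p in thickening δ K, Tb v L (64 * δ) N j p) / Vb E (64 * δ / 4096 ^ j))) := by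
  obtain ⟨C₁, h₁⟩ := cell S hS1 hS
  obtain ⟨C₂, hC₂, h₂⟩ := vio_local (E := E)
  refine ⟨C₁ * (4 * C₂) * 128 ^ Module.finrank ℝ E, by positivity,
    fun f u hf hu hav K hK hKb δ T hδ hT L N F v hH j hj => ?_⟩
  set ρ := δ / 4096 ^ j with hρdef
  have hρ : 0 < ρ := by positivity
  have hρδ : ρ ≤ δ := div_le_self hδ.le (one_le_pow₀ (by norm_num))
  set R := (K ∩ Xs f u ρ) \ Z1 f u S T with hR
  have hRm : MeasurableSet R := (hK.inter (measurableSet_Xs hf hu hρ)).diff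
      (measurableSet_Z1 hf.smooth.continuous hu S T)
  have hV : 0 < Vb E (ρ / 2) := Vb_pos (by linarith)
  have ht := tonelli (g := fun x => ‖fderiv ℝ u x‖ₑ) (measurable_fderiv ℝ u).enorm hRm (ρ / 2)
  have hpt : ∀ p, ∫⁻ x in ball p (ρ / 2) ∩ R, ‖fderiv ℝ u x‖ₑ ≤ (thickening δ K).indicator
      (fun p => ENNReal.ofReal (C₁ * (4 * C₂) * Tb v L (64 * δ) N j p)) p := fun p => by
    by_cases hp : p ∈ thickening δ K
    · rw [indicator_of_mem hp]
      obtain ⟨σ, Λ, hΛ⟩ := h₂ f L δ N F v hH j hj p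
      have hTb := hH.Tb_nonneg hj p
      have a1 := h₁ f u Λ σ p ρ T hf hu hav hρ (by linarith) fun m => (hΛ m).1
      have a2 := tot_le (Λ := Λ) (p := p) (a := C₂ * Tb v L (64 * δ) N j p) hρ (by positivity)
        fun m => (hΛ m).2.trans (le_of_eq (by ring))
      refine (lintegral_mono_set ?_).trans (a1.trans ((mul_le_mul_right a2 _).trans (le_of_eq ?_)))
      · exact fun x hx => ⟨hx.1, hx.2.1.2, hx.2.2⟩
      · rw [mul_assoc (C₁ : ℝ), ENNReal.ofReal_mul (p := C₁) C₁.2, ENNReal.ofReal_coe_nnreal,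
          mul_assoc]
    · have : ball p (ρ / 2) ∩ R = ∅ := by
        refine eq_empty_of_forall_notMem fun x hx => hp ?_
        refine mem_thickening_iff.2 ⟨x, hx.2.1.1, ?_⟩
        have : dist x p < ρ / 2 := hx.1
        rw [dist_comm]; linarith
      simp [this]
  have hint : IntegrableOn (Tb v L (64 * δ) N j) (thickening δ K) :=
    ((hH.cont_Tb j).continuousOn.integrableOn_compact
      (hKb.thickening.isCompact_closure)).mono_set subset_closure
  have a3 := ht.le.trans (lintegral_mono hpt)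
  rw [lintegral_indicator isOpen_thickening.measurableSet, ← ofReal_integral_eq_lintegral_ofReal
    (hint.const_mul _) (Eventually.of_forall fun p =>
      mul_nonneg (by positivity) (hH.Tb_nonneg hj p)), integral_const_mul] at a3
  refine (ENNReal.mul_le_mul_iff_right (a := ENNReal.ofReal (Vb E (ρ / 2)))
    (ENNReal.ofReal_pos.2 hV).ne' ENNReal.ofReal_ne_top).1 (a3.trans (le_of_eq ?_))
  rw [← ENNReal.ofReal_mul hV.le]
  congr 1
  have : 64 * δ / 4096 ^ j = 128 * (ρ / 2) := by rw [hρdef]; ring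
  rw [this, Vb_mul (by norm_num)]
  field_simp

end CScale

open CScale in
/-- The sum over the scales `δ / 4096 ^ j`. -/
theorem scale_le [Nontrivial E] (S : Finset E) (hS1 : ∀ e ∈ S, ‖e‖ = 1)
    (hS : ∀ y : E, ‖y‖ = 1 → ∃ e ∈ S, ‖e - y‖ ≤ 1 / 24) : ∃ C : ℝ≥0, ∀ (f u : E → ℝ),
    Nice f → Continuous u → (∀ x r, 0 < r → av f x r ≤ u x) →
    ∀ K : Set E, MeasurableSet K → Bornology.IsBounded K → ∀ δ T : ℝ, 0 < δ → 5 * δ ≤ T →
    ∑' j : ℕ, ∫⁻ x in (K ∩ Xs f u (δ / 4096 ^ j)) \ Z1 f u S T, ‖fderiv ℝ u x‖ₑ ≤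
      C * ∫⁻ y in thickening (200 * δ) K, ‖fderiv ℝ f y‖ₑ := by
  obtain ⟨C, hC, h⟩ := one_scale S hS1 hS
  refine ⟨⟨C * 3, by positivity⟩, fun f u hf hu hav K hK hKb δ T hδ hT => ?_⟩
  obtain ⟨L, hL⟩ := exists_hier hf (show 0 < 64 * δ by positivity)
  refine ENNReal.tsum_le_of_sum_range_le fun J => ?_
  set a := ∫ x in thickening (δ + 3 * (64 * δ)) K, ‖fderiv ℝ f x‖ with ha
  set b := (volume : Measure E).real (thickening δ K) with hb
  have h1 : ∀ n : ℕ, ∑ j ∈ Finset.range J,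
      ∫⁻ x in (K ∩ Xs f u (δ / 4096 ^ j)) \ Z1 f u S T, ‖fderiv ℝ u x‖ₑ ≤
      ENNReal.ofReal (C * (3 * a + 3 * L * (2 / 3) ^ n * b)) := fun n => by
    obtain ⟨F, v, hH⟩ := hL (J + n)
    have a1 := hH.sum_Tb hKb δ (Nat.le_add_right J n)
    rw [Nat.add_sub_cancel_left] at a1
    have hlt : ∀ j ∈ Finset.range J, j < J + n := fun j hj =>
      (Finset.mem_range.1 hj).trans_le (Nat.le_add_right J n)
    refine (Finset.sum_le_sum fun j hj =>
      h f u hf hu hav K hK hKb δ T hδ hT L _ F v hH j (hlt j hj)).trans ?_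
    rw [← ENNReal.ofReal_sum_of_nonneg fun j hj => mul_nonneg hC (div_nonneg
      (integral_nonneg fun p => hH.Tb_nonneg (hlt j hj) p) (Vb_nonneg _)), ← Finset.mul_sum]
    exact ENNReal.ofReal_le_ofReal (mul_le_mul_of_nonneg_left a1 hC)
  have h2 : Tendsto (fun n : ℕ => ENNReal.ofReal (C * (3 * a + 3 * L * (2 / 3) ^ n * b))) atTop
      (𝓝 (ENNReal.ofReal (C * (3 * a + 3 * L * 0 * b)))) := by
    refine ENNReal.tendsto_ofReal (Tendsto.const_mul _ (Tendsto.const_add _ (Tendsto.mul_const _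
      (Tendsto.const_mul _ ?_))))
    exact tendsto_pow_atTop_nhds_zero_of_lt_one (by norm_num) (by norm_num)
  refine (ge_of_tendsto' h2 h1).trans ?_
  have hi : Integrable (fderiv ℝ f) :=
    ⟨(hf.smooth.continuous_fderiv (by norm_num)).aestronglyMeasurable, hf.grad⟩
  rw [mul_zero, zero_mul, add_zero, ← mul_assoc, ENNReal.ofReal_mul (by positivity), ha,
    ofReal_integral_norm_eq_lintegral_enorm hi.integrableOn]
  refine mul_le_mul' (le_of_eq (ENNReal.ofReal_eq_coe_nnreal _)) (lintegral_mono_set ?_)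
  exact thickening_mono (by linarith) K

end Vale.Agent.P137
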