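import Vale.Agent.P137.CDefs

open MeasureTheory Metric Set Filter Topology
open scoped ENNReal NNReal RealInnerProductSpace

noncomputable section

namespace Vale.Agent.P137

set_option linter.unusedSectionVars false

variable {E : Type*} [NormedAddCommGroup E] [InnerProductSpace ℝ E] [FiniteDimensional ℝ E]
  [MeasurableSpace E] [BorelSpace E]

namespace ES

theorem card_aux {ι : Type*} (t h : ι → ℝ) {K : ℕ} (k : ℕ) : ∀ S : Finset ι, Set.InjOn t S →
    (∀ A ⊆ S, (∀ i ∈ A, ∀ j ∈ A, t i < t j → h i ≤ h j) → A.card ≤ K) →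
    (∀ A ⊆ S, (∀ i ∈ A, ∀ j ∈ A, t i < t j → h j ≤ h i) → A.card ≤ k) → S.card ≤ k * K := by
  classical
  induction k with
  | zero =>
    intro S _ _ hdown
    rcases S.eq_empty_or_nonempty with rfl | ⟨i, hi⟩
    · simp
    · have := hdown {i} (by simpa using hi) (by simp)
      simp at this
  | succ k ih =>
    intro S ht hup hdown
    let A := S.filter fun i => ∀ j ∈ S, t j < t i → h j ≤ h i
    have hA : A.card ≤ K := hup A (Finset.filter_subset _ _) fun i hi j hj hij =>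
      (Finset.mem_filter.1 hj).2 i (Finset.mem_filter.1 hi).1 hij
    have h1 : (S \ A).card ≤ k * K := by
      refine ih (S \ A) (ht.mono (by simp)) (fun B hB => hup B (hB.trans Finset.sdiff_subset))
        fun D hD hdec => ?_
      rcases D.eq_empty_or_nonempty with rfl | hne
      · simp
      obtain ⟨i0, hi0, hmin⟩ := D.exists_min_image t hne
      have h2 := Finset.mem_sdiff.1 (hD hi0)
      have h3 : ∃ j ∈ S, t j < t i0 ∧ h i0 < h j := by
        by_contra hc
        push Not at hc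
        exact h2.2 (Finset.mem_filter.2 ⟨h2.1, hc⟩)
      obtain ⟨j, hj, htj, hhj⟩ := h3
      have hjD : j ∉ D := fun hjD => absurd (hmin j hjD) (not_le.2 htj)
      have h4 := hdown (insert j D) (Finset.insert_subset hj (hD.trans Finset.sdiff_subset)) (by
        intro a ha b hb hab
        rcases Finset.mem_insert.1 ha with ha' | ha'
        · rcases Finset.mem_insert.1 hb with hb' | hb'
          · rw [ha', hb']
          · rw [ha']
            rcases (hmin b hb').eq_or_lt with h5 | h5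
            · have : i0 = b := ht h2.1 (Finset.mem_sdiff.1 (hD hb')).1 h5
              rw [← this]; exact hhj.le
            · exact (hdec i0 hi0 b hb' h5).trans hhj.le
        · rcases Finset.mem_insert.1 hb with hb' | hb'
          · rw [hb'] at hab
            exact absurd (hab.trans htj) (not_lt.2 (hmin a ha'))
          · exact hdec a ha' b hb' hab)
      rw [Finset.card_insert_of_notMem hjD] at h4
      omega
    have h2 := Finset.card_sdiff_add_card_eq_card (Finset.filter_subset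
      (fun i => ∀ j ∈ S, t j < t i → h j ≤ h i) S)
    change (S \ A).card + A.card = S.card at h2
    rw [Nat.succ_mul]
    omega

theorem nested {ι : Type*} (μ : Measure E) (A : Finset ι) (u : ι → ℝ) (hu : Set.InjOn u A)
    (X Y : ι → Set E) {m B : ℝ} (hm : 0 < m) (hX : ∀ i, MeasurableSet (X i))
    (hY : ∀ i, μ (Y i) ≠ ⊤) (hXf : ∀ i, μ (X i) ≠ ⊤) (hmX : ∀ i ∈ A, m ≤ μ.real (X i))
    (hB : ∀ i ∈ A, μ.real (Y i) ≤ B)
    (h : ∀ i ∈ A, ∀ j ∈ A, u i < u j → X i ⊆ Y j ∧ Disjoint (X i) (X j)) :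
    A.card ≤ ⌊B / m⌋₊ + 1 := by
  classical
  rcases A.eq_empty_or_nonempty with rfl | hne
  · simp
  obtain ⟨j, hj, hmax⟩ := A.exists_max_image u hne
  have hd : (↑(A.erase j) : Set ι).PairwiseDisjoint X := by
    intro a ha b hb hab
    have ha' := Finset.mem_of_mem_erase ha
    have hb' := Finset.mem_of_mem_erase hb
    rcases lt_trichotomy (u a) (u b) with h1 | h1 | h1
    · exact (h a ha' b hb' h1).2
    · exact absurd (hu ha' hb' h1) hab
    · exact (h b hb' a ha' h1).2.symm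
  have h1 := measureReal_biUnion_finset (μ := μ) hd (fun i _ => hX i) fun i _ => hXf i
  have h2 : (⋃ i ∈ A.erase j, X i) ⊆ Y j := by
    refine iUnion₂_subset fun i hi => (h i (Finset.mem_of_mem_erase hi) j hj ?_).1
    refine lt_of_le_of_ne (hmax i (Finset.mem_of_mem_erase hi)) fun h3 => ?_
    exact Finset.ne_of_mem_erase hi (hu (Finset.mem_of_mem_erase hi) hj h3)
  have h3 := (measureReal_mono h2 (hY j)).trans (hB j hj)
  rw [h1] at h3
  have h4 : ((A.erase j).card : ℝ) * m ≤ B := by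
    refine le_trans ?_ h3
    rw [← nsmul_eq_mul]
    exact Finset.card_nsmul_le_sum _ _ _ fun i hi => hmX i (Finset.mem_of_mem_erase hi)
  have h5 : (A.erase j).card ≤ ⌊B / m⌋₊ := Nat.le_floor (by rwa [le_div_iff₀ hm])
  have h6 := Finset.card_erase_add_one hj
  omega

theorem dist_sq {ξ e : E} (he : ‖e‖ = 1) (y : E) (t : ℝ) :
    dist y (ξ + t • e) ^ 2 = ‖y - ξ‖ ^ 2 - 2 * t * ⟪y - ξ, e⟫ + t ^ 2 := by
  rw [dist_eq_norm, ← sub_sub, norm_sub_sq_real, real_inner_smul_right, norm_smul, he,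
    Real.norm_eq_abs, mul_one, sq_abs]
  ring

theorem deep {d d' r r' τ ρ : ℝ} (hτ : 0 < τ) (hτρ : 9 * τ ≤ ρ) (hd : 0 ≤ d) (hd' : 0 ≤ d')
    (hr : r ∈ Icc τ (3 * ρ)) (hr' : r' ∈ Icc τ (3 * ρ)) (h1 : |d - r| ≤ 9 * τ)
    (h2 : d' ^ 2 - r' ^ 2 ≤ d ^ 2 - r ^ 2 - 130 * τ * ρ) : d' < r' - 9 * τ := by
  obtain ⟨h3, h4⟩ := abs_le.1 h1
  have h5 : d ^ 2 - r ^ 2 ≤ 63 * τ * ρ := by
    have : d ^ 2 ≤ (r + 9 * τ) ^ 2 := by gcongr; linarith
    nlinarith [hr.1, hr.2]
  by_contra hc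
  push Not at hc
  have hρ : 0 < τ * ρ := by nlinarith
  rcases le_total r' d' with h6 | h6
  · nlinarith [hr'.1]
  · have : (r' - d') * (r' + d') ≤ (9 * τ) * (6 * ρ) :=
      mul_le_mul (by linarith) (by linarith [hr'.2]) (by linarith [hr'.1]) (by positivity)
    nlinarith

theorem meas_shell (x : E) (r t : ℝ) : MeasurableSet (shell x r t) :=
  (isClosed_le (by fun_prop) continuous_const).measurableSet

theorem shell_bdd (x : E) (r t : ℝ) : Bornology.IsBounded (shell x r t) := by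
  refine (isBounded_closedBall (x := x) (r := r + t)).subset fun y hy => ?_
  have h : |dist y x - r| ≤ t := hy
  rw [mem_closedBall]
  linarith [(abs_le.1 h).2]

end ES

/-- Erdos-Szekeres. -/
theorem es_card {ι : Type*} (t h : ι → ℝ) (S : Finset ι) (ht : Set.InjOn t S) {K : ℕ}
    (hup : ∀ A ⊆ S, (∀ i ∈ A, ∀ j ∈ A, t i < t j → h i ≤ h j) → A.card ≤ K)
    (hdown : ∀ A ⊆ S, (∀ i ∈ A, ∀ j ∈ A, t i < t j → h j ≤ h i) → A.card ≤ K) :
    S.card ≤ K * K :=
  ES.card_aux t h K S ht hup hdown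

/-- Spheres centred on a line which carry mass on both sides of a fixed slab, but little mass
inside, are few. -/
theorem es_count {ι : Type*} (μ : Measure E) (hμ : ∀ A : Set E, Bornology.IsBounded A → μ A ≠ ⊤)
    {ξ e : E} (he : ‖e‖ = 1) (S : Finset ι) (t r : ι → ℝ) {c g τ ρ m B : ℝ} (hτ : 0 < τ)
    (hτρ : 9 * τ ≤ ρ) (hg : 0 < g) (hm : 0 < m) (hr : ∀ i ∈ S, r i ∈ Icc τ (3 * ρ))
    (hB : ∀ i ∈ S, μ.real (ball (ξ + t i • e) (r i - τ)) ≤ B)
    (hL : ∀ i ∈ S, m ≤ μ.real (shell (ξ + t i • e) (r i) (9 * τ) ∩ {y | ⟪y - ξ, e⟫ ≤ c}))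
    (hR : ∀ i ∈ S, m ≤ μ.real (shell (ξ + t i • e) (r i) (9 * τ) ∩ {y | c + g ≤ ⟪y - ξ, e⟫}))
    (hsep : ∀ i ∈ S, ∀ j ∈ S, i ≠ j → 130 * τ * ρ ≤ |t i - t j| * g) :
    (S.card : ℝ) ≤ (B / m + 1) ^ 2 := by
  rcases S.eq_empty_or_nonempty with rfl | ⟨i0, hi0⟩
  · simp only [Finset.card_empty, Nat.cast_zero]
    positivity
  have hB0 : 0 ≤ B := measureReal_nonneg.trans (hB i0 hi0)
  have hρ : 0 < ρ := by linarith
  have ht : Set.InjOn t S := by
    intro i hi j hj hij
    by_contra hne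
    have := hsep i hi j hj hne
    rw [hij, sub_self, abs_zero, zero_mul] at this
    have : 0 < 130 * τ * ρ := by positivity
    linarith
  have hsep' : ∀ i ∈ S, ∀ j ∈ S, t i < t j → 130 * τ * ρ ≤ (t j - t i) * g := by
    intro i hi j hj hij
    have := hsep j hj i hi (by rintro rfl; exact lt_irrefl _ hij)
    rwa [abs_of_pos (by linarith)] at this
  have key : ∀ i ∈ S, ∀ j ∈ S, ∀ (P Q : Set E),
      (∀ y ∈ P, dist y (ξ + t j • e) ^ 2 - r j ^ 2 ≤
        dist y (ξ + t i • e) ^ 2 - r i ^ 2 - 130 * τ * ρ) →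
      shell (ξ + t i • e) (r i) (9 * τ) ∩ P ⊆ ball (ξ + t j • e) (r j - τ) ∧
        Disjoint (shell (ξ + t i • e) (r i) (9 * τ) ∩ P) (shell (ξ + t j • e) (r j) (9 * τ) ∩ Q) := by
    intro i hi j hj P Q hP
    have h1 : ∀ y ∈ shell (ξ + t i • e) (r i) (9 * τ) ∩ P,
        dist y (ξ + t j • e) < r j - 9 * τ := fun y hy =>
      ES.deep hτ hτρ dist_nonneg dist_nonneg (hr i hi) (hr j hj) hy.1 (hP y hy.2)
    refine ⟨fun y hy => ?_, Set.disjoint_left.2 fun y hy hy' => ?_⟩
    · have := h1 y hy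
      rw [mem_ball]; linarith
    · have h2 : |dist y (ξ + t j • e) - r j| ≤ 9 * τ := hy'.1
      linarith [(abs_le.1 h2).1, h1 y hy]
  have hfin : ∀ (i : ι) (P : Set E), μ (shell (ξ + t i • e) (r i) (9 * τ) ∩ P) ≠ ⊤ := fun i P =>
    hμ _ ((ES.shell_bdd _ _ _).subset inter_subset_left)
  have h1 := es_card t (fun i => r i ^ 2 - t i ^ 2 + 2 * t i * (c + g / 2)) S ht
    (K := ⌊B / m⌋₊ + 1)
    (fun A hA hinc => ES.nested μ A t (ht.mono hA)
      (fun i => shell (ξ + t i • e) (r i) (9 * τ) ∩ {y | c + g ≤ ⟪y - ξ, e⟫})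
      (fun i => ball (ξ + t i • e) (r i - τ)) hm
      (fun i => (ES.meas_shell _ _ _).inter
        (isClosed_le continuous_const (by fun_prop)).measurableSet)
      (fun i => hμ _ isBounded_ball) (fun i => hfin i _) (fun i hi => hR i (hA hi))
      (fun i hi => hB i (hA hi)) fun i hi j hj hij => key i (hA hi) j (hA hj) _ _ fun y hy => by
        have h2 : c + g ≤ ⟪y - ξ, e⟫ := hy
        have h3 := hinc i hi j hj hij
        have h4 := hsep' i (hA hi) j (hA hj) hij
        rw [ES.dist_sq he, ES.dist_sq he]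
        nlinarith [mul_le_mul_of_nonneg_left h2 (sub_pos.2 hij).le])
    (fun A hA hdec => ES.nested μ A (fun i => -t i)
      (fun i hi j hj hij => ht (hA hi) (hA hj) (neg_injective hij))
      (fun i => shell (ξ + t i • e) (r i) (9 * τ) ∩ {y | ⟪y - ξ, e⟫ ≤ c})
      (fun i => ball (ξ + t i • e) (r i - τ)) hm
      (fun i => (ES.meas_shell _ _ _).inter
        (isClosed_le (by fun_prop) continuous_const).measurableSet)
      (fun i => hμ _ isBounded_ball) (fun i => hfin i _) (fun i hi => hL i (hA hi))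
      (fun i hi => hB i (hA hi)) fun i hi j hj hij => key i (hA hi) j (hA hj) _ _ fun y hy => by
        have h2 : ⟪y - ξ, e⟫ ≤ c := hy
        have hij' : t j < t i := neg_lt_neg_iff.1 hij
        have h3 := hdec j hj i hi hij'
        have h4 := hsep' j (hA hj) i (hA hi) hij'
        rw [ES.dist_sq he, ES.dist_sq he]
        nlinarith [mul_le_mul_of_nonneg_left h2 (sub_pos.2 hij').le])
  have h2 : (S.card : ℝ) ≤ ((⌊B / m⌋₊ : ℝ) + 1) * ((⌊B / m⌋₊ : ℝ) + 1) := by exact_mod_cast h1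
  have h3 : (⌊B / m⌋₊ : ℝ) ≤ B / m := Nat.floor_le (by positivity)
  rw [sq]
  exact h2.trans (by gcongr)

end Vale.Agent.P137
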