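import Vale.Agent.P137.Osc
import Vale.Agent.P137.ES

open MeasureTheory Metric Set Filter Topology
open scoped ENNReal NNReal RealInnerProductSpace

noncomputable section

namespace Vale.Agent.P137

set_option linter.unusedSectionVars false

variable {E : Type*} [NormedAddCommGroup E] [InnerProductSpace ℝ E] [FiniteDimensional ℝ E]
  [MeasurableSpace E] [BorelSpace E]

namespace Count

theorem shell_bdd (x : E) (r t : ℝ) : Bornology.IsBounded (shell x r t) := by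
  refine (isBounded_closedBall (x := x) (r := r + t)).subset fun y hy => ?_
  have h : |dist y x - r| ≤ t := hy
  rw [mem_closedBall]
  linarith [(abs_le.1 h).2]

theorem shell_inner {x e y : E} (he : ‖e‖ = 1) {r t : ℝ} (hy : y ∈ shell x r t) :
    |⟪y - x, e⟫| ≤ r + t := by
  have h : |dist y x - r| ≤ t := hy
  have h1 := abs_real_inner_le_norm (y - x) e
  rw [he, mul_one, ← dist_eq_norm] at h1
  linarith [(abs_le.1 h).2]

/-- the splitting level of one shell -/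
theorem level (μ : Measure E) (hμ : ∀ A : Set E, Bornology.IsBounded A → μ A ≠ ⊤) {ξ e : E}
    (he : ‖e‖ = 1) {t r τ g m w : ℝ} (hg : 0 < g) (hm : 0 < m) (hw : 9 * τ + g ≤ w)
    (hw0 : 0 ≤ r + w)
    (h : ∀ c : ℝ, |c| ≤ r + w → 2 * m <
      μ.real (shell (ξ + t • e) r (9 * τ) ∩ {y | g ≤ |⟪y - (ξ + t • e), e⟫ - c|})) :
    ∃ a : ℤ, |(a : ℝ) * g - t| ≤ r + w ∧
      m ≤ μ.real (shell (ξ + t • e) r (9 * τ) ∩ {y | ⟪y - ξ, e⟫ ≤ a * g}) ∧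
      m ≤ μ.real (shell (ξ + t • e) r (9 * τ) ∩ {y | a * g + g ≤ ⟪y - ξ, e⟫}) := by
  set Sh := shell (ξ + t • e) r (9 * τ) with hSh
  have hb : Bornology.IsBounded Sh := shell_bdd _ _ _
  have hβ : ∀ y : E, ⟪y - (ξ + t • e), e⟫ = ⟪y - ξ, e⟫ - t := by
    intro y
    rw [← sub_sub, inner_sub_left, real_inner_smul_left, real_inner_self_eq_norm_sq, he]
    ring
  have hfull : 2 * m < μ.real Sh :=
    (h 0 (by simpa using hw0)).trans_le (measureReal_mono inter_subset_left (hμ _ hb))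
  have hin : ∀ y ∈ Sh, |⟪y - ξ, e⟫ - t| ≤ r + 9 * τ := fun y hy => by
    rw [← hβ]; exact shell_inner he hy
  have hP : ∀ a : ℤ, t + r + 9 * τ ≤ a * g → m ≤ μ.real (Sh ∩ {y | ⟪y - ξ, e⟫ ≤ a * g}) := by
    intro a ha
    have : Sh ∩ {y | ⟪y - ξ, e⟫ ≤ a * g} = Sh := by
      refine inter_eq_left.2 fun y hy => ?_
      have := (abs_le.1 (hin y hy)).2
      show ⟪y - ξ, e⟫ ≤ a * g
      linarith
    rw [this]; linarith
  have hlow : ∀ a : ℤ, m ≤ μ.real (Sh ∩ {y | ⟪y - ξ, e⟫ ≤ a * g}) → t - r - 9 * τ ≤ a * g := by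
    intro a ha
    have hne : (Sh ∩ {y | ⟪y - ξ, e⟫ ≤ a * g}).Nonempty := by
      by_contra hc
      rw [not_nonempty_iff_eq_empty] at hc
      rw [hc] at ha
      simp at ha
      linarith
    obtain ⟨y, hy, hy'⟩ := hne
    have h1 := (abs_le.1 (hin y hy)).1
    have h2 : ⟪y - ξ, e⟫ ≤ a * g := hy'
    linarith
  obtain ⟨a, ha, hmin⟩ := Int.exists_least_of_bdd
    (P := fun a : ℤ => m ≤ μ.real (Sh ∩ {y | ⟪y - ξ, e⟫ ≤ a * g}))
    ⟨⌊(t - r - 9 * τ) / g⌋, fun z hz => by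
      have h1 := hlow z hz
      have h2 : (t - r - 9 * τ) / g ≤ z := by rwa [div_le_iff₀ hg]
      have h3 : ((⌊(t - r - 9 * τ) / g⌋ : ℤ) : ℝ) ≤ z := (Int.floor_le _).trans h2
      exact_mod_cast h3⟩
    ⟨⌈(t + r + 9 * τ) / g⌉, hP _ (by
      have := Int.le_ceil ((t + r + 9 * τ) / g)
      rwa [div_le_iff₀ hg] at this)⟩
  have hprev : μ.real (Sh ∩ {y | ⟪y - ξ, e⟫ ≤ ((a - 1 : ℤ) : ℝ) * g}) < m := by
    by_contra hc
    have := hmin _ (not_lt.1 hc)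
    omega
  have hup : ((a - 1 : ℤ) : ℝ) * g < t + r + 9 * τ := by
    by_contra hc
    exact absurd (hP _ (not_lt.1 hc)) (not_le.2 hprev)
  have hlo := hlow a ha
  push_cast at hup hprev
  have habs : |(a : ℝ) * g - t| ≤ r + w := by
    rw [abs_le]; constructor <;> nlinarith
  refine ⟨a, habs, ha, ?_⟩
  have h1 := h _ habs
  have h2 : Sh ∩ {y | g ≤ |⟪y - (ξ + t • e), e⟫ - ((a : ℝ) * g - t)|} ⊆
      (Sh ∩ {y | ⟪y - ξ, e⟫ ≤ ((a : ℝ) - 1) * g}) ∪ (Sh ∩ {y | a * g + g ≤ ⟪y - ξ, e⟫}) := by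
    rintro y ⟨hy, hy'⟩
    have h3 : g ≤ |⟪y - (ξ + t • e), e⟫ - ((a : ℝ) * g - t)| := hy'
    rw [hβ] at h3
    rcases le_abs.1 h3 with h4 | h4
    · refine Or.inr ⟨hy, ?_⟩
      show a * g + g ≤ ⟪y - ξ, e⟫
      linarith
    · refine Or.inl ⟨hy, ?_⟩
      show ⟪y - ξ, e⟫ ≤ ((a : ℝ) - 1) * g
      linarith
  have h3 := (measureReal_mono h2 (hμ _ (hb.subset (union_subset inter_subset_left
    inter_subset_left)))).trans (measureReal_union_le _ _)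
  linarith

end Count

/-- Few grid points on a line carry a high peak. -/
theorem bad_count : ∃ C : ℝ, 0 < C ∧ ∀ (f Λ : E → ℝ) (σ e p ξ : E) (ρ τ : ℝ) (n : ℕ),
    Nice f → 1 ≤ n → 0 < ρ → 0 < τ → τ * (2 ^ 21 * (n : ℝ) ^ 9) ≤ ρ →
    Vio f Λ σ (τ / (2 ^ 20 * (n : ℝ) ^ 3)) → ‖e‖ = 1 → 3 / 4 ≤ ⟪e, σ⟫ → dist ξ p ≤ 2 * ρ →
    ∀ S : Finset ℤ, (∀ k ∈ S, dist (ξ + ((k : ℝ) * (τ / 2048)) • e) p ≤ ρ ∧
      ∃ r ∈ Icc (7 * ρ / 8) (17 * ρ / 8), ∃ H, Peak f (ξ + ((k : ℝ) * (τ / 2048)) • e) e r τ H ∧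
        C * (n : ℝ) ^ 2 * bt Λ p ρ / Vb E (ρ / 2) < H) →
    (S.card : ℝ) ≤ C * (n : ℝ) ^ 8 := by
  classical
  obtain ⟨C0, hC0, hosc⟩ := peak_osc (E := E)
  refine ⟨max C0 (13 * 2 ^ 22 * (130 * 2 ^ 22 * 2048) * 64), lt_max_of_lt_left hC0, ?_⟩
  intro f Λ σ e p ξ ρ τ n hf hn hρ hτ hτρ hV he hes hξ S hS
  have hn1 : (1 : ℝ) ≤ n := by exact_mod_cast hn
  have hn0 : (0 : ℝ) < n := by linarith
  rcases S.eq_empty_or_nonempty with rfl | ⟨k0, hk0⟩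
  · simp only [Finset.card_empty, Nat.cast_zero]
    positivity
  have hbt := bt_nonneg hV p ρ
  have hVb : 0 < Vb E (ρ / 2) := Vb_pos (by positivity)
  have hS' : ∀ k ∈ S, ∃ r ∈ Icc (7 * ρ / 8) (17 * ρ / 8), 0 < bt Λ p ρ ∧
      (mass f Λ σ (τ / (2 ^ 20 * (n : ℝ) ^ 3))).real
        (ball (ξ + ((k : ℝ) * (τ / 2048)) • e) (r - τ)) ≤ 7 * bt Λ p ρ ∧
      ∀ c : ℝ, |c| ≤ r + ρ / 8 → 2 * bt Λ p ρ / n <
        (mass f Λ σ (τ / (2 ^ 20 * (n : ℝ) ^ 3))).real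
          (shell (ξ + ((k : ℝ) * (τ / 2048)) • e) r (9 * τ) ∩
            {y | ρ / (2 ^ 22 * (n : ℝ) ^ 3) ≤ |⟪y - (ξ + ((k : ℝ) * (τ / 2048)) • e), e⟫ - c|}) := by
    intro k hk
    obtain ⟨hd, r, hr, H, hP, hH⟩ := hS k hk
    refine ⟨r, hr, hosc f Λ σ e p _ ρ τ r H n hf hn hρ hτ hτρ hV he hes hd hr hP ?_⟩
    refine lt_of_le_of_lt ?_ hH
    gcongr
    exact le_max_left _ _
  choose! r hr hpos hB hc using hS'
  have hbt0 := hpos k0 hk0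
  set μ := mass f Λ σ (τ / (2 ^ 20 * (n : ℝ) ^ 3)) with hμdef
  have hμ : ∀ A : Set E, Bornology.IsBounded A → μ A ≠ ⊤ := fun A hA => mass_ne_top hf hV hA
  set g := ρ / (2 ^ 22 * (n : ℝ) ^ 3) with hgdef
  have hg : 0 < g := by positivity
  have hn3 : (1 : ℝ) ≤ (n : ℝ) ^ 3 := one_le_pow₀ hn1
  have hn9 : (1 : ℝ) ≤ (n : ℝ) ^ 9 := one_le_pow₀ hn1
  have hgρ : g * (2 ^ 22 * (n : ℝ) ^ 3) = ρ := by rw [hgdef]; field_simp
  have hτ1 : τ * 2 ^ 21 ≤ ρ := by nlinarith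
  have hg1 : g * 2 ^ 22 ≤ ρ := by nlinarith
  have hm : 0 < bt Λ p ρ / n := by positivity
  have hlev : ∀ k ∈ S, ∃ a : ℤ, |(a : ℝ) * g - (k : ℝ) * (τ / 2048)| ≤ r k + ρ / 8 ∧
      bt Λ p ρ / n ≤ μ.real (shell (ξ + ((k : ℝ) * (τ / 2048)) • e) (r k) (9 * τ) ∩
        {y | ⟪y - ξ, e⟫ ≤ a * g}) ∧
      bt Λ p ρ / n ≤ μ.real (shell (ξ + ((k : ℝ) * (τ / 2048)) • e) (r k) (9 * τ) ∩
        {y | a * g + g ≤ ⟪y - ξ, e⟫}) := by
    intro k hk
    refine Count.level μ hμ he hg hm (by linarith) (by linarith [(hr k hk).1]) fun c hc' => ?_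
    have := hc k hk c hc'
    rwa [mul_div_assoc] at this
  choose! a ha hL hR using hlev
  set A : ℕ := 6 * 2 ^ 22 * n ^ 3 with hA
  set Q : ℕ := 130 * 2 ^ 22 * 2048 * n ^ 3 with hQ
  have hQ0 : 0 < Q := by positivity
  have hmaps : ∀ k ∈ S, (a k, k % (Q : ℤ)) ∈
      (Finset.Icc (-(A : ℤ)) A) ×ˢ (Finset.Ico (0 : ℤ) Q) := by
    intro k hk
    have hQ' : (0 : ℤ) < Q := by exact_mod_cast hQ0
    refine Finset.mem_product.2 ⟨?_, Finset.mem_Ico.2 ⟨Int.emod_nonneg _ hQ'.ne',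
      Int.emod_lt_of_pos _ hQ'⟩⟩
    have h1 : |(k : ℝ) * (τ / 2048)| ≤ 3 * ρ := by
      have h2 := dist_triangle_right (ξ + ((k : ℝ) * (τ / 2048)) • e) ξ p
      rw [dist_eq_norm, add_sub_cancel_left, norm_smul, he, mul_one, Real.norm_eq_abs] at h2
      linarith [(hS k hk).1]
    have h2 : |(a k : ℝ)| * g ≤ 6 * ρ := by
      have h3 := abs_sub_abs_le_abs_sub ((a k : ℝ) * g) ((k : ℝ) * (τ / 2048))
      rw [abs_mul, abs_of_pos hg] at h3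
      linarith [ha k hk, (hr k hk).2]
    have h3 : |(a k : ℝ)| ≤ (A : ℝ) := by
      rw [← hgρ] at h2
      have : (A : ℝ) = 6 * (2 ^ 22 * (n : ℝ) ^ 3) := by rw [hA]; push_cast; ring
      rw [this]
      nlinarith
    have h4 : |a k| ≤ (A : ℤ) := by exact_mod_cast h3
    exact Finset.mem_Icc.2 (abs_le.1 h4)
  have hcl : ∀ b ∈ (Finset.Icc (-(A : ℤ)) A) ×ˢ (Finset.Ico (0 : ℤ) Q),
      (S.filter fun k => (a k, k % (Q : ℤ)) = b).card ≤ 64 * n ^ 2 := by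
    rintro ⟨a0, q0⟩ -
    have h1 := es_count μ hμ (ξ := ξ) he (S.filter fun k => (a k, k % (Q : ℤ)) = (a0, q0))
      (fun k : ℤ => (k : ℝ) * (τ / 2048)) r (c := a0 * g) (g := g) (τ := τ) (ρ := ρ)
      (m := bt Λ p ρ / n) (B := 7 * bt Λ p ρ) hτ (by linarith) hg hm
      (fun k hk => by
        have := hr k (Finset.mem_filter.1 hk).1
        exact ⟨by linarith [this.1], by linarith [this.2]⟩)
      (fun k hk => hB k (Finset.mem_filter.1 hk).1)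
      (fun k hk => by
        have h2 : a k = a0 := congrArg Prod.fst (Finset.mem_filter.1 hk).2
        rw [← h2]; exact hL k (Finset.mem_filter.1 hk).1)
      (fun k hk => by
        have h2 : a k = a0 := congrArg Prod.fst (Finset.mem_filter.1 hk).2
        rw [← h2]; exact hR k (Finset.mem_filter.1 hk).1)
      (fun i hi j hj hij => by
        have h2 : i % (Q : ℤ) = q0 := congrArg Prod.snd (Finset.mem_filter.1 hi).2
        have h3 : j % (Q : ℤ) = q0 := congrArg Prod.snd (Finset.mem_filter.1 hj).2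
        have h4 : (Q : ℤ) ∣ i - j := Int.ModEq.dvd (show j ≡ i [ZMOD Q] from h3.trans h2.symm)
        have h5 : (Q : ℤ) ≤ |i - j| :=
          Int.le_of_dvd (abs_pos.2 (sub_ne_zero.2 hij)) ((dvd_abs _ _).2 h4)
        have h6 : (Q : ℝ) ≤ |(i : ℝ) - j| := by exact_mod_cast h5
        have h7 : (Q : ℝ) = 130 * 2048 * (2 ^ 22 * (n : ℝ) ^ 3) := by rw [hQ]; push_cast; ring
        rw [← sub_mul, abs_mul, abs_of_pos (by positivity : 0 < τ / 2048)]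
        calc 130 * τ * ρ = (Q : ℝ) * (τ / 2048) * g := by rw [h7, ← hgρ]; ring
          _ ≤ _ := by gcongr)
    have h2 : 7 * bt Λ p ρ / (bt Λ p ρ / n) = 7 * n := by field_simp
    rw [h2] at h1
    have h3 : (((S.filter fun k => (a k, k % (Q : ℤ)) = (a0, q0)).card : ℕ) : ℝ) ≤
        64 * (n : ℝ) ^ 2 := h1.trans (by nlinarith)
    exact_mod_cast h3
  have hcard := Finset.card_le_mul_card_image_of_maps_to hmaps _ hcl
  rw [Finset.card_product, Int.card_Icc, Int.card_Ico] at hcard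
  have e1 : ((A : ℤ) + 1 - -(A : ℤ)).toNat = 2 * A + 1 := by omega
  have e2 : ((Q : ℤ) - 0).toNat = Q := by omega
  rw [e1, e2] at hcard
  have h1 : (S.card : ℝ) ≤ 64 * (n : ℝ) ^ 2 * ((2 * (A : ℝ) + 1) * Q) := by exact_mod_cast hcard
  have h2 : 2 * (A : ℝ) + 1 ≤ 13 * 2 ^ 22 * (n : ℝ) ^ 3 := by
    rw [hA]; push_cast; nlinarith
  have h3 : (Q : ℝ) = 130 * 2 ^ 22 * 2048 * (n : ℝ) ^ 3 := by rw [hQ]; push_cast; ring
  calc (S.card : ℝ) ≤ 64 * (n : ℝ) ^ 2 * ((13 * 2 ^ 22 * (n : ℝ) ^ 3) * Q) :=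
        h1.trans (by gcongr)
    _ = (13 * 2 ^ 22 * (130 * 2 ^ 22 * 2048) * 64) * (n : ℝ) ^ 8 := by rw [h3]; ring
    _ ≤ _ := by gcongr; exact le_max_right _ _

end Vale.Agent.P137
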