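import Vale.Agent.P137.LowC

open MeasureTheory Metric Set Filter Topology
open scoped ENNReal NNReal RealInnerProductSpace

noncomputable section

namespace Vale.Agent.P137

variable {E : Type*} [NormedAddCommGroup E] [InnerProductSpace ℝ E] [FiniteDimensional ℝ E]
  [MeasurableSpace E] [BorelSpace E]

namespace CoverAux

lemma split (f : E → ℝ) (t : ℝ) (y : E) (s : ℝ) : volume.real (ball y s) ≤
    volume.real ({w | f w ≤ t} ∩ ball y s) + volume.real ({w | t < f w} ∩ ball y s) := by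
  refine le_trans (measureReal_mono (fun w hw => ?_) ?_) (measureReal_union_le _ _)
  · rcases le_or_gt (f w) t with h | h
    · exact Or.inl ⟨h, hw⟩
    · exact Or.inr ⟨h, hw⟩
  · exact measure_union_ne_top (vol_inter_ball_ne_top _ _ _) (vol_inter_ball_ne_top _ _ _)

lemma mono_inter {A : Set E} {y y' : E} {s s' : ℝ} (h : ball y s ⊆ ball y' s') :
    volume.real (A ∩ ball y s) ≤ volume.real (A ∩ ball y' s') :=
  measureReal_mono (inter_subset_inter_right _ h) (vol_inter_ball_ne_top _ _ _)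

lemma to_enn {A : Set E} {y : E} {s k t : ℝ} (hk : 0 ≤ k)
    (h : k * volume.real (ball (0 : E) t) ≤ volume.real (A ∩ ball y s)) :
    ENNReal.ofReal k * volume (ball (0 : E) t) ≤ volume (A ∩ ball y s) := by
  rw [vol_ball_eq_ofReal, ← ENNReal.ofReal_mul hk]
  exact (ENNReal.ofReal_le_iff_le_toReal (vol_inter_ball_ne_top _ _ _)).2 h

lemma of_enn {A : Set E} {y : E} {s k t : ℝ} (hk : 0 ≤ k)
    (h : ENNReal.ofReal k * volume (ball (0 : E) t) ≤ volume (A ∩ ball y s)) :
    k * volume.real (ball (0 : E) t) ≤ volume.real (A ∩ ball y s) := by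
  rw [vol_ball_eq_ofReal, ← ENNReal.ofReal_mul hk] at h
  exact (ENNReal.ofReal_le_iff_le_toReal (vol_inter_ball_ne_top _ _ _)).1 h

/-- removing a thin shell -/
lemma shell [Nontrivial E] {A : Set E} {y : E} {s c κ : ℝ} (hs : 0 < s) (hκ0 : 0 ≤ κ) (hκ : κ < 1)
    (hκc : 1 - c / 2 ≤ (1 - κ) ^ Module.finrank ℝ E) :
    volume.real (A ∩ ball y s) ≤
      volume.real (A ∩ ball y ((1 - κ) * s)) + c / 2 * volume.real (ball y s) := by
  have sub : ball y ((1 - κ) * s) ⊆ ball y s := ball_subset_ball (by nlinarith)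
  have h1 : volume.real (A ∩ ball y s) ≤ volume.real (A ∩ ball y ((1 - κ) * s)) +
      volume.real (ball y s \ ball y ((1 - κ) * s)) := by
    refine le_trans (measureReal_mono (fun w hw => ?_) ?_) (measureReal_union_le _ _)
    · by_cases h : w ∈ ball y ((1 - κ) * s)
      · exact Or.inl ⟨hw.1, h⟩
      · exact Or.inr ⟨hw.2, h⟩
    · exact measure_union_ne_top (vol_inter_ball_ne_top _ _ _)
        (measure_ne_top_of_subset sdiff_subset measure_ball_lt_top.ne)
  rw [measureReal_sdiff sub measurableSet_ball measure_ball_lt_top.ne,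
    real_ball_mul y y hs (by linarith)] at h1
  nlinarith [real_ball_pos y hs]

lemma dist_seg (x z : E) (a b : ℝ) :
    dist (x + a • (z - x)) (x + b • (z - x)) = |a - b| * dist x z := by
  rw [dist_add_left, dist_eq_norm, ← sub_smul, norm_smul, Real.norm_eq_abs, dist_comm, dist_eq_norm]

lemma caseA [Nontrivial E] {f : E → ℝ} {c t r ρ : ℝ} {z p : E} (hc : 0 < c) (c1 : c ≤ 1)
    (hc4 : c * 4 ^ Module.finrank ℝ E ≤ 1) (h1 : ρ ≤ r) (h2 : r < 2 * ρ) (h3 : dist z p < ρ / 16)
    (hA : volume.real ({w | t < f w} ∩ ball z r) ≤ c * volume.real (ball z r)) :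
    c / 2 * volume.real (ball (0 : E) (ρ / 8)) ≤
      volume.real ({w | f w ≤ t} ∩ ball p (13 * ρ / 16)) := by
  have hρ : 0 < ρ := by linarith
  have hr : 0 < r := by linarith
  have d0 : Module.finrank ℝ E ≠ 0 := Module.finrank_pos.ne'
  have v0 : 0 < volume.real (ball (0 : E) 1) := real_ball_pos _ one_pos
  have sub : ball p (13 * ρ / 16) ⊆ ball z r :=
    ball_subset_ball' (by rw [dist_comm]; linarith)
  have h4 := split f t p (13 * ρ / 16)
  have h5 := (mono_inter (A := {w | t < f w}) sub).trans hA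
  rw [real_ball _ hr] at h5
  rw [real_ball _ (by positivity)] at h4 ⊢
  generalize Module.finrank ℝ E = d at *
  generalize volume.real (ball (0 : E) 1) = v at *
  have h6 : r ^ d ≤ 4 ^ d * (ρ / 2) ^ d := by
    rw [← mul_pow]; exact pow_le_pow_left₀ hr.le (by linarith) _
  have h7 : (ρ / 2) ^ d + (ρ / 8) ^ d ≤ (13 * ρ / 16) ^ d :=
    (pow_add_pow_le (by positivity) (by positivity) d0).trans
      (pow_le_pow_left₀ (by positivity) (by linarith) _)
  have h8 : c * r ^ d ≤ (ρ / 2) ^ d :=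
    calc c * r ^ d ≤ c * (4 ^ d * (ρ / 2) ^ d) := by gcongr
      _ = c * 4 ^ d * (ρ / 2) ^ d := by ring
      _ ≤ _ := mul_le_of_le_one_left (by positivity) hc4
  have h10 := mul_le_mul_of_nonneg_right h7 v0.le
  have h11 := mul_le_mul_of_nonneg_right h8 v0.le
  have h12 : c / 2 * ((ρ / 8) ^ d * v) ≤ (ρ / 8) ^ d * v :=
    mul_le_of_le_one_left (by positivity) (by linarith)
  linarith

lemma caseB [Nontrivial E] {f : E → ℝ} {c κ t s ρ : ℝ} {q y p : E} (hc : 0 < c) (c1 : c ≤ 1)
    (hc4 : c * 4 ^ Module.finrank ℝ E ≤ 1) (hκ : 0 < κ) (hκ8 : κ ≤ 1 / 8) (hρ : 0 < ρ) (h1 : ρ ≤ s)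
    (s1 : ball q (s / 8) ⊆ ball y ((1 - κ) * (s / 2))) (s2 : ball q (s / 8) ⊆ ball p (13 * ρ / 16))
    (h2 : volume.real ({w | t < f w} ∩ ball y ((1 - κ) * (s / 2))) <
      c / 2 * volume.real (ball (0 : E) ((1 - κ) * (s / 2)))) :
    c / 2 * volume.real (ball (0 : E) (ρ / 8)) ≤
      volume.real ({w | f w ≤ t} ∩ ball p (13 * ρ / 16)) := by
  have s0 : 0 < s := by linarith
  have k0 : 0 < (1 - κ) * (s / 2) := mul_pos (by linarith) (by positivity)
  have v0 : 0 < volume.real (ball (0 : E) 1) := real_ball_pos _ one_pos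
  have h6 := split f t q (s / 8)
  have h7 := mono_inter (A := {w | t < f w}) s1
  have h8 := mono_inter (A := {w | f w ≤ t}) s2
  rw [real_ball _ k0] at h2
  rw [real_ball _ (by positivity)] at h6 ⊢
  generalize Module.finrank ℝ E = d at *
  generalize volume.real (ball (0 : E) 1) = v at *
  have h9 : ((1 - κ) * (s / 2)) ^ d ≤ 4 ^ d * (s / 8) ^ d := by
    rw [← mul_pow]; exact pow_le_pow_left₀ k0.le (by nlinarith) _
  have h10 : (ρ / 8) ^ d ≤ (s / 8) ^ d := pow_le_pow_left₀ (by positivity) (by linarith) _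
  have h11 : c * ((1 - κ) * (s / 2)) ^ d ≤ (s / 8) ^ d :=
    calc _ ≤ c * (4 ^ d * (s / 8) ^ d) := by gcongr
      _ = c * 4 ^ d * (s / 8) ^ d := by ring
      _ ≤ _ := mul_le_of_le_one_left (by positivity) hc4
  have h12 : c * (ρ / 8) ^ d ≤ (s / 8) ^ d :=
    (mul_le_of_le_one_left (by positivity) c1).trans h10
  have h13 := mul_le_mul_of_nonneg_right h11 v0.le
  have h14 := mul_le_mul_of_nonneg_right h12 v0.le
  linarith

end CoverAux

open CoverAux

theorem cover [Nontrivial E] {f u : E → ℝ} (hf : Continuous f)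
    (hu : ∀ z r y, y ∈ ball z r → av f z r ≤ u y) {c κ : ℝ} (hc : 0 < c)
    (hc4 : c * 4 ^ Module.finrank ℝ E ≤ 1) (hκ : 0 < κ) (hκ8 : κ ≤ 1 / 8)
    (hκc : 1 - c / 2 ≤ (1 - κ) ^ Module.finrank ℝ E) {x z : E} {r : ℝ} (hr : 0 < r)
    (hx : dist x z = r) (hopt : u x = av f z r) (hlt : f x < u x) :
    ∃ y s, 0 < s ∧ s ≤ r ∧
      ∀ ρ p, ρ ≤ s → s < 2 * ρ → dist y p < ρ / 16 → Mem f u c κ ρ p x := by
  have c1 : c ≤ 1 := by
    nlinarith [one_le_pow₀ (n := Module.finrank ℝ E) (show (1 : ℝ) ≤ 4 by norm_num)]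
  have hB : ∀ w ∈ ball z r, u x ≤ u w := fun w hw => hopt ▸ hu z r w hw
  by_cases hA : volume.real ({w | u x < f w} ∩ ball z r) ≤ c * volume.real (ball z r)
  · exact ⟨z, r, hr, le_rfl, fun ρ p h1 h2 h3 => ⟨z, r, ⟨h1, h2, h3, hx.le, hB,
      to_enn (by positivity) (caseA hc c1 hc4 h1 h2 h3 hA)⟩, Or.inr hopt⟩⟩
  push Not at hA
  let y : ℕ → E := fun m => x + (1 / 2 ^ m : ℝ) • (z - x)
  let P : ℕ → Prop := fun m => c / 2 * volume.real (ball (0 : E) ((1 - κ) * (r / 2 ^ m))) ≤
    volume.real ({w | u x < f w} ∩ ball (y m) ((1 - κ) * (r / 2 ^ m)))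
  have hxy : ∀ m, dist x (y m) = r / 2 ^ m := fun m => by
    have := dist_seg x z 0 (1 / 2 ^ m)
    simp only [zero_smul, add_zero, zero_sub, abs_neg] at this
    rw [this, abs_of_pos (by positivity), hx]; ring
  have hyz : ∀ m, dist (y m) z = r - r / 2 ^ m := fun m => by
    have := dist_seg x z (1 / 2 ^ m) 1
    simp only [one_smul, add_sub_cancel] at this
    have h1 : (1 / 2 ^ m : ℝ) ≤ 1 := div_le_self zero_le_one (one_le_pow₀ one_le_two)
    rw [this, abs_of_nonpos (by linarith), hx]; ring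
  have P0 : P 0 := by
    have h1 := shell (A := {w | u x < f w}) (y := z) hr hκ.le (by linarith) hκc
    have h2 : volume.real (ball (0 : E) ((1 - κ) * r)) ≤ volume.real (ball z r) := by
      rw [real_ball_mul z 0 hr (by linarith)]
      exact mul_le_of_le_one_left measureReal_nonneg (pow_le_one₀ (by linarith) (by linarith))
    simp only [P, y, pow_zero, div_one, one_smul, add_sub_cancel]
    nlinarith
  have hex : ∃ m, ¬ P m := by
    obtain ⟨ε, hε, hb⟩ := Metric.isOpen_iff.1 (isOpen_lt hf continuous_const) x hlt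
    obtain ⟨m, hm⟩ := pow_unbounded_of_one_lt (2 * r / ε) (one_lt_two (α := ℝ))
    refine ⟨m, fun h => ?_⟩
    have h1 : 2 * (r / 2 ^ m) < ε := by
      rw [div_lt_iff₀ hε] at hm
      rw [← mul_div_assoc, div_lt_iff₀ (by positivity)]; linarith
    have h2 : 0 < r / 2 ^ m := by positivity
    have h3 : {w | u x < f w} ∩ ball (y m) ((1 - κ) * (r / 2 ^ m)) = ∅ := by
      refine eq_empty_of_forall_notMem fun w hw => ?_
      have := hb (ball_subset_ball' (by rw [dist_comm, hxy]; nlinarith) hw.2)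
      exact lt_asymm (a := f w) this hw.1
    simp only [P, h3, measureReal_empty] at h
    have := real_ball_pos (0 : E) (r := (1 - κ) * (r / 2 ^ m)) (by nlinarith)
    nlinarith
  classical
  obtain ⟨m, hm⟩ : ∃ m, Nat.find hex = m + 1 :=
    Nat.exists_eq_succ_of_ne_zero fun h => Nat.find_spec hex (by rw [h]; exact P0)
  have h1 : P m := not_not.1 (Nat.find_min hex (by omega))
  have h2 : ¬ P (m + 1) := hm ▸ Nat.find_spec hex
  set s := r / 2 ^ m with hs
  have s0 : 0 < s := by positivity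
  have sr : s ≤ r := div_le_self hr.le (one_le_pow₀ one_le_two)
  have es : r / 2 ^ (m + 1) = s / 2 := by rw [hs, pow_succ]; field_simp
  refine ⟨y m, s, s0, sr, fun ρ p h3 h4 h5 => ⟨y m, s, ⟨h3, h4, h5, (hxy m).le,
    fun w hw => hB w (ball_subset_ball' (by rw [hyz]; linarith) hw), ?_⟩, Or.inl ?_⟩⟩
  · have hρ : 0 < ρ := by linarith
    refine to_enn (by positivity) ?_
    set q := x + (3 / 4 * (1 / 2 ^ m) : ℝ) • (z - x) with hq
    have e1 : dist q (y (m + 1)) = s / 4 := by
      rw [hq, dist_seg, hx, hs, pow_succ, abs_of_pos]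
      · field_simp; norm_num
      · have : (3 / 4 * (1 / 2 ^ m) - 1 / (2 ^ m * 2) : ℝ) = 1 / 4 * (1 / 2 ^ m) := by
          field_simp; norm_num
        rw [this]; positivity
    have e2 : dist q (y m) = s / 4 := by
      rw [hq, dist_seg, hx, hs, abs_of_neg]
      · field_simp; norm_num
      · have : (0 : ℝ) < 1 / 2 ^ m := by positivity
        linarith
    have s1 : ball q (s / 8) ⊆ ball (y (m + 1)) ((1 - κ) * (s / 2)) :=
      ball_subset_ball' (by rw [e1]; nlinarith)
    have s2 : ball q (s / 8) ⊆ ball p (13 * ρ / 16) :=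
      ball_subset_ball' (by linarith [dist_triangle q (y m) p])
    simp only [P, es, not_le] at h2
    exact caseB hc c1 hc4 hκ hκ8 hρ h3 s1 s2 h2
  · have hρ : 0 < ρ := by linarith
    refine to_enn (by positivity) (le_trans (mul_le_mul_of_nonneg_left ?_ (by positivity)) h1)
    exact measureReal_mono (ball_subset_ball (by nlinarith)) measure_ball_lt_top.ne

theorem mem_starSet {f u : E → ℝ} {c κ ρ a b : ℝ} {p x : E} (hρ : 0 < ρ)
    (h : Mem f u c κ ρ p x) (hd : DifferentiableAt ℝ u x) (hab : u x ∈ Icc a b) :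
    x ∈ StarSet u p ρ a b := by
  obtain ⟨y, s, ⟨h1, h2, h3, h4, h5, -⟩, -⟩ := h
  refine ⟨?_, hd, hab, fun w hw σ hσ => h5 _ ?_⟩
  · rw [mem_ball]; linarith [dist_triangle x y p]
  · have e : x + σ • (w - x) - y = (1 - σ) • (x - y) + σ • (w - y) := by module
    rw [mem_ball] at hw
    have h6 : dist w y < s := by linarith [dist_triangle_right w y p]
    rw [mem_ball, dist_eq_norm, e]
    refine (norm_add_le _ _).trans_lt ?_
    rw [norm_smul, norm_smul, Real.norm_of_nonneg (by linarith [hσ.2]),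
      Real.norm_of_nonneg hσ.1.le, ← dist_eq_norm, ← dist_eq_norm]
    nlinarith [hσ.1, hσ.2]

end Vale.Agent.P137
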