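import Mathlib

/-!
# P137: definitions

`IsWeakGrad` and `uMax` are used in the final statement; everything else is internal to the proof.
-/

open MeasureTheory Metric Set Filter Topology
open scoped ENNReal NNReal RealInnerProductSpace

noncomputable section

namespace Vale.Agent.P137

variable {E : Type*} [NormedAddCommGroup E] [InnerProductSpace ℝ E] [FiniteDimensional ℝ E]
  [MeasurableSpace E] [BorelSpace E]

/-- `G` is a weak gradient of `f`: the integration by parts formula holds against all smooth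
compactly supported test functions, in every direction `v`. -/
def IsWeakGrad (f : E → ℝ) (G : E → E) : Prop :=
  ∀ φ : E → ℝ, ContDiff ℝ (⊤ : ℕ∞) φ → HasCompactSupport φ → ∀ v : E,
    ∫ x, f x * fderiv ℝ φ x v = -∫ x, ⟪G x, v⟫ * φ x

/-- The uncentered Hardy-Littlewood maximal function: the supremum of the averages of `|f|` over
all open Euclidean balls containing `x` (with values in `[0, ∞]`). -/
def uMax (f : E → ℝ) (x : E) : ℝ≥0∞ :=
  ⨆ (z : E) (r : ℝ) (_ : x ∈ ball z r), (∫⁻ y in ball z r, ‖f y‖ₑ) / volume (ball z r)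

/-- Real-valued version of `uMax`. -/
def U (f : E → ℝ) (x : E) : ℝ := (uMax f x).toReal

/-- The regular functions for which the main estimate is proved first. -/
structure Nice (f : E → ℝ) : Prop where
  smooth : ContDiff ℝ 1 f
  nonneg : ∀ x, 0 ≤ f x
  integrable : Integrable f
  bdd : ∃ M : ℝ, ∀ x, f x ≤ M
  lip : ∃ L : ℝ≥0, LipschitzWith L f
  grad : ∫⁻ x, ‖fderiv ℝ f x‖ₑ < ⊤

/-- Average over a ball. -/
def av (f : E → ℝ) (z : E) (r : ℝ) : ℝ := ⨍ y in ball z r, f y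

/-- Non-monotonicity of a triple: the distance from `b` to the segment with endpoints `a`, `c`. -/
def nm (a b c : ℝ) : ℝ := (|a - b| + |b - c| - |a - c|) / 2

/-- The midpoint non-monotonicity density. -/
def nmf (f : E → ℝ) (y h : E) : ℝ≥0∞ := ENNReal.ofReal (nm (f (y - h)) (f y) (f (y + h)))

/-- Local non-monotonicity budget. -/
def NB (f : E → ℝ) (z : E) (R : ℝ) : ℝ≥0∞ :=
  ∫⁻ y in ball z R, ∫⁻ h in ball (0 : E) R, nmf f y h

/-- Points `y` whose distance to `{u < f y}` lies between `a` and `b`. -/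
def Dset (f u : E → ℝ) (a b : ℝ) : Set E :=
  {y | (∀ w ∈ ball y a, f y ≤ u w) ∧ ∃ x ∈ ball y b, u x < f y}

/-- Local charge. -/
def CH (f u : E → ℝ) (p : E) (R a b : ℝ) : ℝ≥0∞ :=
  ∫⁻ y in ball p R ∩ Dset f u a b, ‖fderiv ℝ f y‖ₑ

/-- Points near `p` from which `u` increases towards the ball `ball p (ρ / 2)`. -/
def StarSet (u : E → ℝ) (p : E) (ρ a b : ℝ) : Set E :=
  {x | x ∈ ball p (3 * ρ) ∧ DifferentiableAt ℝ u x ∧ u x ∈ Icc a b ∧
    ∀ w ∈ ball p (ρ / 2), ∀ σ ∈ Ioc (0 : ℝ) 1, u x ≤ u (x + σ • (w - x))}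

/-- Basic data of a member of the class `(ρ, p)`. -/
def Base (f u : E → ℝ) (c ρ : ℝ) (p x y : E) (s : ℝ) : Prop :=
  ρ ≤ s ∧ s < 2 * ρ ∧ dist y p < ρ / 16 ∧ dist x y ≤ s ∧ (∀ w ∈ ball y s, u x ≤ u w) ∧
    ENNReal.ofReal (c / 2) * volume (ball (0 : E) (ρ / 8)) ≤
      volume ({w | f w ≤ u x} ∩ ball p (13 * ρ / 16))

/-- Membership in the class `(ρ, p)`. -/
def Mem (f u : E → ℝ) (c κ ρ : ℝ) (p x : E) : Prop :=
  ∃ y s, Base f u c ρ p x y s ∧
    (ENNReal.ofReal (c / 2) * volume (ball (0 : E) (ρ / 8)) ≤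
      volume ({w | u x < f w} ∩ ball y ((1 - κ) * s)) ∨ u x = av f y s)

/-- The mollifier at scale `1 / (n + 1)`. -/
def bump (n : ℕ) : ContDiffBump (0 : E) :=
  ⟨1 / (2 * ((n : ℝ) + 1)), 1 / ((n : ℝ) + 1), by positivity, by
    rw [div_lt_div_iff₀ (by positivity) (by positivity)]
    have : (0 : ℝ) ≤ n := Nat.cast_nonneg n
    linarith⟩

/-- Mollification. -/
def moll (n : ℕ) (f : E → ℝ) (x : E) : ℝ :=
  ∫ y, (bump (E := E) n).normed volume y * f (x - y)

/-- Smooth nonnegative approximation of `|f|`. -/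
def apx (n : ℕ) (f : E → ℝ) (x : E) : ℝ :=
  Real.sqrt (moll n f x ^ 2 + (1 / ((n : ℝ) + 1)) ^ 2) - 1 / ((n : ℝ) + 1)

end Vale.Agent.P137
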