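import Vale.Agent.P137.Defs

open MeasureTheory Metric Set Filter Topology
open scoped ENNReal NNReal RealInnerProductSpace CompactlySupported

noncomputable section

namespace Vale.Agent.P137

variable {E : Type*} [NormedAddCommGroup E] [InnerProductSpace ℝ E] [FiniteDimensional ℝ E]
  [MeasurableSpace E] [BorelSpace E]

lemma wl_integrable {w : E → ℝ} (hm : Measurable w) (h0 : ∀ x, 0 ≤ w x) {M : ℝ≥0∞} (hM : M ≠ ⊤)
    (hb : ∫⁻ x, ENNReal.ofReal (w x) ≤ M) : Integrable w := by
  refine ⟨hm.aestronglyMeasurable, ?_⟩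
  rw [hasFiniteIntegral_iff_ofReal (Eventually.of_forall h0)]
  exact lt_of_le_of_lt hb hM.lt_top

lemma wl_integral_le {w : E → ℝ} (hm : Measurable w) (h0 : ∀ x, 0 ≤ w x) {M : ℝ≥0∞} (hM : M ≠ ⊤)
    (hb : ∫⁻ x, ENNReal.ofReal (w x) ≤ M) : ∫ x, w x ≤ M.toReal := by
  rw [integral_eq_lintegral_of_nonneg_ae (Eventually.of_forall h0) hm.aestronglyMeasurable]
  exact ENNReal.toReal_mono hM hb

lemma wl_mul_integrable {w : E → ℝ} (hw : Integrable w) {φ : E → ℝ} (hφ : Continuous φ)
    (hs : HasCompactSupport φ) : Integrable (fun x => φ x * w x) := by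
  obtain ⟨C, hC⟩ := hφ.bounded_above_of_compact_support hs
  exact hw.bdd_mul hφ.aestronglyMeasurable (Eventually.of_forall hC)

lemma wl_exists_lim (w : ℕ → E → ℝ) (hm : ∀ n, Measurable (w n)) (h0 : ∀ n x, 0 ≤ w n x)
    {M : ℝ≥0∞} (hM : M ≠ ⊤) (hb : ∀ n, ∫⁻ x, ENNReal.ofReal (w n x) ≤ M)
    {φ : E → ℝ} (hφ : Continuous φ) (hs : HasCompactSupport φ) :
    ∃ a : ℝ, Tendsto (fun n => ∫ x, φ x * w n x) (hyperfilter ℕ : Filter ℕ) (𝓝 a) := by
  obtain ⟨C, hC⟩ := hφ.bounded_above_of_compact_support hs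
  have hbd : ∀ n, (∫ x, φ x * w n x) ∈ closedBall (0 : ℝ) (C * M.toReal) := by
    intro n
    have hi := wl_integrable (hm n) (h0 n) hM (hb n)
    rw [mem_closedBall_zero_iff]
    calc ‖∫ x, φ x * w n x‖ ≤ ∫ x, C * w n x := by
          refine norm_integral_le_of_norm_le (hi.const_mul C) (Eventually.of_forall fun x => ?_)
          rw [norm_mul, Real.norm_of_nonneg (h0 n x)]
          exact mul_le_mul_of_nonneg_right (hC x) (h0 n x)
      _ = C * ∫ x, w n x := integral_const_mul _ _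
      _ ≤ C * M.toReal :=
          mul_le_mul_of_nonneg_left (wl_integral_le (hm n) (h0 n) hM (hb n))
            ((norm_nonneg _).trans (hC 0))
  obtain ⟨a, -, ha⟩ := (isCompact_closedBall (0 : ℝ) (C * M.toReal)).ultrafilter_le_nhds
    ((hyperfilter ℕ).map fun n => ∫ x, φ x * w n x)
    (by
      rw [le_principal_iff]
      exact Filter.mem_map.2 (Filter.univ_mem' hbd))
  exact ⟨a, ha⟩

theorem weak_limit (w : ℕ → E → ℝ) (hm : ∀ n, Measurable (w n)) (h0 : ∀ n x, 0 ≤ w n x)
    {M : ℝ≥0∞} (hM : M ≠ ⊤) (hb : ∀ n, ∫⁻ x, ENNReal.ofReal (w n x) ≤ M)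
    (hac : ∀ K : Set E, IsCompact K → volume K = 0 → ∀ ε : ℝ≥0∞, 0 < ε →
      ∃ V : Set E, IsOpen V ∧ K ⊆ V ∧ ∀ᶠ n in atTop, ∫⁻ x in V, ENNReal.ofReal (w n x) ≤ ε) :
    ∃ W : E → ℝ, Integrable W ∧ (∀ x, 0 ≤ W x) ∧ ∫⁻ x, ENNReal.ofReal (W x) ≤ M ∧
      ∀ φ : E → ℝ, Continuous φ → HasCompactSupport φ →
        Tendsto (fun n => ∫ x, φ x * w n x) (hyperfilter ℕ : Filter ℕ) (𝓝 (∫ x, φ x * W x)) := by
  have hi : ∀ n, Integrable (w n) := fun n => wl_integrable (hm n) (h0 n) hM (hb n)
  choose L hL using fun f : C_c(E, ℝ) =>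
    wl_exists_lim w hm h0 hM hb (φ := f) f.continuous f.hasCompactSupport
  have hint : ∀ (f : C_c(E, ℝ)) n, Integrable (fun x => f x * w n x) := fun f n =>
    wl_mul_integrable (hi n) f.continuous f.hasCompactSupport
  let Ll : C_c(E, ℝ) →ₗ[ℝ] ℝ :=
    { toFun := L
      map_add' := fun f g => by
        refine tendsto_nhds_unique (hL (f + g)) ?_
        refine ((hL f).add (hL g)).congr fun n => ?_
        rw [← integral_add (hint f n) (hint g n)]
        refine integral_congr_ae (Eventually.of_forall fun x => ?_)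
        simp [add_mul]
      map_smul' := fun c f => by
        refine tendsto_nhds_unique (hL (c • f)) ?_
        refine ((hL f).const_mul c).congr fun n => ?_
        rw [← integral_const_mul]
        refine integral_congr_ae (Eventually.of_forall fun x => ?_)
        simp [mul_assoc] }
  let Λ : C_c(E, ℝ) →ₚ[ℝ] ℝ := PositiveLinearMap.mk₀ Ll fun f hf =>
    ge_of_tendsto' (hL f) fun n => integral_nonneg fun x => mul_nonneg (hf x) (h0 n x)
  have hΛ : ∀ f, Λ f = L f := fun f => rfl
  set μ : Measure E := RealRMK.rieszMeasure Λ with hμ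
  have : μ.Regular := RealRMK.regular_rieszMeasure Λ
  have key : ∀ (K V : Set E) (ε : ℝ≥0∞), ε ≠ ⊤ → IsCompact K → IsOpen V → K ⊆ V →
      (∀ᶠ n in atTop, ∫⁻ x in V, ENNReal.ofReal (w n x) ≤ ε) → μ K ≤ ε := by
    intro K V ε hε hK hV hKV hev
    obtain ⟨f, hf1, hfc, hfV, hf01⟩ :=
      exists_continuousMap_one_of_isCompact_subset_isOpen hK hV hKV
    let F : C_c(E, ℝ) := ⟨f, hfc⟩
    have h1 : μ K ≤ ENNReal.ofReal (Λ F) :=
      RealRMK.rieszMeasure_le_of_eq_one Λ (f := F) (fun x => (hf01 x).1) hK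
        (fun x hx => hf1 hx)
    refine h1.trans ?_
    rw [hΛ, ← ENNReal.ofReal_toReal hε]
    refine ENNReal.ofReal_le_ofReal (le_of_tendsto (hL F) ?_)
    refine (hev.filter_mono Nat.hyperfilter_le_atTop).mono fun n hn => ?_
    calc ∫ x, F x * w n x ≤ ∫ x, V.indicator (w n) x := by
          refine integral_mono (hint F n) ((hi n).indicator hV.measurableSet) fun x => ?_
          by_cases hx : x ∈ V
          · simp only [indicator_of_mem hx]
            exact mul_le_of_le_one_left (h0 n x) (hf01 x).2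
          · simp only [indicator_of_notMem hx]
            have : F x = 0 := image_eq_zero_of_notMem_tsupport fun h => hx (hfV h)
            simp [this]
      _ = ∫ x in V, w n x := integral_indicator hV.measurableSet
      _ ≤ ε.toReal := by
          rw [integral_eq_lintegral_of_nonneg_ae (Eventually.of_forall (h0 n))
            (hm n).aestronglyMeasurable]
          exact ENNReal.toReal_mono hε hn
  have hMμ : μ univ ≤ M := by
    rw [isOpen_univ.measure_eq_iSup_isCompact]
    refine iSup_le fun K => iSup_le fun _ => iSup_le fun hK => ?_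
    exact key K univ M hM hK isOpen_univ (subset_univ _)
      (Eventually.of_forall fun n => by simpa using hb n)
  have : IsFiniteMeasure μ := ⟨hMμ.trans_lt hM.lt_top⟩
  have hac' : μ ≪ volume := by
    refine Measure.AbsolutelyContinuous.mk fun s hs hs0 => ?_
    rw [hs.measure_eq_iSup_isCompact_of_ne_top (measure_ne_top μ s)]
    refine le_antisymm (iSup_le fun K => iSup_le fun hKs => iSup_le fun hK => ?_) zero_le
    refine ENNReal.le_of_forall_pos_le_add fun ε hε _ => ?_
    obtain ⟨V, hV, hKV, hev⟩ := hac K hK (measure_mono_null hKs hs0) ε (by exact_mod_cast hε)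
    simpa using key K V ε ENNReal.coe_ne_top hK hV hKV hev
  refine ⟨fun x => (μ.rnDeriv volume x).toReal, Measure.integrable_toReal_rnDeriv,
    fun x => ENNReal.toReal_nonneg, ?_, fun φ hφ hs => ?_⟩
  · calc ∫⁻ x, ENNReal.ofReal (μ.rnDeriv volume x).toReal ≤ ∫⁻ x, μ.rnDeriv volume x :=
          lintegral_mono fun x => ENNReal.ofReal_toReal_le
      _ ≤ μ univ := Measure.lintegral_rnDeriv_le
      _ ≤ M := hMμ
  · let F : C_c(E, ℝ) := ⟨⟨φ, hφ⟩, hs⟩
    have h1 : ∫ x, φ x * (μ.rnDeriv volume x).toReal = L F := by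
      rw [← hΛ, ← RealRMK.integral_rieszMeasure Λ F, ← hμ,
        ← integral_rnDeriv_smul hac' (f := fun x => F x)]
      refine integral_congr_ae (Eventually.of_forall fun x => ?_)
      simp only [smul_eq_mul, mul_comm]
      rfl
    rw [h1]
    exact hL F

end Vale.Agent.P137
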