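import Vale.Agent.P137.Main
import Vale.Agent.P137.Conv
import Vale.Agent.P137.WeakLim
import Vale.Agent.P137.FinalA

open MeasureTheory Metric Set Filter Topology
open scoped ENNReal NNReal RealInnerProductSpace

noncomputable section

namespace Vale.Agent.P137

variable {E : Type*} [NormedAddCommGroup E] [InnerProductSpace ℝ E] [FiniteDimensional ℝ E]
  [MeasurableSpace E] [BorelSpace E]

theorem final [Nontrivial E] : ∃ C : ℝ, ∀ (f : E → ℝ) (G : E → E), Integrable f → Integrable G →
    IsWeakGrad f G →
      (∀ᵐ x, uMax f x < ⊤) ∧ LocallyIntegrable (U f) ∧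
        ∃ G' : E → E, Integrable G' ∧ IsWeakGrad (U f) G' ∧
          ∫ x, ‖G' x‖ ≤ C * ∫ x, ‖G x‖ := by
  obtain ⟨C, hC⟩ := main_estimate (E := E)
  refine ⟨3 * Module.finrank ℝ E * C, fun f G hf hG hw => ?_⟩
  have hA : ∫⁻ y, ‖G y‖ₑ ≠ ⊤ := hG.2.ne
  have hloc := uMax_loc hf hA (trans_weak hf hG hw)
  have hm := measurable_uMax f
  have hli : LocallyIntegrable (U f) := by
    intro x
    refine ⟨ball 0 (‖x‖ + 1), isOpen_ball.mem_nhds (by simp), ?_⟩
    exact integrable_toReal_of_lintegral_ne_top hm.aemeasurable (hloc _).ne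
  refine ⟨?_, hli, final_abs (u := fun n => U (apx n f)) ?_ hG
    (fun n => U_lipschitz (apx_nice hf hG hw n)) hli (U_apx_tendsto hf hG hw)⟩
  · rw [← Measure.restrict_univ (μ := (volume : Measure E)), ← iUnion_ball_nat (0 : E),
      ae_restrict_iUnion_iff]
    exact fun n => ae_lt_top hm (hloc _).ne
  · intro n K hK δ hδ
    have hδ0 : 0 < δ := lt_of_lt_of_le (by positivity) hδ
    refine (hC _ (apx_nice hf hG hw n) K hK δ hδ0).trans ?_
    refine add_le_add (mul_le_mul_right ?_ _) (mul_le_mul_right (ENNReal.div_le_div_right ?_ _) _)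
    · refine (apx_grad_le hf hG hw n isOpen_thickening.measurableSet).trans ?_
      refine lintegral_mono_set ((thickening_thickening_subset _ _ _).trans ?_)
      exact thickening_mono (by linarith) K
    · have := apx_grad_le hf hG hw n MeasurableSet.univ
      rw [Measure.restrict_univ] at this
      exact this.trans (setLIntegral_le_lintegral _ _)

end Vale.Agent.P137
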