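import Vale.Agent.P137.COpt

open MeasureTheory Metric Set Filter Topology
open scoped ENNReal NNReal RealInnerProductSpace

noncomputable section

namespace Vale.Agent.P137

set_option linter.unusedSectionVars false

variable {E : Type*} [NormedAddCommGroup E] [InnerProductSpace ℝ E] [FiniteDimensional ℝ E]
  [MeasurableSpace E] [BorelSpace E]

theorem continuous_int_ball {F : Type*} [NormedAddCommGroup F] [NormedSpace ℝ F] {q : E → F}
    (hq : Continuous q) (r : ℝ) : Continuous fun x => ∫ y in ball x r, q y := by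
  simp only [fun x => COpt.int_shift' q x r]
  refine continuous_iff_continuousAt.2 fun x0 => ?_
  obtain ⟨C, hC⟩ := (isCompact_closedBall x0 (1 + r)).exists_bound_of_continuousOn hq.continuousOn
  refine continuousAt_of_dominated (bound := fun _ => C) (Eventually.of_forall fun x =>
    (by fun_prop : Continuous fun y => q (x + y)).aestronglyMeasurable) ?_
    (integrableOn_const measure_ball_lt_top.ne) (Eventually.of_forall fun y => by fun_prop)
  filter_upwards [ball_mem_nhds x0 one_pos] with x hx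
  filter_upwards [ae_restrict_mem measurableSet_ball] with y hy
  refine hC _ ?_
  have h1 := dist_triangle (x + y) x x0
  rw [dist_eq_norm (x + y) x, add_sub_cancel_left] at h1
  rw [mem_ball_zero_iff] at hy
  rw [mem_ball] at hx
  rw [mem_closedBall]
  linarith

namespace HierA

theorem intOn {F : Type*} [NormedAddCommGroup F] {q : E → F} (hq : Continuous q) {A : Set E}
    (hA : Bornology.IsBounded A) : IntegrableOn q A := by
  obtain ⟨R, hR⟩ := hA.subset_closedBall 0
  exact (hq.continuousOn.integrableOn_compact (isCompact_closedBall 0 R)).mono_set hR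

theorem swap {q : E → ℝ} (hq : Continuous q) {A : Set E} (hA : Bornology.IsBounded A) (r : ℝ) :
    ∫ y in A, (∫ z in ball y r, q z) = ∫ w in ball (0 : E) r, ∫ y in A, q (y + w) := by
  simp only [fun x => COpt.int_shift' q x r]
  refine integral_integral_swap ?_
  rw [Measure.prod_restrict]
  obtain ⟨R, hR⟩ := hA.subset_closedBall 0
  have hc : Continuous (Function.uncurry fun x y : E => q (x + y)) :=
    hq.comp continuous_add
  exact (hc.continuousOn.integrableOn_compact
    ((isCompact_closedBall 0 R).prod (isCompact_closedBall 0 r))).mono_set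
      (prod_mono hR ball_subset_closedBall)

theorem avg_eq {F : Type*} [NormedAddCommGroup F] [NormedSpace ℝ F] (q : E → F) (x : E) (r : ℝ) :
    ⨍ y in ball x r, q y = (Vb E r)⁻¹ • ∫ y in ball x r, q y := by
  rw [setAverage_eq, Vb_center]

theorem cont_avg {F : Type*} [NormedAddCommGroup F] [NormedSpace ℝ F] {q : E → F}
    (hq : Continuous q) (r : ℝ) : Continuous fun x => ⨍ y in ball x r, q y := by
  simp only [avg_eq]
  exact (continuous_int_ball hq r).const_smul _

/-- the levels, counted from the top -/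
def lev (f : E → ℝ) (g : E → E) (ϱ : ℝ) (N : ℕ) : ℕ → (E → ℝ) × (E → E)
  | 0 => (f, g)
  | k + 1 => (fun x => ⨍ y in ball x (ϱ / 4096 ^ (N - (k + 1))), (lev f g ϱ N k).1 y,
      fun x => ⨍ y in ball x (ϱ / 4096 ^ (N - (k + 1))), (lev f g ϱ N k).2 y)

theorem lev_spec {f : E → ℝ} {g : E → E} {ϱ L : ℝ} (hϱ : 0 < ϱ) (N : ℕ) (hg : Continuous g)
    (hL : ∀ x, ‖g x‖ ≤ L) (hd : ∀ x, HasFDerivAt f (innerSL ℝ (g x)) x) (k : ℕ) :
    Continuous (lev f g ϱ N k).2 ∧ (∀ x, ‖(lev f g ϱ N k).2 x‖ ≤ L) ∧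
      ∀ x, HasFDerivAt (lev f g ϱ N k).1 (innerSL ℝ ((lev f g ϱ N k).2 x)) x := by
  induction k with
  | zero => exact ⟨hg, hL, hd⟩
  | succ k ih =>
    refine ⟨cont_avg ih.1 _, fun x => ?_, fun x => hasFDerivAt_avg ih.1 ih.2.1 ih.2.2 _ x⟩
    have hr : 0 < ϱ / 4096 ^ (N - (k + 1)) := by positivity
    have hV := Vb_pos (E := E) hr
    show ‖⨍ y in ball x (ϱ / 4096 ^ (N - (k + 1))), (lev f g ϱ N k).2 y‖ ≤ L
    rw [avg_eq, norm_smul, norm_inv, Real.norm_of_nonneg hV.le, inv_mul_le_iff₀ hV, mul_comm,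
      ← Vb_center x]
    exact norm_setIntegral_le_of_norm_le_const measure_ball_lt_top fun y _ => ih.2.1 y

end HierA

open HierA

theorem exists_hier {f : E → ℝ} (hf : Nice f) {ϱ : ℝ} (hϱ : 0 < ϱ) :
    ∃ L : ℝ, ∀ N : ℕ, ∃ F v, Hier f L ϱ N F v := by
  obtain ⟨L, hL⟩ := hf.lip
  have hc : Continuous (fderiv ℝ f) := hf.smooth.continuous_fderiv one_ne_zero
  refine ⟨L, fun N => ?_⟩
  let g : E → E := fun x => (InnerProductSpace.toDual ℝ E).symm (fderiv ℝ f x)
  have hs := lev_spec (f := f) (g := g) (L := L) hϱ N (by fun_prop) (fun x => by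
    rw [LinearIsometryEquiv.norm_map]; exact norm_fderiv_le_of_lipschitz ℝ hL) (fun x => by
    have h1 : innerSL ℝ (g x) = fderiv ℝ f x := by
      ext w; simp [g]
    rw [h1]
    exact (hf.smooth.differentiable one_ne_zero x).hasFDerivAt)
  refine ⟨fun i => (lev f g ϱ N (N - i)).1, fun i => (lev f g ϱ N (N - i)).2, hϱ,
    fun x y => hL.norm_sub_le x y, fun i hi => ?_, fun i => (hs _).1, fun i => (hs _).2.1,
    fun i => (hs _).2.2, fun i hi x => ?_, fun i hi x => ?_⟩
  · rw [Nat.sub_eq_zero_of_le hi]; rfl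
  · rw [show N - i = N - (i + 1) + 1 by omega, lev, show N - (N - (i + 1) + 1) = i by omega]
  · rw [show N - i = N - (i + 1) + 1 by omega, lev, show N - (N - (i + 1) + 1) = i by omega]

/-- Fubini, upper bound. -/
theorem int_int_le {q : E → ℝ} (hq : Continuous q) (h0 : ∀ y, 0 ≤ q y) {A A' : Set E}
    (hA : MeasurableSet A) (hA' : MeasurableSet A') (hb : Bornology.IsBounded A') {r : ℝ}
    (hr : 0 < r) (h : ∀ y ∈ A, ball y r ⊆ A') :
    ∫ y in A, (∫ z in ball y r, q z) ≤ Vb E r * ∫ z in A', q z := by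
  have hAb : Bornology.IsBounded A := hb.subset fun y hy => h y hy (mem_ball_self hr)
  rw [swap hq hAb, mul_comm, Vb]
  refine (Real.le_norm_self _).trans
    (norm_setIntegral_le_of_norm_le_const measure_ball_lt_top fun w hw => ?_)
  rw [Real.norm_of_nonneg (integral_nonneg fun y => h0 _),
    ← (measurePreserving_add_right volume w).setIntegral_preimage_emb
      (measurableEmbedding_addRight w) q A']
  refine setIntegral_mono_set (((measurePreserving_add_right volume w).integrableOn_comp_preimage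
    (measurableEmbedding_addRight w)).2 (intOn hq hb)) (Eventually.of_forall fun y => h0 _)
    (HasSubset.Subset.eventuallyLE fun y hy => h y hy ?_)
  rw [mem_ball, dist_eq_norm, add_sub_cancel_left]
  exact mem_ball_zero_iff.1 hw

/-- Fubini, lower bound. -/
theorem le_int_int {q : E → ℝ} (hq : Continuous q) (h0 : ∀ y, 0 ≤ q y) (p : E) (R r : ℝ) :
    Vb E r * ∫ z in ball p (R - r), q z ≤ ∫ y in ball p R, (∫ z in ball y r, q z) := by
  rw [swap hq isBounded_ball, Vb, ← smul_eq_mul, ← setIntegral_const]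
  simp only [← OptAux.int_shift q p]
  refine setIntegral_mono_on (integrableOn_const measure_ball_lt_top.ne)
    (intOn ((continuous_int_ball hq R).comp (continuous_const_add p)) isBounded_ball)
    measurableSet_ball fun w hw => ?_
  refine setIntegral_mono_set (intOn hq isBounded_ball) (Eventually.of_forall h0)
    (ball_subset_ball' ?_).eventuallyLE
  rw [dist_eq_norm, sub_add_cancel_left, norm_neg]
  linarith [mem_ball_zero_iff.1 hw]

variable {f : E → ℝ} {L ϱ : ℝ} {N : ℕ} {F : ℕ → E → ℝ} {v : ℕ → E → E}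

theorem Hier.cont_Df (h : Hier f L ϱ N F v) (i : ℕ) : Continuous (Df v ϱ i) :=
  (cont_avg (h.cont (i + 1)).norm _).sub (h.cont i).norm

theorem Hier.Df_nonneg (h : Hier f L ϱ N F v) {i : ℕ} (hi : i < N) (x : E) : 0 ≤ Df v ϱ i x := by
  rw [Df, h.vv i hi, avg_eq, avg_eq, norm_smul, Real.norm_of_nonneg (inv_nonneg.2 (Vb_nonneg _)),
    smul_eq_mul, sub_nonneg]
  exact mul_le_mul_of_nonneg_left (norm_integral_le_integral_norm _) (inv_nonneg.2 (Vb_nonneg _))

theorem Hier.cont_Tb (h : Hier f L ϱ N F v) (j : ℕ) : Continuous (Tb v L ϱ N j) :=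
  ((continuous_const.mul (h.cont_Df j)).add (continuous_finset_sum _ fun i _ =>
    continuous_const.mul (continuous_int_ball (h.cont_Df i) _))).add continuous_const

theorem Hier.Tb_nonneg (h : Hier f L ϱ N F v) {j : ℕ} (hj : j < N) (p : E) :
    0 ≤ Tb v L ϱ N j p := by
  have hL : 0 ≤ L := (norm_nonneg _).trans (h.bdd 0 0)
  exact add_nonneg (add_nonneg (mul_nonneg (Vb_nonneg _) (h.Df_nonneg hj p))
    (Finset.sum_nonneg fun i hi => mul_nonneg (by positivity)
      (integral_nonneg (h.Df_nonneg (Finset.mem_Ioo.1 hi).2))))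
    (mul_nonneg (by positivity) (Vb_nonneg _))

/-- Averaging the non-directional part. -/
theorem Hier.avg_bad (h : Hier f L ϱ N F v) {i : ℕ} (hi : i < N) (σ x : E) :
    ⨍ y in ball x (ϱ / 4096 ^ i), (‖v (i + 1) y‖ - ⟪σ, v (i + 1) y⟫) =
      Df v ϱ i x + (‖v i x‖ - ⟪σ, v i x⟫) := by
  have hc := h.cont (i + 1)
  have h1 : ⟪σ, v i x⟫ = (Vb E (ϱ / 4096 ^ i))⁻¹ * ∫ y in ball x (ϱ / 4096 ^ i), ⟪σ, v (i + 1) y⟫ := by
    rw [h.vv i hi, avg_eq, real_inner_smul_right, integral_inner (intOn hc isBounded_ball)]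
  rw [Df, h1, avg_eq, avg_eq, integral_sub (intOn hc.norm isBounded_ball)
    (intOn (by fun_prop) isBounded_ball), smul_eq_mul, smul_eq_mul]
  ring

end Vale.Agent.P137
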