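import Vale.Agent.P137.Defs

open MeasureTheory Metric Set Filter Topology
open scoped ENNReal NNReal RealInnerProductSpace

noncomputable section

namespace Vale.Agent.P137

variable {E : Type*} [NormedAddCommGroup E] [InnerProductSpace ℝ E] [FiniteDimensional ℝ E]
  [MeasurableSpace E] [BorelSpace E]

theorem tsum_ind_le {ι α β : Type*} (s : ι → Set α) (x : α) (F : Finset β) (φ : ι → β)
    (hφ : ∀ i, x ∈ s i → φ i ∈ F) (hinj : ∀ i j, x ∈ s i → x ∈ s j → φ i = φ j → i = j) :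
    ∑' i, (s i).indicator (1 : α → ℝ≥0∞) x ≤ F.card := by
  have e : ∀ i, (s i).indicator (1 : α → ℝ≥0∞) x =
      {i | x ∈ s i}.indicator (fun _ => (1 : ℝ≥0∞)) i := fun i => by
    by_cases h : x ∈ s i <;> simp [h]
  simp only [e]
  rw [← tsum_subtype, ENNReal.tsum_set_one]
  have h : {i | x ∈ s i}.encard ≤ (F : Set β).encard :=
    Set.encard_le_encard_of_injOn (f := φ) (fun i hi => hφ i hi) fun i hi j hj => hinj i j hi hj
  rw [Set.encard_coe_eq_coe_finsetCard] at h
  exact_mod_cast ENat.toENNReal_le.2 h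

theorem exists_lattice : ∃ Λ : Set E, Λ.Countable ∧ (∀ x : E, ∃ p ∈ Λ, dist x p < 1 / 16) ∧
    ∃ N : ℕ, ∀ x : E, ∑' p : Λ, (ball (p : E) 10).indicator (1 : E → ℝ≥0∞) x ≤ N := by
  obtain ⟨Λ, hΛ⟩ := zorn_subset {S : Set E | S.Pairwise fun a b => 1 / 16 ≤ dist a b} (by
    intro c hc hch
    refine ⟨⋃₀ c, ?_, fun s hs => subset_sUnion_of_mem hs⟩
    rintro a ⟨s, hs, ha⟩ b ⟨t, ht, hb⟩ hab
    rcases hch.total hs ht with h | h
    · exact hc ht (h ha) hb hab
    · exact hc hs ha (h hb) hab)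
  have hsep : Λ.Pairwise fun a b => 1 / 16 ≤ dist a b := hΛ.prop
  refine ⟨Λ, ?_, fun x => ?_, ?_⟩
  · refine Set.PairwiseDisjoint.countable_of_isOpen (s := fun p : E => ball p (1 / 32))
      (fun a ha b hb hab => ?_) (fun _ _ => isOpen_ball) fun p _ => nonempty_ball.2 (by norm_num)
    exact ball_disjoint_ball (by linarith [hsep ha hb hab])
  · by_contra hx
    push Not at hx
    have h1 : insert x Λ ∈ {S : Set E | S.Pairwise fun a b => 1 / 16 ≤ dist a b} :=
      hsep.insert fun p hp _ => ⟨hx p hp, by rw [dist_comm]; exact hx p hp⟩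
    have h2 := hΛ.le_of_ge h1 (subset_insert x Λ) (mem_insert x Λ)
    have := hx x h2
    rw [dist_self] at this
    norm_num at this
  · obtain ⟨F, hF, hcov⟩ := Metric.totallyBounded_iff.1
      (isCompact_closedBall (0 : E) 10).totallyBounded (1 / 32) (by norm_num)
    refine ⟨hF.toFinset.card, fun x => ?_⟩
    have hex : ∀ p : Λ, ∃ q : E, x ∈ ball (p : E) 10 → q ∈ F ∧ dist ((p : E) - x) q < 1 / 32 := by
      intro p
      by_cases h : x ∈ ball (p : E) 10
      · have : (p : E) - x ∈ closedBall (0 : E) 10 := by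
          rw [mem_closedBall_zero_iff, ← dist_eq_norm, dist_comm]
          exact (mem_ball.1 h).le
        obtain ⟨q, hq, hq'⟩ := mem_iUnion₂.1 (hcov this)
        exact ⟨q, fun _ => ⟨hq, hq'⟩⟩
      · exact ⟨0, fun h' => absurd h' h⟩
    choose φ hφ using hex
    refine tsum_ind_le (fun p : Λ => ball (p : E) 10) x hF.toFinset φ
      (fun p hp => hF.mem_toFinset.2 (hφ p hp).1) fun p q hp hq hpq => ?_
    by_contra hne
    have h1 := hsep p.2 q.2 fun h => hne (Subtype.ext h)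
    have h2 := (hφ p hp).2
    have h3 := (hφ q hq).2
    rw [← hpq] at h3
    have h4 := dist_triangle_right ((p : E) - x) ((q : E) - x) (φ p)
    rw [dist_sub_right] at h4
    linarith

omit [InnerProductSpace ℝ E] [FiniteDimensional ℝ E] [MeasurableSpace E] [BorelSpace E] in
theorem dset_close {κ δ : ℝ} (hδ : 0 < δ) {f u : E → ℝ} {y : E} {n m : ℕ} (hnm : n ≤ m)
    (hn : y ∈ Dset f u (κ * (δ / 2 ^ n)) (10 * (δ / 2 ^ n)))
    (hm : y ∈ Dset f u (κ * (δ / 2 ^ m)) (10 * (δ / 2 ^ m))) : κ * 2 ^ (m - n) < 10 := by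
  obtain ⟨x, hx, hux⟩ := hm.2
  have h1 : κ * (δ / 2 ^ n) < 10 * (δ / 2 ^ m) := by
    by_contra h
    exact absurd (hn.1 x (ball_subset_ball (not_lt.1 h) hx)) (not_le.2 hux)
  obtain ⟨k, rfl⟩ := Nat.exists_eq_add_of_le hnm
  rw [Nat.add_sub_cancel_left]
  have e : κ * (δ / 2 ^ n) = κ * 2 ^ k * (δ / 2 ^ (n + k)) := by
    rw [pow_add]; field_simp
  rw [e] at h1
  exact lt_of_mul_lt_mul_right h1 (by positivity)

/-- A point lies in boundedly many of the dyadic Whitney layers. -/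
theorem dset_overlap {κ : ℝ} (hκ : 0 < κ) : ∃ N : ℕ, ∀ (f u : E → ℝ) (δ : ℝ), 0 < δ → ∀ y : E,
    ∑' n : ℕ, (Dset f u (κ * (δ / 2 ^ n)) (10 * (δ / 2 ^ n))).indicator (1 : E → ℝ≥0∞) y ≤ N := by
  classical
  obtain ⟨N, hN⟩ := pow_unbounded_of_one_lt (10 / κ) (one_lt_two (α := ℝ))
  rw [div_lt_iff₀ hκ] at hN
  refine ⟨N, fun f u δ hδ y => ?_⟩
  by_cases hex : ∃ n : ℕ, y ∈ Dset f u (κ * (δ / 2 ^ n)) (10 * (δ / 2 ^ n))
  · have h := tsum_ind_le (fun n : ℕ => Dset f u (κ * (δ / 2 ^ n)) (10 * (δ / 2 ^ n))) y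
      (Finset.range N) (fun n => n - Nat.find hex) (fun n hn => by
        have h1 := dset_close hδ (Nat.find_min' hex hn) (Nat.find_spec hex) hn
        rw [Finset.mem_range]
        have h2 : (2 : ℝ) ^ (n - Nat.find hex) < 2 ^ N := by
          refine lt_of_mul_lt_mul_left (a := κ) ?_ hκ.le
          linarith
        exact (pow_lt_pow_iff_right₀ one_lt_two).1 h2)
      (fun n m hn hm h => by
        have h1 := Nat.find_min' hex hn
        have h2 := Nat.find_min' hex hm
        omega)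
    rwa [Finset.card_range] at h
  · push Not at hex
    simp [hex]

theorem measurableSet_dset {f u : E → ℝ} (hf : Continuous f) (hu : Continuous u) (a b : ℝ) :
    MeasurableSet (Dset f u a b) := by
  have e : Dset f u a b = (⋂ v ∈ ball (0 : E) a, {y | f y ≤ u (y + v)}) ∩
      ⋃ v ∈ ball (0 : E) b, {y | u (y + v) < f y} := by
    ext y
    simp only [Dset, mem_setOf_eq, mem_inter_iff, mem_iInter, mem_iUnion, exists_prop]
    refine and_congr ⟨fun h v hv => h _ (by simpa using hv), fun h w hw => ?_⟩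
      ⟨fun ⟨x, hx, h⟩ => ⟨x - y, by simpa [← dist_eq_norm] using hx, by simpa using h⟩,
        fun ⟨v, hv, h⟩ => ⟨y + v, by simpa using hv, h⟩⟩
    simpa using h (w - y) (by simpa [← dist_eq_norm] using hw)
  rw [e]
  refine MeasurableSet.inter (IsClosed.measurableSet ?_) (IsOpen.measurableSet ?_)
  · exact isClosed_biInter fun v _ => isClosed_le hf (hu.comp (continuous_id.add continuous_const))
  · exact isOpen_biUnion fun v _ => isOpen_lt (hu.comp (continuous_id.add continuous_const)) hf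

end Vale.Agent.P137
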