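import Vale.Agent.P137.CDefs

open MeasureTheory Metric Set Filter Topology
open scoped ENNReal NNReal RealInnerProductSpace

noncomputable section

namespace Vale.Agent.P137

set_option linter.unusedSectionVars false

variable {E : Type*} [NormedAddCommGroup E] [InnerProductSpace ℝ E] [FiniteDimensional ℝ E]
  [MeasurableSpace E] [BorelSpace E]

/-- Integration along the lines in the direction `e`. -/
theorem slab_formula {g : E → ℝ≥0∞} (hg : Measurable g) {e : E} (he : ‖e‖ = 1) (p : E) {ρ : ℝ}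
    (hρ : 0 < ρ) : ENNReal.ofReal ρ * ∫⁻ x, g x =
      ∫⁻ ξ in {ξ : E | ⟪ξ - p, e⟫ ∈ Ico 0 ρ}, ∫⁻ t : ℝ, g (ξ + t • e) := by
  set S := {ξ : E | ⟪ξ - p, e⟫ ∈ Ico 0 ρ} with hS
  have hSm : MeasurableSet S :=
    (by fun_prop : Continuous fun ξ : E => ⟪ξ - p, e⟫).measurable measurableSet_Ico
  set c : E → ℝ≥0∞ := S.indicator fun _ => 1 with hc
  have hcm : Measurable c := measurable_const.indicator hSm
  have e1 : ∫⁻ ξ in S, ∫⁻ t : ℝ, g (ξ + t • e) = ∫⁻ ξ, ∫⁻ t : ℝ, c ξ * g (ξ + t • e) := by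
    rw [← lintegral_indicator hSm]
    refine lintegral_congr fun ξ => ?_
    by_cases h : ξ ∈ S <;> simp [hc, h]
  have m1 : Measurable (Function.uncurry fun (ξ : E) (t : ℝ) => c ξ * g (ξ + t • e)) :=
    (hcm.comp measurable_fst).mul (hg.comp (by fun_prop))
  have m2 : Measurable (Function.uncurry fun (t : ℝ) (x : E) => c (x - t • e) * g x) :=
    (hcm.comp (by fun_prop)).mul (hg.comp measurable_snd)
  have e2 : ∀ t : ℝ, ∫⁻ ξ, c ξ * g (ξ + t • e) = ∫⁻ x, c (x - t • e) * g x := fun t => by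
    rw [← lintegral_add_right_eq_self (fun x => c (x - t • e) * g x) (t • e)]
    simp
  have e3 : ∀ x : E, ∫⁻ t : ℝ, c (x - t • e) * g x = ENNReal.ofReal ρ * g x := fun x => by
    have : ∀ t : ℝ, c (x - t • e) * g x =
        (Ioc (⟪x - p, e⟫ - ρ) ⟪x - p, e⟫).indicator (fun _ => g x) t := fun t => by
      have h1 : ⟪x - t • e - p, e⟫ = ⟪x - p, e⟫ - t := by
        rw [show x - t • e - p = (x - p) - t • e by abel, inner_sub_left, real_inner_smul_left,
          real_inner_self_eq_norm_sq, he]; ring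
      have h2 : x - t • e ∈ S ↔ t ∈ Ioc (⟪x - p, e⟫ - ρ) ⟪x - p, e⟫ := by
        simp only [hS, mem_ofPred_eq, h1, mem_Ico, mem_Ioc]
        constructor <;> rintro ⟨a, b⟩ <;> constructor <;> linarith
      by_cases h : x - t • e ∈ S
      · rw [indicator_of_mem (h2.1 h), hc, indicator_of_mem h, one_mul]
      · rw [indicator_of_notMem (mt h2.2 h), hc, indicator_of_notMem h, zero_mul]
    simp_rw [this]
    rw [lintegral_indicator_const measurableSet_Ioc, Real.volume_Ioc, mul_comm]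
    congr 2; ring
  rw [e1, lintegral_lintegral_swap m1.aemeasurable]
  simp_rw [e2]
  rw [lintegral_lintegral_swap m2.aemeasurable]
  simp_rw [e3]
  rw [lintegral_const_mul' _ _ ENNReal.ofReal_ne_top]

theorem Line.left_min {g : ℝ → ℝ} {d a b : ℝ} (h : HasDerivAt g d b) (hab : a < b)
    (hm : ∀ y ∈ Icc a b, g b ≤ g y) : d ≤ 0 := by
  refine le_of_tendsto h.tendsto_slope_zero_left ?_
  filter_upwards [Ioo_mem_nhdsLT (show a - b < 0 by linarith)] with t ht
  rw [smul_eq_mul]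
  exact mul_nonpos_of_nonpos_of_nonneg (inv_nonpos.2 ht.2.le)
    (sub_nonneg.2 (hm _ ⟨by linarith [ht.1], by linarith [ht.2]⟩))

theorem Line.right_min {g : ℝ → ℝ} {d a b : ℝ} (h : HasDerivAt g d a) (hab : a < b)
    (hm : ∀ y ∈ Icc a b, g a ≤ g y) : 0 ≤ d := by
  refine ge_of_tendsto h.tendsto_slope_zero_right ?_
  filter_upwards [Ioo_mem_nhdsGT (show 0 < b - a by linarith)] with t ht
  rw [smul_eq_mul]
  exact mul_nonneg (inv_nonneg.2 ht.1.le)
    (sub_nonneg.2 (hm _ ⟨by linarith [ht.1], by linarith [ht.2]⟩))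

theorem Line.area {g g' : ℝ → ℝ} {Y : Set ℝ} (hY : MeasurableSet Y)
    (hd : ∀ x ∈ Y, HasDerivAt g (g' x) x) (hi : InjOn g Y) :
    ∫⁻ x in Y, ENNReal.ofReal |g' x| = volume (g '' Y) := by
  have := lintegral_image_eq_lintegral_abs_deriv_mul hY
    (fun x hx => (hd x hx).hasDerivWithinAt) hi (fun _ => 1)
  simpa using this.symm

theorem inj_area {g g' : ℝ → ℝ} {Y : Set ℝ} (hY : MeasurableSet Y) {ς w : ℝ}
    (hς : ς = 1 ∨ ς = -1)
    (hd : ∀ x ∈ Y, HasDerivAt g (g' x) x ∧ 0 < ς * g' x ∧ ∀ s ∈ Icc 0 w, g x ≤ g (x + ς * s))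
    (hw : ∀ x ∈ Y, ∀ x' ∈ Y, |x - x'| ≤ w) :
    ∫⁻ x in Y, ENNReal.ofReal |g' x| = volume (g '' Y) := by
  have key : ∀ x ∈ Y, ∀ x' ∈ Y, x < x' → g x ≠ g x' := fun x hx x' hx' hlt heq => by
    have h1 := (abs_le.1 (hw x hx x' hx')).1
    rcases hς with rfl | rfl
    · have := Line.left_min (hd x' hx').1 hlt fun y hy => by
        have := (hd x hx).2.2 (y - x) ⟨by linarith [hy.1], by linarith [hy.2]⟩
        rw [← heq]; simpa using this
      linarith [(hd x' hx').2.1]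
    · have := Line.right_min (hd x hx).1 hlt fun y hy => by
        have := (hd x' hx').2.2 (x' - y) ⟨by linarith [hy.2], by linarith [hy.1]⟩
        rw [heq]; simpa using this
      linarith [(hd x hx).2.1]
  refine Line.area hY (fun x hx => (hd x hx).1) fun x hx x' hx' heq => ?_
  rcases lt_trichotomy x x' with h | h | h
  · exact absurd heq (key x hx x' hx' h)
  · exact h
  · exact absurd heq.symm (key x' hx' x hx h)

theorem piece_le {g g' : ℝ → ℝ} {Y : Set ℝ} (hY : MeasurableSet Y) {ς w : ℝ}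
    (hς : ς = 1 ∨ ς = -1) (hw : 0 < w)
    (hd : ∀ x ∈ Y, HasDerivAt g (g' x) x ∧ 0 < ς * g' x ∧ ∀ s ∈ Icc 0 w, g x ≤ g (x + ς * s))
    (S : Finset ℤ) (c B : ℤ → ℝ)
    (hk : ∀ x ∈ Y, ∀ k : ℤ, ς * (k * w - x) ∈ Ioc w (2 * w) →
      k ∈ S ∧ g x ∈ Icc (c k - B k) (c k)) :
    ∫⁻ x in Y, ENNReal.ofReal |g' x| ≤ ∑ k ∈ S, ENNReal.ofReal (B k) := by
  set P : ℤ → Set ℝ := fun k => Y ∩ {x | ς * (k * w - x) ∈ Ioc w (2 * w)} with hP
  have hPm : ∀ k, MeasurableSet (P k) := fun k =>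
    hY.inter ((by fun_prop : Measurable fun x : ℝ => ς * (k * w - x)) measurableSet_Ioc)
  have hcov : Y ⊆ ⋃ k : S, P k := fun x hx => by
    have : ∃ k : ℤ, ς * (k * w - x) ∈ Ioc w (2 * w) := by
      have hxw : x / w * w = x := div_mul_cancel₀ _ hw.ne'
      rcases hς with rfl | rfl
      · refine ⟨⌊x / w⌋ + 2, ?_⟩
        have h1 := mul_le_mul_of_nonneg_right (Int.floor_le (x / w)) hw.le
        have h2 := mul_lt_mul_of_pos_right (Int.lt_floor_add_one (x / w)) hw
        push_cast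
        constructor <;> nlinarith
      · refine ⟨⌈x / w⌉ - 2, ?_⟩
        have h1 := mul_le_mul_of_nonneg_right (Int.le_ceil (x / w)) hw.le
        have h2 := mul_lt_mul_of_pos_right (Int.ceil_lt_add_one (x / w)) hw
        push_cast
        constructor <;> nlinarith
    obtain ⟨k, hk'⟩ := this
    exact mem_iUnion.2 ⟨⟨k, (hk x hx k hk').1⟩, hx, hk'⟩
  refine (lintegral_mono_set hcov).trans ((lintegral_iUnion_le _ _).trans ?_)
  rw [tsum_fintype, ← Finset.sum_coe_sort S]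
  refine Finset.sum_le_sum fun k _ => ?_
  rw [inj_area (hPm k) hς (fun x hx => hd x hx.1) fun x hx x' hx' => ?_]
  · have : g '' P k ⊆ Icc (c k - B k) (c k) := by
      rintro _ ⟨x, hx, rfl⟩
      exact (hk x hx.1 k hx.2).2
    refine (measure_mono this).trans (le_of_eq ?_)
    rw [Real.volume_Icc]
    congr 1; ring
  · have h1 := hx.2
    have h2 := hx'.2
    simp only [mem_ofPred_eq, mem_Ioc] at h1 h2
    rw [abs_le]
    rcases hς with rfl | rfl <;> constructor <;> linarith [h1.1, h1.2, h2.1, h2.2]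

theorem measurableSet_A1 {f u : E → ℝ} (hf : Continuous f) (hu : Continuous u) (e : E) (T : ℝ) :
    MeasurableSet (A1 f u e T) := by
  have : A1 f u e T = ⋃ q : ℚ, {x | (q : ℝ) ∈ Ioc (0 : ℝ) T} ∩ ({x | u x < f (x + (q : ℝ) • e)} ∩
      ⋂ s ∈ Icc (0 : ℝ) q, {x | u x ≤ u (x + s • e)}) := by
    ext x
    simp only [A1, mem_ofPred_eq, mem_iUnion, mem_inter_iff, mem_iInter]
    constructor
    · rintro ⟨t, ht, h1, h2⟩
      have ho : IsOpen {t : ℝ | u x < f (x + t • e)} := isOpen_lt continuous_const (by fun_prop)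
      obtain ⟨ε, hε, hb⟩ := Metric.isOpen_iff.1 ho t h1
      obtain ⟨q, hq1, hq2⟩ := exists_rat_btwn (show max 0 (t - ε) < t from
        max_lt ht.1 (by linarith))
      have a1 := (le_max_left 0 (t - ε)).trans_lt hq1
      have a2 := (le_max_right 0 (t - ε)).trans_lt hq1
      refine ⟨q, ⟨a1, hq2.le.trans ht.2⟩, hb ?_, fun s hs => h2 s ⟨hs.1, hs.2.trans hq2.le⟩⟩
      rw [mem_ball, Real.dist_eq, abs_lt]
      constructor <;> linarith
    · rintro ⟨q, h0, h1, h2⟩
      exact ⟨q, h0, h1, h2⟩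
  rw [this]
  refine MeasurableSet.iUnion fun q => (MeasurableSet.const _).inter
    ((isOpen_lt hu (by fun_prop)).measurableSet.inter (IsClosed.measurableSet ?_))
  exact isClosed_biInter fun s _ => isClosed_le hu (by fun_prop)

end Vale.Agent.P137
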