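import Vale.Agent.P137.Count
import Vale.Agent.P137.Line
import Vale.Agent.P137.COpt

open MeasureTheory Metric Set Filter Topology
open scoped ENNReal NNReal RealInnerProductSpace

noncomputable section

namespace Vale.Agent.P137

set_option linter.unusedSectionVars false

variable {E : Type*} [NormedAddCommGroup E] [InnerProductSpace ℝ E] [FiniteDimensional ℝ E]
  [MeasurableSpace E] [BorelSpace E]

namespace LocA

theorem exists_sup {f : E → ℝ} (hf : Nice f) (ξ e : E) {a b : ℝ} (ha : 0 < a) (hab : a ≤ b) :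
    ∃ G : ℝ → ℝ, Continuous G ∧ (∀ t, ∀ r ∈ Icc a b, av f (ξ + t • e) r ≤ G t) ∧
      ∀ t, ∃ r ∈ Icc a b, G t = av f (ξ + t • e) r := by
  have hc : Continuous fun q : ℝ × ℝ => OptAux.A f (ξ + q.1 • e, q.2) :=
    (OptAux.A_cont hf).comp (by fun_prop)
  have hc' : ∀ t : ℝ, Continuous fun r : ℝ => OptAux.A f (ξ + t • e, r) := fun t =>
    (OptAux.A_cont hf).comp (by fun_prop)
  refine ⟨fun t => sSup ((fun r => OptAux.A f (ξ + t • e, r)) '' Icc a b),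
    isCompact_Icc.continuous_sSup (f := fun t r => OptAux.A f (ξ + t • e, r)) hc,
    fun t r hr => ?_, fun t => ?_⟩
  · rw [OptAux.av_eq_A _ _ (ha.trans_le hr.1)]
    exact le_csSup (isCompact_Icc.bddAbove_image (hc' t).continuousOn) ⟨r, hr, rfl⟩
  · obtain ⟨r, hr, h⟩ := isCompact_Icc.exists_sSup_image_eq (nonempty_Icc.2 hab)
      (hc' t).continuousOn
    exact ⟨r, hr, by rw [OptAux.av_eq_A _ _ (ha.trans_le hr.1)]; exact h⟩

theorem pos_deriv {h : ℝ → ℝ} {c : ℝ} (hd : HasDerivAt h c 0) (hc : 0 < c) :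
    ∃ δ, 0 < δ ∧ ∀ s ∈ Icc 0 δ, h 0 ≤ h s := by
  obtain ⟨δ, hδ, hsub⟩ := mem_nhdsGT_iff_exists_Ioc_subset.1
    (hd.tendsto_slope_zero_right.eventually (lt_mem_nhds hc))
  refine ⟨δ, hδ, fun s hs => ?_⟩
  rcases hs.1.eq_or_lt with h0 | h0
  · rw [← h0]
  · have h1 : 0 < s⁻¹ • (h (0 + s) - h 0) := hsub ⟨h0, hs.2⟩
    rw [zero_add, smul_eq_mul] at h1
    linarith [(mul_pos_iff_of_pos_left (inv_pos.2 h0)).1 h1]

theorem grid {w ρ : ℝ} (hw : 0 < w) (hwρ : w ≤ ρ) : ∃ S : Finset ℤ,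
    (∀ k : ℤ, |(k : ℝ) * w| ≤ 3 * ρ → k ∈ S) ∧ (S.card : ℝ) ≤ 9 * (ρ / w) := by
  have h1 : 1 ≤ ρ / w := by rw [le_div_iff₀ hw]; linarith
  refine ⟨Finset.Icc (-(⌈3 * (ρ / w)⌉₊ : ℤ)) ⌈3 * (ρ / w)⌉₊, fun k hk => ?_, ?_⟩
  · have h2 : |(k : ℝ)| ≤ ⌈3 * (ρ / w)⌉₊ := by
      refine le_trans ?_ (Nat.le_ceil _)
      rw [abs_mul, abs_of_pos hw] at hk
      rw [← mul_div_assoc, le_div_iff₀ hw]; exact hk
    rw [Finset.mem_Icc, ← abs_le]
    exact_mod_cast h2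
  · have h2 := (Nat.ceil_lt_add_one (by linarith : 0 ≤ 3 * (ρ / w))).le
    rw [Int.card_Icc]
    have : (((⌈3 * (ρ / w)⌉₊ : ℤ) + 1 - -(⌈3 * (ρ / w)⌉₊ : ℤ)).toNat : ℝ) =
        2 * (⌈3 * (ρ / w)⌉₊ : ℝ) + 1 := by
      generalize ⌈3 * (ρ / w)⌉₊ = k
      rw [show ((k : ℤ) + 1 - -(k : ℤ)).toNat = 2 * k + 1 by omega]; push_cast; ring
    rw [this]; linarith

omit [FiniteDimensional ℝ E] [MeasurableSpace E] [BorelSpace E] in
theorem near {ξ e p : E} (he : ‖e‖ = 1) {ρ t t' : ℝ} (hξ : dist ξ p ≤ 2 * ρ)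
    (ht : ξ + t • e ∈ ball p (ρ / 2)) (h : |t' - t| ≤ ρ / 2) :
    dist (ξ + t' • e) p ≤ ρ ∧ |t'| ≤ 3 * ρ := by
  have h1 : dist (ξ + t' • e) p ≤ ρ := by
    have := dist_triangle (ξ + t' • e) (ξ + t • e) p
    rw [dist_add_left, dist_eq_norm (t' • e), ← sub_smul, norm_smul, he, mul_one,
      Real.norm_eq_abs] at this
    linarith [mem_ball.1 ht]
  refine ⟨h1, ?_⟩
  have := dist_triangle_right (ξ + t' • e) ξ p
  rw [dist_self_add_left, norm_smul, he, mul_one, Real.norm_eq_abs] at this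
  linarith

omit [FiniteDimensional ℝ E] [MeasurableSpace E] [BorelSpace E] in
theorem hasDeriv_line {u : E → ℝ} {ξ e : E} {t : ℝ} (h : DifferentiableAt ℝ u (ξ + t • e)) :
    HasDerivAt (fun t : ℝ => u (ξ + t • e)) (fderiv ℝ u (ξ + t • e) e) t := by
  have h1 : HasDerivAt (fun t : ℝ => ξ + t • e) e t := by
    simpa using ((hasDerivAt_id t).smul_const e).const_add ξ
  exact h.hasFDerivAt.comp_hasDerivAt t h1

variable {f u Λ : E → ℝ} {σ e p ξ : E} {ρ ς : ℝ}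

/-- The top piece. -/
theorem top_le (hf : Nice f) (hu : ∀ x r, 0 < r → av f x r ≤ u x) (hρ : 0 < ρ)
    (hV : Vio f Λ σ (ρ / 2 ^ 41)) (he : ‖e‖ = 1) (hes : 3 / 4 ≤ ⟪e, σ⟫) (hξ : dist ξ p ≤ 2 * ρ)
    (hς : ς = 1 ∨ ς = -1) {G : ℝ → ℝ}
    (hG : ∀ t, ∃ r ∈ Icc (ρ / 2) (3 * ρ), G t = av f (ξ + t • e) r) {Y : Set ℝ}
    (hY : MeasurableSet Y)
    (h : ∀ t ∈ Y, ξ + t • e ∈ ball p (ρ / 2) ∩ Xs f u ρ ∧ 0 < ς * fderiv ℝ u (ξ + t • e) e ∧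
      (ς = -1 ∨ ∃ s ∈ Icc 0 (5 * ρ), u (ξ + (t + s) • e) < u (ξ + t • e)) ∧
      ∀ s ∈ Icc 0 (ρ / 2 ^ 21), u (ξ + t • e) ≤ G (t + ς * s)) :
    ∫⁻ t in Y, ENNReal.ofReal |fderiv ℝ u (ξ + t • e) e| ≤
      ENNReal.ofReal (2 ^ 70 * (bt Λ p ρ / Vb E (ρ / 2))) := by
  have hw : 0 < ρ / 2 ^ 23 := by positivity
  obtain ⟨S, hS, hcard⟩ := grid (ρ := ρ) hw (by linarith)
  have hu0 : 0 ≤ bt Λ p ρ / Vb E (ρ / 2) := div_nonneg (bt_nonneg hV p ρ) (Vb_nonneg _)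
  have hGu : ∀ t, G t ≤ u (ξ + t • e) := fun t => by
    obtain ⟨r, hr, h⟩ := hG t
    rw [h]; exact hu _ _ (by linarith [hr.1])
  refine (piece_le (g := fun t => u (ξ + t • e)) hY hς hw (fun t ht => ⟨hasDeriv_line
    (h t ht).1.2.1, (h t ht).2.1, fun s hs => ((h t ht).2.2.2 s ⟨hs.1, by linarith [hs.2]⟩).trans
      (hGu _)⟩) S (fun k => G (k * (ρ / 2 ^ 23)))
    (fun _ => 5 * 2 ^ 41 * (bt Λ p ρ / Vb E (ρ / 2))) fun t ht k hk => ?_).trans ?_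
  · obtain ⟨h1, -, h3, h4⟩ := h t ht
    obtain ⟨k1, k2⟩ := hk
    obtain ⟨r, hr, hGr⟩ := hG (k * (ρ / 2 ^ 23))
    have hSk := hS k
    clear hS
    generalize (k : ℝ) * (ρ / 2 ^ 23) = t' at *
    have e1 : t + ς * (ς * (t' - t)) = t' := by rcases hς with rfl | rfl <;> ring
    have h5 := h4 (ς * (t' - t)) ⟨by linarith, by linarith⟩
    rw [e1] at h5
    obtain ⟨n1, n2⟩ := near he (t' := t') hξ h1.1 (by
      rcases hς with rfl | rfl <;> exact abs_le.2 ⟨by linarith, by linarith⟩)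
    have key : ∀ b, ρ / 2 ^ 23 ≤ b → b ≤ 5 * ρ → u (ξ + (t' + b) • e) ≤ u (ξ + t • e) →
        G t' - 5 * 2 ^ 41 * (bt Λ p ρ / Vb E (ρ / 2)) ≤ u (ξ + t • e) := fun b b1 b2 b3 => by
      have h6 := path_le hf hV he hes hρ (x := ξ + t' • e) (p := p) (T := b) (by linarith) hr hr
        (by simp; linarith) (by linarith)
      rw [add_assoc, ← add_smul, mul_div_assoc] at h6
      have h7 := hu (ξ + (t' + b) • e) r (by linarith [hr.1])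
      have h8 : b / (ρ / 2 ^ 41) ≤ 5 * 2 ^ 41 := by rw [div_le_iff₀ hV.pos]; linarith
      linarith [mul_le_mul_of_nonneg_right h8 hu0]
    refine ⟨hSk n2, ?_, h5⟩
    rcases hς with rfl | rfl
    · obtain ⟨s, hs, hlt⟩ := h3.resolve_left (by norm_num)
      have h9 : ρ / 2 ^ 21 < s := by
        by_contra hc
        have := (h4 s ⟨hs.1, not_lt.1 hc⟩).trans (hGu _)
        rw [one_mul] at this; linarith
      refine key (t + s - t') (by linarith) (by linarith [hs.2]) ?_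
      rw [add_sub_cancel]; exact hlt.le
    · refine key (t - t') (by linarith) (by linarith) ?_
      rw [add_sub_cancel]
  · rw [Finset.sum_const, nsmul_eq_mul, ← ENNReal.ofReal_natCast,
      ← ENNReal.ofReal_mul (Nat.cast_nonneg _)]
    refine ENNReal.ofReal_le_ofReal ?_
    rw [← mul_assoc]
    refine mul_le_mul_of_nonneg_right ?_ hu0
    rw [show ρ / (ρ / 2 ^ 23) = 2 ^ 23 by field_simp] at hcard
    linarith

/-- The piece at one time scale. -/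
theorem piece_m : ∃ C : ℝ, 0 < C ∧ ∀ (f u Λ : E → ℝ) (σ e p ξ : E) (ρ ς τ : ℝ) (n : ℕ),
    Nice f → (∀ x r, 0 < r → av f x r ≤ u x) → 0 < ρ → 1 ≤ n → τ * (2 ^ 21 * (n : ℝ) ^ 9) = ρ →
    Vio f Λ σ (τ / (2 ^ 20 * (n : ℝ) ^ 3)) → ‖e‖ = 1 → 3 / 4 ≤ ⟪e, σ⟫ → dist ξ p ≤ 2 * ρ →
    (ς = 1 ∨ ς = -1) → ∀ G₀ G₁ : ℝ → ℝ,
    (∀ t, ∀ r ∈ Icc (ρ - 8 * τ) (2 * ρ + 8 * τ), av f (ξ + t • e) r ≤ G₀ t) →
    (∀ t, ∃ r ∈ Icc (ρ - τ) (2 * ρ + τ), G₁ t = av f (ξ + t • e) r) →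
    ∀ Y : Set ℝ, MeasurableSet Y →
    (∀ t ∈ Y, ξ + t • e ∈ ball p (ρ / 2) ∩ Xs f u ρ ∧ 0 < ς * fderiv ℝ u (ξ + t • e) e ∧
      (∃ s ∈ Icc 0 τ, G₀ (t + ς * s) < u (ξ + t • e)) ∧
      ∀ s ∈ Icc 0 (τ / 512), u (ξ + t • e) ≤ G₁ (t + ς * s)) →
    ∫⁻ t in Y, ENNReal.ofReal |fderiv ℝ u (ξ + t • e) e| ≤
      ENNReal.ofReal (C * (2 ^ 41 * (n : ℝ) ^ 11) * (bt Λ p ρ / Vb E (ρ / 2))) := by
  classical
  obtain ⟨C, hC, hbad⟩ := bad_count (E := E)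
  refine ⟨C, hC, fun f u Λ σ e p ξ ρ ς τ n hf hu hρ hn hτρ hV he hes hξ hς G₀ G₁ hG₀ hG₁ Y hY h => ?_⟩
  have hN : (1 : ℝ) ≤ n := by exact_mod_cast hn
  have q9 : (1 : ℝ) ≤ n ^ 9 := one_le_pow₀ hN
  have q3 : (1 : ℝ) ≤ n ^ 3 := one_le_pow₀ hN
  have hτ : 0 < τ := (mul_pos_iff_of_pos_right (by positivity)).1 (hτρ ▸ hρ)
  have a0 : 2 ^ 21 * τ ≤ ρ := by nlinarith
  have hw : 0 < τ / 2048 := by positivity
  obtain ⟨S, hS, hcard⟩ := grid (ρ := ρ) hw (by linarith)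
  have hu0 : 0 ≤ bt Λ p ρ / Vb E (ρ / 2) := div_nonneg (bt_nonneg hV p ρ) (Vb_nonneg _)
  have hGu : ∀ t, G₁ t ≤ u (ξ + t • e) := fun t => by
    obtain ⟨r, hr, h⟩ := hG₁ t
    rw [h]; exact hu _ _ (by linarith [hr.1])
  have hG10 : ∀ t, G₁ t ≤ G₀ t := fun t => by
    obtain ⟨r, hr, h⟩ := hG₁ t
    rw [h]; exact hG₀ _ _ ⟨by linarith [hr.1], by linarith [hr.2]⟩
  set Bad : ℤ → Prop := fun k => dist (ξ + ((k : ℝ) * (τ / 2048)) • e) p ≤ ρ ∧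
    ∃ r ∈ Icc (7 * ρ / 8) (17 * ρ / 8), ∃ H, Peak f (ξ + ((k : ℝ) * (τ / 2048)) • e) e r τ H ∧
      C * (n : ℝ) ^ 2 * bt Λ p ρ / Vb E (ρ / 2) < H with hBad
  have hb := hbad f Λ σ e p ξ ρ τ n hf hn hρ hτ hτρ.le hV he hes hξ (S.filter Bad)
    fun k hk => (Finset.mem_filter.1 hk).2
  have hs2 : 2 * (τ / (2 ^ 20 * (n : ℝ) ^ 3)) ≤ τ / 2048 := by
    rw [← mul_div_assoc, div_le_div_iff₀ (by positivity) (by positivity)]; nlinarith
  refine (piece_le (g := fun t => u (ξ + t • e)) hY hς hw (fun t ht => ⟨hasDeriv_line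
    (h t ht).1.2.1, (h t ht).2.1, fun s hs => ((h t ht).2.2.2 s ⟨hs.1, by linarith [hs.2]⟩).trans
      (hGu _)⟩) S (fun k => G₁ (k * (τ / 2048)))
    (fun k => C * (n : ℝ) ^ 2 * (bt Λ p ρ / Vb E (ρ / 2)) +
      if Bad k then 2 ^ 20 * (n : ℝ) ^ 3 * (bt Λ p ρ / Vb E (ρ / 2)) else 0)
    fun t ht k hk => ?_).trans ?_
  · obtain ⟨h1, -, ⟨b, hb1, hb2⟩, h4⟩ := h t ht
    obtain ⟨k1, k2⟩ := hk
    obtain ⟨r, hr, hGr⟩ := hG₁ (k * (τ / 2048))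
    simp only [hBad]
    have hSk := hS k
    clear hS
    generalize (k : ℝ) * (τ / 2048) = t' at *
    have e1 : t + ς * (ς * (t' - t)) = t' := by rcases hς with rfl | rfl <;> ring
    have h5 := h4 (ς * (t' - t)) ⟨by linarith, by linarith⟩
    rw [e1] at h5
    obtain ⟨n1, n2⟩ := near he (t' := t') hξ h1.1 (by
      rcases hς with rfl | rfl <;> exact abs_le.2 ⟨by linarith, by linarith⟩)
    have h9 : τ / 512 < b := by
      by_contra hc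
      linarith [(h4 b ⟨hb1.1, not_lt.1 hc⟩).trans (hG10 _)]
    have s1 : ∀ r' ∈ Icc (r - 4 * τ) (r + 4 * τ), av f (ξ + t • e) r' +
        (G₁ t' - u (ξ + t • e)) ≤ av f (ξ + t' • e) r := fun r' hr' => by
      linarith [hu (ξ + t • e) r' (by linarith [hr'.1, hr.1])]
    have s2 : ∀ r' ∈ Icc (r - 4 * τ) (r + 4 * τ), av f (ξ + (t + ς * b) • e) r' +
        (G₁ t' - u (ξ + t • e)) ≤ av f (ξ + t' • e) r := fun r' hr' => by
      linarith [hG₀ (t + ς * b) r' ⟨by linarith [hr'.1, hr.1], by linarith [hr'.2, hr.2]⟩]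
    have hP : Peak f (ξ + t' • e) e r τ (G₁ t' - u (ξ + t • e)) := by
      rcases hς with rfl | rfl
      · refine ⟨⟨t' - t, ⟨by linarith, by linarith⟩, ?_⟩,
          ⟨t + b - t', ⟨by linarith, by linarith [hb1.2]⟩, ?_⟩⟩
        · rwa [show ξ + t' • e - (t' - t) • e = ξ + t • e by module]
        · rwa [show ξ + t' • e + (t + b - t') • e = ξ + (t + 1 * b) • e by module]
      · refine ⟨⟨t' - t + b, ⟨by linarith, by linarith [hb1.2]⟩, ?_⟩,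
          ⟨t - t', ⟨by linarith, by linarith⟩, ?_⟩⟩
        · rwa [show ξ + t' • e - (t' - t + b) • e = ξ + (t + -1 * b) • e by module]
        · rwa [show ξ + t' • e + (t - t') • e = ξ + t • e by module]
    refine ⟨hSk n2, ?_, h5⟩
    have z : 0 ≤ C * (n : ℝ) ^ 2 * (bt Λ p ρ / Vb E (ρ / 2)) := by positivity
    split_ifs with hk
    · obtain ⟨b', ⟨c1, c2⟩, c3⟩ := hP.right
      have hrr : r ∈ Icc (ρ / 2) (3 * ρ) := ⟨by linarith [hr.1], by linarith [hr.2]⟩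
      have h6 := path_le hf hV he hes hρ (x := ξ + t' • e) (p := p) (T := b') (by linarith) hrr hrr
        (by simp; linarith) (by linarith)
      have h7 := c3 r ⟨by linarith, by linarith⟩
      have h8 : b' / (τ / (2 ^ 20 * (n : ℝ) ^ 3)) ≤ 2 ^ 20 * (n : ℝ) ^ 3 := by
        rw [div_le_iff₀ hV.pos, mul_div_cancel₀ _ (by positivity)]; exact c2
      rw [mul_div_assoc] at h6
      linarith [mul_le_mul_of_nonneg_right h8 hu0]
    · by_contra hc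
      refine hk ⟨n1, r, ⟨by linarith [hr.1], by linarith [hr.2]⟩, _, hP, ?_⟩
      rw [mul_div_assoc]; linarith
  · rw [← ENNReal.ofReal_sum_of_nonneg fun k _ => by split_ifs <;> positivity]
    refine ENNReal.ofReal_le_ofReal ?_
    rw [Finset.sum_add_distrib, Finset.sum_const, nsmul_eq_mul, ← Finset.sum_filter,
      Finset.sum_const, nsmul_eq_mul]
    rw [show ρ / (τ / 2048) = 2 ^ 32 * (n : ℝ) ^ 9 by rw [← hτρ]; field_simp; norm_num] at hcard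
    calc _ ≤ 9 * (2 ^ 32 * (n : ℝ) ^ 9) * (C * (n : ℝ) ^ 2 * (bt Λ p ρ / Vb E (ρ / 2))) +
          C * (n : ℝ) ^ 8 * (2 ^ 20 * (n : ℝ) ^ 3 * (bt Λ p ρ / Vb E (ρ / 2))) := by gcongr
      _ = (9 * 2 ^ 32 + 2 ^ 20) * (C * (n : ℝ) ^ 11 * (bt Λ p ρ / Vb E (ρ / 2))) := by ring
      _ ≤ 2 ^ 41 * (C * (n : ℝ) ^ 11 * (bt Λ p ρ / Vb E (ρ / 2))) := by gcongr; norm_num
      _ = _ := by ring

theorem eventually_P (hf : Nice f) (hu : ∀ x r, 0 < r → av f x r ≤ u x) (hρ : 0 < ρ) {t : ℝ}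
    (ht : ξ + t • e ∈ Xs f u ρ) (hd : 0 < ς * fderiv ℝ u (ξ + t • e) e) :
    ∃ r ∈ Icc ρ (2 * ρ), ∃ δ, 0 < δ ∧
      ∀ s ∈ Icc 0 δ, u (ξ + t • e) ≤ av f (ξ + (t + ς * s) • e) r := by
  obtain ⟨h1, -, r, hr, h2⟩ := ht
  have hr0 : 0 < r := by linarith [hr.1]
  have h3 := differentiable_av hf r (ξ + t • e)
  have h4 : IsLocalMin (fun y => u y - av f y r) (ξ + t • e) :=
    Eventually.of_forall fun y => by simp only [h2, sub_self, sub_nonneg]; exact hu y r hr0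
  have h5 := h4.fderiv_eq_zero
  rw [fderiv_fun_sub h1 h3, sub_eq_zero] at h5
  have h6 : HasDerivAt (fun s : ℝ => t + ς * s) ς 0 := by
    simpa using ((hasDerivAt_id (0 : ℝ)).const_mul ς).const_add t
  have h7 := hasDeriv_line h3
  rw [← h5] at h7
  have h8 := HasDerivAt.comp (h₂ := fun t : ℝ => av f (ξ + t • e) r) 0
    (by simpa using h7) h6
  obtain ⟨δ, hδ, h9⟩ := pos_deriv h8 (by rwa [mul_comm])
  exact ⟨r, hr, δ, hδ, fun s hs => by simpa [h2] using h9 s hs⟩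

end LocA

open LocA

/-- Variation of `u` along one line: all crossings with a later point at a lower level. -/
theorem line_le : ∃ C : ℝ≥0, ∀ (f u : E → ℝ) (Λ : ℕ → E → ℝ) (σ e p ξ : E) (ρ ς : ℝ),
    Nice f → Continuous u → (∀ x r, 0 < r → av f x r ≤ u x) → 0 < ρ →
    (∀ m, Vio f (Λ m) σ (sc ρ m)) → ‖e‖ = 1 → 3 / 4 ≤ ⟪e, σ⟫ → dist ξ p ≤ 2 * ρ →
    (ς = 1 ∨ ς = -1) → ∀ Y : Set ℝ, MeasurableSet Y →
    (∀ t ∈ Y, ξ + t • e ∈ ball p (ρ / 2) ∩ Xs f u ρ ∧ 0 < ς * fderiv ℝ u (ξ + t • e) e ∧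
      (ς = -1 ∨ ∃ s ∈ Icc 0 (5 * ρ), u (ξ + (t + s) • e) < u (ξ + t • e))) →
    ∫⁻ t in Y, ENNReal.ofReal |fderiv ℝ u (ξ + t • e) e| ≤
      C * ENNReal.ofReal (ρ / Vb E (ρ / 2)) * tot Λ p ρ := by
  obtain ⟨C, hC, hm⟩ := piece_m (E := E)
  refine ⟨2 ^ 29 + C.toNNReal, fun f u Λ σ e p ξ ρ ς hf hc hu hρ hV he hes hξ hς Y hY h => ?_⟩
  set τ : ℕ → ℝ := fun m => ρ / (2 ^ 21 * 512 ^ m) with hτ
  have τ0 : ∀ m, 0 < τ m := fun m => by simp only [hτ]; positivity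
  have τ1 : ∀ m, 2 ^ 21 * τ m ≤ ρ := fun m => by
    simp only [hτ]
    rw [← mul_div_assoc, div_le_iff₀ (by positivity)]
    nlinarith [one_le_pow₀ (n := m) (by norm_num : (1 : ℝ) ≤ 512)]
  have τ2 : ∀ m, τ (m + 1) = τ m / 512 := fun m => by simp only [hτ]; rw [pow_succ _ m]; field_simp
  choose G Gc Gle Gat using fun m => exists_sup hf ξ e (a := ρ - 8 * τ m) (b := 2 * ρ + 8 * τ m)
    (by linarith [τ1 m]) (by linarith [τ0 m])
  set P : ℕ → Set ℝ := fun m => {t | ∀ s ∈ Icc 0 (τ m), u (ξ + t • e) ≤ G m (t + ς * s)} with hP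
  have mP : ∀ m, MeasurableSet (P m) := fun m => by
    have : P m = ⋂ s ∈ Icc 0 (τ m), {t | u (ξ + t • e) ≤ G m (t + ς * s)} := by
      ext t; simp [hP]
    rw [this]
    have := Gc m
    exact (isClosed_biInter fun s _ => isClosed_le (by fun_prop) (by fun_prop)).measurableSet
  have hcov : Y ⊆ (Y ∩ P 0) ∪ ⋃ m, Y ∩ ((P m)ᶜ ∩ P (m + 1)) := by
    classical
    intro t ht
    obtain ⟨r, hr, δ, hδ, h1⟩ := eventually_P hf hu hρ (h t ht).1.2 (h t ht).2.1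
    have hex : ∃ m, t ∈ P m := by
      obtain ⟨m, hm⟩ := pow_unbounded_of_one_lt (ρ / (2 ^ 21 * δ)) (by norm_num : (1 : ℝ) < 512)
      have h2 : τ m ≤ δ := by
        rw [div_lt_iff₀ (by positivity)] at hm
        simp only [hτ]; rw [div_le_iff₀ (by positivity)]; linarith
      exact ⟨m, fun s hs => (h1 s ⟨hs.1, hs.2.trans h2⟩).trans
        (Gle m _ r ⟨by linarith [hr.1, τ0 m], by linarith [hr.2, τ0 m]⟩)⟩
    rcases h0 : Nat.find hex with _ | m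
    · exact Or.inl ⟨ht, h0 ▸ Nat.find_spec hex⟩
    · exact Or.inr (mem_iUnion.2 ⟨m, ht, Nat.find_min hex (by omega), h0 ▸ Nat.find_spec hex⟩)
  have hVp := Vb_pos (E := E) (half_pos hρ)
  have e1 : ∀ m, (2 ^ 41 * (((2 ^ m : ℕ) : ℝ)) ^ 11) * (bt (Λ m) p ρ / Vb E (ρ / 2)) =
      ρ / Vb E (ρ / 2) * (bt (Λ m) p ρ / (2 ^ m * sc ρ m)) := fun m => by
    have : (4096 : ℝ) ^ m = (2 ^ m) ^ 12 := by rw [← pow_mul, mul_comm, pow_mul]; norm_num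
    rw [sc, this]; push_cast; field_simp
  have t0 := top_le hf hu hρ (by simpa [sc] using hV 0) he hes hξ hς (G := G 0) (p := p)
    (fun t => by
      obtain ⟨r, hr, h⟩ := Gat 0 t
      exact ⟨r, ⟨by linarith [hr.1, τ1 0], by linarith [hr.2, τ1 0]⟩, h⟩)
    (hY.inter (mP 0)) fun t ht => ⟨(h t ht.1).1, (h t ht.1).2.1, (h t ht.1).2.2,
      by simpa [hP, hτ] using ht.2⟩
  have tm : ∀ m, ∫⁻ t in Y ∩ ((P m)ᶜ ∩ P (m + 1)), ENNReal.ofReal |fderiv ℝ u (ξ + t • e) e| ≤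
      ENNReal.ofReal C * ENNReal.ofReal (ρ / Vb E (ρ / 2)) *
        ENNReal.ofReal (bt (Λ m) p ρ / (2 ^ m * sc ρ m)) := fun m => by
    have q9 : (((2 ^ m : ℕ) : ℝ)) ^ 9 = 512 ^ m := by
      push_cast; rw [← pow_mul, mul_comm, pow_mul]; norm_num
    have q3 : τ m / (2 ^ 20 * (((2 ^ m : ℕ) : ℝ)) ^ 3) = sc ρ m := by
      have : (4096 : ℝ) ^ m = 512 ^ m * (2 ^ m) ^ 3 := by
        rw [← pow_mul, mul_comm m, pow_mul, ← mul_pow]; norm_num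
      simp only [hτ]; rw [sc, this]; push_cast; field_simp
    refine (hm f u (Λ m) σ e p ξ ρ ς (τ m) (2 ^ m) hf hu hρ Nat.one_le_two_pow
      (by rw [q9]; simp only [hτ]; field_simp) (q3 ▸ hV m) he hes hξ hς (G m) (G (m + 1)) (Gle m)
      (fun t => ?_) _ (hY.inter ((mP m).compl.inter (mP _))) fun t ht => ⟨(h t ht.1).1,
        (h t ht.1).2.1, by simpa [hP, and_assoc] using ht.2.1, by rw [← τ2]; exact ht.2.2⟩).trans ?_
    · obtain ⟨r, hr, h⟩ := Gat (m + 1) t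
      rw [τ2] at hr
      exact ⟨r, ⟨by linarith [hr.1, τ0 m], by linarith [hr.2, τ0 m]⟩, h⟩
    · rw [mul_assoc, e1, ENNReal.ofReal_mul hC.le, ENNReal.ofReal_mul (by positivity), mul_assoc]
  refine (lintegral_mono_set hcov).trans ((lintegral_union_le _ _ _).trans ?_)
  rw [ENNReal.coe_add, add_mul, add_mul]
  refine add_le_add (t0.trans ?_) ((lintegral_iUnion_le _ _).trans
    ((ENNReal.tsum_le_tsum tm).trans (le_of_eq ?_)))
  · have e2 := e1 0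
    rw [pow_zero, Nat.cast_one, one_pow, mul_one] at e2
    rw [show (2 : ℝ) ^ 70 = 2 ^ 29 * 2 ^ 41 by norm_num, mul_assoc, e2,
      ENNReal.ofReal_mul (by positivity), ENNReal.ofReal_mul (by positivity), mul_assoc]
    refine mul_le_mul' (le_of_eq (by simp)) (mul_le_mul' le_rfl ?_)
    exact ENNReal.le_tsum (f := fun m => ENNReal.ofReal (bt (Λ m) p ρ / (2 ^ m * sc ρ m))) 0
  · rw [ENNReal.tsum_mul_left]; rfl

end Vale.Agent.P137
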