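import Vale.Agent.P137.LocalA

open MeasureTheory Metric Set Filter Topology
open scoped ENNReal NNReal RealInnerProductSpace

noncomputable section

namespace Vale.Agent.P137

set_option linter.unusedSectionVars false

variable {E : Type*} [NormedAddCommGroup E] [InnerProductSpace ℝ E] [FiniteDimensional ℝ E]
  [MeasurableSpace E] [BorelSpace E]

namespace LocalB

theorem intOn {f Λ : E → ℝ} {σ : E} {s : ℝ} (h : Vio f Λ σ s) (x : E) (r : ℝ) :
    IntegrableOn Λ (ball x r) := by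
  obtain ⟨C, hC⟩ := h.bdd
  refine Measure.integrableOn_of_bounded (M := C) measure_ball_lt_top.ne
    h.meas.aestronglyMeasurable (Eventually.of_forall fun y => ?_)
  rw [Real.norm_eq_abs, abs_of_nonneg (h.nonneg y)]
  exact hC y

theorem int_le_bt {f Λ : E → ℝ} {σ : E} {s : ℝ} (h : Vio f Λ σ s) {x p : E} {r ρ : ℝ}
    (hs : ball x r ⊆ ball p (10 * ρ)) : ∫ y in ball x r, Λ y ≤ bt Λ p ρ :=
  setIntegral_mono_set (intOn h p _) (Eventually.of_forall fun y => h.nonneg y)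
    hs.eventuallyLE

theorem bt_nonneg' {f Λ : E → ℝ} {σ : E} {s : ℝ} (h : Vio f Λ σ s) (p : E) (ρ : ℝ) :
    0 ≤ bt Λ p ρ := integral_nonneg fun y => h.nonneg y

theorem step {f Λ : E → ℝ} {σ e x y : E} {ρ s : ℝ} (hρ : 0 < ρ) (h : Vio f Λ σ (sc ρ 0))
    (he : ‖e‖ = 1) (heσ : 3 / 4 ≤ ⟪e, σ⟫) (hy : dist y x < 2 * ρ) (hs : s ∈ Icc (4 * ρ) (5 * ρ)) :
    f y ≤ f (x + s • e) + Λ y + Λ (x + s • e) := by
  have hsc : sc ρ 0 = ρ / 2 ^ 41 := by simp [sc]
  have hxy : ‖x - y‖ < 2 * ρ := by rwa [← dist_eq_norm, dist_comm]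
  have hse : ‖s • e‖ = s := by
    rw [norm_smul, he, mul_one, Real.norm_eq_abs, abs_of_nonneg (by linarith [hs.1])]
  have h1 : ‖s • e + (x - y)‖ ≤ 7 * ρ := by
    have := norm_add_le (s • e) (x - y)
    linarith [hs.2]
  have h2 : 2 * ρ ≤ ‖s • e + (x - y)‖ := by
    have := norm_sub_le (s • e + (x - y)) (x - y)
    rw [add_sub_cancel_right] at this
    linarith [hs.1]
  have h3 : ρ ≤ ⟪s • e + (x - y), σ⟫ := by
    rw [inner_add_left, real_inner_smul_left]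
    have h4 := abs_real_inner_le_norm (x - y) σ
    rw [h.unit, mul_one] at h4
    have h5 := neg_abs_le ⟪x - y, σ⟫
    nlinarith [hs.1]
  have key := h.le y (s • e + (x - y)) (by linarith) (by rw [hsc]; linarith)
    (by rw [hsc]; linarith)
  have e1 : y + (s • e + (x - y)) = x + s • e := by abel
  rwa [e1] at key

theorem pointwise {f Λ : E → ℝ} {σ e p x : E} {ρ r s : ℝ} (hf : Nice f) (hρ : 0 < ρ)
    (h : Vio f Λ σ (sc ρ 0)) (he : ‖e‖ = 1) (heσ : 3 / 4 ≤ ⟪e, σ⟫) (hx : x ∈ ball p (ρ / 2))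
    (hr : r ∈ Icc ρ (2 * ρ)) (hs : s ∈ Icc (4 * ρ) (5 * ρ)) (hz : f (x + s • e) ≤ av f x r) :
    |av f x r - av f p (ρ / 2)| ≤
      bt Λ p ρ / Vb E (ρ / 2) + 4 ^ Module.finrank ℝ E * Λ (x + s • e) := by
  set lam := av f x r with hlam
  set z := x + s • e with hzdef
  have hV : 0 < Vb E (ρ / 2) := Vb_pos (by linarith)
  have hVr : 0 < Vb E r := Vb_pos (by linarith [hr.1])
  have hx' : dist x p < ρ / 2 := hx
  have hsub : ball p (ρ / 2) ⊆ ball x r := ball_subset_ball' (by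
    rw [dist_comm]; linarith [hr.1])
  have hsub2 : ball x r ⊆ ball p (10 * ρ) := ball_subset_ball' (by linarith [hr.2])
  have hw : ∀ y ∈ ball x r, 0 ≤ lam + Λ z + Λ y - f y := fun y hy => by
    have := step (x := x) (y := y) hρ h he heσ (lt_of_lt_of_le hy hr.2) hs
    linarith
  have hint : ∀ (c : E) (R : ℝ), ∫ y in ball c R, (lam + Λ z + Λ y - f y) =
      Vb E R * (lam + Λ z) + (∫ y in ball c R, Λ y) - ∫ y in ball c R, f y := fun c R => by
    have hc : IntegrableOn (fun _ : E => lam + Λ z) (ball c R) :=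
      integrableOn_const measure_ball_lt_top.ne
    have hc2 : IntegrableOn (fun y : E => lam + Λ z + Λ y) (ball c R) := hc.add (intOn h c R)
    rw [integral_sub hc2 hf.integrable.integrableOn,
      integral_add hc (intOn h c R), setIntegral_const, Vb_center, smul_eq_mul]
  have hwint : IntegrableOn (fun y => lam + Λ z + Λ y - f y) (ball x r) :=
    ((integrableOn_const measure_ball_lt_top.ne).add (intOn h x r)).sub hf.integrable.integrableOn
  have hA : 0 ≤ ∫ y in ball p (ρ / 2), (lam + Λ z + Λ y - f y) :=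
    setIntegral_nonneg measurableSet_ball fun y hy => hw y (hsub hy)
  have hB : ∫ y in ball p (ρ / 2), (lam + Λ z + Λ y - f y) ≤
      ∫ y in ball x r, (lam + Λ z + Λ y - f y) :=
    setIntegral_mono_set hwint ((ae_restrict_iff' measurableSet_ball).2
      (Eventually.of_forall hw)) hsub.eventuallyLE
  rw [hint] at hA
  rw [hint, hint] at hB
  have e1 : ∫ y in ball x r, f y = Vb E r * lam := by
    rw [hlam, av_eq_div]; field_simp
  have e2 : ∫ y in ball p (ρ / 2), f y = Vb E (ρ / 2) * av f p (ρ / 2) := by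
    rw [av_eq_div]; field_simp
  have b1 := int_le_bt h hsub2
  have b2 := int_le_bt h (hsub.trans hsub2)
  have b3 : 0 ≤ ∫ y in ball p (ρ / 2), Λ y := integral_nonneg fun y => h.nonneg y
  have hΛ := h.nonneg z
  have hVle : Vb E r ≤ 4 ^ Module.finrank ℝ E * Vb E (ρ / 2) := by
    rw [← Vb_mul (by norm_num : (0 : ℝ) < 4)]
    exact Vb_mono (by linarith [hr.2])
  have hVle2 : Vb E (ρ / 2) ≤ Vb E r := Vb_mono (by linarith [hr.1])
  have hm1 := mul_le_mul_of_nonneg_right hVle hΛ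
  have hm2 := mul_le_mul_of_nonneg_right hVle2 hΛ
  have hm3 := mul_nonneg hV.le hΛ
  rw [e2] at hA hB
  rw [e1] at hB
  have key : Vb E (ρ / 2) * |lam - av f p (ρ / 2)| ≤
      bt Λ p ρ + 4 ^ Module.finrank ℝ E * Vb E (ρ / 2) * Λ z := by
    rcases abs_cases (lam - av f p (ρ / 2)) with ⟨h1, _⟩ | ⟨h1, _⟩ <;> rw [h1] <;> nlinarith
  rw [div_add' _ _ _ hV.ne', le_div_iff₀ hV]
  linarith

theorem hasDeriv_line {u : E → ℝ} {ξ e : E} {t : ℝ} (h : DifferentiableAt ℝ u (ξ + t • e)) :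
    HasDerivAt (fun t : ℝ => u (ξ + t • e)) (fderiv ℝ u (ξ + t • e) e) t := by
  have h1 : HasDerivAt (fun t : ℝ => ξ + t • e) e t := by
    simpa using ((hasDerivAt_id t).smul_const e).const_add ξ
  exact h.hasFDerivAt.comp_hasDerivAt t h1

end LocalB

open LocalB in
/-- Crossings after which both `u` stays high and `f` stays low. -/
theorem line_flat : ∃ C : ℝ≥0, ∀ (f u Λ : E → ℝ) (σ e p ξ : E) (ρ : ℝ),
    Nice f → 0 < ρ → Vio f Λ σ (sc ρ 0) → ‖e‖ = 1 → 3 / 4 ≤ ⟪e, σ⟫ →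
    ∀ Y : Set ℝ, MeasurableSet Y →
    (∀ t ∈ Y, ξ + t • e ∈ ball p (ρ / 2) ∩ Xs f u ρ ∧ 0 < fderiv ℝ u (ξ + t • e) e ∧
      ∀ s ∈ Ioc 0 (5 * ρ), u (ξ + t • e) ≤ u (ξ + (t + s) • e) ∧
        f (ξ + (t + s) • e) ≤ u (ξ + t • e)) →
    ∫⁻ t in Y, ENNReal.ofReal |fderiv ℝ u (ξ + t • e) e| ≤
      C * (ENNReal.ofReal (bt Λ p ρ / Vb E (ρ / 2)) + ENNReal.ofReal (1 / ρ) *
        ∫⁻ t : ℝ, (ball p (10 * ρ)).indicator (fun y => ENNReal.ofReal (Λ y)) (ξ + t • e)) := by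
  refine ⟨2 * 4 ^ Module.finrank ℝ E, fun f u Λ σ e p ξ ρ hf hρ h he heσ Y hY hyp => ?_⟩
  set G : ℝ → ℝ≥0∞ := fun t =>
    (ball p (10 * ρ)).indicator (fun y => ENNReal.ofReal (Λ y)) (ξ + t • e) with hG
  set a := ENNReal.ofReal (bt Λ p ρ / Vb E (ρ / 2)) with ha
  set K : ℝ≥0∞ := 4 ^ Module.finrank ℝ E with hK
  have hK1 : 1 ≤ K := one_le_pow₀ (by norm_num)
  have hKt : K ≠ ⊤ := ENNReal.pow_ne_top (by norm_num)
  rw [inj_area (g := fun t : ℝ => u (ξ + t • e)) (ς := 1) (w := ρ) hY (Or.inl rfl)]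
  rotate_left
  · intro t ht
    obtain ⟨⟨-, hd, -⟩, hpos, hs⟩ := hyp t ht
    refine ⟨hasDeriv_line hd, by simpa using hpos, fun s hs' => ?_⟩
    rcases hs'.1.eq_or_lt with h0 | h0
    · simp [← h0]
    · simpa using (hs s ⟨h0, by linarith [hs'.2]⟩).1
  · intro t ht t' ht'
    have h1 : dist (ξ + t • e) p < ρ / 2 := (hyp t ht).1.1
    have h2 : dist (ξ + t' • e) p < ρ / 2 := (hyp t' ht').1.1
    have h3 := dist_triangle_right (ξ + t • e) (ξ + t' • e) p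
    rw [dist_add_left, dist_eq_norm, ← sub_smul, norm_smul, he, mul_one, Real.norm_eq_abs] at h3
    linarith
  have hsub : (fun t : ℝ => u (ξ + t • e)) '' Y ⊆
      closedEBall (av f p (ρ / 2)) (K * (a + ENNReal.ofReal (1 / ρ) * ∫⁻ t, G t)) := by
    rintro _ ⟨t, ht, rfl⟩
    obtain ⟨⟨hb, -, -, r, hr, hur⟩, -, hs⟩ := hyp t ht
    rw [mem_closedEBall, edist_dist, Real.dist_eq]
    have hpt : ∀ τ ∈ Icc (t + 4 * ρ) (t + 5 * ρ),
        ENNReal.ofReal |u (ξ + t • e) - av f p (ρ / 2)| ≤ a + K * G τ := fun τ hτ => by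
      have hs1 : τ - t ∈ Icc (4 * ρ) (5 * ρ) := ⟨by linarith [hτ.1], by linarith [hτ.2]⟩
      have e1 : ξ + t • e + (τ - t) • e = ξ + τ • e := by
        rw [add_assoc, ← add_smul]; congr 2; ring
      have hz := (hs (τ - t) ⟨by linarith [hτ.1], hs1.2⟩).2
      rw [add_sub_cancel, hur, ← e1] at hz
      have := pointwise hf hρ h he heσ hb hr hs1 hz
      rw [← hur, e1] at this
      have hmem : ξ + τ • e ∈ ball p (10 * ρ) := by
        have h1 : dist (ξ + t • e) p < ρ / 2 := hb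
        have h3 := dist_triangle (ξ + τ • e) (ξ + t • e) p
        rw [dist_add_left, dist_eq_norm (τ • e), ← sub_smul, norm_smul, he, mul_one,
          Real.norm_eq_abs, abs_of_nonneg (by linarith [hs1.1])] at h3
        rw [mem_ball]
        linarith [hs1.2]
      have hGτ : G τ = ENNReal.ofReal (Λ (ξ + τ • e)) := by
        simp only [hG]; rw [indicator_of_mem hmem]
      refine (ENNReal.ofReal_le_ofReal this).trans (ENNReal.ofReal_add_le.trans ?_)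
      rw [hGτ, ENNReal.ofReal_mul (by positivity), ENNReal.ofReal_pow (by norm_num)]
      simp [hK, ha]
    have hI := setLIntegral_mono' (μ := volume) measurableSet_Icc hpt
    rw [setLIntegral_const, lintegral_add_left measurable_const, setLIntegral_const,
      lintegral_const_mul' _ _ hKt, Real.volume_Icc] at hI
    have e2 : t + 5 * ρ - (t + 4 * ρ) = ρ := by ring
    rw [e2] at hI
    have hI2 : ∫⁻ τ in Icc (t + 4 * ρ) (t + 5 * ρ), G τ ≤ ∫⁻ τ, G τ :=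
      setLIntegral_le_lintegral _ _
    have e3 : ENNReal.ofReal ρ * ENNReal.ofReal (1 / ρ) = 1 := by
      rw [← ENNReal.ofReal_mul hρ.le, mul_one_div_cancel hρ.ne', ENNReal.ofReal_one]
    calc ENNReal.ofReal |u (ξ + t • e) - av f p (ρ / 2)|
        = ENNReal.ofReal |u (ξ + t • e) - av f p (ρ / 2)| * ENNReal.ofReal ρ *
            ENNReal.ofReal (1 / ρ) := by rw [mul_assoc, e3, mul_one]
      _ ≤ (a * ENNReal.ofReal ρ + K * ∫⁻ τ, G τ) * ENNReal.ofReal (1 / ρ) := by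
          gcongr
          exact hI.trans (by gcongr)
      _ = a + K * (ENNReal.ofReal (1 / ρ) * ∫⁻ τ, G τ) := by
          rw [add_mul, mul_assoc, e3, mul_one]; ring
      _ ≤ K * (a + ENNReal.ofReal (1 / ρ) * ∫⁻ t, G t) := by
          rw [mul_add]
          gcongr
          exact le_mul_of_one_le_left' hK1
  refine (measure_mono hsub).trans ?_
  rw [Real.volume_closedEBall, ← mul_assoc]
  simp [hK]

open LocalB in
/-- The estimate on one line. -/
theorem LocalB.line_all : ∃ C₁ C₂ : ℝ≥0, ∀ (f u : E → ℝ) (Λ : ℕ → E → ℝ) (σ e p ξ : E) (ρ T : ℝ),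
    Nice f → Continuous u → (∀ x r, 0 < r → av f x r ≤ u x) → 0 < ρ → 5 * ρ ≤ T →
    (∀ m, Vio f (Λ m) σ (sc ρ m)) → ‖e‖ = 1 → 3 / 4 ≤ ⟪e, σ⟫ → ⟪ξ - p, e⟫ ∈ Ico 0 ρ →
    ∫⁻ t : ℝ, (ball p (ρ / 2) ∩ Xs f u ρ ∩
        {x | fderiv ℝ u x e < 0 ∨ (0 < fderiv ℝ u x e ∧ x ∉ A1 f u e T)}).indicator
      (fun x => ENNReal.ofReal |fderiv ℝ u x e|) (ξ + t • e) ≤
      (ball p (3 * ρ)).indicator (fun _ => C₁ * ENNReal.ofReal (ρ / Vb E (ρ / 2)) * tot Λ p ρ +
        C₂ * ENNReal.ofReal (bt (Λ 0) p ρ / Vb E (ρ / 2))) ξ + C₂ * ENNReal.ofReal (1 / ρ) *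
        ∫⁻ t : ℝ, (ball p (10 * ρ)).indicator (fun y => ENNReal.ofReal (Λ 0 y)) (ξ + t • e) := by
  obtain ⟨C₁, h₁⟩ := line_le (E := E)
  obtain ⟨C₂, h₂⟩ := line_flat (E := E)
  refine ⟨2 * C₁, C₂, fun f u Λ σ e p ξ ρ T hf hu hav hρ hT hv he heσ hξ => ?_⟩
  set W := ball p (ρ / 2) ∩ Xs f u ρ ∩
        {x | fderiv ℝ u x e < 0 ∨ (0 < fderiv ℝ u x e ∧ x ∉ A1 f u e T)} with hW
  have hD : Measurable fun x => fderiv ℝ u x e := measurable_fderiv_apply_const ℝ u e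
  have hWm : MeasurableSet W :=
    (measurableSet_ball.inter (measurableSet_Xs hf hu hρ)).inter
      ((measurableSet_lt hD measurable_const).union
        ((measurableSet_lt measurable_const hD).inter
          (measurableSet_A1 hf.smooth.continuous hu e T).compl))
  have hl : Continuous fun t : ℝ => ξ + t • e := by fun_prop
  set Y : Set ℝ := (fun t : ℝ => ξ + t • e) ⁻¹' W with hY
  have hYm : MeasurableSet Y := hl.measurable hWm
  have e0 : ∫⁻ t : ℝ, W.indicator (fun x => ENNReal.ofReal |fderiv ℝ u x e|) (ξ + t • e) =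
      ∫⁻ t in Y, ENNReal.ofReal |fderiv ℝ u (ξ + t • e) e| := by
    rw [← lintegral_indicator hYm]
    rfl
  rw [e0]
  rcases Y.eq_empty_or_nonempty with hE | ⟨t₀, ht₀⟩
  · simp [hE]
  have hd : dist ξ p ≤ 2 * ρ := by
    have h1 : ‖ξ + t₀ • e - p‖ < ρ / 2 := by
      rw [← dist_eq_norm]; exact ht₀.1.1
    have h2 := abs_real_inner_le_norm (ξ + t₀ • e - p) e
    have h3 : ⟪ξ + t₀ • e - p, e⟫ = ⟪ξ - p, e⟫ + t₀ := by
      rw [show ξ + t₀ • e - p = (ξ - p) + t₀ • e by abel, inner_add_left, real_inner_smul_left,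
        real_inner_self_eq_norm_sq, he]; ring
    rw [he, mul_one, h3] at h2
    have h4 := abs_le.1 h2
    have h5 : |t₀| ≤ 3 * ρ / 2 := abs_le.2 ⟨by linarith [hξ.2, h4.1], by linarith [hξ.1, h4.2]⟩
    have h6 := norm_sub_le (ξ + t₀ • e - p) (t₀ • e)
    rw [show ξ + t₀ • e - p - t₀ • e = ξ - p by abel, norm_smul, he, mul_one,
      Real.norm_eq_abs] at h6
    rw [dist_eq_norm]
    linarith
  rw [indicator_of_mem (show ξ ∈ ball p (3 * ρ) from by rw [mem_ball]; linarith)]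
  set N : Set ℝ := {t | fderiv ℝ u (ξ + t • e) e < 0} with hN
  have hNm : MeasurableSet N := measurableSet_lt (hD.comp hl.measurable) measurable_const
  set O : Set ℝ := {t | ∃ s ∈ Icc 0 (5 * ρ), u (ξ + (t + s) • e) < u (ξ + t • e)} with hO
  have hOm : MeasurableSet O := by
    have : O = ⋃ s ∈ Icc 0 (5 * ρ), {t | u (ξ + (t + s) • e) < u (ξ + t • e)} := by
      ext t; simp [hO]
    rw [this]
    exact (isOpen_biUnion fun s _ => isOpen_lt (by fun_prop) (by fun_prop)).measurableSet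
  have hpos : ∀ t ∈ Y \ N, 0 < fderiv ℝ u (ξ + t • e) e ∧ ξ + t • e ∉ A1 f u e T :=
    fun t ht => ht.1.2.resolve_left ht.2
  have k1 := h₁ f u Λ σ e p ξ ρ (-1) hf hu hav hρ hv he heσ hd (Or.inr rfl) (Y ∩ N)
    (hYm.inter hNm) fun t ht => ⟨ht.1.1, by simpa [hN] using ht.2, Or.inl rfl⟩
  have k2 := h₁ f u Λ σ e p ξ ρ 1 hf hu hav hρ hv he heσ hd (Or.inl rfl) ((Y \ N) ∩ O)
    ((hYm.diff hNm).inter hOm) fun t ht => ⟨ht.1.1.1, by simpa using (hpos t ht.1).1, Or.inr ht.2⟩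
  have k3 := h₂ f u (Λ 0) σ e p ξ ρ hf hρ (hv 0) he heσ ((Y \ N) \ O)
    ((hYm.diff hNm).diff hOm) fun t ht => by
      have hge : ∀ s ∈ Icc 0 (5 * ρ), u (ξ + t • e) ≤ u (ξ + (t + s) • e) := fun s hs => by
        by_contra hc
        exact ht.2 ⟨s, hs, not_le.1 hc⟩
      refine ⟨ht.1.1.1, (hpos t ht.1).1, fun s hs => ⟨hge s ⟨hs.1.le, hs.2⟩, ?_⟩⟩
      by_contra hc
      refine (hpos t ht.1).2 ⟨s, ⟨hs.1, hs.2.trans hT⟩, ?_, fun s' hs' => ?_⟩
      · rw [add_assoc, ← add_smul]; exact not_le.1 hc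
      · rw [add_assoc, ← add_smul]; exact hge s' ⟨hs'.1, hs'.2.trans hs.2⟩
  rw [← lintegral_inter_add_sdiff _ Y hNm, ← lintegral_inter_add_sdiff _ (Y \ N) hOm]
  refine (add_le_add k1 (add_le_add k2 k3)).trans (le_of_eq ?_)
  push_cast
  ring

open LocalB in
/-- The local estimate. -/
theorem local_le : ∃ C : ℝ≥0, ∀ (f u : E → ℝ) (Λ : ℕ → E → ℝ) (σ e p : E) (ρ T : ℝ),
    Nice f → Continuous u → (∀ x r, 0 < r → av f x r ≤ u x) → 0 < ρ → 5 * ρ ≤ T →
    (∀ m, Vio f (Λ m) σ (sc ρ m)) → ‖e‖ = 1 → 3 / 4 ≤ ⟪e, σ⟫ →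
    ∫⁻ x in ball p (ρ / 2) ∩ Xs f u ρ ∩
        {x | fderiv ℝ u x e < 0 ∨ (0 < fderiv ℝ u x e ∧ x ∉ A1 f u e T)},
      ENNReal.ofReal |fderiv ℝ u x e| ≤ C * tot Λ p ρ := by
  obtain ⟨C₁, C₂, h₁⟩ := line_all (E := E)
  refine ⟨6 ^ Module.finrank ℝ E * (C₁ + C₂) + C₂,
    fun f u Λ σ e p ρ T hf hu hav hρ hT hv he heσ => ?_⟩
  set W := ball p (ρ / 2) ∩ Xs f u ρ ∩
        {x | fderiv ℝ u x e < 0 ∨ (0 < fderiv ℝ u x e ∧ x ∉ A1 f u e T)} with hW
  have hD : Measurable fun x => fderiv ℝ u x e := measurable_fderiv_apply_const ℝ u e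
  have hWm : MeasurableSet W :=
    (measurableSet_ball.inter (measurableSet_Xs hf hu hρ)).inter
      ((measurableSet_lt hD measurable_const).union
        ((measurableSet_lt measurable_const hD).inter
          (measurableSet_A1 hf.smooth.continuous hu e T).compl))
  have hgm : Measurable (W.indicator fun x => ENNReal.ofReal |fderiv ℝ u x e|) :=
    (hD.abs.ennreal_ofReal).indicator hWm
  have hLm : Measurable ((ball p (10 * ρ)).indicator fun y => ENNReal.ofReal (Λ 0 y)) :=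
    ((hv 0).meas.ennreal_ofReal).indicator measurableSet_ball
  have s1 := slab_formula hgm he p hρ
  have s2 := slab_formula hLm he p hρ
  rw [lintegral_indicator hWm] at s1
  rw [lintegral_indicator measurableSet_ball, ← ofReal_integral_eq_lintegral_ofReal
    (intOn (hv 0) p _) (Eventually.of_forall fun y => (hv 0).nonneg y)] at s2
  have hSm : MeasurableSet {ξ : E | ⟪ξ - p, e⟫ ∈ Ico 0 ρ} :=
    (by fun_prop : Continuous fun ξ : E => ⟪ξ - p, e⟫).measurable measurableSet_Ico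
  have s3 := setLIntegral_mono' (μ := volume) hSm
    fun ξ hξ => h₁ f u Λ σ e p ξ ρ T hf hu hav hρ hT hv he heσ hξ
  rw [← s1, lintegral_add_left (measurable_const.indicator measurableSet_ball),
    lintegral_const_mul' _ _ (ENNReal.mul_ne_top ENNReal.coe_ne_top ENNReal.ofReal_ne_top),
    ← s2] at s3
  set Q := (C₁ : ℝ≥0∞) * ENNReal.ofReal (ρ / Vb E (ρ / 2)) * tot Λ p ρ +
        C₂ * ENNReal.ofReal (bt (Λ 0) p ρ / Vb E (ρ / 2)) with hQ
  have hV : 0 < Vb E (ρ / 2) := Vb_pos (by linarith)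
  have hb := bt_nonneg' (hv 0) p ρ
  have s4 : ∫⁻ ξ in {ξ : E | ⟪ξ - p, e⟫ ∈ Ico 0 ρ}, (ball p (3 * ρ)).indicator (fun _ => Q) ξ ≤
      Q * (6 ^ Module.finrank ℝ E * ENNReal.ofReal (Vb E (ρ / 2))) := by
    refine (setLIntegral_le_lintegral _ _).trans (le_of_eq ?_)
    rw [lintegral_indicator_const measurableSet_ball, ← ofReal_Vb,
      show 3 * ρ = 6 * (ρ / 2) by ring, Vb_mul (by norm_num), ENNReal.ofReal_mul (by positivity),
      ENNReal.ofReal_pow (by norm_num)]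
    simp
  have s5 : ENNReal.ofReal (bt (Λ 0) p ρ) ≤ ENNReal.ofReal ρ * tot Λ p ρ := by
    have h1 : ENNReal.ofReal (bt (Λ 0) p ρ / (2 ^ 0 * sc ρ 0)) ≤ tot Λ p ρ :=
      ENNReal.le_tsum (f := fun m : ℕ => ENNReal.ofReal (bt (Λ m) p ρ / (2 ^ m * sc ρ m))) 0
    refine le_trans ?_ (mul_le_mul_right h1 _)
    rw [← ENNReal.ofReal_mul hρ.le]
    refine ENNReal.ofReal_le_ofReal ?_
    have : ρ * (bt (Λ 0) p ρ / (2 ^ 0 * sc ρ 0)) = 2 ^ 41 * bt (Λ 0) p ρ := by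
      simp only [sc]; field_simp
    rw [this]
    nlinarith
  have e1 : ENNReal.ofReal (ρ / Vb E (ρ / 2)) * ENNReal.ofReal (Vb E (ρ / 2)) =
      ENNReal.ofReal ρ := by
    rw [← ENNReal.ofReal_mul (by positivity), div_mul_cancel₀ _ hV.ne']
  have e2 : ENNReal.ofReal (bt (Λ 0) p ρ / Vb E (ρ / 2)) * ENNReal.ofReal (Vb E (ρ / 2)) =
      ENNReal.ofReal (bt (Λ 0) p ρ) := by
    rw [← ENNReal.ofReal_mul (by positivity), div_mul_cancel₀ _ hV.ne']
  have e3 : ENNReal.ofReal (1 / ρ) * ENNReal.ofReal ρ = 1 := by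
    rw [← ENNReal.ofReal_mul (by positivity), one_div_mul_cancel hρ.ne', ENNReal.ofReal_one]
  refine (ENNReal.mul_le_mul_iff_right (a := ENNReal.ofReal ρ)
    (ENNReal.ofReal_pos.2 hρ).ne' ENNReal.ofReal_ne_top).1 (s3.trans ?_)
  have s6 : Q * (6 ^ Module.finrank ℝ E * ENNReal.ofReal (Vb E (ρ / 2))) =
      6 ^ Module.finrank ℝ E * (C₁ * (ENNReal.ofReal ρ * tot Λ p ρ) +
        C₂ * ENNReal.ofReal (bt (Λ 0) p ρ)) := by
    rw [← e1, ← e2, hQ]; ring
  calc _ ≤ 6 ^ Module.finrank ℝ E * (C₁ * (ENNReal.ofReal ρ * tot Λ p ρ) +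
        C₂ * ENNReal.ofReal (bt (Λ 0) p ρ)) + C₂ * ENNReal.ofReal (bt (Λ 0) p ρ) := by
        refine add_le_add (s4.trans s6.le) (le_of_eq ?_)
        rw [mul_assoc, ← mul_assoc (ENNReal.ofReal (1 / ρ)), e3, one_mul]
        rfl
    _ ≤ 6 ^ Module.finrank ℝ E * (C₁ * (ENNReal.ofReal ρ * tot Λ p ρ) +
        C₂ * (ENNReal.ofReal ρ * tot Λ p ρ)) + C₂ * (ENNReal.ofReal ρ * tot Λ p ρ) := by
        gcongr
    _ = _ := by push_cast; ring

end Vale.Agent.P137
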