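import Vale.Agent.P137.LowD

open MeasureTheory Metric Set Filter Topology
open scoped ENNReal NNReal RealInnerProductSpace

noncomputable section

namespace Vale.Agent.P137

variable {E : Type*} [NormedAddCommGroup E] [InnerProductSpace ℝ E] [FiniteDimensional ℝ E]
  [MeasurableSpace E] [BorelSpace E]

theorem low_arith {w ν Δ K D : ℝ} (hw0 : 0 < w) (hw1 : w ≤ 1) (hΔ : 0 ≤ Δ)
    (hD : D = w / 100 * Δ + 2 / w * ν)
    (h : 9 / 10 * (Δ - 2 * ν - 800 / w ^ 2 * ν) ≤ D / w + D + K * ν) :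
    22 / 25 * Δ ≤ (2 + 800 / w ^ 2 + 2 / w ^ 2 + 2 / w + K) * ν ∨ ν ≤ 0 := by
  rcases le_or_gt ν 0 with hν | hν
  · exact Or.inr hν
  left
  have e : D / w = Δ / 100 + 2 / w ^ 2 * ν := by rw [hD]; field_simp
  have h1 : w / 100 * Δ ≤ Δ / 100 := by nlinarith
  have h2 : 0 ≤ 800 / w ^ 2 * ν := by positivity
  rw [e, hD] at h
  nlinarith

theorem low_aux [Nontrivial E] : ∃ C : ℝ, 0 ≤ C ∧
    ∀ (f u : E → ℝ), ContDiff ℝ 1 f → (∀ z r y, y ∈ ball z r → av f z r ≤ u y) →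
    ∀ (z x : E) (r τ ν : ℝ), 0 < r → 0 < ν → dist x z ≤ r → u x = av f z r → τ ≤ u x →
      volume.real ({w | τ < f w} ∩ ball z r) ≤
        (1 / 100000) ^ Module.finrank ℝ E / 100 * volume.real (ball z r) →
      NB f z (3 * r) ≤ ENNReal.ofReal (ν * volume.real (ball z r) ^ 2) →
      CH f u z (3 * r) (r / 100000) (4 * r) ≤ ENNReal.ofReal (ν * volume.real (ball z r) / r) →
      u x - τ ≤ C * ν := by
  obtain ⟨w, hw⟩ : ∃ w : ℝ, w = (1 / 100000) ^ Module.finrank ℝ E := ⟨_, rfl⟩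
  have hw0 : 0 < w := by rw [hw]; positivity
  have hw1 : w ≤ 1 := hw ▸ (pow_facts _ (Module.finrank_pos (R := ℝ) (M := E)).ne').2.2
  obtain ⟨K, hK⟩ : ∃ K : ℝ, K = 2 * 3 ^ Module.finrank ℝ E / w + 6 ^ Module.finrank ℝ E / w :=
    ⟨_, rfl⟩
  have hK0 : 0 ≤ K := by rw [hK]; positivity
  obtain ⟨M, hM⟩ : ∃ M : ℝ, M = 2 * (2 + 800 / w ^ 2 + 2 / w ^ 2 + 2 / w + K) := ⟨_, rfl⟩
  have hM0 : 0 ≤ M := by rw [hM]; positivity
  refine ⟨M + 2 / w, by positivity, ?_⟩
  intro f u hf hu z x r τ ν hr hν hx hopt hτ hc hNB hCH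
  rw [← hw] at hc
  obtain ⟨m₀, hm₀⟩ : ∃ m₀, m₀ = volume.real (ball z r) := ⟨_, rfl⟩
  have hm0 : 0 < m₀ := hm₀ ▸ real_ball_pos z hr
  have hwm := mul_pos hw0 hm0
  rw [← hm₀] at hc hNB hCH
  have hfc := hf.continuous
  have vρ : ∀ y : E, volume.real (ball y (r / 100000)) = w * m₀ := fun y => by
    rw [hw, hm₀, vol_small z y hr]
  set S : Set ℝ := {t | t = τ ∨ (τ ≤ t ∧ ∃ y ∈ ball z r,
    w * m₀ < 4 * volume.real ({y' | t < f y'} ∩ ball y (r / 100000)))} with hS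
  have hSne : S.Nonempty := ⟨τ, Or.inl rfl⟩
  have hSb : BddAbove S := by
    obtain ⟨B, hB⟩ := (isCompact_closedBall z (2 * r)).bddAbove_image hfc.continuousOn
    refine ⟨max τ B, ?_⟩
    rintro t (rfl | ⟨-, y, hy, hlt⟩)
    · exact le_max_left _ _
    · have hne : ({y' | t < f y'} ∩ ball y (r / 100000)).Nonempty := by
        by_contra hem
        rw [not_nonempty_iff_eq_empty.1 hem, measureReal_empty] at hlt
        linarith
      obtain ⟨y', h1, h2⟩ := hne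
      have : f y' ≤ B := hB ⟨y', by
        rw [mem_ball] at hy h2
        rw [mem_closedBall]
        linarith [dist_triangle y' y z], rfl⟩
      exact le_max_of_le_right (le_trans (le_of_lt h1) this)
  obtain ⟨T, hT⟩ : ∃ T, T = sSup S + ν := ⟨_, rfl⟩
  have hτS : τ ≤ sSup S := le_csSup hSb (Or.inl rfl)
  have hτT : τ ≤ T := by linarith
  have htop := step_top hfc (z := z) (r := r) (ρ := r / 100000) (T := T) (by positivity)
    (by linarith) (by positivity) hNB (by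
      intro y hy
      by_contra hcon
      have : T ∈ S := Or.inr ⟨hτT, y, hy, by rw [← vρ y]; exact not_le.1 hcon⟩
      linarith [le_csSup hSb this])
  rw [vρ] at htop
  have hup := av_upper hfc z hr hτT
  rw [← hm₀, ← hopt] at hup
  obtain ⟨D, hD⟩ : ∃ D, D = w / 100 * (T - τ) + 2 / w * ν := ⟨_, rfl⟩
  have hJ0 : 0 ≤ ∫ y in ball z r, max (τ - f y) 0 := integral_nonneg fun y => le_max_right _ _
  have hsum : m₀ * (u x - τ) + ∫ y in ball z r, max (τ - f y) 0 ≤ m₀ * D := by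
    have h1 : ∫ y in ball z r, max (f y - T) 0 ≤ m₀ * (2 / w * ν) := by
      have e : w * m₀ * (m₀ * (2 / w * ν)) = 2 * (ν * m₀ ^ 2) := by field_simp
      exact le_of_mul_le_mul_left (e ▸ htop) hwm
    have h2 : (T - τ) * volume.real ({w | τ < f w} ∩ ball z r) ≤ (T - τ) * (w / 100 * m₀) := by
      gcongr
    rw [hD]
    linarith
  have hD1 : u x - τ ≤ D := le_of_mul_le_mul_left (by linarith) hm0
  have hD2 : ∫ y in ball z r, max (τ - f y) 0 ≤ m₀ * D := by
    have : 0 ≤ m₀ * (u x - τ) := mul_nonneg hm0.le (by linarith)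
    linarith
  have hD0 : 0 < D := by
    have : 0 ≤ w / 100 * (T - τ) := mul_nonneg (by positivity) (by linarith)
    have : 0 < 2 / w * ν := by positivity
    linarith
  have hΔ : T - τ ≤ M * ν := by
    by_contra hcon
    push Not at hcon
    have a1 : 0 ≤ 800 / w ^ 2 * ν := by positivity
    have a2 : 0 ≤ (2 / w ^ 2 + 2 / w + K) * ν := by positivity
    have a3 : M * ν = 4 * ν + 2 * (800 / w ^ 2 * ν) + 2 * ((2 / w ^ 2 + 2 / w + K) * ν) := by
      rw [hM]; ring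
    obtain ⟨t, htS, hlt⟩ := exists_lt_of_lt_csSup hSne (show sSup S - ν < sSup S by linarith)
    rcases htS with rfl | ⟨-, y₀, hy₀, hP⟩
    · linarith
    have key := low_present hf hu hw hm₀ hr hν hx hc hNB hCH hD0 (by linarith) hD2 hy₀ hP
      (by linarith)
    rw [← hK] at key
    rcases low_arith (Δ := T - τ) (K := K) hw0 hw1 (by linarith) hD (by linarith) with h | h
    · nlinarith
    · linarith
  have : w / 100 * (T - τ) ≤ M * ν := by
    have h1 : w / 100 * (T - τ) ≤ T - τ := by nlinarith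
    linarith
  linarith

theorem low_le [Nontrivial E] : ∃ c₀ κ C : ℝ, 0 < c₀ ∧ 0 < κ ∧ 0 ≤ C ∧
    ∀ (f u : E → ℝ), ContDiff ℝ 1 f → (∀ z r y, y ∈ ball z r → av f z r ≤ u y) →
    ∀ (z x : E) (r τ ν : ℝ), 0 < r → 0 < ν → dist x z ≤ r → u x = av f z r → τ ≤ u x →
      volume ({w | τ < f w} ∩ ball z r) ≤ ENNReal.ofReal c₀ * volume (ball z r) →
      NB f z (3 * r) ≤ ENNReal.ofReal (ν * r ^ (2 * Module.finrank ℝ E)) →
      CH f u z (3 * r) (κ * r) (4 * r) ≤ ENNReal.ofReal (ν * r ^ Module.finrank ℝ E / r) →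
      u x - τ ≤ C * ν := by
  obtain ⟨C, hC0, hC⟩ := low_aux (E := E)
  obtain ⟨ω, hω⟩ : ∃ ω, ω = volume.real (ball (0 : E) 1) := ⟨_, rfl⟩
  have hω0 : 0 < ω := hω ▸ real_ball_pos 0 one_pos
  refine ⟨(1 / 100000) ^ Module.finrank ℝ E / 100, 1 / 100000, C * (1 / ω ^ 2 + 1 / ω),
    by positivity, by norm_num, by positivity, ?_⟩
  intro f u hf hu z x r τ ν hr hν hx hopt hτ hc hNB hCH
  have hv : volume.real (ball z r) = r ^ Module.finrank ℝ E * ω := by rw [real_ball z hr, hω]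
  have := hC f u hf hu z x r τ ((1 / ω ^ 2 + 1 / ω) * ν) hr (by positivity) hx hopt hτ ?_ ?_ ?_
  · linarith
  · have h1 := ENNReal.toReal_mono
      (ENNReal.mul_ne_top ENNReal.ofReal_ne_top measure_ball_lt_top.ne) hc
    rwa [ENNReal.toReal_mul, ENNReal.toReal_ofReal (by positivity)] at h1
  · refine hNB.trans (ENNReal.ofReal_le_ofReal ?_)
    have e : (1 / ω ^ 2 + 1 / ω) * ν * (r ^ Module.finrank ℝ E * ω) ^ 2 =
        ν * r ^ (2 * Module.finrank ℝ E) + ω * (ν * r ^ (2 * Module.finrank ℝ E)) := by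
      field_simp; ring
    rw [hv, e]
    have : 0 ≤ ω * (ν * r ^ (2 * Module.finrank ℝ E)) := by positivity
    linarith
  · rw [show r / 100000 = 1 / 100000 * r by ring]
    refine hCH.trans (ENNReal.ofReal_le_ofReal ?_)
    have e : (1 / ω ^ 2 + 1 / ω) * ν * (r ^ Module.finrank ℝ E * ω) / r =
        ν * r ^ Module.finrank ℝ E / r + 1 / ω * (ν * r ^ Module.finrank ℝ E / r) := by
      field_simp; ring
    rw [hv, e]
    have : 0 ≤ 1 / ω * (ν * r ^ Module.finrank ℝ E / r) := by positivity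
    linarith

end Vale.Agent.P137
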