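import Vale.Agent.P137.Defs

open MeasureTheory Metric Set Filter Topology
open scoped ENNReal NNReal RealInnerProductSpace

noncomputable section

namespace Vale.Agent.P137

variable {E : Type*} [NormedAddCommGroup E] [InnerProductSpace ℝ E] [FiniteDimensional ℝ E]
  [MeasurableSpace E] [BorelSpace E]

theorem nm_peak {a b c t : ℝ} (ha : a ≤ t) (hc : c ≤ t) : b - t ≤ nm a b c := by
  unfold nm
  rcases abs_cases (a - b) with h1 | h1 <;> rcases abs_cases (b - c) with h2 | h2 <;>
    rcases abs_cases (a - c) with h3 | h3 <;> linarith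

theorem nm_valley {a b c t : ℝ} (ha : t ≤ a) (hc : t ≤ c) : t - b ≤ nm a b c := by
  unfold nm
  rcases abs_cases (a - b) with h1 | h1 <;> rcases abs_cases (b - c) with h2 | h2 <;>
    rcases abs_cases (a - c) with h3 | h3 <;> linarith

theorem vol_pre_add (y : E) (A : Set E) : volume {h : E | y + h ∈ A} = volume A :=
  measure_preimage_add volume y A

theorem vol_pre_sub (y : E) (A : Set E) : volume {h : E | y - h ∈ A} = volume A := by
  have h1 : {h : E | y - h ∈ A} = -{h : E | y + h ∈ A} := by
    ext h; simp [sub_eq_add_neg]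
  rw [h1, Measure.measure_neg, vol_pre_add]

theorem vol_pre_sub_right (y : E) (A : Set E) : volume {h : E | h - y ∈ A} = volume A := by
  have h1 : {h : E | h - y ∈ A} = {h : E | -y + h ∈ A} := by
    ext h; simp [sub_eq_add_neg, add_comm]
  rw [h1, vol_pre_add]

/-- real volume of a ball -/
theorem real_ball [Nontrivial E] (z : E) {r : ℝ} (hr : 0 < r) :
    volume.real (ball z r) = r ^ Module.finrank ℝ E * volume.real (ball (0 : E) 1) := by
  rw [measureReal_def, Measure.addHaar_ball_of_pos volume z hr, ENNReal.toReal_mul,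
    ENNReal.toReal_ofReal (by positivity), measureReal_def]

theorem real_ball_pos (z : E) {r : ℝ} (hr : 0 < r) : 0 < volume.real (ball z r) :=
  ENNReal.toReal_pos (measure_ball_pos volume z hr).ne' measure_ball_lt_top.ne

theorem real_ball_mul [Nontrivial E] (z z' : E) {r k : ℝ} (hr : 0 < r) (hk : 0 < k) :
    volume.real (ball z' (k * r)) = k ^ Module.finrank ℝ E * volume.real (ball z r) := by
  rw [real_ball z' (mul_pos hk hr), real_ball z hr, mul_pow]; ring

/-- If `β ≤ nm` on at least half of `H`, then `β |H| ≤ 2 ∫ nm`. -/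
theorem pt_bound {f : E → ℝ} (hf : Continuous f) (y : E) {R β : ℝ} {H A₁ A₂ : Set E}
    (hH : MeasurableSet H) (hHR : H ⊆ ball 0 R) (h1 : volume A₁ ≠ ⊤) (h2 : volume A₂ ≠ ⊤)
    (hbad : 2 * (volume.real A₁ + volume.real A₂) ≤ volume.real H)
    (hβ : ∀ h ∈ H, y + h ∉ A₁ → y - h ∉ A₂ → β ≤ nm (f (y - h)) (f y) (f (y + h))) :
    ENNReal.ofReal β * volume H ≤ 2 * ∫⁻ h in ball (0 : E) R, nmf f y h := by
  have hHf : volume H ≠ ⊤ := ((measure_mono hHR).trans_lt measure_ball_lt_top).ne
  set S : Set E := H ∩ {h | β ≤ nm (f (y - h)) (f y) (f (y + h))} with hS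
  have hSm : MeasurableSet S := by
    refine hH.inter (IsClosed.measurableSet (isClosed_le continuous_const ?_))
    unfold nm
    fun_prop
  have hSf : volume S ≠ ⊤ := ((measure_mono inter_subset_left).trans_lt hHf.lt_top).ne
  have hcov : H ⊆ S ∪ ({h : E | y + h ∈ A₁} ∪ {h : E | y - h ∈ A₂}) := by
    intro h hh
    by_cases a1 : y + h ∈ A₁
    · exact Or.inr (Or.inl a1)
    by_cases a2 : y - h ∈ A₂
    · exact Or.inr (Or.inr a2)
    exact Or.inl ⟨hh, hβ h hh a1 a2⟩
  have hle : volume H ≤ volume S + (volume A₁ + volume A₂) := by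
    calc volume H ≤ volume (S ∪ ({h : E | y + h ∈ A₁} ∪ {h : E | y - h ∈ A₂})) := measure_mono hcov
      _ ≤ volume S + volume ({h : E | y + h ∈ A₁} ∪ {h : E | y - h ∈ A₂}) := measure_union_le _ _
      _ ≤ volume S + (volume {h : E | y + h ∈ A₁} + volume {h : E | y - h ∈ A₂}) := by
          gcongr; exact measure_union_le _ _
      _ = _ := by rw [vol_pre_add, vol_pre_sub]
  have hle' : volume.real H ≤ volume.real S + (volume.real A₁ + volume.real A₂) := by
    have := ENNReal.toReal_mono (by finiteness) hle
    rwa [ENNReal.toReal_add hSf (by finiteness), ENNReal.toReal_add h1 h2] at this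
  have h2S : volume H ≤ 2 * volume S := by
    rw [← ENNReal.toReal_le_toReal hHf (by finiteness), ENNReal.toReal_mul]
    simp only [ENNReal.toReal_ofNat]
    change volume.real H ≤ 2 * volume.real S
    linarith
  have hI : ENNReal.ofReal β * volume S ≤ ∫⁻ h in ball (0 : E) R, nmf f y h := by
    calc ENNReal.ofReal β * volume S = ∫⁻ _ in S, ENNReal.ofReal β := by
          rw [setLIntegral_const]
      _ ≤ ∫⁻ h in S, nmf f y h := setLIntegral_mono' hSm fun h hh => ENNReal.ofReal_le_ofReal hh.2
      _ ≤ _ := lintegral_mono_set (inter_subset_left.trans hHR)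
  calc ENNReal.ofReal β * volume H ≤ ENNReal.ofReal β * (2 * volume S) := by gcongr
    _ = 2 * (ENNReal.ofReal β * volume S) := by ring
    _ ≤ _ := by gcongr

theorem integrableOn_ball_of_continuous {φ : E → ℝ} (hφ : Continuous φ) (z : E) (r : ℝ) :
    IntegrableOn φ (ball z r) :=
  (hφ.continuousOn.integrableOn_compact (isCompact_closedBall z r)).mono_set ball_subset_closedBall

/-- Integrate a pointwise budget bound. -/
theorem int_bound {f φ : E → ℝ} (hφ : Continuous φ) {z z' : E} {R s v N : ℝ} (hv : 0 < v)
    (hN : 0 ≤ N) (hS : ball z' s ⊆ ball z R) (hNB : NB f z R ≤ ENNReal.ofReal N)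
    (h : ∀ y ∈ ball z' s, ENNReal.ofReal (φ y) * ENNReal.ofReal v ≤
      2 * ∫⁻ h in ball (0 : E) R, nmf f y h) :
    v * ∫ y in ball z' s, max (φ y) 0 ≤ 2 * N := by
  have hc : Continuous fun y => max (φ y) 0 := hφ.max continuous_const
  have h1 : ENNReal.ofReal (∫ y in ball z' s, max (φ y) 0) =
      ∫⁻ y in ball z' s, ENNReal.ofReal (φ y) := by
    rw [ofReal_integral_eq_lintegral_ofReal (integrableOn_ball_of_continuous hc z' s)
      (ae_of_all _ fun y => le_max_right _ _)]
    refine lintegral_congr fun y => ?_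
    rcases le_total (φ y) 0 with h0 | h0
    · rw [max_eq_right h0, ENNReal.ofReal_of_nonpos h0, ENNReal.ofReal_zero]
    · rw [max_eq_left h0]
  have h2 : (∫⁻ y in ball z' s, ENNReal.ofReal (φ y)) * ENNReal.ofReal v ≤
      2 * ENNReal.ofReal N := by
    calc (∫⁻ y in ball z' s, ENNReal.ofReal (φ y)) * ENNReal.ofReal v
        = ∫⁻ y in ball z' s, ENNReal.ofReal (φ y) * ENNReal.ofReal v := by
          rw [lintegral_mul_const' _ _ ENNReal.ofReal_ne_top]
      _ ≤ ∫⁻ y in ball z' s, 2 * ∫⁻ h in ball (0 : E) R, nmf f y h :=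
          setLIntegral_mono' measurableSet_ball h
      _ = 2 * ∫⁻ y in ball z' s, ∫⁻ h in ball (0 : E) R, nmf f y h := by
          rw [lintegral_const_mul' _ _ (by simp)]
      _ ≤ 2 * NB f z R := by
          gcongr; exact lintegral_mono_set hS
      _ ≤ _ := by gcongr
  have h0 : 0 ≤ ∫ y in ball z' s, max (φ y) 0 := integral_nonneg fun y => le_max_right _ _
  rw [← h1, ← ENNReal.ofReal_mul h0,
    ← ENNReal.ofReal_ofNat, ← ENNReal.ofReal_mul (by norm_num),
    ENNReal.ofReal_le_ofReal_iff (by positivity)] at h2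
  linarith

theorem av_mul {f : E → ℝ} (z : E) {r : ℝ} (hr : 0 < r) :
    volume.real (ball z r) * av f z r = ∫ y in ball z r, f y := by
  rw [av, setAverage_eq, smul_eq_mul, ← mul_assoc, mul_inv_cancel₀ (real_ball_pos z hr).ne',
    one_mul]

theorem int_indicator {A : Set E} (hA : MeasurableSet A) (z : E) (r k : ℝ) :
    ∫ y in ball z r, A.indicator (fun _ => k) y = k * volume.real (A ∩ ball z r) := by
  rw [integral_indicator hA, setIntegral_const, smul_eq_mul, mul_comm, measureReal_def,
    Measure.restrict_apply hA, measureReal_def]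

theorem integrableOn_indicator_ball {A : Set E} (hA : MeasurableSet A) (z : E) (r k : ℝ) :
    IntegrableOn (A.indicator (fun _ => k)) (ball z r) :=
  (integrableOn_ball_of_continuous continuous_const z r).indicator hA

/-- Upper decomposition of an average. -/
theorem av_upper {f : E → ℝ} (hf : Continuous f) (z : E) {r τ T : ℝ} (hr : 0 < r) (hT : τ ≤ T) :
    volume.real (ball z r) * (av f z r - τ) + ∫ y in ball z r, max (τ - f y) 0 ≤
      (T - τ) * volume.real ({w | τ < f w} ∩ ball z r) + ∫ y in ball z r, max (f y - T) 0 := by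
  have hA : MeasurableSet {w | τ < f w} := (isOpen_lt continuous_const hf).measurableSet
  have i1 := integrableOn_ball_of_continuous hf z r
  have i2 : IntegrableOn (fun y => max (τ - f y) 0) (ball z r) :=
    integrableOn_ball_of_continuous (by fun_prop) z r
  have i3 : IntegrableOn (fun y => max (f y - T) 0) (ball z r) :=
    integrableOn_ball_of_continuous (by fun_prop) z r
  have i4 := integrableOn_indicator_ball hA z r (T - τ)
  have i5 := integrableOn_ball_of_continuous (continuous_const : Continuous fun _ : E => τ) z r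
  have key : ∫ y in ball z r, (f y - τ + max (τ - f y) 0) ≤
      ∫ y in ball z r, ({w | τ < f w}.indicator (fun _ => T - τ) y + max (f y - T) 0) := by
    refine integral_mono ((i1.sub i5).add i2) (i4.add i3) fun y => ?_
    by_cases hy : τ < f y
    · simp only [indicator_of_mem (show y ∈ {w | τ < f w} from hy)]
      rw [max_eq_right (by linarith)]
      linarith [le_max_left (f y - T) 0]
    · simp only [indicator_of_notMem (show y ∉ {w | τ < f w} from hy)]
      rw [max_eq_left (by linarith)]
      linarith [le_max_right (f y - T) 0]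
  have i6 : IntegrableOn (fun y => f y - τ) (ball z r) := i1.sub i5
  rw [integral_add i6 i2, integral_add i4 i3, integral_sub i1 i5, int_indicator hA,
    setIntegral_const, smul_eq_mul, ← av_mul z hr] at key
  linarith

/-- Lower decomposition of an average. -/
theorem av_lower {f : E → ℝ} (hf : Continuous f) (z : E) {r τ T : ℝ} (hr : 0 < r) (hT : τ ≤ T) :
    volume.real (ball z r) * T ≤ volume.real (ball z r) * av f z r +
      (T - τ) * volume.real ({w | f w ≤ T} ∩ ball z r) + ∫ y in ball z r, max (τ - f y) 0 := by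
  have hA : MeasurableSet {w | f w ≤ T} := (isClosed_le hf continuous_const).measurableSet
  have i1 := integrableOn_ball_of_continuous hf z r
  have i2 : IntegrableOn (fun y => max (τ - f y) 0) (ball z r) :=
    integrableOn_ball_of_continuous (by fun_prop) z r
  have i4 := integrableOn_indicator_ball hA z r (T - τ)
  have i5 := integrableOn_ball_of_continuous (continuous_const : Continuous fun _ : E => T) z r
  have key : ∫ _ in ball z r, T ≤
      ∫ y in ball z r, (f y + {w | f w ≤ T}.indicator (fun _ => T - τ) y + max (τ - f y) 0) := by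
    refine integral_mono i5 ((i1.add i4).add i2) fun y => ?_
    by_cases hy : f y ≤ T
    · simp only [indicator_of_mem (show y ∈ {w | f w ≤ T} from hy)]
      linarith [le_max_left (τ - f y) 0]
    · simp only [indicator_of_notMem (show y ∉ {w | f w ≤ T} from hy)]
      linarith [le_max_right (τ - f y) 0, not_le.1 hy]
  have i6 : IntegrableOn (fun y => f y + {w | f w ≤ T}.indicator (fun _ => T - τ) y) (ball z r) :=
    i1.add i4
  rw [integral_add i6 i2, integral_add i1 i4, int_indicator hA,
    setIntegral_const, smul_eq_mul, ← av_mul z hr] at key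
  linarith

/-- Chebyshev. -/
theorem cheb {f : E → ℝ} (hf : Continuous f) (z : E) (r τ τ' : ℝ) :
    (τ - τ') * volume.real ({w | f w ≤ τ'} ∩ ball z r) ≤ ∫ y in ball z r, max (τ - f y) 0 := by
  have hA : MeasurableSet {w | f w ≤ τ'} := (isClosed_le hf continuous_const).measurableSet
  have i2 : IntegrableOn (fun y => max (τ - f y) 0) (ball z r) :=
    integrableOn_ball_of_continuous (by fun_prop) z r
  rw [← int_indicator hA]
  refine integral_mono (integrableOn_indicator_ball hA z r _) i2 fun y => ?_
  by_cases hy : f y ≤ τ'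
  · simp only [indicator_of_mem (show y ∈ {w | f w ≤ τ'} from hy)]
    linarith [le_max_left (τ - f y) 0]
  · simp only [indicator_of_notMem (show y ∉ {w | f w ≤ τ'} from hy)]
    exact le_max_right _ _

end Vale.Agent.P137
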