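import Vale.Agent.P137.Defs

open MeasureTheory Metric Set Filter Topology
open scoped ENNReal NNReal RealInnerProductSpace

noncomputable section

namespace Vale.Agent.P137

variable {E : Type*} [NormedAddCommGroup E] [InnerProductSpace ℝ E]

theorem geo_real {r H a m : ℝ} (hr : 0 < r) (hH : r / 40 ≤ H)
    (h1 : H ^ 2 - 2 * (r / 3 - 4 * (r / 100000)) * a + (r / 3 - 4 * (r / 100000)) ^ 2 < (r / 3) ^ 2)
    (hm1 : r - 2 * (r / 100000) < m) (hm2 : m < r + r / 100000) :
    H ^ 2 - 2 * m * a + m ^ 2 < (r - r / 100000) ^ 2 := by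
  have hH2 : (r / 40) ^ 2 ≤ H ^ 2 := by gcongr
  have h2 : H ^ 2 - 3 * (r / 100000) * r < 2 * (r / 3 - 4 * (r / 100000)) * a := by nlinarith
  have h3 : 0 < H ^ 2 - 3 * (r / 100000) * r := by nlinarith
  have ha : 0 < a := by
    by_contra hneg
    have : 2 * (r / 3 - 4 * (r / 100000)) * a ≤ 0 :=
      mul_nonpos_of_nonneg_of_nonpos (by linarith) (not_lt.1 hneg)
    linarith
  have h4 : 2 * (2 * (r / 3 - 4 * (r / 100000)) * a) ≤ 2 * m * a := by nlinarith
  have h5 : m ^ 2 ≤ (r + r / 100000) ^ 2 := by gcongr; linarith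
  nlinarith

theorem norm_sub_smul_sq (h n : E) (hn : ‖n‖ = 1) (s : ℝ) :
    ‖h - s • n‖ ^ 2 = ‖h‖ ^ 2 - 2 * s * ⟪h, n⟫ + s ^ 2 := by
  rw [norm_sub_sq_real, inner_smul_right, norm_smul, hn, mul_one, Real.norm_eq_abs, sq_abs]
  ring

/-- far points of the competitor ball are well inside the reflected ball -/
theorem geo_far {q n y : E} {r m : ℝ} (hr : 0 < r) (hn : ‖n‖ = 1)
    (hm1 : r - 2 * (r / 100000) < m) (hm2 : m < r + r / 100000)
    (hy : y ∈ ball (q + (r / 3 - 4 * (r / 100000)) • n) (r / 3)) (hfar : r / 40 ≤ dist y q) :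
    ball y (r / 100000) ⊆ ball (q + m • n) r := by
  have e1 : y - (q + (r / 3 - 4 * (r / 100000)) • n) = (y - q) - (r / 3 - 4 * (r / 100000)) • n := by
    abel
  have e2 : y - (q + m • n) = (y - q) - m • n := by abel
  rw [mem_ball, dist_eq_norm, e1] at hy
  rw [dist_eq_norm] at hfar
  have h1 : ‖(y - q) - (r / 3 - 4 * (r / 100000)) • n‖ ^ 2 < (r / 3) ^ 2 := by gcongr
  rw [norm_sub_smul_sq _ _ hn] at h1
  have h2 := geo_real hr hfar h1 hm1 hm2
  rw [← norm_sub_smul_sq _ _ hn] at h2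
  have h3 : ‖(y - q) - m • n‖ < r - r / 100000 := lt_of_pow_lt_pow_left₀ 2 (by linarith) h2
  refine ball_subset_ball' ?_
  rw [dist_eq_norm, e2]
  linarith

theorem geo_near {z n y h : E} {r m : ℝ} (hr : 0 < r) (hn : ‖n‖ = 1)
    (hm1 : r - 2 * (r / 100000) < m) (hm2 : m < r + r / 100000)
    (hy : dist y (z + m • n) < r / 40) (hh : h ∈ ball ((r / 2) • n) (r / 100000)) :
    y + h ∈ ball (z + m • n + m • n) r ∧ y - h ∈ ball z r ∧ h ∈ ball (0 : E) (3 * r) := by
  rw [mem_ball, dist_eq_norm] at hh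
  rw [dist_eq_norm] at hy
  have hs : ‖(m - r / 2) • n‖ = m - r / 2 := by
    rw [norm_smul, hn, mul_one, Real.norm_eq_abs, abs_of_nonneg (by linarith)]
  have hs2 : ‖(r / 2) • n‖ = r / 2 := by
    rw [norm_smul, hn, mul_one, Real.norm_eq_abs, abs_of_nonneg (by linarith)]
  refine ⟨?_, ?_, ?_⟩
  · rw [mem_ball, dist_eq_norm]
    have e : y + h - (z + m • n + m • n) =
        (y - (z + m • n)) + (h - (r / 2) • n) - (m - r / 2) • n := by
      rw [sub_smul]; abel
    rw [e]
    have := norm_sub_le ((y - (z + m • n)) + (h - (r / 2) • n)) ((m - r / 2) • n)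
    have := norm_add_le (y - (z + m • n)) (h - (r / 2) • n)
    linarith
  · rw [mem_ball, dist_eq_norm]
    have e : y - h - z = (y - (z + m • n)) - (h - (r / 2) • n) + (m - r / 2) • n := by
      rw [sub_smul]; abel
    rw [e]
    have := norm_add_le ((y - (z + m • n)) - (h - (r / 2) • n)) ((m - r / 2) • n)
    have := norm_sub_le (y - (z + m • n)) (h - (r / 2) • n)
    linarith
  · rw [mem_ball_zero_iff]
    have e : h = (h - (r / 2) • n) + (r / 2) • n := by abel
    have := norm_add_le (h - (r / 2) • n) ((r / 2) • n)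
    rw [← e] at this
    linarith

theorem dist_add_smul (q n : E) (hn : ‖n‖ = 1) (s : ℝ) : dist (q + s • n) q = |s| := by
  rw [dist_eq_norm, add_sub_cancel_left, norm_smul, hn, mul_one, Real.norm_eq_abs]

theorem dist_smul_smul (z n : E) (hn : ‖n‖ = 1) (s t : ℝ) :
    dist (z + s • n) (z + t • n) = |s - t| := by
  rw [dist_eq_norm, show z + s • n - (z + t • n) = (s - t) • n by rw [sub_smul]; abel, norm_smul,
    hn, mul_one, Real.norm_eq_abs]

end Vale.Agent.P137
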