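import Vale.Agent.P137.LowA
import Vale.Agent.P137.LowB

open MeasureTheory Metric Set Filter Topology
open scoped ENNReal NNReal RealInnerProductSpace

noncomputable section

namespace Vale.Agent.P137

variable {E : Type*} [NormedAddCommGroup E] [InnerProductSpace ℝ E] [FiniteDimensional ℝ E]
  [MeasurableSpace E] [BorelSpace E]

theorem vol_inter_ball_ne_top (A : Set E) (z : E) (r : ℝ) : volume (A ∩ ball z r) ≠ ⊤ :=
  ((measure_mono inter_subset_right).trans_lt measure_ball_lt_top).ne

theorem vol_ball_eq_ofReal (z : E) (r : ℝ) :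
    volume (ball z r) = ENNReal.ofReal (volume.real (ball z r)) := by
  rw [measureReal_def, ENNReal.ofReal_toReal measure_ball_lt_top.ne]

/-- Levels that are nowhere substantially present are controlled by the budget. -/
theorem step_top {f : E → ℝ} (hf : Continuous f) {z : E} {r ρ T N : ℝ} (hρ : 0 < ρ)
    (hρr : ρ ≤ 3 * r) (hN : 0 ≤ N) (hNB : NB f z (3 * r) ≤ ENNReal.ofReal N)
    (hT : ∀ y ∈ ball z r, 4 * volume.real ({w | T < f w} ∩ ball y ρ) ≤ volume.real (ball y ρ)) :
    volume.real (ball (0 : E) ρ) * ∫ y in ball z r, max (f y - T) 0 ≤ 2 * N := by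
  refine int_bound (f := f) (by fun_prop) (real_ball_pos 0 hρ) hN
    (ball_subset_ball (by linarith)) hNB fun y hy => ?_
  rw [← vol_ball_eq_ofReal]
  refine pt_bound hf y measurableSet_ball (ball_subset_ball hρr)
    (vol_inter_ball_ne_top {w | T < f w} y ρ) (vol_inter_ball_ne_top {w | T < f w} y ρ) ?_ ?_
  · have := hT y hy
    rw [Measure.addHaar_real_ball_center volume y ρ] at this
    linarith
  · intro h hh h1 h2
    rw [mem_ball_zero_iff] at hh
    refine nm_peak ?_ ?_
    · by_contra hc
      exact h2 ⟨not_le.1 hc, by simpa [mem_ball, dist_eq_norm] using hh⟩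
    · by_contra hc
      exact h1 ⟨not_le.1 hc, by simpa [mem_ball, dist_eq_norm] using hh⟩

/-- Choice of a good reflection centre. -/
theorem step_pick {f : E → ℝ} {z : E} {R N β : ℝ} {P : Set E} (hP : MeasurableSet P)
    (hPR : P ⊆ ball z R) (hN : 0 ≤ N) (hβ : 0 ≤ β) (hNB : NB f z R ≤ ENNReal.ofReal N)
    (hlt : N < β * volume.real P) :
    ∃ q ∈ P, ∫⁻ h in ball (0 : E) R, nmf f q h ≤ ENNReal.ofReal β := by
  by_contra hcon
  push Not at hcon
  have hPf : volume P ≠ ⊤ := ((measure_mono hPR).trans_lt measure_ball_lt_top).ne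
  have h1 : ENNReal.ofReal β * volume P ≤ ENNReal.ofReal N := by
    calc ENNReal.ofReal β * volume P = ∫⁻ _ in P, ENNReal.ofReal β := by rw [setLIntegral_const]
      _ ≤ ∫⁻ q in P, ∫⁻ h in ball (0 : E) R, nmf f q h :=
          setLIntegral_mono' hP fun q hq => (hcon q hq).le
      _ ≤ NB f z R := lintegral_mono_set hPR
      _ ≤ _ := hNB
  rw [← ENNReal.ofReal_toReal hPf, ← ENNReal.ofReal_mul hβ, ENNReal.ofReal_le_ofReal_iff hN] at h1
  exact absurd h1 (not_le.2 hlt)

/-- The reflected ball lies mostly in the superlevel set. -/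
theorem step_reflect {f : E → ℝ} (hf : Continuous f) {z q : E} {r τ t₀ β η : ℝ}
    (hq : dist q z < 2 * r) (hτ : τ ≤ t₀) (hη : 0 ≤ η) (hβ : 0 < β) (hfq : t₀ + β ≤ f q)
    (hI : ∫⁻ h in ball (0 : E) (3 * r), nmf f q h ≤ ENNReal.ofReal (β * η)) :
    volume.real ({w | f w ≤ t₀} ∩ ball (q + (q - z)) r) ≤
      η + volume.real ({w | τ < f w} ∩ ball z r) := by
  set Vi : Set E := ball (0 : E) (3 * r) ∩ {h | f (q - h) ≤ t₀ ∧ f (q + h) ≤ t₀} with hVi
  have hVm : MeasurableSet Vi := by
    refine measurableSet_ball.inter (IsClosed.measurableSet ?_)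
    have c1 : Continuous fun h : E => f (q - h) := by fun_prop
    have c2 : Continuous fun h : E => f (q + h) := by fun_prop
    exact (isClosed_le c1 continuous_const).inter (isClosed_le c2 continuous_const)
  have hVf : volume Vi ≠ ⊤ := ((measure_mono inter_subset_left).trans_lt measure_ball_lt_top).ne
  have h1 : ENNReal.ofReal β * volume Vi ≤ ENNReal.ofReal (β * η) := by
    calc ENNReal.ofReal β * volume Vi = ∫⁻ _ in Vi, ENNReal.ofReal β := by rw [setLIntegral_const]
      _ ≤ ∫⁻ h in Vi, nmf f q h := setLIntegral_mono' hVm fun h hh =>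
          ENNReal.ofReal_le_ofReal (le_trans (by linarith) (nm_peak hh.2.1 hh.2.2))
      _ ≤ ∫⁻ h in ball (0 : E) (3 * r), nmf f q h := lintegral_mono_set inter_subset_left
      _ ≤ _ := hI
  have h2 : volume.real Vi ≤ η := by
    rw [← ENNReal.ofReal_toReal hVf, ← ENNReal.ofReal_mul hβ.le,
      ENNReal.ofReal_le_ofReal_iff (by positivity)] at h1
    exact le_of_mul_le_mul_left h1 hβ
  have hcov : {w | f w ≤ t₀} ∩ ball (q + (q - z)) r ⊆
      {y : E | y - q ∈ Vi} ∪ {y : E | (q + q) - y ∈ {w | τ < f w} ∩ ball z r} := by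
    rintro y ⟨hy1, hy2⟩
    rw [mem_ball, dist_eq_norm] at hy2
    rw [dist_eq_norm] at hq
    have hb : (q + q) - y ∈ ball z r := by
      have e : q + q - y - z = -(y - (q + (q - z))) := by abel
      rw [mem_ball, dist_eq_norm, e, norm_neg]
      exact hy2
    by_cases hc : τ < f ((q + q) - y)
    · exact Or.inr ⟨hc, hb⟩
    · left
      refine ⟨?_, ?_, ?_⟩
      · rw [mem_ball_zero_iff]
        have e : y - q = (y - (q + (q - z))) + (q - z) := by abel
        have := norm_add_le (y - (q + (q - z))) (q - z)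
        rw [← e] at this
        linarith
      · have e : q - (y - q) = q + q - y := by abel
        rw [e]
        linarith [not_lt.1 hc]
      · have e : q + (y - q) = y := by abel
        rw [e]
        exact hy1
  have h3 : volume ({w | f w ≤ t₀} ∩ ball (q + (q - z)) r) ≤
      volume Vi + volume ({w | τ < f w} ∩ ball z r) := by
    refine (measure_mono hcov).trans ((measure_union_le _ _).trans ?_)
    rw [vol_pre_sub_right, vol_pre_sub]
  have h4 := ENNReal.toReal_mono
    (ENNReal.add_ne_top.2 ⟨hVf, vol_inter_ball_ne_top _ z r⟩) h3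
  rw [ENNReal.toReal_add hVf (vol_inter_ball_ne_top _ z r)] at h4
  change volume.real _ ≤ volume.real Vi + volume.real _ at h4
  linarith

/-- Low levels are controlled by the budget on the competitor ball. -/
theorem step_low {f : E → ℝ} (hf : Continuous f) {z n : E} {r m τ' t₀ N : ℝ} (hr : 0 < r)
    (hn : ‖n‖ = 1) (hm1 : r - 2 * (r / 100000) < m) (hm2 : m < r + r / 100000) (hτ : τ' ≤ t₀)
    (hN : 0 ≤ N) (hNB : NB f z (3 * r) ≤ ENNReal.ofReal N)
    (h1 : 4 * volume.real ({w | f w ≤ t₀} ∩ ball (z + m • n + m • n) r) ≤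
      volume.real (ball (0 : E) (r / 100000)))
    (h2 : 4 * volume.real ({w | f w ≤ τ'} ∩ ball z r) ≤ volume.real (ball (0 : E) (r / 100000))) :
    volume.real (ball (0 : E) (r / 100000)) *
      ∫ y in ball (z + m • n + (r / 3 - 4 * (r / 100000)) • n) (r / 3), max (τ' - f y) 0 ≤
      2 * N := by
  refine int_bound (f := f) (by fun_prop) (real_ball_pos 0 (by positivity)) hN ?_ hNB fun y hy => ?_
  · refine ball_subset_ball' ?_
    rw [add_assoc, ← add_smul, dist_add_smul _ _ hn, abs_of_nonneg (by linarith)]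
    linarith
  rw [← vol_ball_eq_ofReal]
  rcases le_or_gt (r / 40) (dist y (z + m • n)) with hfar | hnear
  · have hsub := geo_far hr hn hm1 hm2 hy hfar
    refine pt_bound hf y measurableSet_ball (ball_subset_ball (by linarith))
      (vol_inter_ball_ne_top {w | f w ≤ t₀} (z + m • n + m • n) r)
      (vol_inter_ball_ne_top {w | f w ≤ t₀} (z + m • n + m • n) r) (by linarith) ?_
    intro h hh a1 a2
    rw [mem_ball_zero_iff] at hh
    refine nm_valley ?_ ?_
    · by_contra hc
      exact a2 ⟨le_trans (not_le.1 hc).le hτ,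
        hsub (by simpa [mem_ball, dist_eq_norm] using hh)⟩
    · by_contra hc
      exact a1 ⟨le_trans (not_le.1 hc).le hτ,
        hsub (by simpa [mem_ball, dist_eq_norm] using hh)⟩
  · rw [← Measure.addHaar_ball_center volume ((r / 2) • n) (r / 100000)]
    refine pt_bound hf y measurableSet_ball (fun h hh => (geo_near hr hn hm1 hm2 hnear hh).2.2)
      (vol_inter_ball_ne_top {w | f w ≤ t₀} (z + m • n + m • n) r)
      (vol_inter_ball_ne_top {w | f w ≤ τ'} z r) ?_ ?_
    · rw [Measure.addHaar_real_ball_center]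
      linarith
    intro h hh a1 a2
    obtain ⟨g1, g2, -⟩ := geo_near hr hn hm1 hm2 hnear hh
    refine nm_valley ?_ ?_
    · by_contra hc
      exact a2 ⟨(not_le.1 hc).le, g2⟩
    · by_contra hc
      exact a1 ⟨le_trans (not_le.1 hc).le hτ, g1⟩

/-- The sublevel set occupies a small part of the competitor ball. -/
theorem step_dens {f : E → ℝ} {z n : E} {r m t₀ : ℝ} (hr : 0 < r)
    (hn : ‖n‖ = 1) (hm1 : r - 2 * (r / 100000) < m) (hm2 : m < r + r / 100000) :
    volume.real ({w | f w ≤ t₀} ∩ ball (z + m • n + (r / 3 - 4 * (r / 100000)) • n) (r / 3)) ≤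
      volume.real (ball (z + m • n) (r / 40)) +
        volume.real ({w | f w ≤ t₀} ∩ ball (z + m • n + m • n) r) := by
  refine le_trans (measureReal_mono (s₂ := ball (z + m • n) (r / 40) ∪
    ({w | f w ≤ t₀} ∩ ball (z + m • n + m • n) r)) ?_ ?_) (measureReal_union_le _ _)
  · rintro y ⟨hy1, hy2⟩
    rcases le_or_gt (r / 40) (dist y (z + m • n)) with hfar | hnear
    · exact Or.inr ⟨hy1, geo_far hr hn hm1 hm2 hy2 hfar (mem_ball_self (by positivity))⟩
    · exact Or.inl hnear
  · exact (measure_union_lt_top measure_ball_lt_top (vol_inter_ball_ne_top _ _ _).lt_top).ne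

end Vale.Agent.P137
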