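import Vale.Agent.P137.PC
import Vale.Agent.P137.LowC

open MeasureTheory Metric Set Filter Topology
open scoped ENNReal NNReal RealInnerProductSpace

noncomputable section

namespace Vale.Agent.P137

variable {E : Type*} [NormedAddCommGroup E] [InnerProductSpace ℝ E] [FiniteDimensional ℝ E]
  [MeasurableSpace E] [BorelSpace E]

/-- The charging step: Poincare inequality on the small ball `ball q (3ρ)`. -/
theorem step_charge [Nontrivial E] {f u : E → ℝ} (hf : ContDiff ℝ 1 f) {z q x : E}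
    {r ρ a b α M : ℝ} (hρ : 0 < ρ) (hα : 0 < α) (hM : 0 ≤ M)
    (hq : ball q (3 * ρ) ⊆ ball z (3 * r)) (hx : ∀ y ∈ ball q (3 * ρ), x ∈ ball y (4 * r))
    (hua : u x ≤ a) (hub : ∀ y ∈ ball q (4 * ρ), b ≤ u y)
    (h1 : α ≤ volume.real ({w | f w ≤ a} ∩ ball q (3 * ρ)))
    (h2 : α ≤ volume.real ({w | b ≤ f w} ∩ ball q (3 * ρ)))
    (hCH : CH f u z (3 * r) ρ (4 * r) ≤ ENNReal.ofReal M) :
    (b - a) * α * α ≤ 6 * ρ * volume.real (ball (0 : E) (6 * ρ)) * M := by
  have key := pc hf q (3 * ρ) a b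
  have hsub : ball q (3 * ρ) ∩ {w | a < f w ∧ f w < b} ⊆ ball z (3 * r) ∩ Dset f u ρ (4 * r) := by
    rintro y ⟨hy, hy1, hy2⟩
    refine ⟨hq hy, fun w hw => ?_, x, hx y hy, lt_of_le_of_lt hua hy1⟩
    refine le_trans hy2.le (hub w ?_)
    rw [mem_ball] at hw hy ⊢
    linarith [dist_triangle w y q]
  have e6 : 2 * (3 * ρ) = 6 * ρ := by ring
  rw [e6] at key
  have g1 : ENNReal.ofReal α ≤ volume ({w | f w ≤ a} ∩ ball q (3 * ρ)) :=
    ENNReal.ofReal_le_of_le_toReal h1
  have g2 : ENNReal.ofReal α ≤ volume ({w | b ≤ f w} ∩ ball q (3 * ρ)) :=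
    ENNReal.ofReal_le_of_le_toReal h2
  have key2 : ENNReal.ofReal (b - a) * ENNReal.ofReal α * ENNReal.ofReal α ≤
      ENNReal.ofReal (6 * ρ) * ENNReal.ofReal (volume.real (ball (0 : E) (6 * ρ))) *
        ENNReal.ofReal M := by
    rw [← vol_ball_eq_ofReal]
    refine le_trans (by gcongr) (key.trans ?_)
    gcongr
    exact (lintegral_mono_set hsub).trans hCH
  rcases le_or_gt b a with hab | hab
  · have : (b - a) * α * α ≤ 0 := by
      have : b - a ≤ 0 := by linarith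
      nlinarith [mul_pos hα hα]
    exact this.trans (by positivity)
  rw [← ENNReal.ofReal_mul (by linarith), ← ENNReal.ofReal_mul (by positivity),
    ← ENNReal.ofReal_mul (by positivity), ← ENNReal.ofReal_mul (by positivity),
    ENNReal.ofReal_le_ofReal_iff (by positivity)] at key2
  exact key2

theorem pow_facts (d : ℕ) (hd : d ≠ 0) :
    (3 : ℝ) ^ d * (1 / 40) ^ d ≤ 3 / 40 ∧ (3 : ℝ) ^ d * (1 / 100000) ^ d ≤ 3 / 100000 ∧
      ((1 : ℝ) / 100000) ^ d ≤ 1 := by
  refine ⟨?_, ?_, pow_le_one₀ (by norm_num) (by norm_num)⟩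
  · rw [← mul_pow]
    exact (pow_le_of_le_one (by norm_num) (by norm_num) hd).trans (by norm_num)
  · rw [← mul_pow]
    exact (pow_le_of_le_one (by norm_num) (by norm_num) hd).trans (by norm_num)

/-- Location of the reflection centre. -/
theorem step_loc {f : E → ℝ} {z y₀ q : E} {r ρ τ t : ℝ} (hτ : τ ≤ t) (hy₀ : y₀ ∈ ball z r)
    (hq : q ∈ ball y₀ ρ)
    (hlt : volume.real ({w | τ < f w} ∩ ball z r) < volume.real ({w | t < f w} ∩ ball y₀ ρ)) :
    r - 2 * ρ < ‖q - z‖ ∧ ‖q - z‖ < r + ρ := by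
  rw [← dist_eq_norm]
  rw [mem_ball] at hq hy₀
  refine ⟨?_, by linarith [dist_triangle q y₀ z]⟩
  by_contra hc
  have hsub : {w | t < f w} ∩ ball y₀ ρ ⊆ {w | τ < f w} ∩ ball z r := by
    rintro y ⟨h1, h2⟩
    refine ⟨lt_of_le_of_lt hτ h1, ?_⟩
    rw [mem_ball] at h2 ⊢
    have := dist_triangle y y₀ q
    have := dist_triangle y q z
    rw [dist_comm y₀ q] at *
    linarith [not_lt.1 hc]
  exact absurd (measureReal_mono hsub (vol_inter_ball_ne_top _ _ _)) (not_le.2 hlt)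

theorem comp_arith {m₀ A w ν t₀ τ' a V J g : ℝ} (hm0 : 0 < m₀) (hA : 0 < A) (hw0 : 0 < w)
    (p1 : A * g ≤ 3 / 40) (p2 : A * w ≤ 3 / 100000) (ht : τ' ≤ t₀)
    (hlow : w * m₀ * J ≤ 2 * (ν * m₀ ^ 2)) (hV : V ≤ g * m₀ + w / 50 * m₀)
    (hav : m₀ / A * t₀ ≤ m₀ / A * a + (t₀ - τ') * V + J) :
    t₀ - (t₀ - τ') / 10 - 2 * A / w * ν ≤ a := by
  have j1 : J ≤ 2 * ν * m₀ / w := by
    rw [le_div_iff₀ hw0]
    have : m₀ * (J * w) ≤ m₀ * (2 * ν * m₀) := by linarith
    exact le_of_mul_le_mul_left this hm0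
  have j2 : A * V ≤ m₀ / 10 := by
    have h1 := mul_le_mul_of_nonneg_left hV hA.le
    have h2 := mul_le_mul_of_nonneg_right p1 hm0.le
    have h3 := mul_le_mul_of_nonneg_right p2 hm0.le
    linarith
  have j3 : 0 ≤ t₀ - τ' := by linarith
  have j4 : m₀ * t₀ ≤ m₀ * a + (t₀ - τ') * (A * V) + A * J := by
    have := mul_le_mul_of_nonneg_left hav hA.le
    have e1 : A * (m₀ / A * t₀) = m₀ * t₀ := by field_simp
    have e2 : A * (m₀ / A * a + (t₀ - τ') * V + J) = m₀ * a + (t₀ - τ') * (A * V) + A * J := by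
      field_simp
    rwa [e1, e2] at this
  have j5 : (t₀ - τ') * (A * V) ≤ (t₀ - τ') * (m₀ / 10) := by gcongr
  have j6 : A * J ≤ A * (2 * ν * m₀ / w) := by gcongr
  have j7 : m₀ * (t₀ - (t₀ - τ') / 10 - 2 * A / w * ν) ≤ m₀ * a := by
    have e : m₀ * (t₀ - (t₀ - τ') / 10 - 2 * A / w * ν) =
        m₀ * t₀ - (t₀ - τ') * (m₀ / 10) - A * (2 * ν * m₀ / w) := by field_simp
    linarith
  exact le_of_mul_le_mul_left j7 hm0

theorem vol_small [Nontrivial E] (z y : E) {r : ℝ} (hr : 0 < r) :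
    volume.real (ball y (r / 100000)) =
      (1 / 100000) ^ Module.finrank ℝ E * volume.real (ball z r) := by
  rw [← real_ball_mul z y hr (by norm_num)]; congr 2; ring

/-- Lower bound for the average over the competitor ball. -/
theorem step_comp [Nontrivial E] {f : E → ℝ} (hfc : Continuous f) {z n : E}
    {r m τ' t₀ ν w m₀ : ℝ}
    (hw : w = (1 / 100000) ^ Module.finrank ℝ E) (hm₀ : m₀ = volume.real (ball z r))
    (hr : 0 < r) (hν : 0 < ν) (hn1 : ‖n‖ = 1) (hm1 : r - 2 * (r / 100000) < m)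
    (hm2 : m < r + r / 100000) (hτ : τ' ≤ t₀)
    (hNB : NB f z (3 * r) ≤ ENNReal.ofReal (ν * m₀ ^ 2))
    (hrefl : volume.real ({y | f y ≤ t₀} ∩ ball (z + m • n + m • n) r) ≤ w / 50 * m₀)
    (hch : volume.real ({y | f y ≤ τ'} ∩ ball z r) ≤ w / 10 * m₀) :
    t₀ - (t₀ - τ') / 10 - 2 * 3 ^ Module.finrank ℝ E / w * ν ≤
      av f (z + m • n + (r / 3 - 4 * (r / 100000)) • n) (r / 3) := by
  have hd0 : Module.finrank ℝ E ≠ 0 := Module.finrank_pos.ne'
  have hw0 : 0 < w := by rw [hw]; positivity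
  have hm0 : 0 < m₀ := hm₀ ▸ real_ball_pos z hr
  have hwm := mul_pos hw0 hm0
  obtain ⟨p1, p2, -⟩ := pow_facts _ hd0
  rw [← hw] at p2
  have vρ : volume.real (ball (0 : E) (r / 100000)) = w * m₀ := by
    rw [hw, hm₀, vol_small z 0 hr]
  have hlow := step_low hfc hr hn1 hm1 hm2 hτ (by positivity) hNB
    (by rw [vρ]; linarith) (by rw [vρ]; linarith)
  have hdens := step_dens (f := f) (z := z) (t₀ := t₀) hr hn1 hm1 hm2
  have hav := av_lower hfc (z + m • n + (r / 3 - 4 * (r / 100000)) • n) (r := r / 3)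
    (by positivity) hτ
  have v3 : ∀ c : E, volume.real (ball c (r / 3)) = m₀ / 3 ^ Module.finrank ℝ E := fun c => by
    have := real_ball_mul z c hr (show (0 : ℝ) < 1 / 3 by norm_num)
    rw [show 1 / 3 * r = r / 3 by ring, ← hm₀] at this
    rw [this, one_div_pow]; ring
  have v40 : ∀ c : E, volume.real (ball c (r / 40)) = (1 / 40) ^ Module.finrank ℝ E * m₀ :=
    fun c => by rw [hm₀, ← real_ball_mul z c hr (by norm_num)]; congr 2; ring
  rw [vρ] at hlow
  rw [v40] at hdens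
  rw [v3] at hav
  exact comp_arith hm0 (by positivity) hw0 p1 p2 hτ hlow (by linarith) hav

theorem step_charge2 [Nontrivial E] {f u : E → ℝ} (hf : ContDiff ℝ 1 f) {z x n y₀ : E}
    {r m τ a b t ν w m₀ : ℝ}
    (hw : w = (1 / 100000) ^ Module.finrank ℝ E) (hm₀ : m₀ = volume.real (ball z r))
    (hr : 0 < r) (hν : 0 < ν) (hn1 : ‖n‖ = 1) (hm1 : r - 2 * (r / 100000) < m)
    (hm2 : m < r + r / 100000) (hx : dist x z ≤ r)
    (hc : volume.real ({y | τ < f y} ∩ ball z r) ≤ w / 100 * m₀)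
    (hCH : CH f u z (3 * r) (r / 100000) (4 * r) ≤ ENNReal.ofReal (ν * m₀ / r))
    (hτa : τ ≤ a) (hua : u x ≤ a) (hbt : b ≤ t)
    (hub : ∀ y ∈ ball (z + m • n + (r / 3 - 4 * (r / 100000)) • n) (r / 3), b ≤ u y)
    (hq : z + m • n ∈ ball y₀ (r / 100000))
    (hP : w * m₀ < 4 * volume.real ({y | t < f y} ∩ ball y₀ (r / 100000))) :
    b - a ≤ 6 ^ Module.finrank ℝ E / w * ν := by
  have hw0 : 0 < w := by rw [hw]; positivity
  have hm0 : 0 < m₀ := hm₀ ▸ real_ball_pos z hr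
  have hwm := mul_pos hw0 hm0
  have vρ : ∀ y : E, volume.real (ball y (r / 100000)) = w * m₀ := fun y => by
    rw [hw, hm₀, vol_small z y hr]
  have hqz : dist (z + m • n) z = m := by rw [dist_add_smul _ _ hn1, abs_of_nonneg (by linarith)]
  have hchg := step_charge (u := u) hf (z := z) (q := z + m • n) (x := x) (r := r)
    (ρ := r / 100000) (a := a) (b := b) (α := w * m₀ / 4) (M := ν * m₀ / r) (by positivity)
    (by positivity) (by positivity) (ball_subset_ball' (by rw [hqz]; linarith)) (by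
      intro y hy
      rw [mem_ball] at hy ⊢
      have h1 := dist_triangle x z y
      have h2 := dist_triangle z (z + m • n) y
      rw [dist_comm z (z + m • n), hqz, dist_comm (z + m • n) y] at h2
      linarith) hua (by
      intro y hy
      refine hub _ (ball_subset_ball' ?_ hy)
      rw [dist_comm, dist_add_smul _ _ hn1, abs_of_nonneg (by linarith)]
      linarith) (by
      have hs : ball (z + (m - 2 * (r / 100000)) • n) (r / 100000) ⊆
          ({y | f y ≤ a} ∩ ball (z + m • n) (3 * (r / 100000))) ∪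
            ({y | τ < f y} ∩ ball z r) := by
        intro y hy
        by_cases hc' : τ < f y
        · refine Or.inr ⟨hc', ball_subset_ball' ?_ hy⟩
          rw [dist_add_smul _ _ hn1, abs_of_nonneg (by linarith)]
          linarith
        · refine Or.inl ⟨show f y ≤ a by linarith [not_lt.1 hc'], ball_subset_ball' ?_ hy⟩
          rw [dist_smul_smul _ _ hn1, abs_of_nonpos (by linarith)]
          linarith
      have h1 := (measureReal_mono hs (measure_union_lt_top (vol_inter_ball_ne_top _ _ _).lt_top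
        (vol_inter_ball_ne_top _ _ _).lt_top).ne).trans (measureReal_union_le _ _)
      rw [vρ] at h1
      linarith) (by
      have hs : {y | t < f y} ∩ ball y₀ (r / 100000) ⊆
          {y | b ≤ f y} ∩ ball (z + m • n) (3 * (r / 100000)) := by
        rintro y ⟨h1, h2⟩
        refine ⟨le_trans hbt (le_of_lt h1), ?_⟩
        rw [mem_ball] at h2 hq ⊢
        have := dist_triangle y y₀ (z + m • n)
        rw [dist_comm y₀] at this
        linarith
      have h1 := measureReal_mono hs (vol_inter_ball_ne_top _ _ _)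
      linarith) hCH
  have v6 : volume.real (ball (0 : E) (6 * (r / 100000))) = 6 ^ Module.finrank ℝ E * (w * m₀) := by
    rw [real_ball_mul (0 : E) 0 (by positivity) (by norm_num), vρ]
  rw [v6] at hchg
  have e : 6 * (r / 100000) * (6 ^ Module.finrank ℝ E * (w * m₀)) * (ν * m₀ / r) =
      (96 / 100000 * (6 ^ Module.finrank ℝ E / w * ν)) * (w * m₀ / 4) * (w * m₀ / 4) := by
    field_simp; ring
  rw [e] at hchg
  have hα : 0 < w * m₀ / 4 := by positivity
  have := le_of_mul_le_mul_right (le_of_mul_le_mul_right hchg hα) hα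
  have h0 : 0 ≤ 6 ^ Module.finrank ℝ E / w * ν := by positivity
  linarith

theorem low_present [Nontrivial E] {f u : E → ℝ} (hf : ContDiff ℝ 1 f)
    (hu : ∀ z r y, y ∈ ball z r → av f z r ≤ u y) {z x y₀ : E} {r τ ν D t w m₀ : ℝ}
    (hw : w = (1 / 100000) ^ Module.finrank ℝ E) (hm₀ : m₀ = volume.real (ball z r))
    (hr : 0 < r) (hν : 0 < ν) (hx : dist x z ≤ r)
    (hc : volume.real ({y | τ < f y} ∩ ball z r) ≤ w / 100 * m₀)
    (hNB : NB f z (3 * r) ≤ ENNReal.ofReal (ν * m₀ ^ 2))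
    (hCH : CH f u z (3 * r) (r / 100000) (4 * r) ≤ ENNReal.ofReal (ν * m₀ / r))
    (hD : 0 < D) (hD1 : u x ≤ τ + D) (hD2 : ∫ y in ball z r, max (τ - f y) 0 ≤ m₀ * D)
    (hy₀ : y₀ ∈ ball z r)
    (hP : w * m₀ < 4 * volume.real ({y | t < f y} ∩ ball y₀ (r / 100000)))
    (ht : τ ≤ t - 800 / w ^ 2 * ν) :
    9 / 10 * (t - 800 / w ^ 2 * ν - τ) ≤ D / w + D +
      (2 * 3 ^ Module.finrank ℝ E / w + 6 ^ Module.finrank ℝ E / w) * ν := by
  have hfc := hf.continuous
  have hw0 : 0 < w := by rw [hw]; positivity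
  have hm0 : 0 < m₀ := hm₀ ▸ real_ball_pos z hr
  have hwm := mul_pos hw0 hm0
  obtain ⟨t₀, ht₀⟩ : ∃ t₀, t₀ = t - 800 / w ^ 2 * ν := ⟨_, rfl⟩
  rw [← ht₀] at ht ⊢
  have hβ : 0 < 800 / w ^ 2 * ν := by positivity
  have htt : t₀ ≤ t := by linarith
  have hPm : MeasurableSet ({y | t < f y} ∩ ball y₀ (r / 100000)) :=
    (isOpen_lt continuous_const hfc).measurableSet.inter measurableSet_ball
  have hPR : {y | t < f y} ∩ ball y₀ (r / 100000) ⊆ ball z (3 * r) := by
    refine inter_subset_right.trans (ball_subset_ball' ?_)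
    rw [mem_ball] at hy₀
    linarith
  obtain ⟨q, hq, hI⟩ := step_pick (β := 800 / w ^ 2 * ν * (w / 100 * m₀)) hPm hPR
    (by positivity) (by positivity) hNB (by
      have e : 800 / w ^ 2 * ν * (w / 100 * m₀) = 8 * ν * m₀ / w := by field_simp; ring
      rw [e, div_mul_eq_mul_div, lt_div_iff₀ hw0]
      have h1 := mul_lt_mul_of_pos_left hP (mul_pos hν hm0)
      have h2 := mul_pos (mul_pos hν hm0) hwm
      linarith)
  obtain ⟨hm1, hm2⟩ := step_loc (f := f) (ht.trans htt) hy₀ hq.2 (by linarith)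
  obtain ⟨m, hmdef⟩ : ∃ m, m = ‖q - z‖ := ⟨_, rfl⟩
  rw [← hmdef] at hm1 hm2
  have hmpos : 0 < m := by linarith
  obtain ⟨n, hn⟩ : ∃ n : E, n = m⁻¹ • (q - z) := ⟨_, rfl⟩
  have hn1 : ‖n‖ = 1 := by
    rw [hn, norm_smul, norm_inv, Real.norm_eq_abs, abs_of_pos hmpos, ← hmdef,
      inv_mul_cancel₀ hmpos.ne']
  have hmn : m • n = q - z := by rw [hn, smul_smul, mul_inv_cancel₀ hmpos.ne', one_smul]
  have hqe : q = z + m • n := by rw [hmn]; abel
  have hrefl := step_reflect hfc (z := z) (q := q) (r := r) (τ := τ) (t₀ := t₀)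
    (β := 800 / w ^ 2 * ν) (η := w / 100 * m₀) (by rw [dist_eq_norm, ← hmdef]; linarith) ht
    (by positivity) hβ (by linarith [show t < f q from hq.1]) hI
  rw [← hmn] at hrefl
  subst hqe
  obtain ⟨τ', hτ'⟩ : ∃ τ', τ' = τ - 10 * D / w := ⟨_, rfl⟩
  have hDw : 0 ≤ 10 * D / w := by positivity
  have hτ'τ : τ' ≤ τ := by linarith
  have hch : volume.real ({y | f y ≤ τ'} ∩ ball z r) ≤ w / 10 * m₀ := by
    have h1 := (cheb hfc z r τ τ').trans hD2
    have e : τ - τ' = 10 * D / w := by rw [hτ']; ring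
    rw [e, div_mul_eq_mul_div, div_le_iff₀ hw0] at h1
    have : D * (10 * volume.real ({y | f y ≤ τ'} ∩ ball z r)) ≤ D * (w * m₀) := by linarith
    have := le_of_mul_le_mul_left this hD
    linarith
  have hbav := step_comp hfc hw hm₀ hr hν hn1 hm1 hm2 (hτ'τ.trans ht) hNB (by linarith) hch
  have h0 : 0 ≤ 2 * 3 ^ Module.finrank ℝ E / w * ν := by positivity
  have hfin := step_charge2 (u := u) hf (a := τ + D)
    (b := t₀ - (t₀ - τ') / 10 - 2 * 3 ^ Module.finrank ℝ E / w * ν) hw hm₀ hr hν hn1 hm1 hm2 hx hc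
    hCH (by linarith) hD1 (by linarith) (fun y hy => hbav.trans (hu _ _ _ hy)) hq.2 hP
  have e : (t₀ - τ') / 10 = (t₀ - τ) / 10 + D / w := by rw [hτ']; field_simp; ring
  rw [e] at hfin
  linarith

end Vale.Agent.P137
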