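import Vale.Agent.P137.Low
import Vale.Agent.P137.PC
import Vale.Agent.P137.Cover

open MeasureTheory Metric Set Filter Topology
open scoped ENNReal NNReal RealInnerProductSpace

noncomputable section

namespace Vale.Agent.P137

variable {E : Type*} [NormedAddCommGroup E] [InnerProductSpace ℝ E] [FiniteDimensional ℝ E]
  [MeasurableSpace E] [BorelSpace E]

namespace SpreadAux

open CoverAux

lemma step [Nontrivial E] {c : ℝ} (hc : 0 < c) : ∃ C : ℝ, 0 ≤ C ∧ ∀ {f u : E → ℝ},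
    ContDiff ℝ 1 f → ∀ {κ ρ ν τ s s₁ : ℝ} {p x₁ x₂ y y₁ : E}, 0 < κ → κ ≤ 1 / 8 → 0 < ρ → 0 < ν →
    CH f u p (10 * ρ) (κ * ρ) (10 * ρ) ≤ ENNReal.ofReal (ν * ρ ^ Module.finrank ℝ E / ρ) →
    Base f u c ρ p x₁ y₁ s₁ → Base f u c ρ p x₂ y s → τ ≤ u x₂ →
    ENNReal.ofReal (c / 2) * volume (ball (0 : E) (ρ / 8)) ≤
      volume ({w | τ < f w} ∩ ball y ((1 - κ) * s)) → τ - u x₁ ≤ C * ν := by
  have v0 : 0 < volume.real (ball (0 : E) 1) := real_ball_pos _ one_pos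
  refine ⟨16 * 4 ^ Module.finrank ℝ E * 64 ^ Module.finrank ℝ E /
    (c ^ 2 * volume.real (ball (0 : E) 1)), by positivity, ?_⟩
  intro f u hf κ ρ ν τ s s₁ p x₁ x₂ y y₁ hκ hκ8 hρ hν hCH h₁ h₂ hτ hvol
  obtain ⟨a1, a2, a3, a4, -, a6⟩ := h₁
  obtain ⟨b1, b2, b3, b4, b5, -⟩ := h₂
  have k1 : 7 * ρ / 8 ≤ (1 - κ) * s := by nlinarith
  have k2 : (1 - κ) * s ≤ s := by nlinarith
  have sub : ball p (13 * ρ / 16) ⊆ ball y ((1 - κ) * s) :=
    ball_subset_ball' (by rw [dist_comm]; linarith)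
  have hsub : ball y ((1 - κ) * s) ∩ {w | u x₁ < f w ∧ f w < τ} ⊆
      ball p (10 * ρ) ∩ Dset f u (κ * ρ) (10 * ρ) := by
    rintro w ⟨hw, h1, h2⟩
    rw [mem_ball] at hw
    refine ⟨?_, fun w' hw' => ?_, x₁, ?_, h1⟩
    · rw [mem_ball]; linarith [dist_triangle w y p]
    · refine (h2.le.trans hτ).trans (b5 w' ?_)
      rw [mem_ball] at hw' ⊢
      nlinarith [dist_triangle w' w y]
    · rw [mem_ball]
      linarith [dist_triangle x₁ y₁ p, dist_triangle_right x₁ w p, dist_triangle w y p]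
  have h := pc hf y ((1 - κ) * s) (u x₁) τ
  have h1 : ENNReal.ofReal (τ - u x₁) * (ENNReal.ofReal (c / 2) * volume (ball (0 : E) (ρ / 8))) *
      (ENNReal.ofReal (c / 2) * volume (ball (0 : E) (ρ / 8))) ≤
      ENNReal.ofReal (4 * ρ) * volume (ball (0 : E) (4 * ρ)) *
        ENNReal.ofReal (ν * ρ ^ Module.finrank ℝ E / ρ) := by
    refine le_trans ?_ (h.trans ?_)
    · gcongr
      · exact a6.trans (measure_mono (inter_subset_inter_right _ sub))
      · exact hvol.trans (measure_mono (inter_subset_inter_left _ fun w (hw : τ < f w) => hw.le))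
    · exact mul_le_mul' (mul_le_mul' (ENNReal.ofReal_le_ofReal (by linarith))
        (measure_mono (ball_subset_ball (by linarith)))) ((lintegral_mono_set hsub).trans hCH)
  rcases le_or_gt (τ - u x₁) 0 with h0 | h0
  · exact h0.trans (by positivity)
  rw [vol_ball_eq_ofReal, vol_ball_eq_ofReal, real_ball _ (by positivity),
    real_ball _ (by positivity : 0 < 4 * ρ)] at h1
  generalize Module.finrank ℝ E = d at *
  generalize volume.real (ball (0 : E) 1) = v at *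
  rw [← ENNReal.ofReal_mul (by positivity), ← ENNReal.ofReal_mul (by positivity),
    ← ENNReal.ofReal_mul (by positivity), ← ENNReal.ofReal_mul (by positivity),
    ← ENNReal.ofReal_mul (by positivity), ENNReal.ofReal_le_ofReal_iff (by positivity)] at h1
  have e1 : (τ - u x₁) * (c / 2 * ((ρ / 8) ^ d * v)) * (c / 2 * ((ρ / 8) ^ d * v)) =
      (τ - u x₁) * (c ^ 2 * v) * (v * (ρ ^ d) ^ 2 / (4 * 64 ^ d)) := by
    rw [show (64 : ℝ) ^ d = 8 ^ d * 8 ^ d by rw [← mul_pow]; norm_num, div_pow]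
    field_simp; ring
  have e2 : 4 * ρ * ((4 * ρ) ^ d * v) * (ν * ρ ^ d / ρ) =
      (16 * 4 ^ d * 64 ^ d * ν) * (v * (ρ ^ d) ^ 2 / (4 * 64 ^ d)) := by
    rw [mul_pow]; field_simp; ring
  rw [e1, e2] at h1
  rw [div_mul_eq_mul_div, le_div_iff₀ (by positivity)]
  exact le_of_mul_le_mul_right h1 (by positivity)

end SpreadAux

open SpreadAux CoverAux

theorem spread [Nontrivial E] : ∃ c κ C : ℝ, 0 < c ∧ c * 4 ^ Module.finrank ℝ E ≤ 1 ∧ 0 < κ ∧
    κ ≤ 1 / 8 ∧ 1 - c / 2 ≤ (1 - κ) ^ Module.finrank ℝ E ∧ 0 ≤ C ∧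
    ∀ (f u : E → ℝ), ContDiff ℝ 1 f → (∀ z r y, y ∈ ball z r → av f z r ≤ u y) →
    ∀ (ρ ν : ℝ) (p : E), 0 < ρ → 0 < ν →
      NB f p (7 * ρ) ≤ ENNReal.ofReal (ν * ρ ^ (2 * Module.finrank ℝ E)) →
      CH f u p (10 * ρ) (κ * ρ) (10 * ρ) ≤ ENNReal.ofReal (ν * ρ ^ Module.finrank ℝ E / ρ) →
      ∀ x₁ x₂, Mem f u c κ ρ p x₁ → Mem f u c κ ρ p x₂ → u x₂ - u x₁ ≤ C * ν := by
  obtain ⟨c₀, κ₀, C₀, hc₀, hκ₀, hC₀, hlow⟩ := low_le (E := E)
  have dpos : 0 < Module.finrank ℝ E := Module.finrank_pos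
  have d0 : (0 : ℝ) < Module.finrank ℝ E := by exact_mod_cast dpos
  set c := min c₀ (4 ^ Module.finrank ℝ E)⁻¹ with hcdef
  have hc : 0 < c := by positivity
  set κ := min κ₀ (min (1 / 8) (c / (2 * Module.finrank ℝ E))) with hκdef
  have hκ : 0 < κ := by positivity
  have hκ8 : κ ≤ 1 / 8 := (min_le_right _ _).trans (min_le_left _ _)
  have hκc : 1 - c / 2 ≤ (1 - κ) ^ Module.finrank ℝ E := by
    have h1 := one_add_mul_le_pow (a := -κ) (by linarith) (Module.finrank ℝ E)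
    have h2 : κ ≤ c / (2 * Module.finrank ℝ E) := (min_le_right _ _).trans (min_le_right _ _)
    rw [le_div_iff₀ (by positivity)] at h2
    rw [sub_eq_add_neg 1 κ]
    linarith
  obtain ⟨C₁, hC₁, hstep⟩ := step (E := E) hc
  refine ⟨c, κ, C₁ + 1 + C₀, hc, ?_, hκ, hκ8, hκc, by positivity, ?_⟩
  · rw [← le_div_iff₀ (by positivity), one_div]; exact min_le_right _ _
  rintro f u hf hu ρ ν p hρ hν hNB hCH x₁ x₂ ⟨y₁, s₁, h₁, -⟩ ⟨y, s, h₂, h | h⟩
  · have := hstep hf hκ hκ8 hρ hν hCH h₁ h₂ le_rfl h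
    nlinarith
  rcases lt_or_ge (u x₂) (u x₁ + C₁ * ν + ν) with h3 | h3
  · nlinarith
  have b1 := h₂.1
  have b2 := h₂.2.1
  have b3 := h₂.2.2.1
  have s0 : 0 < s := by linarith
  rcases lt_or_ge (c * volume.real (ball y s))
    (volume.real ({w | u x₁ + C₁ * ν + ν < f w} ∩ ball y s)) with h4 | h4
  · have h5 := shell (A := {w | u x₁ + C₁ * ν + ν < f w}) (y := y) s0 hκ.le (by linarith) hκc
    have h6 : volume.real (ball (0 : E) (ρ / 8)) ≤ volume.real (ball y s) := by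
      rw [real_ball _ s0, real_ball _ (by positivity)]
      exact mul_le_mul_of_nonneg_right (pow_le_pow_left₀ (by positivity) (by linarith) _)
        measureReal_nonneg
    have := hstep hf hκ hκ8 hρ hν hCH h₁ h₂ h3 (to_enn (by positivity) (by nlinarith))
    linarith
  have sub : ball y (3 * s) ⊆ ball p (7 * ρ) := ball_subset_ball' (by linarith)
  have := hlow f u hf hu y x₂ s _ ν s0 hν h₂.2.2.2.1 h h3 ?_ ?_ ?_
  · linarith
  · rw [vol_ball_eq_ofReal y s, ← ENNReal.ofReal_mul hc₀.le]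
    refine (ENNReal.le_ofReal_iff_toReal_le (vol_inter_ball_ne_top _ _ _) (by positivity)).2
      (h4.trans (mul_le_mul_of_nonneg_right (min_le_left _ _) measureReal_nonneg))
  · refine le_trans ?_ (hNB.trans (ENNReal.ofReal_le_ofReal (by gcongr)))
    exact (lintegral_mono_set sub).trans
      (lintegral_mono fun w => lintegral_mono_set (ball_subset_ball (by linarith)))
  · refine le_trans (lintegral_mono_set ?_) (hCH.trans (ENNReal.ofReal_le_ofReal ?_))
    · rintro w ⟨hw, h5, x, hx, h6⟩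
      refine ⟨ball_subset_ball (by linarith) (sub hw), fun w' hw' => h5 w' ?_, x,
        ball_subset_ball (by linarith) hx, h6⟩
      exact ball_subset_ball (mul_le_mul (min_le_left _ _) b1 hρ.le hκ₀.le) hw'
    · obtain ⟨k, hk⟩ := Nat.exists_eq_succ_of_ne_zero dpos.ne'
      rw [hk, pow_succ, pow_succ, ← mul_assoc, ← mul_assoc, mul_div_cancel_right₀ _ hρ.ne',
        mul_div_cancel_right₀ _ s0.ne']
      gcongr

end Vale.Agent.P137
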