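import Vale.Agent.P137.Star
import Vale.Agent.P137.Budget
import Vale.Agent.P137.Lattice
import Vale.Agent.P137.Opt
import Vale.Agent.P137.Cover
import Vale.Agent.P137.Spread

open MeasureTheory Metric Set Filter Topology
open scoped ENNReal NNReal RealInnerProductSpace

noncomputable section

namespace Vale.Agent.P137

variable {E : Type*} [NormedAddCommGroup E] [InnerProductSpace ℝ E] [FiniteDimensional ℝ E]
  [MeasurableSpace E] [BorelSpace E]

namespace MainAux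

/-- Sums of integrals over boundedly overlapping sets. -/
lemma tsum_overlap {ι : Type*} [Countable ι] {B : ι → Set E} (hB : ∀ i, MeasurableSet (B i))
    {N : ℝ≥0∞} (hN : ∀ y, ∑' i, (B i).indicator (1 : E → ℝ≥0∞) y ≤ N) {F : E → ℝ≥0∞}
    (hF : Measurable F) (T : Set E) : ∑' i, ∫⁻ y in B i ∩ T, F y ≤ N * ∫⁻ y in T, F y := by
  calc ∑' i, ∫⁻ y in B i ∩ T, F y
      = ∑' i, ∫⁻ y in T, (B i).indicator (1 : E → ℝ≥0∞) y * F y := by
        congr 1; funext i
        rw [← Measure.restrict_restrict (hB i), ← lintegral_indicator (hB i)]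
        congr 1; funext y
        by_cases h : y ∈ B i <;> simp [h]
    _ = ∫⁻ y in T, ∑' i, (B i).indicator (1 : E → ℝ≥0∞) y * F y := by
        rw [lintegral_tsum]
        exact fun i => ((measurable_one.indicator (hB i)).mul hF).aemeasurable
    _ ≤ ∫⁻ y in T, N * F y := by
        refine lintegral_mono fun y => ?_
        rw [ENNReal.tsum_mul_right]
        exact mul_le_mul_left (hN y) _
    _ = _ := lintegral_const_mul _ hF

lemma measurable_nb {f : E → ℝ} (hf : Continuous f) (R : ℝ) :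
    Measurable fun y => ∫⁻ h in ball (0 : E) R, nmf f y h := by
  refine Measurable.lintegral_prod_right' (f := fun q : E × E => nmf f q.1 q.2) ?_
  unfold nmf nm
  exact (Continuous.measurable (by fun_prop)).ennreal_ofReal

lemma nb_ne_top {f : E → ℝ} (hf : Nice f) (z : E) (R : ℝ) : NB f z R ≠ ⊤ := by
  obtain ⟨M, hM⟩ := hf.bdd
  have h : ∀ y h, nmf f y h ≤ ENNReal.ofReal M := fun y h => by
    refine ENNReal.ofReal_le_ofReal ?_
    have h1 : |f (y - h) - f y| ≤ M := abs_sub_le_iff.2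
      ⟨by linarith [hM (y - h), hf.nonneg y], by linarith [hM y, hf.nonneg (y - h)]⟩
    have h2 : |f y - f (y + h)| ≤ M := abs_sub_le_iff.2
      ⟨by linarith [hM y, hf.nonneg (y + h)], by linarith [hM (y + h), hf.nonneg y]⟩
    unfold nm
    linarith [abs_nonneg (f (y - h) - f (y + h))]
  refine ne_top_of_le_ne_top ?_ (lintegral_mono fun y => lintegral_mono fun h' => h y h')
  simp only [setLIntegral_const]
  exact ENNReal.mul_ne_top (ENNReal.mul_ne_top ENNReal.ofReal_ne_top measure_ball_lt_top.ne)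
    measure_ball_lt_top.ne

lemma ch_ne_top {f : E → ℝ} (hf : Nice f) (u : E → ℝ) (p : E) (R a b : ℝ) :
    CH f u p R a b ≠ ⊤ :=
  ((setLIntegral_le_lintegral _ _).trans_lt hf.grad).ne

lemma mem_ball_of_mem {f u : E → ℝ} {c κ ρ : ℝ} {p x : E} (h : Mem f u c κ ρ p x) :
    dist x p < 3 * ρ := by
  obtain ⟨y, s, ⟨h1, h2, h3, h4, -⟩, -⟩ := h
  have := dist_triangle x y p
  have := dist_nonneg (x := y) (y := p)
  linarith

lemma exists_dyadic {δ s : ℝ} (hs : 0 < s) (hsδ : s < δ) :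
    ∃ n : ℕ, δ / 2 ^ n ≤ s ∧ s < 2 * (δ / 2 ^ n) := by
  have hδ : 0 < δ := hs.trans hsδ
  obtain ⟨n, h1, h2⟩ := exists_nat_pow_near (x := δ / s) (y := 2)
    ((one_le_div hs).2 hsδ.le) one_lt_two
  rcases eq_or_lt_of_le h1 with h | h
  · refine ⟨n, ?_, ?_⟩
    · rw [h]; field_simp; rfl
    · rw [h]; field_simp; linarith
  · refine ⟨n + 1, ?_, ?_⟩
    · rw [div_lt_iff₀ hs] at h2
      rw [div_le_iff₀ (by positivity)]; linarith
    · rw [lt_div_iff₀ hs] at h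
      rw [pow_succ, ← mul_div_assoc, lt_div_iff₀ (by positivity)]; nlinarith

/-- The cost of one class. -/
lemma cost [Nontrivial E] : ∃ c κ C : ℝ, 0 < c ∧ c * 4 ^ Module.finrank ℝ E ≤ 1 ∧ 0 < κ ∧
    κ ≤ 1 / 8 ∧ 1 - c / 2 ≤ (1 - κ) ^ Module.finrank ℝ E ∧
    ∀ (f : E → ℝ), Nice f → ∀ (ρ : ℝ) (p : E), 0 < ρ →
      ∫⁻ x in {x | DifferentiableAt ℝ (U f) x ∧ Mem f (U f) c κ ρ p x}, ‖fderiv ℝ (U f) x‖ₑ ≤
        ENNReal.ofReal C * (ENNReal.ofReal (1 / ρ ^ (Module.finrank ℝ E + 1)) * NB f p (7 * ρ) +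
          CH f (U f) p (10 * ρ) (κ * ρ) (10 * ρ)) := by
  obtain ⟨c, κ, C, hc, hc4, hκ, hκ8, hκc, hC, hs⟩ := spread (E := E)
  obtain ⟨C', hC', hstar⟩ := star_le (E := E)
  refine ⟨c, κ, C' * C, hc, hc4, hκ, hκ8, hκc, fun f hf ρ p hρ => ?_⟩
  set M := {x | DifferentiableAt ℝ (U f) x ∧ Mem f (U f) c κ ρ p x}
  rcases M.eq_empty_or_nonempty with hM | ⟨x₁, hx₁⟩
  · simp [hM]
  set d := Module.finrank ℝ E
  set A := (NB f p (7 * ρ)).toReal with hA
  set B := (CH f (U f) p (10 * ρ) (κ * ρ) (10 * ρ)).toReal with hB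
  have A0 : 0 ≤ A := ENNReal.toReal_nonneg
  have B0 : 0 ≤ B := ENNReal.toReal_nonneg
  have eA : NB f p (7 * ρ) = ENNReal.ofReal A := (ENNReal.ofReal_toReal (nb_ne_top hf _ _)).symm
  have eB : CH f (U f) p (10 * ρ) (κ * ρ) (10 * ρ) = ENNReal.ofReal B :=
    (ENNReal.ofReal_toReal (ch_ne_top hf _ _ _ _ _)).symm
  set ν := A / ρ ^ (2 * d) + B * ρ / ρ ^ d with hν
  have ν0 : 0 ≤ ν := by positivity
  have key : ∀ x ∈ M, ∀ x' ∈ M, U f x' - U f x ≤ C * ν := by
    intro x hx x' hx'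
    refine le_of_forall_pos_le_add fun ε hε => ?_
    have := hs f (U f) hf.smooth (fun z r y hy => av_le_U hf hy) ρ (ν + ε / (C + 1)) p hρ
      (by positivity) ?_ ?_ x x' hx.2 hx'.2
    · have h1 : C * (ε / (C + 1)) ≤ ε := by
        rw [← mul_div_assoc, div_le_iff₀ (by positivity)]; nlinarith
      linarith
    · rw [eA]
      refine ENNReal.ofReal_le_ofReal ?_
      rw [← div_le_iff₀ (by positivity)]
      have : 0 ≤ B * ρ / ρ ^ d := by positivity
      have : 0 ≤ ε / (C + 1) := by positivity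
      linarith
    · rw [eB]
      refine ENNReal.ofReal_le_ofReal ?_
      rw [le_div_iff₀ hρ, ← div_le_iff₀ (by positivity)]
      have : 0 ≤ A / ρ ^ (2 * d) := by positivity
      have : 0 ≤ ε / (C + 1) := by positivity
      linarith
  set a := sInf (U f '' M)
  have hbdd : BddBelow (U f '' M) := ⟨U f x₁ - C * ν, by
    rintro _ ⟨x, hx, rfl⟩
    linarith [key x hx x₁ hx₁]⟩
  have hsub : M ⊆ StarSet (U f) p ρ a (a + C * ν) := fun x hx => by
    refine mem_starSet hρ hx.2 hx.1 ⟨csInf_le hbdd ⟨x, hx, rfl⟩, ?_⟩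
    have : U f x - C * ν ≤ a := le_csInf ⟨_, x₁, hx₁, rfl⟩ (by
      rintro _ ⟨x', hx', rfl⟩
      linarith [key x' hx' x hx])
    linarith
  obtain ⟨L, hL⟩ := U_lipschitz hf
  refine (lintegral_mono_set hsub).trans ((hstar (U f) hL.continuous p ρ a (a + C * ν) hρ
    (by linarith [mul_nonneg hC ν0])).trans (le_of_eq ?_))
  rw [eA, eB, ← ENNReal.ofReal_mul (by positivity), ← ENNReal.ofReal_add (by positivity) B0,
    ← ENNReal.ofReal_mul (by positivity)]
  congr 1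
  rw [hν]
  field_simp
  ring

end MainAux

open MainAux

theorem main_estimate [Nontrivial E] : ∃ C : ℝ≥0, ∀ (f : E → ℝ), Nice f →
    ∀ (K : Set E), MeasurableSet K → ∀ δ : ℝ, 0 < δ →
      ∫⁻ x in K, ‖fderiv ℝ (U f) x‖ₑ ≤ C * (∫⁻ y in thickening (40 * δ) K, ‖fderiv ℝ f y‖ₑ) +
        volume K * ((∫⁻ y, ‖fderiv ℝ f y‖ₑ) / volume (ball (0 : E) δ)) := by
  obtain ⟨c, κ, C, hc, hc4, hκ, hκ8, hκc, hcost⟩ := cost (E := E)
  obtain ⟨Λ, hΛc, hΛ, N, hN⟩ := exists_lattice (E := E)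
  obtain ⟨N', hN'⟩ := dset_overlap (E := E) hκ
  obtain ⟨Cb, hb⟩ := budget_le (E := E)
  haveI := hΛc.to_subtype
  refine ⟨1 + C.toNNReal * (N * Cb + N * N'), fun f hf K hK δ hδ => ?_⟩
  obtain ⟨L, hL⟩ := U_lipschitz hf
  have hfc := hf.smooth.continuous
  have hg : Measurable fun y => ‖fderiv ℝ f y‖ₑ := (measurable_fderiv ℝ f).enorm
  set d := Module.finrank ℝ E
  set G := (∫⁻ y, ‖fderiv ℝ f y‖ₑ) / volume (ball (0 : E) δ) with hG
  set I := ∫⁻ y in thickening (40 * δ) K, ‖fderiv ℝ f y‖ₑ with hI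
  set ρ : ℕ → ℝ := fun n => δ / 2 ^ n with hρ
  have ρ0 : ∀ n, 0 < ρ n := fun n => by positivity
  have ρδ : ∀ n, ρ n ≤ δ := fun n => div_le_self hδ.le (one_le_pow₀ one_le_two)
  set M : ℕ → Λ → Set E := fun n p =>
    K ∩ {x | DifferentiableAt ℝ (U f) x ∧ Mem f (U f) c κ (ρ n) (ρ n • (p : E)) x} with hM
  set K₁ := {x ∈ K | ‖fderiv ℝ (U f) x‖ₑ ≤ ‖fderiv ℝ f x‖ₑ + G}
  have hcov : K ≤ᵐ[volume] (K₁ ∪ ⋃ n, ⋃ p, M n p : Set E) := by
    filter_upwards [hL.ae_differentiableAt] with x hd hx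
    rcases (le_U hf x).eq_or_lt with h | h
    · exact Or.inl ⟨hx, by rw [fderiv_U_of_eq hf h.symm hd]; exact le_self_add⟩
    obtain ⟨z, r, hr, hxz, hopt⟩ := exists_opt hf h
    rcases hxz.lt_or_eq with h1 | h1
    · exact Or.inl ⟨hx, by rw [fderiv_U_eq_zero hf h1 hopt, ← ofReal_norm_eq_enorm, norm_zero]; simp⟩
    rcases le_or_gt δ r with h2 | h2
    · refine Or.inl ⟨hx, (fderiv_U_le hf hr hxz hopt).trans (le_add_left ?_)⟩
      exact ENNReal.div_le_div_left (measure_mono (ball_subset_ball h2)) _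
    obtain ⟨y, s, hs, hsr, hmem⟩ := cover hfc (fun z r y hy => av_le_U hf hy) hc hc4 hκ hκ8 hκc
      hr h1 hopt h
    obtain ⟨n, h3, h4⟩ := exists_dyadic hs (hsr.trans_lt h2)
    obtain ⟨p, hp, hyp⟩ := hΛ ((ρ n)⁻¹ • y)
    refine Or.inr (mem_iUnion.2 ⟨n, mem_iUnion.2 ⟨⟨p, hp⟩, hx, hd, hmem _ _ h3 h4 ?_⟩⟩)
    have : dist y (ρ n • p) = ρ n * dist ((ρ n)⁻¹ • y) p := by
      rw [← abs_of_pos (ρ0 n), ← Real.norm_eq_abs, ← dist_smul₀, Real.norm_eq_abs,
        abs_of_pos (ρ0 n), smul_inv_smul₀ (ρ0 n).ne']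
    rw [this]
    have := ρ0 n
    nlinarith
  have hov : ∀ n y, ∑' p : Λ, (ball (ρ n • (p : E)) (10 * ρ n)).indicator (1 : E → ℝ≥0∞) y ≤ N := by
    intro n y
    refine le_of_eq_of_le ?_ (hN ((ρ n)⁻¹ • y))
    congr 1; funext p
    have : dist y (ρ n • (p : E)) = ρ n * dist ((ρ n)⁻¹ • y) p := by
      rw [← abs_of_pos (ρ0 n), ← Real.norm_eq_abs, ← dist_smul₀, Real.norm_eq_abs,
        abs_of_pos (ρ0 n), smul_inv_smul₀ (ρ0 n).ne']
    have h2 : y ∈ ball (ρ n • (p : E)) (10 * ρ n) ↔ (ρ n)⁻¹ • y ∈ ball (p : E) 10 := by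
      rw [mem_ball, mem_ball, this, mul_comm 10, mul_lt_mul_iff_right₀ (ρ0 n)]
    by_cases h : (ρ n)⁻¹ • y ∈ ball (p : E) 10
    · rw [indicator_of_mem h, indicator_of_mem (h2.2 h)]; rfl
    · rw [indicator_of_notMem h, indicator_of_notMem (mt h2.1 h)]
  have hone : ∀ n (p : Λ), ∫⁻ x in M n p, ‖fderiv ℝ (U f) x‖ₑ ≤ ENNReal.ofReal C *
      (ENNReal.ofReal (1 / ρ n ^ (d + 1)) *
        (∫⁻ y in ball (ρ n • (p : E)) (10 * ρ n) ∩ thickening (10 * δ) K,
          ∫⁻ h in ball (0 : E) (7 * ρ n), nmf f y h) +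
        ∫⁻ y in ball (ρ n • (p : E)) (10 * ρ n) ∩
          (Dset f (U f) (κ * ρ n) (10 * ρ n) ∩ thickening (40 * δ) K), ‖fderiv ℝ f y‖ₑ) := by
    intro n p
    rcases (M n p).eq_empty_or_nonempty with h | ⟨x, hxK, -, hx⟩
    · simp [h]
    have h1 := mem_ball_of_mem hx
    have h2 := ρ0 n
    have h3 := ρδ n
    have hth : ∀ {R t : ℝ}, R * ρ n + 3 * ρ n ≤ t →
        ball (ρ n • (p : E)) (R * ρ n) ⊆ thickening t K := fun {R t} ht y hy => by
      refine mem_thickening_iff.2 ⟨x, hxK, ?_⟩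
      rw [mem_ball] at hy
      have := dist_triangle_right y x (ρ n • (p : E))
      linarith
    refine (lintegral_mono_set inter_subset_right).trans ((hcost f hf _ _ h2).trans ?_)
    gcongr
    · exact lintegral_mono_set (subset_inter (ball_subset_ball (by linarith)) (hth (by linarith)))
    · exact lintegral_mono_set fun y hy => ⟨hy.1, hy.2, hth (by linarith) hy.1⟩
  have hsum : ∑' n, ∑' p : Λ, ∫⁻ x in M n p, ‖fderiv ℝ (U f) x‖ₑ ≤
      ENNReal.ofReal C * (N * Cb + N * N') * I := by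
    calc _ ≤ ∑' n, ENNReal.ofReal C * (N * (ENNReal.ofReal (1 / ρ n ^ (d + 1)) *
          ∫⁻ y in thickening (10 * δ) K, ∫⁻ h in ball (0 : E) (7 * ρ n), nmf f y h) +
          N * ∫⁻ y in Dset f (U f) (κ * ρ n) (10 * ρ n) ∩ thickening (40 * δ) K,
            ‖fderiv ℝ f y‖ₑ) := by
          refine ENNReal.tsum_le_tsum fun n => (ENNReal.tsum_le_tsum (hone n)).trans ?_
          rw [ENNReal.tsum_mul_left, ENNReal.tsum_add, ENNReal.tsum_mul_left, mul_left_comm (N : ℝ≥0∞)]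
          gcongr
          · exact tsum_overlap (fun _ => measurableSet_ball) (hov n) (measurable_nb hfc _) _
          · exact tsum_overlap (fun _ => measurableSet_ball) (hov n) hg _
      _ ≤ ENNReal.ofReal C * (N * (Cb * I) + N * (N' * I)) := by
          rw [ENNReal.tsum_mul_left, ENNReal.tsum_add, ENNReal.tsum_mul_left, ENNReal.tsum_mul_left]
          gcongr
          · exact hb f hf.smooth K δ hδ
          · exact tsum_overlap (fun n => measurableSet_dset hfc hL.continuous _ _)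
              (hN' f (U f) δ hδ) hg _
      _ = _ := by ring
  have h1 : ∫⁻ x in K₁, ‖fderiv ℝ (U f) x‖ₑ ≤ I + volume K * G := by
    calc _ ≤ ∫⁻ x in K₁, (‖fderiv ℝ f x‖ₑ + G) :=
          setLIntegral_mono (hg.add_const _) fun x hx => hx.2
      _ ≤ ∫⁻ x in K, (‖fderiv ℝ f x‖ₑ + G) := lintegral_mono_set fun x hx => hx.1
      _ = (∫⁻ x in K, ‖fderiv ℝ f x‖ₑ) + volume K * G := by
          rw [lintegral_add_left hg, setLIntegral_const, mul_comm]
      _ ≤ _ := by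
          gcongr
          exact lintegral_mono_set (self_subset_thickening (by positivity) K)
  calc ∫⁻ x in K, ‖fderiv ℝ (U f) x‖ₑ
      ≤ ∫⁻ x in K₁ ∪ ⋃ n, ⋃ p, M n p, ‖fderiv ℝ (U f) x‖ₑ := lintegral_mono_set' hcov
    _ ≤ (∫⁻ x in K₁, ‖fderiv ℝ (U f) x‖ₑ) + ∑' n, ∑' p : Λ, ∫⁻ x in M n p, ‖fderiv ℝ (U f) x‖ₑ := by
        refine (lintegral_union_le _ _ _).trans (add_le_add le_rfl ?_)
        exact (lintegral_iUnion_le _ _).trans
          (ENNReal.tsum_le_tsum fun n => lintegral_iUnion_le _ _)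
    _ ≤ (I + volume K * G) + ENNReal.ofReal C * (N * Cb + N * N') * I := add_le_add h1 hsum
    _ = _ := by
        simp only [ENNReal.ofReal, ENNReal.coe_add, ENNReal.coe_mul, ENNReal.coe_one,
          ENNReal.coe_natCast]
        ring

end Vale.Agent.P137
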