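import Vale.Agent.P137.PC

open MeasureTheory Metric Set Filter Topology
open scoped ENNReal NNReal RealInnerProductSpace Convolution

noncomputable section

namespace Vale.Agent.P137

variable {E : Type*} [NormedAddCommGroup E] [InnerProductSpace ℝ E] [FiniteDimensional ℝ E]
  [MeasurableSpace E] [BorelSpace E]

theorem moll_eq (n : ℕ) (f : E → ℝ) :
    moll n f = (bump (E := E) n).normed volume ⋆[ContinuousLinearMap.lsmul ℝ ℝ, volume] f := rfl

theorem moll_contDiff {f : E → ℝ} (hf : Integrable f) (n : ℕ) : ContDiff ℝ 1 (moll n f) := by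
  rw [moll_eq]
  exact (bump (E := E) n).hasCompactSupport_normed.contDiff_convolution_left (n := 1) _
    (bump (E := E) n).contDiff_normed hf.locallyIntegrable

theorem moll_integrable {f : E → ℝ} (hf : Integrable f) (n : ℕ) : Integrable (moll n f) := by
  rw [moll_eq]
  exact Integrable.integrable_convolution _ (bump (E := E) n).integrable_normed hf

theorem lintegral_bump (n : ℕ) :
    ∫⁻ y, ENNReal.ofReal ((bump (E := E) n).normed volume y) = 1 := by
  rw [← ofReal_integral_eq_lintegral_ofReal (bump (E := E) n).integrable_normed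
    (Eventually.of_forall (bump (E := E) n).nonneg_normed), ContDiffBump.integral_normed,
    ENNReal.ofReal_one]

theorem measurable_bump (n : ℕ) :
    Measurable fun y => ENNReal.ofReal ((bump (E := E) n).normed volume y) :=
  (bump (E := E) n).continuous_normed.measurable.ennreal_ofReal

theorem norm_lt_of_bump_ne {n : ℕ} {y : E} (hy : (bump (E := E) n).normed volume y ≠ 0) :
    ‖y‖ < 1 / ((n : ℝ) + 1) := by
  have : y ∈ Function.support ((bump (E := E) n).normed volume) := hy
  rw [ContDiffBump.support_normed_eq, mem_ball_zero_iff] at this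
  exact this

theorem aemeasurable_conv (n : ℕ) {g : E → ℝ≥0∞} (hg : AEMeasurable g) :
    AEMeasurable (Function.uncurry fun x y =>
      ENNReal.ofReal ((bump (E := E) n).normed volume y) * g (x - y))
      ((volume : Measure E).prod volume) :=
  ((measurable_bump n).comp measurable_snd).aemeasurable.mul
    (hg.comp_quasiMeasurePreserving (quasiMeasurePreserving_sub volume volume))

/-- Convolution with the mollifier preserves the integral. -/
theorem lintegral_conv (n : ℕ) {g : E → ℝ≥0∞} (hg : AEMeasurable g) :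
    ∫⁻ x, ∫⁻ y, ENNReal.ofReal ((bump (E := E) n).normed volume y) * g (x - y) = ∫⁻ x, g x := by
  rw [lintegral_lintegral_swap (aemeasurable_conv n hg)]
  have : ∀ y : E, ∫⁻ x, ENNReal.ofReal ((bump (E := E) n).normed volume y) * g (x - y) =
      ENNReal.ofReal ((bump (E := E) n).normed volume y) * ∫⁻ x, g x := fun y => by
    rw [lintegral_const_mul' _ _ ENNReal.ofReal_ne_top, lintegral_sub_right_eq_self]
  simp_rw [this]
  rw [lintegral_mul_const _ (measurable_bump n), lintegral_bump, one_mul]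

theorem setLIntegral_conv_le (n : ℕ) {g : E → ℝ≥0∞} (hg : AEMeasurable g) {S : Set E}
    (hS : MeasurableSet S) :
    ∫⁻ x in S, ∫⁻ y, ENNReal.ofReal ((bump (E := E) n).normed volume y) * g (x - y) ≤
      ∫⁻ x in thickening (1 / ((n : ℝ) + 1)) S, g x := by
  have hT : MeasurableSet (thickening (1 / ((n : ℝ) + 1)) S) := isOpen_thickening.measurableSet
  rw [← lintegral_indicator hT, ← lintegral_conv n (hg.indicator hT)]
  refine le_trans (setLIntegral_mono' hS fun x hx => lintegral_mono fun y => ?_)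
    (setLIntegral_le_lintegral _ _)
  by_cases hy : (bump (E := E) n).normed volume y = 0
  · simp [hy]
  · have : x - y ∈ thickening (1 / ((n : ℝ) + 1)) S := by
      rw [mem_thickening_iff]
      exact ⟨x, hx, by simpa [dist_eq_norm] using norm_lt_of_bump_ne hy⟩
    rw [indicator_of_mem this]

theorem conv_le_const (n : ℕ) : ∃ C : ℝ≥0, ∀ (g : E → ℝ≥0∞) (x : E),
    ∫⁻ y, ENNReal.ofReal ((bump (E := E) n).normed volume y) * g (x - y) ≤ C * ∫⁻ y, g y := by
  refine ⟨Real.toNNReal (1 / (volume : Measure E).real (closedBall 0 (bump (E := E) n).rIn)),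
    fun g x => ?_⟩
  rw [← lintegral_sub_left_eq_self g x, ← lintegral_const_mul' _ _ ENNReal.coe_ne_top]
  refine lintegral_mono fun y => ?_
  exact mul_le_mul_left (ENNReal.ofReal_le_ofReal
    ((bump (E := E) n).normed_le_div_measure_closedBall_rIn volume y)) _

theorem enorm_moll_le (n : ℕ) (f : E → ℝ) (x : E) :
    ‖moll n f x‖ₑ ≤ ∫⁻ y, ENNReal.ofReal ((bump (E := E) n).normed volume y) * ‖f (x - y)‖ₑ := by
  refine (enorm_integral_le_lintegral_enorm _).trans (le_of_eq (lintegral_congr fun y => ?_))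
  rw [enorm_mul, Real.enorm_eq_ofReal ((bump (E := E) n).nonneg_normed y)]

theorem fderiv_moll {f : E → ℝ} {G : E → E} (hf : Integrable f) (hG : Integrable G)
    (hw : IsWeakGrad f G) (n : ℕ) (x v : E) :
    fderiv ℝ (moll n f) x v = ⟪∫ y, (bump (E := E) n).normed volume y • G (x - y), v⟫ := by
  set η := (bump (E := E) n).normed volume with hη
  have hc : HasCompactSupport η := (bump (E := E) n).hasCompactSupport_normed
  have hs : ContDiff ℝ (⊤ : ℕ∞) η := (bump (E := E) n).contDiff_normed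
  have hs1 : ContDiff ℝ 1 η := hs.of_le (by exact_mod_cast le_top)
  have h1 : moll n f = f ⋆[(ContinuousLinearMap.lsmul ℝ ℝ).flip, volume] η := by
    rw [convolution_flip]; rfl
  have h2 := (hc.hasFDerivAt_convolution_right (ContinuousLinearMap.lsmul ℝ ℝ).flip
    hf.locallyIntegrable hs1 x).fderiv
  rw [h1, h2, convolution_precompR_apply _ hf.locallyIntegrable (hc.fderiv ℝ)
    (hs1.continuous_fderiv one_ne_zero), convolution_def]
  have hφs : ContDiff ℝ (⊤ : ℕ∞) fun t => η (x - t) := hs.comp (contDiff_const.sub contDiff_id)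
  have hφc : HasCompactSupport fun t => η (x - t) :=
    hc.comp_homeomorph (Homeomorph.subLeft x)
  have h3 := hw _ hφs hφc v
  have h4 : ∀ t, fderiv ℝ (fun t => η (x - t)) t v = -fderiv ℝ η (x - t) v := fun t => by
    have ha : HasFDerivAt (fun t : E => x - t) (-ContinuousLinearMap.id ℝ E) t :=
      (hasFDerivAt_id t).const_sub x
    have hb := ((hs1.differentiable one_ne_zero (x - t)).hasFDerivAt.comp t ha).fderiv
    have hc' : (fun t => η (x - t)) = η ∘ fun t => x - t := rfl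
    rw [hc', hb]
    simp
  simp_rw [h4, mul_neg, integral_neg, neg_inj] at h3
  have h5 : Integrable fun y => η y • G (x - y) :=
    (hc.convolutionExists_left (ContinuousLinearMap.lsmul ℝ ℝ) hs.continuous
      hG.locallyIntegrable x).integrable
  rw [real_inner_comm, ← integral_inner h5]
  simp only [ContinuousLinearMap.flip_apply, ContinuousLinearMap.lsmul_apply, smul_eq_mul]
  have h6 : ∫ t, fderiv ℝ η (x - t) v * f t = ∫ t, f t * fderiv ℝ η (x - t) v :=
    integral_congr_ae (Eventually.of_forall fun t => mul_comm _ _)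
  rw [h6, h3, ← integral_sub_left_eq_self _ volume x]
  refine integral_congr_ae (Eventually.of_forall fun t => ?_)
  simp only [sub_sub_cancel, inner_smul_right]
  rw [real_inner_comm, mul_comm]

theorem enorm_fderiv_moll_le {f : E → ℝ} {G : E → E} (hf : Integrable f) (hG : Integrable G)
    (hw : IsWeakGrad f G) (n : ℕ) (x : E) :
    ‖fderiv ℝ (moll n f) x‖ₑ ≤
      ∫⁻ y, ENNReal.ofReal ((bump (E := E) n).normed volume y) * ‖G (x - y)‖ₑ := by
  have h1 : ‖fderiv ℝ (moll n f) x‖ ≤ ‖∫ y, (bump (E := E) n).normed volume y • G (x - y)‖ :=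
    ContinuousLinearMap.opNorm_le_bound _ (norm_nonneg _) fun v => by
      rw [fderiv_moll hf hG hw]
      exact norm_inner_le_norm _ _
  refine (enorm_le_iff_norm_le.2 h1).trans
    ((enorm_integral_le_lintegral_enorm _).trans (le_of_eq (lintegral_congr fun y => ?_)))
  rw [enorm_smul, Real.enorm_eq_ofReal ((bump (E := E) n).nonneg_normed y)]

theorem sqrt_sub_nonneg (ε t : ℝ) : 0 ≤ Real.sqrt (t ^ 2 + ε ^ 2) - ε := by
  have : ε ≤ Real.sqrt (t ^ 2 + ε ^ 2) := Real.le_sqrt_of_sq_le (by nlinarith [sq_nonneg t])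
  linarith

theorem sqrt_sub_le {ε : ℝ} (hε : 0 ≤ ε) (t : ℝ) : Real.sqrt (t ^ 2 + ε ^ 2) - ε ≤ |t| := by
  have : Real.sqrt (t ^ 2 + ε ^ 2) ≤ |t| + ε :=
    Real.sqrt_le_iff.2 ⟨by positivity, by nlinarith [sq_abs t, abs_nonneg t]⟩
  linarith

theorem apx_nonneg (n : ℕ) (f : E → ℝ) (x : E) : 0 ≤ apx n f x :=
  sqrt_sub_nonneg _ _

theorem norm_apx_le (n : ℕ) (f : E → ℝ) (x : E) : ‖apx n f x‖ ≤ ‖moll n f x‖ := by
  rw [Real.norm_of_nonneg (apx_nonneg n f x)]
  exact sqrt_sub_le (by positivity) _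

theorem apx_contDiff {f : E → ℝ} (hf : Integrable f) (n : ℕ) : ContDiff ℝ 1 (apx n f) := by
  refine ContDiff.sub (ContDiff.sqrt (((moll_contDiff hf n).pow 2).add contDiff_const)
    fun x => ?_) contDiff_const
  positivity

theorem norm_fderiv_apx_le {f : E → ℝ} (hf : Integrable f) (n : ℕ) (x : E) :
    ‖fderiv ℝ (apx n f) x‖ ≤ ‖fderiv ℝ (moll n f) x‖ := by
  set ε : ℝ := 1 / ((n : ℝ) + 1) with hε
  have hε0 : 0 < ε := by positivity
  set t := moll n f x
  have hp : 0 < t ^ 2 + ε ^ 2 := by positivity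
  have h1 : HasDerivAt (fun s : ℝ => Real.sqrt (s ^ 2 + ε ^ 2) - ε)
      (2 * t / (2 * Real.sqrt (t ^ 2 + ε ^ 2))) t := by
    have := (((hasDerivAt_pow 2 t).add_const (ε ^ 2)).sqrt hp.ne').sub_const ε
    simpa using this
  have h2 := (h1.comp_hasFDerivAt x
    ((moll_contDiff hf n).differentiable one_ne_zero x).hasFDerivAt).fderiv
  have h3 : apx n f = (fun s : ℝ => Real.sqrt (s ^ 2 + ε ^ 2) - ε) ∘ moll n f := rfl
  rw [h3, h2, norm_smul]
  refine mul_le_of_le_one_left (norm_nonneg _) ?_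
  have h4 : |t| ≤ Real.sqrt (t ^ 2 + ε ^ 2) :=
    Real.le_sqrt_of_sq_le (by rw [sq_abs]; nlinarith [sq_nonneg ε])
  have h5 : 0 < Real.sqrt (t ^ 2 + ε ^ 2) := Real.sqrt_pos.2 hp
  rw [mul_div_mul_left _ _ two_ne_zero, Real.norm_eq_abs, abs_div, abs_of_pos h5, div_le_one h5]
  exact h4

theorem enorm_fderiv_apx_le {f : E → ℝ} {G : E → E} (hf : Integrable f) (hG : Integrable G)
    (hw : IsWeakGrad f G) (n : ℕ) (x : E) :
    ‖fderiv ℝ (apx n f) x‖ₑ ≤
      ∫⁻ y, ENNReal.ofReal ((bump (E := E) n).normed volume y) * ‖G (x - y)‖ₑ :=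
  (enorm_le_iff_norm_le.2 (norm_fderiv_apx_le hf n x)).trans (enorm_fderiv_moll_le hf hG hw n x)

theorem apx_le {f : E → ℝ} (hf : Integrable f) (n : ℕ) (x : E) :
    ‖apx n f x‖ₑ ≤ ∫⁻ y, ENNReal.ofReal ((bump (E := E) n).normed volume y) * ‖f (x - y)‖ₑ := by
  have _ := hf
  exact (enorm_le_iff_norm_le.2 (norm_apx_le n f x)).trans (enorm_moll_le n f x)

theorem apx_nice {f : E → ℝ} {G : E → E} (hf : Integrable f) (hG : Integrable G)
    (hw : IsWeakGrad f G) (n : ℕ) : Nice (apx n f) := by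
  obtain ⟨C, hC⟩ := conv_le_const (E := E) n
  have hd := apx_contDiff hf n
  refine ⟨hd, apx_nonneg n f, ?_, ?_, ?_, ?_⟩
  · exact (moll_integrable hf n).mono hd.continuous.aestronglyMeasurable
      (Eventually.of_forall (norm_apx_le n f))
  · have hfin : (C : ℝ≥0∞) * ∫⁻ y, ‖f y‖ₑ ≠ ⊤ := ENNReal.mul_ne_top ENNReal.coe_ne_top hf.2.ne
    refine ⟨((C : ℝ≥0∞) * ∫⁻ y, ‖f y‖ₑ).toReal, fun x => ?_⟩
    have := (apx_le hf n x).trans (hC (fun y => ‖f y‖ₑ) x)
    rw [Real.enorm_eq_ofReal (apx_nonneg n f x)] at this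
    exact (ENNReal.ofReal_le_iff_le_toReal hfin).1 this
  · have hfin : (C : ℝ≥0∞) * ∫⁻ y, ‖G y‖ₑ ≠ ⊤ := ENNReal.mul_ne_top ENNReal.coe_ne_top hG.2.ne
    refine ⟨((C : ℝ≥0∞) * ∫⁻ y, ‖G y‖ₑ).toNNReal,
      lipschitzWith_of_nnnorm_fderiv_le (hd.differentiable one_ne_zero) fun x => ?_⟩
    have := (enorm_fderiv_apx_le hf hG hw n x).trans (hC (fun y => ‖G y‖ₑ) x)
    rw [← ENNReal.coe_le_coe, ENNReal.coe_toNNReal hfin]
    exact this
  · refine (lintegral_mono (enorm_fderiv_apx_le hf hG hw n)).trans_lt ?_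
    rw [lintegral_conv n hG.1.enorm]
    exact hG.2

theorem apx_grad_le {f : E → ℝ} {G : E → E} (hf : Integrable f) (hG : Integrable G)
    (hw : IsWeakGrad f G) (n : ℕ) {S : Set E} (hS : MeasurableSet S) :
    ∫⁻ x in S, ‖fderiv ℝ (apx n f) x‖ₑ ≤ ∫⁻ x in thickening (1 / ((n : ℝ) + 1)) S, ‖G x‖ₑ :=
  (lintegral_mono (enorm_fderiv_apx_le hf hG hw n)).trans
    (setLIntegral_conv_le n hG.1.enorm hS)

theorem moll_tendsto {f : E → ℝ} (hf : Integrable f) :
    ∀ᵐ x, Tendsto (fun n => moll n f x) atTop (𝓝 (f x)) := by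
  refine ContDiffBump.ae_convolution_tendsto_right_of_locallyIntegrable (μ := volume)
    (φ := fun n => bump (E := E) n) (K := 2) ?_ (Eventually.of_forall fun n => ?_)
    hf.locallyIntegrable
  · exact tendsto_one_div_add_atTop_nhds_zero_nat
  · change 1 / ((n : ℝ) + 1) ≤ 2 * (1 / (2 * ((n : ℝ) + 1)))
    apply le_of_eq
    field_simp

theorem apx_tendsto {f : E → ℝ} (hf : Integrable f) :
    ∀ᵐ x, Tendsto (fun n => apx n f x) atTop (𝓝 |f x|) := by
  filter_upwards [moll_tendsto hf] with x hx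
  have h0 : Tendsto (fun n : ℕ => 1 / ((n : ℝ) + 1)) atTop (𝓝 0) :=
    tendsto_one_div_add_atTop_nhds_zero_nat
  have := (((hx.pow 2).add (h0.pow 2)).sqrt).sub h0
  simpa [apx, Real.sqrt_sq_eq_abs] using this

/-- Translation estimate in `W^{1,1}`. -/
theorem trans_weak {f : E → ℝ} {G : E → E} (hf : Integrable f) (hG : Integrable G)
    (hw : IsWeakGrad f G) (h : E) :
    ∫⁻ y, ‖f (y + h) - f y‖ₑ ≤ ‖h‖ₑ * ∫⁻ y, ‖G y‖ₑ := by
  have h1 : ∀ n, ∫⁻ y, ‖moll n f (y + h) - moll n f y‖ₑ ≤ ‖h‖ₑ * ∫⁻ y, ‖G y‖ₑ := fun n => by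
    have := trans_le (moll_contDiff hf n) MeasurableSet.univ MeasurableSet.univ h
      fun _ _ _ _ => mem_univ _
    rw [Measure.restrict_univ] at this
    refine this.trans (mul_le_mul_right ?_ _)
    refine (lintegral_mono (enorm_fderiv_moll_le hf hG hw n)).trans ?_
    rw [lintegral_conv n hG.1.enorm]
  have h2 : ∀ᵐ y, Tendsto (fun n => moll n f (y + h)) atTop (𝓝 (f (y + h))) :=
    (measurePreserving_add_right volume h).quasiMeasurePreserving.ae (moll_tendsto hf)
  have h3 : ∀ᵐ y, ‖f (y + h) - f y‖ₑ =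
      liminf (fun n => ‖moll n f (y + h) - moll n f y‖ₑ) atTop := by
    filter_upwards [h2, moll_tendsto hf] with y ha hb
    exact ((ha.sub hb).enorm.liminf_eq).symm
  rw [lintegral_congr_ae h3]
  refine (lintegral_liminf_le fun n => ?_).trans ?_
  · have hc := (moll_contDiff hf n).continuous
    exact ((hc.comp (continuous_add_const h)).sub hc).measurable.enorm
  · exact liminf_le_of_frequently_le' (Frequently.of_forall h1)

end Vale.Agent.P137
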