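import Vale.Agent.P137.OscB

open MeasureTheory Metric Set Filter Topology
open scoped ENNReal NNReal RealInnerProductSpace

noncomputable section

namespace Vale.Agent.P137

set_option linter.unusedSectionVars false

variable {E : Type*} [NormedAddCommGroup E] [InnerProductSpace ℝ E] [FiniteDimensional ℝ E]
  [MeasurableSpace E] [BorelSpace E]

namespace OscAux

variable {f Λ : E → ℝ} {σ e p x : E} {s ρ : ℝ}

theorem peak_real {G nx Δ : ℝ → ℝ} {s τ η a b H O D u A : ℝ} (hs : 0 < s) (hu : 0 ≤ u)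
    (hητ : 4096 * η ≤ τ) (hsη : 256 * s ≤ η) (ha : a ∈ Icc (τ / 2048) τ) (hb : b ∈ Icc (τ / 2048) τ)
    (step : ∀ T, |T| ≤ 2 * τ → s / 2 ≤ nx T - T ∧ nx T - T ≤ 2 * s ∧ G (nx T) = G T + Δ T)
    (hO : ∀ T, |T| ≤ 2 * τ → |Δ T - D| ≤ O) (low : ∀ T ∈ Icc 0 (2 * s), A ≤ G T + 2 * (η / s) * u)
    (left : G (-(a + η)) + H ≤ A)
    (right : ∀ T ∈ Icc (b - η - 4 * s) (b - η - 2 * s), G T + H ≤ A + 4 * u) :
    H ≤ 10 * (τ / s) * O + 3 * (η / s) * u := by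
  obtain ⟨ha1, ha2⟩ := ha
  obtain ⟨hb1, hb2⟩ := hb
  have hO0 : 0 ≤ O := (abs_nonneg _).trans (hO 0 (by simp; linarith))
  have hηs : 256 ≤ η / s := by rw [le_div_iff₀ hs]; linarith
  have hτs : 1 ≤ τ / s := by rw [le_div_iff₀ hs]; linarith
  have h1 := Nat.le_ceil (4 * τ / s)
  rw [div_le_iff₀ hs] at h1
  have h3 : (⌈4 * τ / s⌉₊ : ℝ) ≤ 5 * (τ / s) := by
    have h4 := (Nat.ceil_lt_add_one (div_nonneg (by linarith : 0 ≤ 4 * τ) hs.le)).le
    rw [mul_div_assoc] at h4 ⊢; linarith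
  have h5 : 256 * u ≤ η / s * u := by gcongr
  by_cases hneg : ∃ T, |T| ≤ 2 * τ ∧ Δ T < 0
  · obtain ⟨T₂, hT₂, hneg⟩ := hneg
    obtain ⟨T', hT', hle⟩ := step_ind (g := G) (nx := nx) (A := -(a + η)) (B := 0) (M := 2 * O) hs
      (by linarith) (fun T hT => by
        have hT' : |T| ≤ 2 * τ := abs_le.2 ⟨by linarith [hT.1], by linarith [hT.2]⟩
        obtain ⟨s1, s2, s3⟩ := step T hT'
        exact ⟨s1, s2, by linarith [(abs_le.1 (hO T hT')).2, (abs_le.1 (hO T₂ hT₂)).1]⟩)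
      ⌈4 * τ / s⌉₊ (-(a + η)) ⟨le_rfl, by linarith⟩ (by linarith)
    rw [zero_add] at hT'
    have h6 : (⌈4 * τ / s⌉₊ : ℝ) * (2 * O) ≤ 5 * (τ / s) * (2 * O) := by gcongr
    linarith [low T' hT']
  · push Not at hneg
    obtain ⟨T', hT', hle⟩ := step_ind (g := fun T => -G T) (nx := nx) (A := 0)
      (B := b - η - 4 * s) (M := 0) hs le_rfl (fun T hT => by
        have hT' : |T| ≤ 2 * τ := abs_le.2 ⟨by linarith [hT.1], by linarith [hT.2]⟩
        obtain ⟨s1, s2, s3⟩ := step T hT'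
        exact ⟨s1, s2, by linarith [hneg T hT']⟩)
      ⌈4 * τ / s⌉₊ 0 ⟨le_rfl, by linarith⟩ (by linarith)
    have h6 : 0 ≤ τ / s * O := by positivity
    have h7 := right T' ⟨hT'.1, by linarith [hT'.2]⟩
    have h8 := low 0 ⟨le_rfl, by linarith⟩
    simp only [mul_zero, add_zero] at hle
    linarith

theorem pencil_step (hf : Continuous f) (hs : 0 < s) (x' e : E) {r' β T : ℝ} (hr : 0 < r')
    (hq : |β * s| ≤ r' / 2) (hT : |β * T| ≤ r' / 2) :
    s / 2 ≤ (1 + β * s / r') * T + s - T ∧ (1 + β * s / r') * T + s - T ≤ 2 * s ∧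
      av f (x' + ((1 + β * s / r') * T + s) • e) (r' + β * ((1 + β * s / r') * T + s)) =
        av f (x' + T • e) (r' + β * T) +
          av (fun y => f ((-(β * s / r')) • x' + s • e + (1 + β * s / r') • y) - f y)
            (x' + T • e) (r' + β * T) := by
  obtain ⟨b1, b2⟩ := abs_le.1 hT
  have e1 : (1 + β * s / r') * T + s - T = s * ((r' + β * T) / r') := by field_simp; ring
  have q1 : 1 / 2 ≤ (r' + β * T) / r' := by rw [le_div_iff₀ hr]; linarith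
  have q2 : (r' + β * T) / r' ≤ 2 := by rw [div_le_iff₀ hr]; linarith
  have q3 : -(1 / 2) ≤ β * s / r' := by rw [le_div_iff₀ hr]; linarith [(abs_le.1 hq).1]
  refine ⟨by rw [e1]; nlinarith, by rw [e1]; nlinarith, ?_⟩
  have := av_step hf ((-(β * s / r')) • x' + s • e) (x' + T • e) (κ := 1 + β * s / r')
    (R := r' + β * T) (by linarith) (by linarith)
  rw [← this, add_sub_cancel]
  congr 1
  · module
  · field_simp; ring

/-- A peak is bounded by the oscillation of the increments. -/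
theorem peak_le (hf : Nice f) (hV : Vio f Λ σ s) (he : ‖e‖ = 1) (hes : 3 / 4 ≤ ⟪e, σ⟫)
    {τ η r r' β H O : ℝ} (hρ : 0 < ρ) (hx : dist x p ≤ ρ) (hr : r ∈ Icc (7 * ρ / 8) (17 * ρ / 8))
    (hτρ : 64 * τ ≤ ρ) (hητ : 4096 * η ≤ τ) (hsη : 256 * s ≤ η) (hr1 : r - 3 * η / 8 ≤ r')
    (hr2 : r' ≤ r - η / 4) (hβ : |β| ≤ 5 / 4) (hP : Peak f x e r τ H) {D : ℝ}
    (hO : ∀ T, |T| ≤ 2 * τ →
      |av (fun y => f ((-(β * s / r')) • (x + η • e) + s • e + (1 + β * s / r') • y) - f y)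
        (x + η • e + T • e) (r' + β * T) - D| ≤ O) :
    H ≤ 10 * (τ / s) * O + 3 * (η / s) * (bt Λ p ρ / Vb E (ρ / 2)) := by
  have hs := hV.pos
  obtain ⟨hra, hrb⟩ := hr
  obtain ⟨⟨a, ha1, ha⟩, ⟨b, hb1, hb⟩⟩ := hP
  have hr0 : 0 < r' := by linarith
  have hβT : ∀ T, |β * T| ≤ 5 / 4 * |T| := fun T => by rw [abs_mul]; gcongr
  have hu0 : 0 ≤ bt Λ p ρ / Vb E (ρ / 2) := div_nonneg (bt_nonneg hV p ρ) (Vb_nonneg _)
  refine peak_real (G := fun T => av f (x + η • e + T • e) (r' + β * T)) (A := av f x r)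
    (nx := fun T => (1 + β * s / r') * T + s) hs hu0 hητ hsη ha1 hb1
    (fun T hT => pencil_step hf.smooth.continuous hs _ e hr0 ?_ ?_) hO (fun T hT => ?_) ?_
    fun T hT => ?_
  · have := hβT s
    rw [abs_of_pos hs] at this; linarith
  · linarith [hβT T]
  · obtain ⟨b1, b2⟩ := abs_le.1 ((hβT T).trans_eq (by rw [abs_of_nonneg hT.1]))
    obtain ⟨t1, t2⟩ := hT
    have := path_le hf hV he hes hρ (x := x) (p := p) (T := η + T) (r₁ := r) (r₂ := r' + β * T)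
      (by linarith) ⟨by linarith, by linarith⟩ ⟨by linarith, by linarith⟩
      (abs_le.2 ⟨by linarith, by linarith⟩) (by linarith)
    rw [add_smul, ← add_assoc, mul_div_assoc] at this
    refine this.trans (add_le_add le_rfl (mul_le_mul_of_nonneg_right ?_ hu0))
    rw [← mul_div_assoc]; gcongr; linarith
  · obtain ⟨a1, a2⟩ := ha1
    obtain ⟨b1, b2⟩ := abs_le.1 ((hβT (-(a + η))).trans_eq
      (by rw [abs_neg, abs_of_nonneg (by linarith)]))
    have e2 : x + η • e + (-(a + η)) • e = x - a • e := by module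
    simp only [e2]
    exact ha (r' + β * (-(a + η))) ⟨by linarith, by linarith⟩
  · obtain ⟨t1, t2⟩ := hT
    obtain ⟨a1, a2⟩ := hb1
    obtain ⟨b1, b2⟩ := abs_le.1 ((hβT T).trans_eq (by rw [abs_of_nonneg (by linarith)]))
    have h2 := hb (r' + β * T) ⟨by linarith, by linarith⟩
    have hd : dist (x + η • e + T • e) p ≤ ρ + (η + T) := by
      have := dist_triangle (x + η • e + T • e) x p
      rw [add_assoc, ← add_smul, dist_self_add_left, norm_smul, he, mul_one,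
        Real.norm_of_nonneg (by linarith)] at this
      rw [add_assoc, ← add_smul]; linarith
    have h3 := path_le hf hV he hes hρ (x := x + η • e + T • e) (p := p) (T := b - η - T)
      (r₁ := r' + β * T) (r₂ := r' + β * T) (by linarith) ⟨by linarith, by linarith⟩
      ⟨by linarith, by linarith⟩ (by simp; linarith) (by linarith)
    have e2 : x + η • e + T • e + (b - η - T) • e = x + b • e := by module
    rw [e2, mul_div_assoc] at h3
    have h4 : (b - η - T) / s ≤ 4 := by rw [div_le_iff₀ hs]; linarith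
    have h5 := mul_le_mul_of_nonneg_right h4 hu0
    linarith

/-- Mass bounds inside the ball at a peak. -/
theorem peak_mass (hf : Nice f) (hV : Vio f Λ σ s) (he : ‖e‖ = 1) (hes : 3 / 4 ≤ ⟪e, σ⟫)
    {τ η r H : ℝ} (hρ : 0 < ρ) (hx : dist x p ≤ ρ) (hr : r ∈ Icc (7 * ρ / 8) (17 * ρ / 8))
    (hτρ : 64 * τ ≤ ρ) (hητ : 4096 * η ≤ τ) (hsη : 256 * s ≤ η) (hP : Peak f x e r τ H)
    (hH : 0 ≤ H) : H ≤ τ / s * (bt Λ p ρ / Vb E (ρ / 2)) ∧
      (mass f Λ σ s).real (ball x (r - τ)) ≤ 7 * bt Λ p ρ ∧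
      (mass f Λ σ s).real (ball (x + η • e) (r - η / 8)) ≤
        (160 * 6 ^ Module.finrank ℝ E + 7) * (τ / η) * bt Λ p ρ := by
  have hs := hV.pos
  obtain ⟨hra, hrb⟩ := hr
  obtain ⟨-, ⟨b, ⟨b1, b2⟩, hb⟩⟩ := hP
  have hb0 := bt_nonneg hV p ρ
  have hV0 := Vb_pos (E := E) (half_pos hρ)
  have hu0 : 0 ≤ bt Λ p ρ / Vb E (ρ / 2) := div_nonneg hb0 hV0.le
  have hrr : r ∈ Icc (ρ / 2) (3 * ρ) := ⟨by linarith, by linarith⟩
  have h0 := hb r ⟨by linarith, by linarith⟩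
  have hd : ∀ t, 0 ≤ t → dist (x + t • e) p ≤ ρ + t := fun t ht => by
    have := dist_triangle (x + t • e) x p
    rw [dist_self_add_left, norm_smul, he, mul_one, Real.norm_of_nonneg ht] at this
    linarith
  have hdd : ∀ t t' : ℝ, dist (x + t • e) (x + t' • e) = |t - t'| := fun t t' => by
    rw [dist_add_left, dist_eq_norm, ← sub_smul, norm_smul, he, mul_one, Real.norm_eq_abs]
  refine ⟨?_, ?_, ?_⟩
  · have h1 := path_le hf hV he hes hρ (x := x) (p := p) (T := b) (by linarith) hrr hrr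
      (by simp; linarith) (by linarith)
    have h2 : b / s * (bt Λ p ρ / Vb E (ρ / 2)) ≤ τ / s * (bt Λ p ρ / Vb E (ρ / 2)) := by gcongr
    rw [mul_div_assoc] at h1
    linarith
  · have := control hf hV he hes hρ (x := x) (p := p) (T := b) (Δ := 0) (by linarith) (by linarith)
      hrr (by linarith) (A := ball x (r - τ)) measurableSet_ball (fun θ hθ => ball_subset_ball' (by
        rw [dist_self_add_right, norm_smul, he, mul_one, Real.norm_of_nonneg hθ.1]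
        linarith [hθ.2])) le_rfl (by linarith)
    simpa using this
  · have h1 := path_le hf hV he hes hρ (x := x) (p := p) (T := 7 * η / 8) (by linarith) hrr hrr
      (by simp; linarith) (by linarith)
    have h2 := path_le hf hV he hes hρ (x := x + (9 * η / 8) • e) (p := p) (T := b - 9 * η / 8)
      (by linarith) hrr hrr (by simp; linarith) (by linarith [hd (9 * η / 8) (by linarith)])
    have e1 : x + (9 * η / 8) • e + (b - 9 * η / 8) • e = x + b • e := by module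
    have e2 : x + (7 * η / 8) • e + (η / 4) • e = x + (9 * η / 8) • e := by module
    rw [e1] at h2
    rw [mul_div_assoc _ (bt Λ p ρ)] at h1 h2
    have h3 : 7 * η / 8 / s * (bt Λ p ρ / Vb E (ρ / 2)) +
        (b - 9 * η / 8) / s * (bt Λ p ρ / Vb E (ρ / 2)) ≤ τ / s * (bt Λ p ρ / Vb E (ρ / 2)) := by
      rw [← add_mul, ← add_div]; gcongr; linarith
    have h4 := control hf hV he hes hρ (x := x + (7 * η / 8) • e) (p := p) (T := η / 4)
      (Δ := τ / s * (bt Λ p ρ / Vb E (ρ / 2))) (by linarith) (by linarith) hrr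
      (by linarith [hd (7 * η / 8) (by linarith)]) (A := ball (x + η • e) (r - η / 8))
      measurableSet_ball (fun θ hθ => ball_subset_ball' (by
        rw [add_assoc, ← add_smul, hdd]
        have : |η - (7 * η / 8 + θ)| ≤ η / 8 := abs_le.2 ⟨by linarith [hθ.2], by linarith [hθ.1]⟩
        linarith)) (mul_nonneg (div_nonneg (by linarith) hs.le) hu0) (by rw [e2]; linarith)
    have hη : 0 < η := by linarith
    have h5 : Vb E r ≤ 6 ^ Module.finrank ℝ E * Vb E (ρ / 2) := by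
      rw [← Vb_mul (by norm_num)]; exact Vb_mono (by linarith)
    have h6 : 1 ≤ τ / η := by rw [le_div_iff₀ hη]; linarith
    have h7 : 40 * s / (η / 4) * Vb E r * (τ / s * (bt Λ p ρ / Vb E (ρ / 2))) ≤
        160 * 6 ^ Module.finrank ℝ E * (τ / η) * bt Λ p ρ := by
      calc _ ≤ 40 * s / (η / 4) * (6 ^ Module.finrank ℝ E * Vb E (ρ / 2)) *
            (τ / s * (bt Λ p ρ / Vb E (ρ / 2))) := by
            have : 0 ≤ τ / s := div_nonneg (by linarith) hs.le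
            gcongr
        _ = _ := by field_simp; ring
    have h8 : 7 * bt Λ p ρ ≤ 7 * (τ / η) * bt Λ p ρ := by gcongr; linarith
    linarith

theorem nums {ρ τ s η g N : ℝ} (hN : 1 ≤ N) (hρ : 0 < ρ) (hτ : 0 < τ)
    (hτρ : τ * (2 ^ 21 * N ^ 9) ≤ ρ) (hs : s = τ / (2 ^ 20 * N ^ 3)) (hη : η = τ / (4096 * N))
    (hg : g = ρ / (2 ^ 22 * N ^ 3)) :
    64 * τ ≤ ρ ∧ η = 256 * N ^ 2 * s ∧ 4096 * η ≤ τ ∧ 256 * s ≤ η ∧ τ * g ≤ ρ * s / 4 ∧
      τ ^ 2 ≤ ρ * s / 2 ∧ 3 * s ≤ g ∧ τ / η = 4096 * N ∧ τ / s = 2 ^ 20 * N ^ 3 ∧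
      η / s = 256 * N ^ 2 ∧ 3 * τ / ρ ≤ 1 / N ^ 2 := by
  have hN0 : 0 < N := by linarith
  have hs0 : 0 < s := by rw [hs]; positivity
  have q2 : 1 ≤ N ^ 2 := one_le_pow₀ hN
  have q9 : 1 ≤ N ^ 9 := one_le_pow₀ hN
  have a0 : 2 ^ 21 * τ ≤ ρ := by nlinarith
  have a1 : η = 256 * N ^ 2 * s := by rw [hη, hs]; field_simp; norm_num
  have a2 : τ = 4096 * N * η := by rw [hη]; field_simp
  have hη0 : 0 < η := by rw [hη]; positivity
  refine ⟨by linarith, a1, by nlinarith, by nlinarith, ?_, ?_, ?_, ?_, ?_, ?_, ?_⟩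
  · rw [hg, hs]; apply le_of_eq; field_simp; norm_num
  · have h1 : τ * (2 ^ 21 * N ^ 3) ≤ ρ := by
      refine le_trans ?_ hτρ
      gcongr; norm_num
    rw [hs, ← mul_div_assoc, div_div, le_div_iff₀ (by positivity)]
    nlinarith
  · rw [hs, hg, ← mul_div_assoc, div_le_div_iff₀ (by positivity) (by positivity)]
    have : 0 < N ^ 3 := by positivity
    nlinarith
  · rw [a2]; field_simp
  · rw [hs]; field_simp
  · rw [a1]; field_simp
  · rw [div_le_div_iff₀ hρ (by positivity)]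
    have : N ^ 2 ≤ N ^ 9 := pow_le_pow_right₀ hN (by norm_num)
    nlinarith

theorem fin_real {c1 c2 c3 N b V H m1 m2 m3 q : ℝ} (p1 : 0 < c1) (p2 : 0 < c2) (p3 : 0 ≤ c3)
    (hN : 1 ≤ N) (hb : 0 < b) (hV : 0 < V) (h1 : N ^ 2 * m1 ≤ m3) (h2 : m2 ≤ 2 * b / N)
    (h3 : m3 ≤ c2 * N * b) (h30 : 0 ≤ m3) (hq : q ≤ 1 / N ^ 2)
    (key : H ≤ 10 * (2 ^ 20 * N ^ 3) * (c1 * (m1 + m2 + c3 * q * m3) / V) +
      3 * (256 * N ^ 2) * (b / V)) :
    H ≤ 2 ^ 20 * (10 * c1 * (c2 + 2 + c3 * c2) + 1) * N ^ 2 * b / V := by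
  have hN0 : 0 < N := by linarith
  have d1 : m1 ≤ c2 * (b / N) := by
    refine le_of_mul_le_mul_left (h1.trans (h3.trans_eq ?_)) (by positivity)
    field_simp
  have d2 : q * m3 ≤ c2 * (b / N) := by
    calc _ ≤ 1 / N ^ 2 * (c2 * N * b) := by gcongr
      _ = _ := by field_simp
  rw [mul_div_assoc 2] at h2
  have d3 : c1 * (m1 + m2 + c3 * q * m3) / V ≤ c1 * ((c2 + 2 + c3 * c2) * (b / N)) / V := by
    gcongr
    rw [mul_assoc c3]
    linarith [mul_le_mul_of_nonneg_left d2 p3]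
  have d4 : 10 * (2 ^ 20 * N ^ 3) * (c1 * ((c2 + 2 + c3 * c2) * (b / N)) / V) +
      2 ^ 20 * N ^ 2 * (b / V) = 2 ^ 20 * (10 * c1 * (c2 + 2 + c3 * c2) + 1) * N ^ 2 * b / V := by
    field_simp
  have d5 : 3 * (256 * N ^ 2) * (b / V) ≤ 2 ^ 20 * N ^ 2 * (b / V) := by
    gcongr ?_ * _; nlinarith
  have d6 := mul_le_mul_of_nonneg_left d3 (by positivity : 0 ≤ 10 * (2 ^ 20 * N ^ 3))
  linarith

theorem radius_facts {r ρ η s N j c : ℝ} (hs : 0 < s) (hr : 7 * ρ / 8 ≤ r) (hη : η = 256 * N ^ 2 * s)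
    (hηρ : 64 * η ≤ ρ) (hη0 : 0 < η) (hj0 : 0 ≤ j) (hj : j + 1 ≤ N ^ 2) (hc : |c| ≤ r + ρ / 8)
    {r' : ℝ} (hr' : r' = r - η / 4 - (2 * j + 1) * (16 * s)) :
    r - 3 * η / 8 ≤ r' ∧ r' ≤ r - η / 4 ∧ 0 < r' ∧ |(η - c) / r'| ≤ 5 / 4 := by
  have b1 : r - 3 * η / 8 ≤ r' := by rw [hr']; nlinarith
  have b2 : r' ≤ r - η / 4 := by
    rw [hr']; linarith [show 0 ≤ (2 * j + 1) * (16 * s) by positivity]
  have hr0 : 0 < r' := by linarith
  refine ⟨b1, b2, hr0, ?_⟩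
  rw [abs_div, abs_of_pos hr0, div_le_iff₀ hr0]
  have := abs_sub η c
  rw [abs_of_pos hη0] at this
  linarith

end OscAux

open OscAux

/-- A high peak forces mass at two different latitudes of the sphere. -/
theorem peak_osc : ∃ C : ℝ, 0 < C ∧ ∀ (f Λ : E → ℝ) (σ e p x : E) (ρ τ r H : ℝ) (n : ℕ),
    Nice f → 1 ≤ n → 0 < ρ → 0 < τ → τ * (2 ^ 21 * (n : ℝ) ^ 9) ≤ ρ →
    Vio f Λ σ (τ / (2 ^ 20 * (n : ℝ) ^ 3)) → ‖e‖ = 1 → 3 / 4 ≤ ⟪e, σ⟫ → dist x p ≤ ρ →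
    r ∈ Icc (7 * ρ / 8) (17 * ρ / 8) → Peak f x e r τ H →
    C * (n : ℝ) ^ 2 * bt Λ p ρ / Vb E (ρ / 2) < H →
    0 < bt Λ p ρ ∧
    (mass f Λ σ (τ / (2 ^ 20 * (n : ℝ) ^ 3))).real (ball x (r - τ)) ≤ 7 * bt Λ p ρ ∧
    ∀ c : ℝ, |c| ≤ r + ρ / 8 → 2 * bt Λ p ρ / n <
      (mass f Λ σ (τ / (2 ^ 20 * (n : ℝ) ^ 3))).real
        (shell x r (9 * τ) ∩ {y | ρ / (2 ^ 22 * (n : ℝ) ^ 3) ≤ |⟪y - x, e⟫ - c|}) := by
  refine ⟨2 ^ 20 * (10 * (1 + 2 ^ Module.finrank ℝ E) *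
    ((160 * 6 ^ Module.finrank ℝ E + 7) * 4096 + 2 + Module.finrank ℝ E * 6 ^ Module.finrank ℝ E *
      ((160 * 6 ^ Module.finrank ℝ E + 7) * 4096)) + 1), by positivity,
    fun f Λ σ e p x ρ τ r H n hf hn hρ hτ hτρ hV he hes hx hr hP hH => ?_⟩
  have hN : (1 : ℝ) ≤ n := by exact_mod_cast hn
  obtain ⟨s, hs⟩ : ∃ s, s = τ / (2 ^ 20 * (n : ℝ) ^ 3) := ⟨_, rfl⟩
  obtain ⟨η, hη⟩ : ∃ η, η = τ / (4096 * (n : ℝ)) := ⟨_, rfl⟩
  obtain ⟨g, hg⟩ : ∃ g, g = ρ / (2 ^ 22 * (n : ℝ) ^ 3) := ⟨_, rfl⟩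
  rw [← hs] at hV ⊢
  rw [← hg]
  have hs0 := hV.pos
  have hb0 := bt_nonneg hV p ρ
  have hV0 := Vb_pos (E := E) (half_pos hρ)
  obtain ⟨a0, a1, a3, a4, a5, a6, a7, a8, a9, a10, a11⟩ := nums hN hρ hτ hτρ hs hη hg
  have hH0 : 0 < H := lt_of_le_of_lt (by positivity) hH
  obtain ⟨m1, m2, m3⟩ := peak_mass hf hV he hes hρ hx hr a0 a3 a4 hP hH0.le
  have hbp : 0 < bt Λ p ρ := by
    rcases hb0.eq_or_lt with h | h
    · rw [← h, zero_div, mul_zero] at m1; exact absurd hH0 (not_lt.2 m1)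
    · exact h
  refine ⟨hbp, m2, fun c hc => ?_⟩
  by_contra hcon
  rw [not_lt] at hcon
  have hη0 : 0 < η := by linarith only [a4, hs0]
  obtain ⟨j, hj, hsh⟩ := shell_pick (mass f Λ σ s) (x + η • e) (R := r - η / 4) (R' := r - η / 8)
    (ζ := 16 * s) (by linarith only [hη0]) (by linarith only [hs0]) (k := n ^ 2) (by positivity)
    (mass_ne_top hf hV isBounded_ball)
  have hj' : (j : ℝ) + 1 ≤ n ^ 2 := by exact_mod_cast hj
  obtain ⟨r', hr'⟩ : ∃ r', r' = r - η / 4 - (2 * (j : ℝ) + 1) * (16 * s) := ⟨_, rfl⟩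
  rw [← hr', Nat.cast_pow] at hsh
  obtain ⟨b1, b2, hr0, b3⟩ := radius_facts hs0 hr.1 a1 (by linarith only [a0, a3, hη0]) hη0
    (Nat.cast_nonneg j) hj' hc hr'
  have key := peak_le hf hV he hes hρ hx hr a0 a3 a4 b1 b2 b3 hP fun T hT =>
    phi_dev hf hV he hρ hr a0 (by linarith only [a3, hη0]) a4 b1 b2 a5 a6 a7 b3
      (div_mul_cancel₀ _ hr0.ne') hT
  rw [a9, a10] at key
  rw [a8] at m3
  exact absurd hH (not_lt.2 (fin_real (by positivity) (by positivity) (by positivity) hN hbp hV0 hsh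
    hcon (m3.trans_eq (by ring)) measureReal_nonneg a11 key))

end Vale.Agent.P137
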