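import Vale.Agent.P137.Path

open MeasureTheory Metric Set Filter Topology
open scoped ENNReal NNReal RealInnerProductSpace

noncomputable section

namespace Vale.Agent.P137

set_option linter.unusedSectionVars false

variable {E : Type*} [NormedAddCommGroup E] [InnerProductSpace ℝ E] [FiniteDimensional ℝ E]
  [MeasurableSpace E] [BorelSpace E]

namespace OscAux

theorem step_ind {g nx : ℝ → ℝ} {A B s M : ℝ} (hs : 0 < s) (hM : 0 ≤ M)
    (h : ∀ T ∈ Icc A B, s / 2 ≤ nx T - T ∧ nx T - T ≤ 2 * s ∧ g (nx T) ≤ g T + M) (k : ℕ) :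
    ∀ T ∈ Icc A (B + 2 * s), B - T ≤ k * (s / 2) →
      ∃ T' ∈ Icc B (B + 2 * s), g T' ≤ g T + k * M := by
  induction k with
  | zero => exact fun T hT hk => ⟨T, ⟨by simpa using hk, hT.2⟩, by simp⟩
  | succ k ih =>
    intro T hT hk
    rcases le_total B T with hB | hB
    · exact ⟨T, ⟨hB, hT.2⟩, le_add_of_nonneg_right (by positivity)⟩
    · obtain ⟨h1, h2, h3⟩ := h T ⟨hT.1, hB⟩
      obtain ⟨T', hT', h4⟩ := ih (nx T) ⟨by linarith [hT.1], by linarith⟩
        (by push_cast at hk; linarith)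
      exact ⟨T', hT', by push_cast; linarith⟩

theorem shell_pick (μ : Measure E) (x : E) {R R' ζ : ℝ} (hR : R ≤ R') (hζ : 0 < ζ) {k : ℕ}
    (hk : 0 < k) (hfin : μ (ball x R') ≠ ⊤) :
    ∃ j < k, k * μ.real {y | |dist y x - (R - (2 * (j : ℝ) + 1) * ζ)| < ζ} ≤
      μ.real (ball x R') := by
  set Sh : ℕ → Set E := fun j => {y | |dist y x - (R - (2 * (j : ℝ) + 1) * ζ)| < ζ} with hSh
  have hm : ∀ j, MeasurableSet (Sh j) := fun j =>
    (isOpen_lt (by fun_prop) continuous_const).measurableSet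
  have hsub : ∀ j, Sh j ⊆ ball x R' := fun j y hy => by
    simp only [hSh, mem_ofPred_eq] at hy
    have h1 := (abs_lt.1 hy).2
    have : (0 : ℝ) ≤ j * ζ := by positivity
    rw [mem_ball]; linarith
  have hdis : (↑(Finset.range k) : Set ℕ).PairwiseDisjoint Sh := by
    have key : ∀ i j : ℕ, i < j → Disjoint (Sh i) (Sh j) := fun i j hij => by
      refine Set.disjoint_left.2 fun y h1 h2 => ?_
      simp only [hSh, mem_ofPred_eq] at h1 h2
      have h3 := (abs_lt.1 h1).1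
      have h4 := (abs_lt.1 h2).2
      have h5 : (i : ℝ) + 1 ≤ j := by exact_mod_cast hij
      nlinarith
    intro i _ j _ hij
    rcases lt_or_gt_of_ne hij with h | h
    · exact key i j h
    · exact (key j i h).symm
  have hsum : ∑ j ∈ Finset.range k, μ.real (Sh j) ≤ μ.real (ball x R') := by
    rw [← measureReal_biUnion_finset hdis (fun j _ => hm j)
      fun j _ => ne_top_of_le_ne_top hfin (measure_mono (hsub j))]
    exact measureReal_mono (iUnion₂_subset fun j _ => hsub j) hfin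
  obtain ⟨j, hj, hle⟩ := Finset.exists_le_of_sum_le (s := Finset.range k)
    (f := fun j => k * μ.real (Sh j)) (g := fun _ => μ.real (ball x R'))
    (Finset.nonempty_range_iff.2 hk.ne') (by
      rw [← Finset.mul_sum, Finset.sum_const, Finset.card_range, nsmul_eq_mul]
      gcongr)
  exact ⟨j, Finset.mem_range.1 hj, hle⟩

theorem Vb_diff {ρ R₀ R₁ : ℝ} (hρ : 0 < ρ) (h0 : R₀ ∈ Icc (ρ / 2) (3 * ρ))
    (h1 : R₁ ∈ Icc (ρ / 2) (3 * ρ)) :
    |Vb E R₁ - Vb E R₀| ≤ Module.finrank ℝ E * 6 ^ Module.finrank ℝ E * (|R₁ - R₀| / ρ) *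
      Vb E (ρ / 2) := by
  have p0 : 0 < R₀ := by linarith [h0.1]
  have p1 : 0 < R₁ := by linarith [h1.1]
  have e : ∀ {R : ℝ}, 0 < R → Vb E R = R ^ Module.finrank ℝ E * Vb E 1 := fun {R} hR => by
    rw [← Vb_mul hR, mul_one]
  have hv := Vb_nonneg (E := E) 1
  rw [e p0, e p1, e (half_pos hρ), ← sub_mul, abs_mul, abs_of_nonneg hv, ← mul_assoc]
  refine mul_le_mul_of_nonneg_right ((abs_pow_sub_pow_le _ _ _).trans ?_) hv
  generalize Module.finrank ℝ E = d
  rcases d with _ | d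
  · simp
  have hm : max |R₁| |R₀| ≤ 3 * ρ :=
    max_le (by rw [abs_of_pos p1]; exact h1.2) (by rw [abs_of_pos p0]; exact h0.2)
  have h2 : max |R₁| |R₀| ^ d ≤ (3 * ρ) ^ d := by gcongr
  have h3 : (6 : ℝ) ^ (d + 1) * (ρ / 2) ^ (d + 1) = (3 * ρ) ^ d * (3 * ρ) := by
    rw [← mul_pow, ← pow_succ]; congr 1; ring
  have h4 : (0 : ℝ) ≤ (3 * ρ) ^ d := by positivity
  rw [Nat.add_sub_cancel]
  calc |R₁ - R₀| * ((d + 1 : ℕ) : ℝ) * max |R₁| |R₀| ^ d
      ≤ |R₁ - R₀| * ((d + 1 : ℕ) : ℝ) * ((3 * ρ) ^ d * 3) := by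
        gcongr; linarith
    _ = _ := by
        rw [show ((d + 1 : ℕ) : ℝ) * 6 ^ (d + 1) * (|R₁ - R₀| / ρ) * (ρ / 2) ^ (d + 1) =
          ((d + 1 : ℕ) : ℝ) * (|R₁ - R₀| / ρ) * (6 ^ (d + 1) * (ρ / 2) ^ (d + 1)) by ring, h3]
        field_simp

theorem intOn {φ : E → ℝ} (hφ : Continuous φ) {W : Set E} (hb : Bornology.IsBounded W) :
    IntegrableOn φ W :=
  (hφ.continuousOn.integrableOn_compact hb.isCompact_closure).mono_set subset_closure

theorem av_diff {φ : E → ℝ} (hφ : Continuous φ) {x₀ x₁ : E} {ρ R₀ R₁ : ℝ} (hρ : 0 < ρ)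
    (h0 : R₀ ∈ Icc (ρ / 2) (3 * ρ)) (h1 : R₁ ∈ Icc (ρ / 2) (3 * ρ)) {W : Set E}
    (hW : MeasurableSet W) (hb : Bornology.IsBounded W)
    (hsub : ∀ y, ¬ (y ∈ ball x₁ R₁ ↔ y ∈ ball x₀ R₀) → y ∈ W) :
    |av φ x₁ R₁ - av φ x₀ R₀| ≤ ((∫ y in W, |φ y|) + Module.finrank ℝ E *
      6 ^ Module.finrank ℝ E * (|R₁ - R₀| / ρ) * ∫ y in ball x₀ R₀, |φ y|) / Vb E (ρ / 2) := by
  have hV := Vb_pos (E := E) (half_pos hρ)
  have v0 : Vb E (ρ / 2) ≤ Vb E R₀ := Vb_mono h0.1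
  have v1 : Vb E (ρ / 2) ≤ Vb E R₁ := Vb_mono h1.1
  have i0 := (integrable_indicator_iff measurableSet_ball).2 (intOn hφ (isBounded_ball (x := x₀) (r := R₀)))
  have i1 := (integrable_indicator_iff measurableSet_ball).2 (intOn hφ (isBounded_ball (x := x₁) (r := R₁)))
  have iW := (integrable_indicator_iff hW).2 (intOn hφ.abs hb)
  have hJ : |(∫ y in ball x₁ R₁, φ y) - ∫ y in ball x₀ R₀, φ y| ≤ ∫ y in W, |φ y| := by
    rw [← integral_indicator measurableSet_ball, ← integral_indicator measurableSet_ball,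
      ← integral_indicator hW, ← integral_sub i1 i0]
    refine (abs_integral_le_integral_abs).trans (integral_mono (i1.sub i0).abs iW fun y => ?_)
    by_cases a1 : y ∈ ball x₁ R₁ <;> by_cases a0 : y ∈ ball x₀ R₀
    · simp [a1, a0, indicator_nonneg]
    · simp [a1, a0, hsub y (by tauto)]
    · simp [a1, a0, hsub y (by tauto)]
    · simp [a1, a0, indicator_nonneg]
  have hJ0 : |∫ y in ball x₀ R₀, φ y| ≤ ∫ y in ball x₀ R₀, |φ y| := abs_integral_le_integral_abs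
  have hd := Vb_diff (E := E) hρ h0 h1
  rw [av_eq_div, av_eq_div]
  set J1 := ∫ y in ball x₁ R₁, φ y
  set J0 := ∫ y in ball x₀ R₀, φ y
  set c := (Module.finrank ℝ E : ℝ) * 6 ^ Module.finrank ℝ E * (|R₁ - R₀| / ρ)
  have hc : 0 ≤ c := by positivity
  have p0 : 0 < Vb E R₀ := by linarith
  have p1 : 0 < Vb E R₁ := by linarith
  have e : J1 / Vb E R₁ - J0 / Vb E R₀ =
      (J1 - J0) / Vb E R₁ + J0 * ((Vb E R₀ - Vb E R₁) / Vb E R₀) / Vb E R₁ := by
    field_simp; ring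
  have h2 : |(Vb E R₀ - Vb E R₁) / Vb E R₀| ≤ c := by
    rw [abs_div, abs_of_pos p0, div_le_iff₀ p0, abs_sub_comm]
    exact hd.trans (by gcongr)
  rw [e, ← add_div, abs_div, abs_of_pos p1]
  refine div_le_div₀ (by positivity) ((abs_add_le _ _).trans (add_le_add hJ ?_)) hV v1
  rw [abs_mul, mul_comm]
  exact mul_le_mul h2 hJ0 (abs_nonneg _) hc

theorem av_step {f : E → ℝ} (hf : Continuous f) (c x : E) {κ R : ℝ} (hκ : 0 < κ) (hR : 0 < R) :
    av f (c + κ • x) (κ * R) - av f x R = av (fun y => f (c + κ • y) - f y) x R := by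
  rw [OptAux.av_eq_A _ _ (mul_pos hκ hR), OptAux.av_eq_A _ _ hR, OptAux.av_eq_A _ _ hR]
  simp only [OptAux.A]
  rw [← sub_div, ← integral_sub (intOn (by fun_prop) isBounded_ball)
    (intOn (by fun_prop) isBounded_ball)]
  congr 1
  refine integral_congr_ae (Eventually.of_forall fun w => ?_)
  simp only [smul_add, smul_smul, add_assoc]

omit [FiniteDimensional ℝ E] [MeasurableSpace E] [BorelSpace E] in
theorem geom {x e y : E} (he : ‖e‖ = 1) {r β T : ℝ} (hr : 0 < r) (hR : 0 < r + β * T)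
    (h : ¬ (y ∈ ball (x + T • e) (r + β * T) ↔ y ∈ ball x r)) :
    |dist y x - r| ≤ (|β| + 1) * |T| ∧
      |dist y x - r| * r ≤ 2 * |T| * |⟪y - x, e⟫ + β * r| + |1 - β ^ 2| * T ^ 2 := by
  simp only [mem_ball] at h
  have h1 : |dist y (x + T • e) - dist y x| ≤ |T| := by
    rw [dist_comm y, dist_comm y]
    refine (abs_dist_sub_le _ _ _).trans (le_of_eq ?_)
    rw [dist_self_add_left, norm_smul, he, mul_one, Real.norm_eq_abs]
  have h2 : dist y (x + T • e) ^ 2 = dist y x ^ 2 - 2 * T * ⟪y - x, e⟫ + T ^ 2 := by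
    rw [dist_eq_norm, dist_eq_norm, ← sub_sub, norm_sub_sq_real, real_inner_smul_right, norm_smul,
      he, mul_one, Real.norm_eq_abs, sq_abs]; ring
  have h3 : |β * T| = |β| * |T| := abs_mul _ _
  have h4 : |2 * T * (⟪y - x, e⟫ + β * r)| = 2 * |T| * |⟪y - x, e⟫ + β * r| := by
    rw [abs_mul, abs_mul, abs_two]
  have h5 : |(1 - β ^ 2) * T ^ 2| = |1 - β ^ 2| * T ^ 2 := by rw [abs_mul, abs_sq]
  have d0 : 0 ≤ dist y x := dist_nonneg
  have d1 : 0 ≤ dist y (x + T • e) := dist_nonneg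
  have a1 := abs_le.1 h1
  have a3 := abs_le.1 h3.le
  have a4 := abs_le.1 h4.le
  have a5 := abs_le.1 h5.le
  rcases lt_or_ge (dist y x) r with hy | hy
  · have hT : r + β * T ≤ dist y (x + T • e) := by
      by_contra hc; exact h ⟨fun _ => hy, fun _ => not_le.1 hc⟩
    have h6 : (r + β * T) ^ 2 ≤ dist y (x + T • e) ^ 2 := by gcongr
    rw [abs_of_neg (by linarith)]
    refine ⟨by linarith [a1.2, a3.1], ?_⟩
    nlinarith [mul_nonneg (sub_nonneg.2 hy.le) d0]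
  · have hT : dist y (x + T • e) < r + β * T := by
      by_contra hc; exact h ⟨fun h' => absurd h' hc, fun h' => absurd h' (not_lt.2 hy)⟩
    have h6 : dist y (x + T • e) ^ 2 ≤ (r + β * T) ^ 2 := by gcongr
    rw [abs_of_nonneg (by linarith)]
    refine ⟨by linarith [a1.1, a3.2], ?_⟩
    nlinarith [mul_nonneg (sub_nonneg.2 hy) d0]

end OscAux

end Vale.Agent.P137
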