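import Vale.Agent.P137.OscA

open MeasureTheory Metric Set Filter Topology
open scoped ENNReal NNReal RealInnerProductSpace

noncomputable section

namespace Vale.Agent.P137

set_option linter.unusedSectionVars false

variable {E : Type*} [NormedAddCommGroup E] [InnerProductSpace ℝ E] [FiniteDimensional ℝ E]
  [MeasurableSpace E] [BorelSpace E]

namespace OscAux

variable {f Λ : E → ℝ} {σ e p x : E} {s ρ : ℝ}

omit [FiniteDimensional ℝ E] [MeasurableSpace E] [BorelSpace E] in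
theorem move_le (he : ‖e‖ = 1) (hs : 0 < s) {x' y : E} {τ r r' β : ℝ} (hr : 56 * τ ≤ r)
    (hτ : 0 ≤ τ) (hr0 : 0 < r') (hr1 : r - τ ≤ r') (hβ : |β| ≤ 5 / 4)
    (hy : dist y x' ≤ r + 9 * τ) :
    ‖(-(β * s / r')) • x' + s • e + (1 + β * s / r') • y - y‖ ≤ 3 * s := by
  have e1 : (-(β * s / r')) • x' + s • e + (1 + β * s / r') • y - y =
      (β * s / r') • (y - x') + s • e := by module
  rw [e1]
  refine (norm_add_le _ _).trans ?_
  rw [norm_smul, norm_smul, he, mul_one, Real.norm_of_nonneg hs.le, ← dist_eq_norm,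
    Real.norm_eq_abs, abs_div, abs_mul, abs_of_pos hs, abs_of_pos hr0]
  have h1 : |β| * dist y x' ≤ 5 / 4 * (r + 9 * τ) := by gcongr
  have h2 : |β| * s / r' * dist y x' ≤ 2 * s := by
    rw [div_mul_eq_mul_div, div_le_iff₀ hr0]; nlinarith
  linarith

omit [FiniteDimensional ℝ E] [MeasurableSpace E] [BorelSpace E] in
theorem thin_or_fast (he : ‖e‖ = 1) (hs : 0 < s) {y : E} {τ η g r r' c β T : ℝ}
    (hr : 7 * ρ / 8 ≤ r) (hτρ : 64 * τ ≤ ρ) (hητ : η ≤ τ) (hη : 0 < η)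
    (hr1 : r - 3 * η / 8 ≤ r') (hr2 : r' ≤ r - η / 4) (hg : τ * g ≤ ρ * s / 4)
    (hτ2 : τ ^ 2 ≤ ρ * s / 2) (hβ : |β| ≤ 5 / 4) (hc : β * r' = η - c) (hT : |T| ≤ 2 * τ)
    (hy : ¬ (y ∈ ball (x + η • e + T • e) (r' + β * T) ↔ y ∈ ball (x + η • e) r')) :
    |dist y (x + η • e) - r'| ≤ 8 * s ∨
      (|dist y x - r| ≤ 8 * τ ∧ 2 * g ≤ |⟪y - x, e⟫ - c|) := by
  have hr0 : ρ / 2 ≤ r' := by linarith
  have hβT : |β * T| ≤ 5 / 2 * τ := by
    rw [abs_mul]; nlinarith [abs_nonneg β, abs_nonneg T]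
  obtain ⟨g1, g2⟩ := geom he (by linarith) (by linarith [(abs_le.1 hβT).1]) hy
  have hxx : dist (x + η • e) x = η := by
    rw [dist_self_add_left, norm_smul, he, mul_one, Real.norm_of_nonneg hη.le]
  rcases le_or_gt (2 * g) |⟪y - x, e⟫ - c| with h | h
  · refine Or.inr ⟨?_, h⟩
    have h3 := abs_le.1 ((abs_dist_sub_le (x + η • e) x y).trans hxx.le)
    rw [dist_comm _ y, dist_comm x y] at h3
    have h4 : (|β| + 1) * |T| ≤ 9 / 2 * τ := by nlinarith [abs_nonneg β, abs_nonneg T]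
    obtain ⟨a1, a2⟩ := abs_le.1 (g1.trans h4)
    exact abs_le.2 ⟨by linarith [h3.1, h3.2], by linarith [h3.1, h3.2]⟩
  · left
    have e1 : ⟪y - (x + η • e), e⟫ + β * r' = ⟪y - x, e⟫ - c := by
      rw [hc, ← sub_sub, inner_sub_left (y - x), real_inner_smul_left,
        real_inner_self_eq_norm_sq, he]; ring
    rw [e1] at g2
    have h1 : |1 - β ^ 2| ≤ 1 := by
      have : β ^ 2 ≤ 25 / 16 := by rw [← sq_abs]; nlinarith [abs_nonneg β]
      exact abs_le.2 ⟨by linarith, by linarith [sq_nonneg β]⟩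
    have h2 : T ^ 2 ≤ (2 * τ) ^ 2 := by rw [← sq_abs]; gcongr
    have h3 : 2 * |T| * |⟪y - x, e⟫ - c| ≤ 2 * (2 * τ) * (2 * g) := by gcongr; linarith
    have h4 : |1 - β ^ 2| * T ^ 2 ≤ 1 * (2 * τ) ^ 2 := by gcongr
    have h6 : 8 * s * (ρ / 2) ≤ 8 * s * r' := by gcongr
    have h5 : |dist y (x + η • e) - r'| * r' ≤ 8 * s * r' := by linarith
    exact le_of_mul_le_mul_right h5 (by linarith)

omit [FiniteDimensional ℝ E] [MeasurableSpace E] [BorelSpace E] in
theorem near_thin {x' y z : E} {r' : ℝ} (hs : 0 < s) (hy : |dist y x' - r'| ≤ 8 * s)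
    (hz : ‖z - y‖ ≤ 3 * s) : |dist z x' - r'| < 16 * s := by
  obtain ⟨a1, a2⟩ := abs_le.1 hy
  have h3 := abs_le.1 (abs_dist_sub_le z y x')
  rw [dist_eq_norm z y] at h3
  exact abs_lt.2 ⟨by linarith [h3.1], by linarith [h3.2]⟩

omit [FiniteDimensional ℝ E] [MeasurableSpace E] [BorelSpace E] in
theorem near_fast (he : ‖e‖ = 1) {y z : E} {τ g r c : ℝ} (hsτ : 3 * s ≤ τ) (hsg : 3 * s ≤ g)
    (hy : |dist y x - r| ≤ 8 * τ) (hy' : 2 * g ≤ |⟪y - x, e⟫ - c|) (hz : ‖z - y‖ ≤ 3 * s) :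
    |dist z x - r| ≤ 9 * τ ∧ g ≤ |⟪z - x, e⟫ - c| := by
  obtain ⟨a1, a2⟩ := abs_le.1 hy
  have h3 := abs_le.1 (abs_dist_sub_le z y x)
  rw [dist_eq_norm z y] at h3
  have h4 : |⟪z - y, e⟫| ≤ 3 * s := by
    refine (abs_real_inner_le_norm _ _).trans ?_
    rwa [he, mul_one]
  have h5 : ⟪y - x, e⟫ - c = (⟪z - x, e⟫ - c) - ⟪z - y, e⟫ := by
    simp only [inner_sub_left]; ring
  have h6 := abs_sub (⟪z - x, e⟫ - c) ⟪z - y, e⟫
  rw [← h5] at h6
  exact ⟨abs_le.2 ⟨by linarith [h3.1], by linarith [h3.2]⟩, by linarith⟩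

/-- The increments along a pencil of homothetic balls are almost constant. -/
theorem phi_dev (hf : Nice f) (hV : Vio f Λ σ s) (he : ‖e‖ = 1) {τ η g r r' c β T : ℝ}
    (hρ : 0 < ρ) (hr : r ∈ Icc (7 * ρ / 8) (17 * ρ / 8)) (hτρ : 64 * τ ≤ ρ) (hητ : η ≤ τ)
    (hsη : 256 * s ≤ η) (hr1 : r - 3 * η / 8 ≤ r') (hr2 : r' ≤ r - η / 4) (hg : τ * g ≤ ρ * s / 4)
    (hτ2 : τ ^ 2 ≤ ρ * s / 2) (hsg : 3 * s ≤ g) (hβ : |β| ≤ 5 / 4) (hc : β * r' = η - c)
    (hT : |T| ≤ 2 * τ) :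
    |av (fun y => f ((-(β * s / r')) • (x + η • e) + s • e + (1 + β * s / r') • y) - f y)
        (x + η • e + T • e) (r' + β * T) -
      av (fun y => f ((-(β * s / r')) • (x + η • e) + s • e + (1 + β * s / r') • y) - f y)
        (x + η • e) r'| ≤ (1 + 2 ^ Module.finrank ℝ E) *
      ((mass f Λ σ s).real {y | |dist y (x + η • e) - r'| < 16 * s} +
        (mass f Λ σ s).real (shell x r (9 * τ) ∩ {y | g ≤ |⟪y - x, e⟫ - c|}) +
        Module.finrank ℝ E * 6 ^ Module.finrank ℝ E * (3 * τ / ρ) *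
          (mass f Λ σ s).real (ball (x + η • e) (r - η / 8))) / Vb E (ρ / 2) := by
  have hs := hV.pos
  have hfc := hf.smooth.continuous
  obtain ⟨hra, hrb⟩ := hr
  have hr0 : 0 < r' := by linarith
  have hβT : |β * T| ≤ 5 / 2 * τ := by
    rw [abs_mul]; nlinarith [abs_nonneg β, abs_nonneg T]
  obtain ⟨hβT1, hβT2⟩ := abs_le.1 hβT
  have hxx : dist (x + η • e) x = η := by
    rw [dist_self_add_left, norm_smul, he, mul_one, Real.norm_of_nonneg (by linarith)]
  have hq : |β * s / r'| ≤ 1 / 2 := by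
    rw [abs_div, abs_mul, abs_of_pos hs, abs_of_pos hr0, div_le_iff₀ hr0]
    nlinarith
  have hκ2 : 1 / 2 ≤ 1 + β * s / r' := by linarith [(abs_le.1 hq).1]
  have move := fun y => move_le he hs (x' := x + η • e) (y := y) (τ := τ) (r := r) (r' := r')
    (β := β) (by linarith) (by linarith) hr0 (by linarith) hβ
  have tf := fun y => thin_or_fast he hs (x := x) (y := y) hra hτρ hητ (by linarith) hr1 hr2 hg hτ2
    hβ hc hT
  have r1 : r' ∈ Icc (ρ / 2) (3 * ρ) := ⟨by linarith, by linarith⟩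
  have r2 : r' + β * T ∈ Icc (ρ / 2) (3 * ρ) := ⟨by linarith, by linarith⟩
  have h7 : |r' + β * T - r'| / ρ ≤ 3 * τ / ρ := by
    rw [add_sub_cancel_left]; gcongr; linarith
  have h9 : 0 ≤ 3 * τ / ρ := div_nonneg (by linarith) hρ.le
  have k1 : r' + 8 * s ≤ r + 9 * τ := by linarith
  have k2 : r + 8 * τ + η ≤ r + 9 * τ := by linarith
  have k3 : 3 * s ≤ τ := by linarith
  have k4 : r' + 3 * s ≤ r - η / 8 := by linarith
  generalize x + η • e = x' at *
  generalize 1 + β * s / r' = κ at *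
  generalize (-(β * s / r')) • x' + s • e = c₀ at *
  have msh : ∀ t, MeasurableSet (shell x r t) := fun t =>
    (isClosed_le (by fun_prop) continuous_const).measurableSet
  have mW : MeasurableSet ({y | |dist y x' - r'| ≤ 8 * s} ∪
      (shell x r (8 * τ) ∩ {y | 2 * g ≤ |⟪y - x, e⟫ - c|})) :=
    (isClosed_le (by fun_prop) continuous_const).measurableSet.union
      ((msh _).inter (isClosed_le continuous_const (by fun_prop)).measurableSet)
  have mSh : MeasurableSet {y | |dist y x' - r'| < 16 * s} :=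
    (isOpen_lt (by fun_prop) continuous_const).measurableSet
  have mFa : MeasurableSet (shell x r (9 * τ) ∩ {y | g ≤ |⟪y - x, e⟫ - c|}) :=
    (msh _).inter (isClosed_le continuous_const (by fun_prop)).measurableSet
  have bSh : Bornology.IsBounded {y | |dist y x' - r'| < 16 * s} :=
    (isBounded_ball (x := x') (r := r' + 16 * s)).subset
      fun y hy => mem_ball.2 (by linarith [(abs_lt.1 (show |dist y x' - r'| < 16 * s from hy)).2])
  have bFa : Bornology.IsBounded (shell x r (9 * τ) ∩ {y | g ≤ |⟪y - x, e⟫ - c|}) :=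
    (isBounded_closedBall (x := x) (r := r + 9 * τ)).subset fun y hy => mem_closedBall.2
      (by linarith [(abs_le.1 (show |dist y x - r| ≤ 9 * τ from hy.1)).2])
  have hWW : ∀ y ∈ {y | |dist y x' - r'| ≤ 8 * s} ∪
      (shell x r (8 * τ) ∩ {y | 2 * g ≤ |⟪y - x, e⟫ - c|}), ‖c₀ + κ • y - y‖ ≤ 3 * s ∧
      y ∈ {y | |dist y x' - r'| < 16 * s} ∪ shell x r (9 * τ) ∩ {y | g ≤ |⟪y - x, e⟫ - c|} ∧
      c₀ + κ • y ∈ {y | |dist y x' - r'| < 16 * s} ∪
        shell x r (9 * τ) ∩ {y | g ≤ |⟪y - x, e⟫ - c|} := by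
    rintro y (hy | ⟨hy1, hy2⟩)
    · have hy' : |dist y x' - r'| ≤ 8 * s := hy
      have hm := move y (by linarith [(abs_le.1 hy').2])
      exact ⟨hm, Or.inl (near_thin hs hy' (by simp; positivity)), Or.inl (near_thin hs hy' hm)⟩
    · have hy' : |dist y x - r| ≤ 8 * τ := hy1
      have hm := move y (by
        have := dist_triangle y x x'
        rw [dist_comm x x'] at this
        linarith [(abs_le.1 hy').2])
      exact ⟨hm, Or.inr (near_fast he k3 hsg hy' hy2 (by simp; positivity)),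
        Or.inr (near_fast he k3 hsg hy' hy2 hm)⟩
  have i1 := int_phi hf hV hκ2 mW (mSh.union mFa) (bSh.union bFa) hWW
  have i2 := int_phi hf hV (c := c₀) hκ2 (A := ball x' r') (A' := ball x' (r - η / 8))
    measurableSet_ball measurableSet_ball isBounded_ball fun y hy => by
      rw [mem_ball] at hy
      have hm := move y (by linarith)
      have h3 := dist_triangle (c₀ + κ • y) y x'
      rw [dist_eq_norm (c₀ + κ • y) y] at h3
      exact ⟨hm, mem_ball.2 (by linarith), mem_ball.2 (by linarith)⟩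
  have hd := av_diff (φ := fun y => f (c₀ + κ • y) - f y) (by fun_prop) (x₀ := x')
    (x₁ := x' + T • e) hρ r1 r2 mW ((bSh.union bFa).subset fun y hy => (hWW y hy).2.1) tf
  refine hd.trans (div_le_div_of_nonneg_right ?_ (Vb_nonneg _))
  have h8 : (0 : ℝ) ≤ ∫ y in ball x' r', |f (c₀ + κ • y) - f y| :=
    integral_nonneg fun _ => abs_nonneg _
  rw [mul_add, mul_left_comm]
  refine add_le_add (i1.trans (mul_le_mul_of_nonneg_left (measureReal_union_le _ _)
    (by positivity))) ?_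
  gcongr

end OscAux

end Vale.Agent.P137
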