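import Vale.Agent.P137.Defs

open MeasureTheory Metric Set Filter Topology
open scoped ENNReal NNReal RealInnerProductSpace

noncomputable section

namespace Vale.Agent.P137

variable {E : Type*} [NormedAddCommGroup E] [InnerProductSpace ℝ E] [FiniteDimensional ℝ E]
  [MeasurableSpace E] [BorelSpace E]

/-- Points near `q` from which `u` increases in the cone of directions around `N`. -/
def ConeSet (u : E → ℝ) (q N : E) (ρ a b : ℝ) : Set E :=
  {x | x ∈ ball q (ρ / 8) ∧ DifferentiableAt ℝ u x ∧ u x ∈ Icc a b ∧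
    (∀ v ∈ ball (0 : E) (ρ / 4), ∀ σ ∈ Ioc (0 : ℝ) 1, u x ≤ u (x + σ • (N + v))) ∧
    fderiv ℝ u x ≠ 0}

theorem measurableSet_coneSet {u : E → ℝ} (hu : Continuous u) (q N : E) (ρ a b : ℝ) :
    MeasurableSet (ConeSet u q N ρ a b) := by
  have h1 : IsClosed {x | ∀ v ∈ ball (0 : E) (ρ / 4), ∀ σ ∈ Ioc (0 : ℝ) 1,
      u x ≤ u (x + σ • (N + v))} := by
    simp only [setOf_forall]
    refine isClosed_iInter fun v => isClosed_iInter fun _ => isClosed_iInter fun σ =>
      isClosed_iInter fun _ => isClosed_le hu ?_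
    fun_prop
  have h2 : MeasurableSet {x | fderiv ℝ u x ≠ 0} :=
    (measurable_fderiv ℝ u (measurableSet_singleton 0)).compl
  exact measurableSet_ball.inter ((measurableSet_of_differentiableAt ℝ u).inter
    ((hu.measurable measurableSet_Icc).inter (h1.measurableSet.inter h2)))

omit [FiniteDimensional ℝ E] [MeasurableSpace E] [BorelSpace E] in
theorem fderiv_nonneg_of_dir {u : E → ℝ} {x w : E} (hd : DifferentiableAt ℝ u x)
    (h : ∀ σ ∈ Ioc (0 : ℝ) 1, u x ≤ u (x + σ • w)) : 0 ≤ fderiv ℝ u x w := by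
  have h1 := (hd.hasFDerivAt.hasLineDerivAt w).tendsto_slope_zero_right
  refine ge_of_tendsto h1 ?_
  filter_upwards [Ioc_mem_nhdsGT (show (0 : ℝ) < 1 by norm_num)] with σ hσ
  rw [smul_eq_mul]
  exact mul_nonneg (inv_nonneg.2 hσ.1.le) (sub_nonneg.2 (h σ hσ))

omit [FiniteDimensional ℝ E] [MeasurableSpace E] [BorelSpace E] in
theorem norm_fderiv_le_cone {u : E → ℝ} {q N x : E} {ρ a b : ℝ} (hρ : 0 < ρ)
    (hx : x ∈ ConeSet u q N ρ a b) : ‖fderiv ℝ u x‖ ≤ 8 / ρ * fderiv ℝ u x N := by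
  obtain ⟨-, hd, -, hc, -⟩ := hx
  have h0 : 0 ≤ fderiv ℝ u x N := by
    have := fderiv_nonneg_of_dir hd (hc 0 (mem_ball_self (by positivity)))
    simpa using this
  refine ContinuousLinearMap.opNorm_le_of_unit_norm (by positivity) fun y hy => ?_
  have hb : ∀ s : ℝ, |s| = ρ / 8 → 0 ≤ fderiv ℝ u x N + s * fderiv ℝ u x y := by
    intro s hs
    have := fderiv_nonneg_of_dir hd (hc (s • y) (by
      rw [mem_ball_zero_iff, norm_smul, hy, Real.norm_eq_abs, hs]; linarith))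
    simpa using this
  have h1 := hb (ρ / 8) (abs_of_pos (by positivity))
  have h2 := hb (-(ρ / 8)) (by rw [abs_neg, abs_of_pos (by positivity)])
  rw [Real.norm_eq_abs, div_mul_eq_mul_div, le_div_iff₀ hρ]
  rcases abs_cases (fderiv ℝ u x y) with h | h <;> rw [h.1] <;> linarith

omit [FiniteDimensional ℝ E] [MeasurableSpace E] [BorelSpace E] in
theorem cone_aux {u : E → ℝ} {q N x₁ x₂ : E} {ρ a b σ : ℝ} (hρ : 0 < ρ)
    (h1 : x₁ ∈ ConeSet u q N ρ a b) (h2 : x₂ ∈ ConeSet u q N ρ a b) (hσ : σ ∈ Ioc (0 : ℝ) 1)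
    (he : x₂ = x₁ + σ • N) (hu : u x₁ = u x₂) : False := by
  refine h2.2.2.2.2 (IsLocalMin.fderiv_eq_zero ?_)
  have hpos : 0 < σ * (ρ / 4) := mul_pos hσ.1 (by positivity)
  filter_upwards [ball_mem_nhds x₂ hpos] with y hy
  have := h1.2.2.2.1 (σ⁻¹ • (y - x₂)) (by
    rw [mem_ball, dist_eq_norm] at hy
    rw [mem_ball_zero_iff, norm_smul, norm_inv, Real.norm_eq_abs, abs_of_pos hσ.1,
      inv_mul_lt_iff₀ hσ.1]
    exact hy) σ hσ
  rw [smul_add, smul_smul, mul_inv_cancel₀ hσ.1.ne', one_smul, ← add_assoc, ← he,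
    add_sub_cancel, hu] at this
  exact this

theorem cone_le [Nontrivial E] {u : E → ℝ} (hu : Continuous u) (q N : E) {ρ a b : ℝ}
    (hρ : 0 < ρ) (hab : a < b) (hN1 : ρ / 4 ≤ ‖N‖) (hN2 : ‖N‖ ≤ 4 * ρ) :
    ∫⁻ x in ConeSet u q N ρ a b, ‖fderiv ℝ u x‖ₑ ≤
      ENNReal.ofReal (32 * (b - a) / ρ) * volume (ball q (2 * ρ)) := by
  have hN0 : 0 < ‖N‖ := by linarith
  obtain ⟨n, hn⟩ : ∃ n : E, n = ‖N‖⁻¹ • N := ⟨_, rfl⟩
  have hn1 : ‖n‖ = 1 := by
    rw [hn, norm_smul, norm_inv, norm_norm, inv_mul_cancel₀ hN0.ne']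
  have hNn : N = ‖N‖ • n := by rw [hn, smul_smul, mul_inv_cancel₀ hN0.ne', one_smul]
  obtain ⟨k, hk⟩ : ∃ k : ℝ, k = ρ / (b - a) := ⟨_, rfl⟩
  have hba : 0 < b - a := by linarith
  have hk0 : 0 < k := by rw [hk]; positivity
  set Φ : E → E := fun x => x + (k * (u x - a) - ⟪n, x - q⟫) • n with hΦ
  set Φ' : E → E →L[ℝ] E := fun x => ContinuousLinearMap.id ℝ E +
    (k • fderiv ℝ u x - innerSL ℝ n).smulRight n with hΦ'
  have hA := measurableSet_coneSet hu q N ρ a b
  have hder : ∀ x ∈ ConeSet u q N ρ a b, HasFDerivWithinAt Φ (Φ' x) (ConeSet u q N ρ a b) x := by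
    intro x hx
    have d1 : HasFDerivAt (fun x => k * (u x - a)) (k • fderiv ℝ u x) x :=
      (hx.2.1.hasFDerivAt.sub_const a).const_mul k
    have d2 : HasFDerivAt (fun x => ⟪n, x - q⟫) (innerSL ℝ n) x := by
      have := (innerSL ℝ n).hasFDerivAt.comp x ((hasFDerivAt_id x).sub_const q)
      simpa [Function.comp_def] using this
    exact ((hasFDerivAt_id x).add ((d1.sub d2).smul_const n)).hasFDerivWithinAt
  have hdet : ∀ x, (Φ' x).det = k * fderiv ℝ u x n := by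
    intro x
    have e : ((Φ' x : E →L[ℝ] E) : E →ₗ[ℝ] E) =
        LinearMap.transvection ((k • fderiv ℝ u x - innerSL ℝ n : E →L[ℝ] ℝ) : E →ₗ[ℝ] ℝ) n := by
      ext y
      simp [hΦ', LinearMap.transvection]
    rw [ContinuousLinearMap.det, e, LinearMap.transvection.det]
    simp [hn1]
  have hinner : ∀ x, ⟪n, Φ x - q⟫ = k * (u x - a) := by
    intro x
    have e : Φ x - q = (x - q) + (k * (u x - a) - ⟪n, x - q⟫) • n := by simp only [hΦ]; abel
    rw [e, inner_add_right, inner_smul_right, real_inner_self_eq_norm_sq, hn1]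
    ring
  have hinj : InjOn Φ (ConeSet u q N ρ a b) := by
    intro x₁ h1 x₂ h2 he
    have hu12 : u x₁ = u x₂ := by
      have := hinner x₁
      rw [he, hinner x₂] at this
      have := mul_left_cancel₀ hk0.ne' this
      linarith
    obtain ⟨t, ht⟩ : ∃ t : ℝ, x₂ = x₁ + t • n := by
      refine ⟨⟪n, x₂ - q⟫ - ⟪n, x₁ - q⟫, ?_⟩
      simp only [hΦ, hu12, sub_smul] at he ⊢
      rw [← sub_eq_zero] at he ⊢
      rw [← neg_eq_zero, ← he]
      abel
    have hlt : |t| < ρ / 4 := by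
      have a1 := h1.1
      have a2 := h2.1
      rw [mem_ball] at a1 a2
      have : dist x₂ x₁ = |t| := by
        rw [ht, dist_eq_norm, add_sub_cancel_left, norm_smul, hn1, mul_one, Real.norm_eq_abs]
      have := dist_triangle_right x₂ x₁ q
      linarith
    rcases lt_trichotomy t 0 with h | h | h
    · refine (cone_aux hρ h2 h1 (σ := -t / ‖N‖) ⟨div_pos (by linarith) hN0, ?_⟩ ?_
        hu12.symm).elim
      · rw [div_le_one hN0]
        rw [abs_of_neg h] at hlt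
        linarith
      · rw [ht, hn, smul_smul, add_assoc, ← add_smul,
          show t * ‖N‖⁻¹ + -t / ‖N‖ = 0 by ring, zero_smul, add_zero]
    · rw [ht, h, zero_smul, add_zero]
    · refine (cone_aux hρ h1 h2 (σ := t / ‖N‖) ⟨div_pos h hN0, ?_⟩ ?_ hu12).elim
      · rw [div_le_one hN0]
        rw [abs_of_pos h] at hlt
        linarith
      · rw [ht, hn, smul_smul, div_eq_mul_inv]
  have himg : Φ '' ConeSet u q N ρ a b ⊆ ball q (2 * ρ) := by
    rintro _ ⟨x, hx, rfl⟩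
    have a1 := hx.1
    rw [mem_ball, dist_eq_norm] at a1 ⊢
    have e : Φ x - q = (x - q) + (k * (u x - a) - ⟪n, x - q⟫) • n := by simp only [hΦ]; abel
    have b1 : |⟪n, x - q⟫| ≤ ‖x - q‖ := by
      have := abs_real_inner_le_norm n (x - q)
      rwa [hn1, one_mul] at this
    have b2 : 0 ≤ k * (u x - a) := mul_nonneg hk0.le (by linarith [hx.2.2.1.1])
    have b3 : k * (u x - a) ≤ ρ := by
      calc k * (u x - a) ≤ k * (b - a) := by gcongr; exact hx.2.2.1.2
        _ = ρ := by rw [hk]; field_simp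
    have b4 := norm_add_le (x - q) ((k * (u x - a) - ⟪n, x - q⟫) • n)
    rw [norm_smul, hn1, mul_one, Real.norm_eq_abs] at b4
    have b5 := abs_sub (k * (u x - a)) ⟪n, x - q⟫
    rw [abs_of_nonneg b2] at b5
    rw [e]
    linarith
  have key := (lintegral_abs_det_fderiv_le_addHaar_image volume hA hder hinj).trans
    (measure_mono himg)
  calc ∫⁻ x in ConeSet u q N ρ a b, ‖fderiv ℝ u x‖ₑ
      ≤ ∫⁻ x in ConeSet u q N ρ a b,
          ENNReal.ofReal (32 * (b - a) / ρ) * ENNReal.ofReal |(Φ' x).det| := by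
        refine setLIntegral_mono' hA fun x hx => ?_
        rw [← ofReal_norm_eq_enorm, ← ENNReal.ofReal_mul (by positivity), hdet]
        refine ENNReal.ofReal_le_ofReal ?_
        have c1 := norm_fderiv_le_cone hρ hx
        have c2 : fderiv ℝ u x N = ‖N‖ * fderiv ℝ u x n := by
          conv_lhs => rw [hNn, map_smul, smul_eq_mul]
        have c3 : fderiv ℝ u x N ≤ 4 * ρ * |fderiv ℝ u x n| := by
          rw [c2]
          calc ‖N‖ * fderiv ℝ u x n ≤ ‖N‖ * |fderiv ℝ u x n| := by gcongr; exact le_abs_self _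
            _ ≤ _ := by gcongr
        have e : 32 * (b - a) / ρ * |k * fderiv ℝ u x n| = 8 / ρ * (4 * ρ * |fderiv ℝ u x n|) := by
          rw [abs_mul, abs_of_pos hk0, hk]; field_simp; ring
        rw [e]
        exact c1.trans (by gcongr)
    _ = ENNReal.ofReal (32 * (b - a) / ρ) *
          ∫⁻ x in ConeSet u q N ρ a b, ENNReal.ofReal |(Φ' x).det| :=
        lintegral_const_mul' _ _ ENNReal.ofReal_ne_top
    _ ≤ _ := by gcongr

theorem star_lt [Nontrivial E] : ∃ C : ℝ, 0 ≤ C ∧ ∀ (u : E → ℝ), Continuous u →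
    ∀ (p : E) (ρ a b : ℝ), 0 < ρ → a < b →
      ∫⁻ x in StarSet u p ρ a b, ‖fderiv ℝ u x‖ₑ ≤
        ENNReal.ofReal (C * (b - a) * ρ ^ Module.finrank ℝ E / ρ) := by
  obtain ⟨F, hF3, hFf, hF⟩ := finite_cover_balls_of_compact (isCompact_closedBall (0 : E) 3)
    (show (0 : ℝ) < 1 / 8 by norm_num)
  classical
  set G : Finset E := hFf.toFinset.filter fun q => 1 / 4 ≤ ‖q‖ with hG
  refine ⟨G.card * (32 * 2 ^ Module.finrank ℝ E * volume.real (ball (0 : E) 1)), by positivity,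
    fun u hu p ρ a b hρ hab => ?_⟩
  have hcov : StarSet u p ρ a b ⊆ {x | fderiv ℝ u x = 0} ∪
      ⋃ q ∈ G, ConeSet u (p + ρ • q) (-(ρ • q)) ρ a b := by
    rintro x ⟨h1, h2, h3, h4⟩
    by_cases h0 : fderiv ℝ u x = 0
    · exact Or.inl h0
    right
    rw [mem_ball, dist_eq_norm] at h1
    have hfar : ρ / 2 ≤ ‖x - p‖ := by
      by_contra hc
      refine h0 (IsLocalMin.fderiv_eq_zero ?_)
      filter_upwards [isOpen_ball.mem_nhds
        (show x ∈ ball p (ρ / 2) by rw [mem_ball, dist_eq_norm]; exact not_le.1 hc)] with y hy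
      simpa using h4 y hy 1 ⟨one_pos, le_rfl⟩
    have hmem : ρ⁻¹ • (x - p) ∈ closedBall (0 : E) 3 := by
      rw [mem_closedBall_zero_iff, norm_smul, norm_inv, Real.norm_eq_abs, abs_of_pos hρ,
        inv_mul_le_iff₀ hρ]
      linarith
    obtain ⟨q, hq, hxq⟩ := mem_iUnion₂.1 (hF hmem)
    have hxq' : ‖x - (p + ρ • q)‖ < ρ / 8 := by
      have e : x - (p + ρ • q) = ρ • (ρ⁻¹ • (x - p) - q) := by
        rw [smul_sub, smul_smul, mul_inv_cancel₀ hρ.ne', one_smul]; abel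
      rw [mem_ball, dist_eq_norm] at hxq
      rw [e, norm_smul, Real.norm_eq_abs, abs_of_pos hρ]
      nlinarith
    have hq4 : 1 / 4 ≤ ‖q‖ := by
      have e : x - p = (x - (p + ρ • q)) + ρ • q := by abel
      have := norm_add_le (x - (p + ρ • q)) (ρ • q)
      rw [← e, norm_smul, Real.norm_eq_abs, abs_of_pos hρ] at this
      by_contra hc
      nlinarith [not_le.1 hc]
    refine mem_iUnion₂.2 ⟨q, by simp [hG, hq, -one_div, hq4], ?_, h2, h3, ?_, h0⟩
    · rwa [mem_ball, dist_eq_norm]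
    · intro v hv σ hσ
      have := h4 (x + (-(ρ • q) + v)) (by
        rw [mem_ball_zero_iff] at hv
        rw [mem_ball, dist_eq_norm]
        have e : x + (-(ρ • q) + v) - p = (x - (p + ρ • q)) + v := by abel
        have := norm_add_le (x - (p + ρ • q)) v
        rw [e]
        linarith) σ hσ
      rwa [add_sub_cancel_left] at this
  have hZ : MeasurableSet {x | fderiv ℝ u x = 0} := measurable_fderiv ℝ u (measurableSet_singleton 0)
  have hvol : ∀ c : E, volume (ball c (2 * ρ)) = ENNReal.ofReal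
      (2 ^ Module.finrank ℝ E * ρ ^ Module.finrank ℝ E * volume.real (ball (0 : E) 1)) := by
    intro c
    rw [Measure.addHaar_ball_of_pos volume c (by positivity), ENNReal.ofReal_mul (by positivity),
      measureReal_def, ENNReal.ofReal_toReal measure_ball_lt_top.ne, mul_pow]
  have hba : 0 < b - a := by linarith
  calc ∫⁻ x in StarSet u p ρ a b, ‖fderiv ℝ u x‖ₑ
      ≤ (∫⁻ x in {x | fderiv ℝ u x = 0}, ‖fderiv ℝ u x‖ₑ) +
          ∫⁻ x in ⋃ q ∈ G, ConeSet u (p + ρ • q) (-(ρ • q)) ρ a b, ‖fderiv ℝ u x‖ₑ :=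
        (lintegral_mono_set hcov).trans (lintegral_union_le _ _ _)
    _ = ∫⁻ x in ⋃ q ∈ G, ConeSet u (p + ρ • q) (-(ρ • q)) ρ a b, ‖fderiv ℝ u x‖ₑ := by
        rw [setLIntegral_eq_zero hZ fun x hx => by
          simp only [show fderiv ℝ u x = 0 from hx, ← ofReal_norm_eq_enorm, norm_zero,
            ENNReal.ofReal_zero, Pi.zero_apply], zero_add]
    _ ≤ ∑ q ∈ G, ∫⁻ x in ConeSet u (p + ρ • q) (-(ρ • q)) ρ a b, ‖fderiv ℝ u x‖ₑ := by
        rw [← Finset.tsum_subtype]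
        refine le_trans (lintegral_mono_set ?_) (lintegral_iUnion_le _ _)
        intro x hx
        obtain ⟨q, hq, hx⟩ := mem_iUnion₂.1 hx
        exact mem_iUnion.2 ⟨⟨q, hq⟩, hx⟩
    _ ≤ ∑ _q ∈ G, ENNReal.ofReal (32 * (b - a) / ρ) * ENNReal.ofReal
        (2 ^ Module.finrank ℝ E * ρ ^ Module.finrank ℝ E * volume.real (ball (0 : E) 1)) := by
        refine Finset.sum_le_sum fun q hq => ?_
        rw [← hvol (p + ρ • q)]
        rw [hG, Finset.mem_filter, hFf.mem_toFinset] at hq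
        have h3 := mem_closedBall_zero_iff.1 (hF3 hq.1)
        refine cone_le hu _ _ hρ hab ?_ ?_ <;>
          rw [norm_neg, norm_smul, Real.norm_eq_abs, abs_of_pos hρ] <;> nlinarith [hq.2]
    _ = _ := by
        rw [Finset.sum_const, nsmul_eq_mul, ← ENNReal.ofReal_mul (by positivity),
          ← ENNReal.ofReal_natCast, ← ENNReal.ofReal_mul (by positivity)]
        congr 1
        ring

theorem star_le [Nontrivial E] : ∃ C : ℝ, 0 ≤ C ∧ ∀ (u : E → ℝ), Continuous u →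
    ∀ (p : E) (ρ a b : ℝ), 0 < ρ → a ≤ b →
      ∫⁻ x in StarSet u p ρ a b, ‖fderiv ℝ u x‖ₑ ≤
        ENNReal.ofReal (C * (b - a) * ρ ^ Module.finrank ℝ E / ρ) := by
  obtain ⟨C, hC0, hC⟩ := star_lt (E := E)
  refine ⟨C, hC0, fun u hu p ρ a b hρ hab => ?_⟩
  have hc : Continuous fun b' : ℝ => ENNReal.ofReal (C * (b' - a) * ρ ^ Module.finrank ℝ E / ρ) :=
    ENNReal.continuous_ofReal.comp (by fun_prop)
  refine ge_of_tendsto ((hc.tendsto b).mono_left (nhdsWithin_le_nhds (s := Ioi b))) ?_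
  filter_upwards [self_mem_nhdsWithin] with b' hb'
  refine le_trans (lintegral_mono_set ?_) (hC u hu p ρ a b' hρ (lt_of_le_of_lt hab hb'))
  rintro x ⟨h1, h2, h3, h4⟩
  exact ⟨h1, h2, ⟨h3.1, h3.2.trans (le_of_lt hb')⟩, h4⟩

end Vale.Agent.P137
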